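import Mathlib

/-!
# P335: conditional expectations on a finite uniform space

`avg k f` is the conditional expectation of `f : X → ℝ` (uniform measure on the finite type `X`)
given the value of the key function `k : X → K`.
-/

namespace Vale.Agent.P335

open Finset

open scoped Classical

noncomputable section

variable {X : Type*} [Fintype X] {K K' : Type*}

/-- The class of `x`: all points with the same key. -/
def cls (k : X → K) (x : X) : Finset X := univ.filter (fun y => k y = k x)

theorem mem_cls {k : X → K} {x y : X} : y ∈ cls k x ↔ k y = k x := by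
  simp [cls]

theorem self_mem_cls (k : X → K) (x : X) : x ∈ cls k x := mem_cls.2 rfl

theorem cls_card_pos (k : X → K) (x : X) : 0 < (cls k x).card :=
  card_pos.mpr ⟨x, self_mem_cls k x⟩

theorem cls_eq_of_key_eq {k : X → K} {x y : X} (h : k x = k y) : cls k x = cls k y := by
  ext z; simp [mem_cls, h]

/-- Conditional expectation of `f` given the key `k` (uniform measure). -/
def avg (k : X → K) (f : X → ℝ) (x : X) : ℝ := (∑ y ∈ cls k x, f y) / ((cls k x).card : ℝ)

theorem avg_congr_key {k : X → K} (f : X → ℝ) {x y : X} (h : k x = k y) :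
    avg k f x = avg k f y := by
  unfold avg; rw [cls_eq_of_key_eq h]

theorem avg_add (k : X → K) (f g : X → ℝ) : avg k (f + g) = avg k f + avg k g := by
  funext x; simp [avg, sum_add_distrib, add_div]

theorem avg_smul (k : X → K) (c : ℝ) (f : X → ℝ) : avg k (c • f) = c • avg k f := by
  funext x; simp [avg, ← mul_sum, mul_div_assoc]

theorem avg_sub (k : X → K) (f g : X → ℝ) : avg k (f - g) = avg k f - avg k g := by
  funext x; simp [avg, sum_sub_distrib, sub_div]

/-- Functions of the key are fixed. -/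
theorem avg_of_invariant {k : X → K} {f : X → ℝ} (h : ∀ x y, k x = k y → f x = f y) :
    avg k f = f := by
  funext x
  unfold avg
  have : ∑ y ∈ cls k x, f y = ∑ _y ∈ cls k x, f x :=
    sum_congr rfl (fun y hy => h y x (mem_cls.1 hy))
  rw [this, sum_const, nsmul_eq_mul]
  have hpos : ((cls k x).card : ℝ) ≠ 0 := by
    have := cls_card_pos k x
    positivity
  field_simp

/-- Multiplication by a function of the key commutes with `avg`. -/
theorem avg_mul_of_invariant {k : X → K} {h : X → ℝ} (hh : ∀ x y, k x = k y → h x = h y)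
    (f : X → ℝ) : avg k (fun x => h x * f x) = fun x => h x * avg k f x := by
  funext x
  unfold avg
  have : ∑ y ∈ cls k x, h y * f y = h x * ∑ y ∈ cls k x, f y := by
    rw [mul_sum]
    exact sum_congr rfl (fun y hy => by rw [hh y x (mem_cls.1 hy)])
  rw [this, mul_div_assoc]

/-- The sum over a class of `avg k f` equals the sum of `f`. -/
theorem sum_cls_avg (k : X → K) (f : X → ℝ) (x : X) :
    ∑ y ∈ cls k x, avg k f y = ∑ y ∈ cls k x, f y := by
  have : ∑ y ∈ cls k x, avg k f y = ∑ _y ∈ cls k x, avg k f x :=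
    sum_congr rfl (fun y hy => avg_congr_key f (mem_cls.1 hy))
  rw [this, sum_const, nsmul_eq_mul]
  unfold avg
  have hpos : ((cls k x).card : ℝ) ≠ 0 := by
    have := cls_card_pos k x
    positivity
  field_simp

/-- Kernel form: `avg k f x = ∑ y, [k y = k x] / card (cls k x) * f y`. -/
theorem avg_eq_sum (k : X → K) (f : X → ℝ) (x : X) :
    avg k f x = ∑ y, (if k y = k x then f y / ((cls k x).card : ℝ) else 0) := by
  unfold avg
  rw [sum_div, cls, sum_filter]

/-- Self-adjointness. -/
theorem sum_mul_avg (k : X → K) (f g : X → ℝ) :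
    ∑ x, g x * avg k f x = ∑ x, avg k g x * f x := by
  simp_rw [avg_eq_sum, mul_sum, sum_mul]
  rw [sum_comm]
  refine sum_congr rfl (fun y _ => sum_congr rfl (fun x _ => ?_))
  by_cases h : k y = k x
  · rw [if_pos h, if_pos h.symm, cls_eq_of_key_eq h]
    ring
  · rw [if_neg h, if_neg (fun h' => h h'.symm)]
    ring

/-- Tower property, coarse after fine. -/
theorem avg_avg_of_finer {k : X → K} {k' : X → K'} (h : ∀ x y, k x = k y → k' x = k' y)
    (f : X → ℝ) : avg k' (avg k f) = avg k' f := by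
  funext x
  have key : ∑ y ∈ cls k' x, avg k f y = ∑ y ∈ cls k' x, f y := by
    have e1 : ∑ y ∈ cls k' x, avg k f y = ∑ y, (if k' y = k' x then (1 : ℝ) else 0) * avg k f y := by
      rw [cls, sum_filter]
      exact sum_congr rfl (fun y _ => by split_ifs <;> simp)
    have e2 : ∑ y ∈ cls k' x, f y = ∑ y, (if k' y = k' x then (1 : ℝ) else 0) * f y := by
      rw [cls, sum_filter]
      exact sum_congr rfl (fun y _ => by split_ifs <;> simp)
    rw [e1, e2, sum_mul_avg]
    have : avg k (fun y => if k' y = k' x then (1 : ℝ) else 0) =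
        fun y => if k' y = k' x then (1 : ℝ) else 0 :=
      avg_of_invariant (fun a b hab => by rw [h a b hab])
    rw [this]
  unfold avg at key ⊢
  rw [key]

/-- Tower property, fine after coarse. -/
theorem avg_avg_of_coarser {k : X → K} {k' : X → K'} (h : ∀ x y, k x = k y → k' x = k' y)
    (f : X → ℝ) : avg k (avg k' f) = avg k' f :=
  avg_of_invariant (fun x y hxy => avg_congr_key f (h x y hxy))

theorem avg_idem (k : X → K) (f : X → ℝ) : avg k (avg k f) = avg k f :=
  avg_avg_of_coarser (fun _ _ h => h) f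

/-- If the classes of `x` for two keys coincide, so do the conditional expectations at `x`. -/
theorem avg_eq_of_cls_eq {k : X → K} {k' : X → K'} {x : X} (h : cls k x = cls k' x)
    (f : X → ℝ) : avg k f x = avg k' f x := by
  unfold avg; rw [h]

theorem sum_avg (k : X → K) (f : X → ℝ) : ∑ x, avg k f x = ∑ x, f x := by
  have := sum_mul_avg k f (fun _ => 1)
  have h1 : avg k (fun _ : X => (1 : ℝ)) = fun _ => 1 := avg_of_invariant (fun _ _ _ => rfl)
  rw [h1] at this
  simpa using this

/-- Double-sum formula for `avg k1 (avg k2 f) x` under the rectangle property on a sector `s`. -/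
theorem avg_avg_eq_of_rect {k1 : X → K} {k2 : X → K'} (s : X → Prop)
    (hs1 : ∀ x y, k1 x = k1 y → s x → s y)
    (hrect : ∀ x y z, s x → k1 x = k1 y → k2 x = k2 z → ∃! w, k2 y = k2 w ∧ k1 z = k1 w)
    (f : X → ℝ) (x : X) (hx : s x) (W : X → X → X)
    (hW : ∀ y z, k1 x = k1 y → k2 x = k2 z → k2 y = k2 (W y z) ∧ k1 z = k1 (W y z)) :
    avg k1 (avg k2 f) x =
      (∑ y ∈ cls k1 x, ∑ z ∈ cls k2 x, f (W y z)) / (((cls k1 x).card : ℝ) * ((cls k2 x).card : ℝ)) := by
  have hbij : ∀ y ∈ cls k1 x, ∀ g : X → ℝ,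
      ∑ z ∈ cls k2 x, g (W y z) = ∑ w ∈ cls k2 y, g w := by
    intro y hy g
    have hy' : k1 x = k1 y := (mem_cls.1 hy).symm
    have hsy : s y := hs1 x y hy' hx
    refine sum_bij (fun z _ => W y z) ?_ ?_ ?_ ?_
    · intro z hz
      exact mem_cls.2 (hW y z hy' (mem_cls.1 hz).symm).1.symm
    · intro z hz z' hz' hzz
      have h1 := hW y z hy' (mem_cls.1 hz).symm
      have h2 := hW y z' hy' (mem_cls.1 hz').symm
      have hu := hrect y x (W y z) hsy hy'.symm h1.1
      exact hu.unique ⟨(mem_cls.1 hz).symm, h1.2.symm⟩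
        ⟨(mem_cls.1 hz').symm, by rw [hzz]; exact h2.2.symm⟩
    · intro w hw
      have hw' : k2 y = k2 w := (mem_cls.1 hw).symm
      obtain ⟨z, ⟨hz1, hz2⟩, -⟩ := hrect y x w hsy hy'.symm hw'
      refine ⟨z, mem_cls.2 hz1.symm, ?_⟩
      have hu := hrect x y z hx hy' hz1
      exact hu.unique (hW y z hy' hz1) ⟨hw', hz2.symm⟩
    · intro z _; rfl
  have hcard : ∀ y ∈ cls k1 x, ((cls k2 y).card : ℝ) = ((cls k2 x).card : ℝ) := by
    intro y hy
    have := hbij y hy (fun _ => 1)
    simpa using this.symm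
  unfold avg
  rw [sum_div, sum_div]
  have : ∀ y ∈ cls k1 x, (∑ w ∈ cls k2 y, f w) / ((cls k2 y).card : ℝ) / ((cls k1 x).card : ℝ) =
      (∑ z ∈ cls k2 x, f (W y z)) / (((cls k1 x).card : ℝ) * ((cls k2 x).card : ℝ)) := by
    intro y hy
    rw [hcard y hy, hbij y hy f, div_div, mul_comm]
  exact sum_congr rfl this

/-- Commutation of two conditional expectations from the rectangle property, on a sector `s`
invariant under both keys. -/
theorem avg_comm_of_rect {k1 : X → K} {k2 : X → K'} (s : X → Prop)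
    (hs1 : ∀ x y, k1 x = k1 y → s x → s y) (hs2 : ∀ x y, k2 x = k2 y → s x → s y)
    (hrect : ∀ x y z, s x → k1 x = k1 y → k2 x = k2 z → ∃! w, k2 y = k2 w ∧ k1 z = k1 w)
    (f : X → ℝ) (x : X) (hx : s x) : avg k1 (avg k2 f) x = avg k2 (avg k1 f) x := by
  let W : X → X → X := fun y z =>
    if h : k1 x = k1 y ∧ k2 x = k2 z then (hrect x y z hx h.1 h.2).choose else x
  have hW : ∀ y z, k1 x = k1 y → k2 x = k2 z → k2 y = k2 (W y z) ∧ k1 z = k1 (W y z) := by
    intro y z h1 h2
    have : W y z = (hrect x y z hx h1 h2).choose := dif_pos ⟨h1, h2⟩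
    rw [this]
    exact (hrect x y z hx h1 h2).choose_spec.1
  have hrect' : ∀ x z y, s x → k2 x = k2 z → k1 x = k1 y → ∃! w, k1 z = k1 w ∧ k2 y = k2 w := by
    intro x z y hx h2 h1
    obtain ⟨w, hw, hu⟩ := hrect x y z hx h1 h2
    exact ⟨w, ⟨hw.2, hw.1⟩, fun w' hw' => hu w' ⟨hw'.2, hw'.1⟩⟩
  rw [avg_avg_eq_of_rect s hs1 hrect f x hx W hW,
    avg_avg_eq_of_rect s hs2 hrect' f x hx (fun z y => W y z)
      (fun z y h2 h1 => ⟨(hW y z h1 h2).2, (hW y z h1 h2).1⟩), sum_comm, mul_comm]

/-- Global version of `avg_comm_of_rect`. -/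
theorem avg_comm_of_rect' {k1 : X → K} {k2 : X → K'}
    (hrect : ∀ x y z, k1 x = k1 y → k2 x = k2 z → ∃! w, k2 y = k2 w ∧ k1 z = k1 w)
    (f : X → ℝ) : avg k1 (avg k2 f) = avg k2 (avg k1 f) := by
  funext x
  exact avg_comm_of_rect (fun _ => True) (fun _ _ _ _ => trivial) (fun _ _ _ _ => trivial)
    (fun x y z _ => hrect x y z) f x trivial

end

end Vale.Agent.P335
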