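import Vale.Agent.P335.AvgIp

/-!
# P335: from `|Df|^2 >= c <f,Df>` to the spectral gap
-/

namespace Vale.Agent.P335

open Finset

open scoped Classical

noncomputable section

section abstract_gap

open scoped InnerProductSpace

variable {E : Type*} [NormedAddCommGroup E] [InnerProductSpace ℝ E] [FiniteDimensional ℝ E]

theorem gap_abstract (T : E →ₗ[ℝ] E) (hT : T.IsSymmetric) (hpsd : ∀ u, 0 ≤ ⟪u, T u⟫_ℝ)
    (c : ℝ) (hsq : ∀ u, c * ⟪u, T u⟫_ℝ ≤ ⟪T u, T u⟫_ℝ) (u : E)
    (hu : ∀ w, T w = 0 → ⟪w, u⟫_ℝ = 0) : c * ⟪u, u⟫_ℝ ≤ ⟪u, T u⟫_ℝ := by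
  set b := hT.eigenvectorBasis rfl with hb
  set lam := hT.eigenvalues rfl with hlam
  have hTb : ∀ i, T (b i) = (lam i) • b i := fun i => by
    exact hT.apply_eigenvectorBasis rfl i
  have h1 : ⟪u, T u⟫_ℝ = ∑ i, lam i * (⟪u, b i⟫_ℝ * ⟪b i, u⟫_ℝ) := by
    rw [← b.sum_inner_mul_inner u (T u)]
    refine sum_congr rfl (fun i _ => ?_)
    rw [← hT (b i) u, hTb i, inner_smul_left]
    simp
    ring
  have h2 : ⟪u, u⟫_ℝ = ∑ i, (⟪u, b i⟫_ℝ * ⟪b i, u⟫_ℝ) := (b.sum_inner_mul_inner u u).symm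
  rw [h1, h2, mul_sum]
  refine sum_le_sum (fun i _ => ?_)
  have hnn : 0 ≤ ⟪u, b i⟫_ℝ * ⟪b i, u⟫_ℝ := by
    rw [real_inner_comm u (b i)]; exact mul_self_nonneg _
  have hbi : ⟪b i, b i⟫_ℝ = 1 := by
    rw [real_inner_self_eq_norm_sq, b.orthonormal.1 i]; norm_num
  by_cases h0 : lam i = 0
  · have : T (b i) = 0 := by rw [hTb i, h0, zero_smul]
    rw [hu _ this]; simp
  · have hp := hpsd (b i)
    rw [hTb i, inner_smul_right, hbi, mul_one] at hp
    have hs := hsq (b i)
    rw [hTb i, inner_smul_right, inner_smul_left, inner_smul_right, hbi] at hs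
    simp only [mul_one, conj_trivial] at hs
    have hpos : 0 < lam i := lt_of_le_of_ne hp (Ne.symm h0)
    have : c ≤ lam i := by
      by_contra hlt
      push Not at hlt
      nlinarith
    exact mul_le_mul_of_nonneg_right this hnn

end abstract_gap

variable {X : Type*} [Fintype X]

open scoped InnerProductSpace in
/-- T2: `|Df|^2 >= c <f,Df>`, `D` symmetric positive semidefinite with kernel the constants
implies `<f,Df> >= c |f|^2` for `f` of mean zero.  (Spectral theorem: every eigenvalue is `0` or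
`>= c`; eigenvectors of eigenvalue `0` are constant, hence orthogonal to `f`.) -/
theorem gap_of_sq (D : (X → ℝ) →ₗ[ℝ] (X → ℝ)) (hsymm : ∀ f g, ip (D f) g = ip f (D g))
    (hpos : ∀ f, 0 ≤ ip f (D f)) (c : ℝ) (hc : 0 < c)
    (hsq : ∀ f, c * ip f (D f) ≤ ip (D f) (D f))
    (hker : ∀ f, D f = 0 → ∀ x y, f x = f y) (f : X → ℝ) (hf : ∑ x, f x = 0) :
    c * ip f f ≤ ip f (D f) := by
  rcases isEmpty_or_nonempty X with hX | hX
  · simp [ip]
  set e := WithLp.linearEquiv 2 ℝ (X → ℝ) with he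
  set T : EuclideanSpace ℝ X →ₗ[ℝ] EuclideanSpace ℝ X :=
    e.symm.toLinearMap ∘ₗ D ∘ₗ e.toLinearMap with hTdef
  have hin : ∀ a b : EuclideanSpace ℝ X, ⟪a, b⟫_ℝ = ip (e a) (e b) := by
    intro a b
    simp only [PiLp.inner_apply, ip]
    refine sum_congr rfl (fun x _ => ?_)
    simp [he, mul_comm]
  have heT : ∀ a, e (T a) = D (e a) := by
    intro a; simp [hTdef]
  have hT : T.IsSymmetric := by
    intro a b
    rw [hin, hin, heT, heT, hsymm]
  have key := gap_abstract T hT (fun a => by rw [hin, heT]; exact hpos _) c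
    (fun a => by rw [hin, hin, heT]; exact hsq _) (e.symm f) (by
      intro w hw
      have hw' : D (e w) = 0 := by rw [← heT, hw, map_zero]
      have hcst := hker _ hw'
      obtain ⟨x0⟩ := hX
      rw [hin, LinearEquiv.apply_symm_apply]
      unfold ip
      have : ∑ x, e w x * f x = ∑ x, e w x0 * f x :=
        sum_congr rfl (fun x _ => by rw [hcst x x0])
      rw [this, ← mul_sum, hf, mul_zero])
  rw [hin, hin, heT, LinearEquiv.apply_symm_apply] at key
  exact key

end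

end Vale.Agent.P335
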