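import Mathlib

namespace Vale.Agent.P335

open Finset Matrix

variable {X : Type*} [Fintype X]

/-- Jensen for one row of a stochastic matrix. -/
lemma sq_sum_le_of_weights (w f : X → ℝ) (hw : ∀ y, 0 ≤ w y) (hs : ∑ y, w y = 1) :
    (∑ y, w y * f y) ^ 2 ≤ ∑ y, w y * f y ^ 2 := by
  have key : ∀ a : ℝ, ∑ y, w y * (f y - a) ^ 2
      = ∑ y, w y * f y ^ 2 - 2 * a * ∑ y, w y * f y + a ^ 2 * ∑ y, w y := by
    intro a
    rw [Finset.mul_sum, Finset.mul_sum, ← Finset.sum_sub_distrib, ← Finset.sum_add_distrib]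
    apply Finset.sum_congr rfl
    intro y _
    ring
  have h0 : 0 ≤ ∑ y, w y * (f y - ∑ z, w z * f z) ^ 2 :=
    Finset.sum_nonneg (fun y _ => mul_nonneg (hw y) (sq_nonneg _))
  rw [key, hs] at h0
  nlinarith

/-- A symmetric stochastic matrix is a contraction of the (unnormalised) `ℓ²` norm. -/
lemma sum_sq_mulVec_le (M : Matrix X X ℝ) (hsymm : ∀ x y, M x y = M y x)
    (hnn : ∀ x y, 0 ≤ M x y) (hrow : ∀ x, ∑ y, M x y = 1) (f : X → ℝ) :
    ∑ x, (M.mulVec f x) ^ 2 ≤ ∑ x, f x ^ 2 := by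
  calc ∑ x, (M.mulVec f x) ^ 2 ≤ ∑ x, ∑ y, M x y * f y ^ 2 := by
        apply Finset.sum_le_sum
        intro x _
        exact sq_sum_le_of_weights (fun y => M x y) f (hnn x) (hrow x)
    _ = ∑ y, ∑ x, M x y * f y ^ 2 := Finset.sum_comm
    _ = ∑ y, f y ^ 2 := by
        apply Finset.sum_congr rfl
        intro y _
        rw [← Finset.sum_mul]
        have : ∑ x, M x y = 1 := by
          rw [← hrow y]
          exact Finset.sum_congr rfl (fun x _ => hsymm x y)
        rw [this, one_mul]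

/-- The Dirichlet form identity. -/
lemma dirichlet_eq (K : Matrix X X ℝ) (hsymm : ∀ x y, K x y = K y x)
    (hrow : ∀ x, ∑ y, K x y = 1) (f : X → ℝ) :
    1 / 2 * ∑ x, ∑ y, K x y * (f x - f y) ^ 2
      = ∑ x, f x ^ 2 - ∑ x, f x * K.mulVec f x := by
  have e1 : ∑ x, ∑ y, K x y * (f x - f y) ^ 2
      = ∑ x, ∑ y, K x y * f x ^ 2 + ∑ x, ∑ y, K x y * f y ^ 2
        - 2 * ∑ x, ∑ y, f x * (K x y * f y) := by
    rw [Finset.mul_sum, ← Finset.sum_add_distrib, ← Finset.sum_sub_distrib]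
    apply Finset.sum_congr rfl
    intro x _
    rw [Finset.mul_sum, ← Finset.sum_add_distrib, ← Finset.sum_sub_distrib]
    apply Finset.sum_congr rfl
    intro y _
    ring
  have e2 : ∑ x, ∑ y, K x y * f x ^ 2 = ∑ x, f x ^ 2 := by
    apply Finset.sum_congr rfl
    intro x _
    rw [← Finset.sum_mul, hrow x, one_mul]
  have e3 : ∑ x, ∑ y, K x y * f y ^ 2 = ∑ y, f y ^ 2 := by
    rw [Finset.sum_comm]
    apply Finset.sum_congr rfl
    intro y _
    rw [← Finset.sum_mul]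
    have : ∑ x, K x y = 1 := by
      rw [← hrow y]
      exact Finset.sum_congr rfl (fun x _ => hsymm x y)
    rw [this, one_mul]
  have e4 : ∑ x, ∑ y, f x * (K x y * f y) = ∑ x, f x * K.mulVec f x := by
    apply Finset.sum_congr rfl
    intro x _
    rw [Matrix.mulVec, dotProduct, Finset.mul_sum]
  rw [e1, e2, e3, e4]
  ring

/-- For a lazy symmetric stochastic matrix, `‖K f‖² ≤ ⟨f, K f⟩`. -/
lemma sum_sq_mulVec_le_inner [DecidableEq X] (K : Matrix X X ℝ) (hsymm : ∀ x y, K x y = K y x)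
    (hnn : ∀ x y, 0 ≤ K x y) (hrow : ∀ x, ∑ y, K x y = 1) (hdiag : ∀ x, 1 / 2 ≤ K x x)
    (f : X → ℝ) :
    ∑ x, (K.mulVec f x) ^ 2 ≤ ∑ x, f x * K.mulVec f x := by
  set M : Matrix X X ℝ := fun x y => 2 * K x y - (if x = y then 1 else 0) with hM
  have hMsymm : ∀ x y, M x y = M y x := by
    intro x y
    simp only [hM]
    rw [hsymm x y]
    by_cases h : x = y
    · simp [h]
    · simp [h, Ne.symm h]
  have hMnn : ∀ x y, 0 ≤ M x y := by
    intro x y
    simp only [hM]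
    by_cases h : x = y
    · subst h
      simp only [if_true]
      linarith [hdiag x]
    · simp only [h, if_false]
      linarith [hnn x y]
  have hMrow : ∀ x, ∑ y, M x y = 1 := by
    intro x
    simp only [hM]
    rw [Finset.sum_sub_distrib, ← Finset.mul_sum, hrow x]
    simp
    norm_num
  have hMv : ∀ x, M.mulVec f x = 2 * K.mulVec f x - f x := by
    intro x
    simp only [Matrix.mulVec, dotProduct, hM]
    have : ∀ y, (2 * K x y - (if x = y then 1 else 0)) * f y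
        = 2 * (K x y * f y) - (if x = y then f y else 0) := by
      intro y
      by_cases h : x = y
      · simp [h]; ring
      · simp [h]; ring
    rw [Finset.sum_congr rfl (fun y _ => this y), Finset.sum_sub_distrib, ← Finset.mul_sum]
    simp
  have h := sum_sq_mulVec_le M hMsymm hMnn hMrow f
  have e : ∑ x, (M.mulVec f x) ^ 2
      = 4 * ∑ x, (K.mulVec f x) ^ 2 - 4 * ∑ x, f x * K.mulVec f x + ∑ x, f x ^ 2 := by
    rw [Finset.mul_sum, Finset.mul_sum, ← Finset.sum_sub_distrib, ← Finset.sum_add_distrib]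
    apply Finset.sum_congr rfl
    intro x _
    rw [hMv x]
    ring
  rw [e] at h
  linarith

/-- `K` preserves the total sum. -/
lemma sum_mulVec (K : Matrix X X ℝ) (hsymm : ∀ x y, K x y = K y x)
    (hrow : ∀ x, ∑ y, K x y = 1) (f : X → ℝ) : ∑ x, K.mulVec f x = ∑ x, f x := by
  simp only [Matrix.mulVec, dotProduct]
  rw [Finset.sum_comm]
  apply Finset.sum_congr rfl
  intro y _
  rw [← Finset.sum_mul]
  have : ∑ x, K x y = 1 := by
    rw [← hrow y]
    exact Finset.sum_congr rfl (fun x _ => hsymm x y)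
  rw [this, one_mul]

/-- One step of `ℓ²` contraction on mean zero functions. -/
lemma sum_sq_mulVec_le_of_poincare [DecidableEq X] (K : Matrix X X ℝ)
    (hsymm : ∀ x y, K x y = K y x)
    (hnn : ∀ x y, 0 ≤ K x y) (hrow : ∀ x, ∑ y, K x y = 1) (hdiag : ∀ x, 1 / 2 ≤ K x x)
    (gam : ℝ)
    (hP : ∀ f : X → ℝ, gam * ∑ x, (f x - (∑ z, f z) / (Fintype.card X : ℝ)) ^ 2
      ≤ 1 / 2 * ∑ x, ∑ y, K x y * (f x - f y) ^ 2)
    (f : X → ℝ) (hf : ∑ x, f x = 0) :
    ∑ x, (K.mulVec f x) ^ 2 ≤ (1 - gam) * ∑ x, f x ^ 2 := by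
  have h1 := sum_sq_mulVec_le_inner K hsymm hnn hrow hdiag f
  have h2 := dirichlet_eq K hsymm hrow f
  have h3 := hP f
  rw [hf] at h3
  simp only [zero_div, sub_zero] at h3
  linarith

/-- The `t`-step deviation from uniform, started at `x`. -/
lemma pow_sub_eq_iterate [DecidableEq X] (K : Matrix X X ℝ) (hsymm : ∀ x y, K x y = K y x)
    (hrow : ∀ x, ∑ y, K x y = 1) (c : ℝ) (x : X) (t : ℕ) :
    (fun y => (K ^ t) x y - c) = (K.mulVec)^[t] (fun y => (if x = y then 1 else 0) - c) := by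
  induction t with
  | zero =>
    funext y
    simp [Matrix.one_apply]
  | succ t ih =>
    rw [Function.iterate_succ_apply', ← ih]
    funext y
    simp only [Matrix.mulVec, dotProduct, pow_succ, Matrix.mul_apply]
    have : ∀ z, K y z * ((K ^ t) x z - c) = (K ^ t) x z * K z y - c * K y z := by
      intro z
      rw [hsymm z y]
      ring
    rw [Finset.sum_congr rfl (fun z _ => this z), Finset.sum_sub_distrib, ← Finset.mul_sum,
      hrow y, mul_one]

/-- Exponential `ℓ²` decay of the iterates on mean zero functions. -/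
lemma sum_sq_iterate_le [DecidableEq X] (K : Matrix X X ℝ) (hsymm : ∀ x y, K x y = K y x)
    (hnn : ∀ x y, 0 ≤ K x y) (hrow : ∀ x, ∑ y, K x y = 1) (hdiag : ∀ x, 1 / 2 ≤ K x x)
    (gam : ℝ)
    (hP : ∀ f : X → ℝ, gam * ∑ x, (f x - (∑ z, f z) / (Fintype.card X : ℝ)) ^ 2
      ≤ 1 / 2 * ∑ x, ∑ y, K x y * (f x - f y) ^ 2)
    (f : X → ℝ) (hf : ∑ x, f x = 0) (t : ℕ) :
    ∑ x, ((K.mulVec)^[t] f x) = 0 ∧
      ∑ x, ((K.mulVec)^[t] f x) ^ 2 ≤ Real.exp (-(gam * t)) * ∑ x, f x ^ 2 := by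
  induction t with
  | zero => simp [hf]
  | succ t ih =>
    obtain ⟨ih0, ih1⟩ := ih
    rw [Function.iterate_succ_apply']
    refine ⟨by rw [sum_mulVec K hsymm hrow, ih0], ?_⟩
    have h1 := sum_sq_mulVec_le_of_poincare K hsymm hnn hrow hdiag gam hP _ ih0
    have hnonneg : 0 ≤ ∑ x, ((K.mulVec)^[t] f x) ^ 2 :=
      Finset.sum_nonneg (fun x _ => sq_nonneg _)
    have hexp : 1 - gam ≤ Real.exp (-gam) := by
      have := Real.add_one_le_exp (-gam)
      linarith
    calc ∑ x, (K.mulVec ((K.mulVec)^[t] f) x) ^ 2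
        ≤ (1 - gam) * ∑ x, ((K.mulVec)^[t] f x) ^ 2 := h1
      _ ≤ Real.exp (-gam) * ∑ x, ((K.mulVec)^[t] f x) ^ 2 :=
          mul_le_mul_of_nonneg_right hexp hnonneg
      _ ≤ Real.exp (-gam) * (Real.exp (-(gam * t)) * ∑ x, f x ^ 2) :=
          mul_le_mul_of_nonneg_left ih1 (Real.exp_pos _).le
      _ = Real.exp (-(gam * (t + 1 : ℕ))) * ∑ x, f x ^ 2 := by
          rw [← mul_assoc, ← Real.exp_add]
          congr 2
          push_cast
          ring

/-- `ℓ²` bound: the squared `ℓ¹` distance from uniform after `t` steps is at most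
`|X| exp(-gam t)`. -/
theorem sq_l1_le_of_poincare [DecidableEq X] [Nonempty X] (K : Matrix X X ℝ)
    (hsymm : ∀ x y, K x y = K y x)
    (hnn : ∀ x y, 0 ≤ K x y) (hrow : ∀ x, ∑ y, K x y = 1) (hdiag : ∀ x, 1 / 2 ≤ K x x)
    (gam : ℝ)
    (hP : ∀ f : X → ℝ, gam * ∑ x, (f x - (∑ z, f z) / (Fintype.card X : ℝ)) ^ 2
      ≤ 1 / 2 * ∑ x, ∑ y, K x y * (f x - f y) ^ 2)
    (t : ℕ) (x : X) :
    (∑ y, |(K ^ t) x y - 1 / (Fintype.card X : ℝ)|) ^ 2
      ≤ (Fintype.card X : ℝ) * Real.exp (-(gam * t)) := by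
  set N : ℝ := (Fintype.card X : ℝ) with hN
  have hNpos : 0 < N := by
    rw [hN]
    exact_mod_cast Fintype.card_pos
  set h0 : X → ℝ := fun y => (if x = y then 1 else 0) - 1 / N with hh0
  have hsum0 : ∑ y, h0 y = 0 := by
    simp only [hh0]
    rw [Finset.sum_sub_distrib]
    simp only [Finset.sum_ite_eq, Finset.mem_univ, if_true, Finset.sum_const, Finset.card_univ,
      nsmul_eq_mul]
    rw [← hN]
    field_simp
    ring
  have hsq0 : ∑ y, h0 y ^ 2 ≤ 1 := by
    have e : ∀ y, h0 y ^ 2 = (if x = y then 1 else 0) - 2 / N * (if x = y then 1 else 0)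
        + 1 / N ^ 2 := by
      intro y
      simp only [hh0]
      by_cases h : x = y
      · simp only [h, if_true]
        field_simp
        ring
      · simp only [h, if_false]
        field_simp
        ring
    rw [Finset.sum_congr rfl (fun y _ => e y), Finset.sum_add_distrib, Finset.sum_sub_distrib,
      ← Finset.mul_sum]
    simp only [Finset.sum_ite_eq, Finset.mem_univ, if_true, Finset.sum_const, Finset.card_univ,
      nsmul_eq_mul]
    rw [← hN]
    have : N * (1 / N ^ 2) = 1 / N := by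
      field_simp
    rw [this]
    have : 0 < 1 / N := by positivity
    have e2 : 2 / N * 1 = 2 * (1 / N) := by ring
    rw [e2]
    linarith
  have hit := pow_sub_eq_iterate K hsymm hrow (1 / N) x t
  have hdec := (sum_sq_iterate_le K hsymm hnn hrow hdiag gam hP h0 hsum0 t).2
  rw [← hit] at hdec
  have hcs : (∑ y, |(K ^ t) x y - 1 / N|) ^ 2
      ≤ N * ∑ y, |(K ^ t) x y - 1 / N| ^ 2 := by
    have := sq_sum_le_card_mul_sum_sq (s := (Finset.univ : Finset X))
      (f := fun y => |(K ^ t) x y - 1 / N|)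
    simpa [hN] using this
  calc (∑ y, |(K ^ t) x y - 1 / N|) ^ 2 ≤ N * ∑ y, |(K ^ t) x y - 1 / N| ^ 2 := hcs
    _ = N * ∑ y, ((K ^ t) x y - 1 / N) ^ 2 := by
        congr 1
        exact Finset.sum_congr rfl (fun y _ => sq_abs _)
    _ ≤ N * (Real.exp (-(gam * t)) * ∑ y, h0 y ^ 2) :=
        mul_le_mul_of_nonneg_left hdec hNpos.le
    _ ≤ N * (Real.exp (-(gam * t)) * 1) := by
        apply mul_le_mul_of_nonneg_left _ hNpos.le
        exact mul_le_mul_of_nonneg_left hsq0 (Real.exp_pos _).le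
    _ = N * Real.exp (-(gam * t)) := by ring

/-- Poincare inequality with constant `gam` for a lazy symmetric chain implies that the total
variation distance from uniform is at most `1/4` once `gam * t ≥ log (4 |X|)`. -/
theorem tv_le_quarter_of_poincare [DecidableEq X] [Nonempty X] (K : Matrix X X ℝ)
    (hsymm : ∀ x y, K x y = K y x)
    (hnn : ∀ x y, 0 ≤ K x y) (hrow : ∀ x, ∑ y, K x y = 1) (hdiag : ∀ x, 1 / 2 ≤ K x x)
    (gam : ℝ)
    (hP : ∀ f : X → ℝ, gam * ∑ x, (f x - (∑ z, f z) / (Fintype.card X : ℝ)) ^ 2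
      ≤ 1 / 2 * ∑ x, ∑ y, K x y * (f x - f y) ^ 2)
    (t : ℕ) (ht : Real.log (4 * (Fintype.card X : ℝ)) ≤ gam * t) (x : X) :
    1 / 2 * ∑ y, |(K ^ t) x y - 1 / (Fintype.card X : ℝ)| ≤ 1 / 4 := by
  have h := sq_l1_le_of_poincare K hsymm hnn hrow hdiag gam hP t x
  have hNpos : (0 : ℝ) < (Fintype.card X : ℝ) := by exact_mod_cast Fintype.card_pos
  have hexp : (Fintype.card X : ℝ) * Real.exp (-(gam * t)) ≤ 1 / 4 := by
    have h1 : Real.exp (-(gam * t)) ≤ Real.exp (-Real.log (4 * (Fintype.card X : ℝ))) :=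
      Real.exp_le_exp.mpr (by linarith)
    have h4 : Real.exp (-Real.log (4 * (Fintype.card X : ℝ))) = (4 * (Fintype.card X : ℝ))⁻¹ := by
      rw [Real.exp_neg, Real.exp_log (by positivity)]
    rw [h4] at h1
    calc (Fintype.card X : ℝ) * Real.exp (-(gam * t))
        ≤ (Fintype.card X : ℝ) * (4 * (Fintype.card X : ℝ))⁻¹ :=
          mul_le_mul_of_nonneg_left h1 hNpos.le
      _ = 1 / 4 := by field_simp
  have hS : 0 ≤ ∑ y, |(K ^ t) x y - 1 / (Fintype.card X : ℝ)| :=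
    Finset.sum_nonneg (fun y _ => abs_nonneg _)
  have h2 : (∑ y, |(K ^ t) x y - 1 / (Fintype.card X : ℝ)|) ^ 2 ≤ (1 / 2) ^ 2 := by
    calc _ ≤ (Fintype.card X : ℝ) * Real.exp (-(gam * t)) := h
      _ ≤ 1 / 4 := hexp
      _ = (1 / 2) ^ 2 := by norm_num
  have h3 := abs_le_of_sq_le_sq' h2 (by norm_num)
  linarith [h3.2]

end Vale.Agent.P335
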