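import Vale.Agent.P335.AvgIp

/-!
# P335: transport for the averaging operators (the rectangle lemma is in file Avg)
-/

namespace Vale.Agent.P335

open Finset

open scoped Classical

noncomputable section

variable {X : Type*} [Fintype X] {K K' : Type*}

/-- transport of `avg` along a bijection between a fibre-closed part of `X` and a finite type `Y`.
`C` is a subset of `X` closed under `k`; `e` identifies `C` with `Y`, and `k`-equivalence with
`l`-equivalence. -/
theorem avg_transport {Y : Type*} [Fintype Y] {L : Type*} (k : X → K) (l : Y → L)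
    (C : X → Prop) (hC : ∀ x y, k x = k y → (C x ↔ C y))
    (e : {x // C x} ≃ Y) (he : ∀ x y : {x // C x}, k x.1 = k y.1 ↔ l (e x) = l (e y))
    (f : X → ℝ) (x : {x // C x}) :
    avg k f x.1 = avg l (fun y => f (e.symm y).1) (e x) := by
  have hmemC : ∀ y, k y = k x.1 → C y := fun y hy => (hC y x.1 hy).mpr x.2
  have key : ∀ F : X → ℝ,
      ∑ y ∈ cls k x.1, F y = ∑ y' ∈ cls l (e x), F (e.symm y').1 := by
    intro F
    refine Finset.sum_bij (fun y hy => e ⟨y, hmemC y (mem_cls.1 hy)⟩) ?_ ?_ ?_ ?_
    · intro y hy
      exact mem_cls.2 ((he ⟨y, hmemC y (mem_cls.1 hy)⟩ x).mp (mem_cls.1 hy))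
    · intro y hy y' hy' h
      have := e.injective h
      exact congrArg Subtype.val this
    · intro y' hy'
      refine ⟨(e.symm y').1, ?_, ?_⟩
      · refine mem_cls.2 ((he (e.symm y') x).mpr ?_)
        rw [Equiv.apply_symm_apply]
        exact mem_cls.1 hy'
      · simp
    · intro y hy
      simp
  have hcard : ((cls k x.1).card : ℝ) = ((cls l (e x)).card : ℝ) := by
    have := key (fun _ => 1)
    simpa using this
  unfold avg
  rw [key f, hcard]

end

end Vale.Agent.P335
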