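import Mathlib

open Finset

set_option linter.unusedSectionVars false

namespace Vale.Agent.P335

variable {X : Type*} [Fintype X] [DecidableEq X]

/-- apply a kernel to a function -/
def app (K : X → X → ℝ) (f : X → ℝ) : X → ℝ := fun x => ∑ y, K x y * f y

/-- `f` is Lipschitz with constant `L` along the edges of `G`, with edge lengths `len` -/
def EdgeLip (G : SimpleGraph X) (len : X → X → ℝ) (L : ℝ) (f : X → ℝ) : Prop :=
  ∀ x y, G.Adj x y → |f x - f y| ≤ L * len x y

lemma app_symm (K : X → X → ℝ) (hK : ∀ x y, K x y = K y x) (f g : X → ℝ) :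
    ∑ x, f x * app K g x = ∑ x, app K f x * g x := by
  unfold app
  simp_rw [Finset.mul_sum, Finset.sum_mul]
  rw [Finset.sum_comm]
  apply Finset.sum_congr rfl; intro y _
  apply Finset.sum_congr rfl; intro x _
  rw [hK x y]; ring

lemma sum_app (K : X → X → ℝ) (hK : ∀ x y, K x y = K y x) (s : ℝ) (hs : ∀ x, ∑ y, K x y = s)
    (f : X → ℝ) : ∑ x, app K f x = s * ∑ x, f x := by
  unfold app
  rw [Finset.sum_comm, Finset.mul_sum]
  apply Finset.sum_congr rfl; intro y _
  rw [← Finset.sum_mul]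
  congr 1
  rw [← hs y]
  apply Finset.sum_congr rfl; intro x _
  exact hK x y

/-- squared norm of the iterates -/
def rr (K : X → X → ℝ) (f : X → ℝ) (t : ℕ) : ℝ := ∑ x, ((app K)^[t] f x) ^ 2

lemma rr_nonneg (K : X → X → ℝ) (f : X → ℝ) (t : ℕ) : 0 ≤ rr K f t :=
  Finset.sum_nonneg fun _ _ => sq_nonneg _

lemma rr_logconvex (K : X → X → ℝ) (hK : ∀ x y, K x y = K y x) (f : X → ℝ) (t : ℕ) :
    rr K f (t + 1) ^ 2 ≤ rr K f t * rr K f (t + 2) := by
  set g := (app K)^[t] f with hg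
  have e1 : (app K)^[t + 1] f = app K g := by
    rw [Function.iterate_succ_apply']
  have e2 : (app K)^[t + 2] f = app K (app K g) := by
    rw [Function.iterate_succ_apply', e1]
  have h1 : rr K f (t + 1) = ∑ x, g x * app K (app K g) x := by
    unfold rr
    rw [e1, app_symm K hK g (app K g)]
    apply Finset.sum_congr rfl; intro x _; ring
  rw [h1]
  unfold rr
  rw [e2, ← hg]
  exact Finset.sum_mul_sq_le_sq_mul_sq _ _ _

lemma rr_growth (K : X → X → ℝ) (hK : ∀ x y, K x y = K y x) (f : X → ℝ) (ρ : ℝ) (hρ : 0 < ρ)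
    (h0 : 0 < rr K f 0) (h1 : ρ * rr K f 0 ≤ rr K f 1) (t : ℕ) :
    0 < rr K f t ∧ ρ * rr K f t ≤ rr K f (t + 1) := by
  induction t with
  | zero => exact ⟨h0, h1⟩
  | succ t ih =>
    obtain ⟨p, q⟩ := ih
    have p1 : 0 < rr K f (t + 1) := lt_of_lt_of_le (mul_pos hρ p) q
    refine ⟨p1, ?_⟩
    have lc := rr_logconvex K hK f t
    -- r(t+1)^2 ≤ r t * r (t+2), ρ r t ≤ r (t+1)
    by_contra hcon
    push Not at hcon
    have : rr K f t * rr K f (t + 2) < rr K f t * (ρ * rr K f (t + 1)) :=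
      mul_lt_mul_of_pos_left hcon p
    have h3 : rr K f t * (ρ * rr K f (t + 1)) ≤ rr K f (t + 1) * rr K f (t + 1) := by
      calc rr K f t * (ρ * rr K f (t + 1)) = (ρ * rr K f t) * rr K f (t + 1) := by ring
        _ ≤ rr K f (t + 1) * rr K f (t + 1) := mul_le_mul_of_nonneg_right q p1.le
    nlinarith

lemma rr_lower (K : X → X → ℝ) (hK : ∀ x y, K x y = K y x) (f : X → ℝ) (ρ : ℝ) (hρ : 0 < ρ)
    (h0 : 0 < rr K f 0) (h1 : ρ * rr K f 0 ≤ rr K f 1) (t : ℕ) :
    ρ ^ t * rr K f 0 ≤ rr K f t := by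
  induction t with
  | zero => simp
  | succ t ih =>
    have := (rr_growth K hK f ρ hρ h0 h1 t).2
    calc ρ ^ (t + 1) * rr K f 0 = ρ * (ρ ^ t * rr K f 0) := by ring
      _ ≤ ρ * rr K f t := mul_le_mul_of_nonneg_left ih hρ.le
      _ ≤ _ := this

/-- a geometric sequence with larger ratio cannot be dominated -/
lemma geom_contra (ρ c r0 B : ℝ) (hc : 0 ≤ c) (hcρ : c < ρ) (hr0 : 0 < r0)
    (h : ∀ t : ℕ, ρ ^ t * r0 ≤ B * c ^ t) : False := by
  have hρ : 0 < ρ := lt_of_le_of_lt hc hcρ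
  rcases eq_or_lt_of_le hc with hc0 | hc0
  · have := h 1
    rw [← hc0] at this
    simp at this
    nlinarith [mul_pos hρ hr0]
  · have hq : 1 < ρ / c := by rw [one_lt_div hc0]; exact hcρ
    have hB : ∀ t : ℕ, (ρ / c) ^ t * r0 ≤ B := by
      intro t
      have := h t
      rw [div_pow, div_mul_eq_mul_div, div_le_iff₀ (pow_pos hc0 t)]
      exact this
    obtain ⟨t, ht⟩ := pow_unbounded_of_one_lt (B / r0) hq
    have := hB t
    rw [div_lt_iff₀ hr0] at ht
    linarith

section walk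
variable (G : SimpleGraph X) (len : X → X → ℝ)

lemma walk_bound (ℓ : ℝ) (hℓ : ∀ x y, len x y ≤ ℓ) (L : ℝ) (hL : 0 ≤ L) (g : X → ℝ)
    (hg : EdgeLip G len L g) {x y : X} (p : G.Walk x y) :
    |g x - g y| ≤ L * ℓ * p.length := by
  induction p with
  | nil => simp
  | cons h p ih =>
    rename_i u v w
    have h1 := hg u v h
    have h2 : L * len u v ≤ L * ℓ := mul_le_mul_of_nonneg_left (hℓ u v) hL
    have h3 : |g u - g w| ≤ |g u - g v| + |g v - g w| := by
      have : g u - g w = (g u - g v) + (g v - g w) := by ring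
      rw [this]; exact abs_add_le _ _
    rw [SimpleGraph.Walk.length_cons]
    push_cast
    nlinarith

end walk

/-- uniform bound for mean zero edge Lipschitz functions on a connected graph -/
lemma exists_sup_bound (G : SimpleGraph X) (hG : G.Preconnected) (len : X → X → ℝ) :
    ∃ C : ℝ, 0 ≤ C ∧ ∀ (L : ℝ) (g : X → ℝ), 0 ≤ L → EdgeLip G len L g → ∑ x, g x = 0 →
      ∀ x, |g x| ≤ L * C := by
  classical
  set ℓ : ℝ := ∑ x, ∑ y, |len x y| with hℓ
  have hℓ0 : 0 ≤ ℓ := Finset.sum_nonneg fun _ _ => Finset.sum_nonneg fun _ _ => abs_nonneg _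
  have hlen : ∀ x y, len x y ≤ ℓ := by
    intro x y
    calc len x y ≤ |len x y| := le_abs_self _
      _ ≤ ∑ y', |len x y'| :=
          Finset.single_le_sum (f := fun y' => |len x y'|) (fun _ _ => abs_nonneg _)
            (Finset.mem_univ y)
      _ ≤ ℓ := Finset.single_le_sum (f := fun x' => ∑ y', |len x' y'|)
            (fun _ _ => Finset.sum_nonneg fun _ _ => abs_nonneg _) (Finset.mem_univ x)
  set D : ℝ := ∑ x, ∑ y, (((hG x y).some.length : ℕ) : ℝ) with hD
  have hD0 : 0 ≤ D := Finset.sum_nonneg fun _ _ => Finset.sum_nonneg fun _ _ => Nat.cast_nonneg _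
  have hDle : ∀ x y, (((hG x y).some.length : ℕ) : ℝ) ≤ D := by
    intro x y
    calc (((hG x y).some.length : ℕ) : ℝ)
        ≤ ∑ y', (((hG x y').some.length : ℕ) : ℝ) :=
          Finset.single_le_sum (f := fun y' => (((hG x y').some.length : ℕ) : ℝ))
            (fun _ _ => Nat.cast_nonneg _) (Finset.mem_univ y)
      _ ≤ D := Finset.single_le_sum (f := fun x' => ∑ y', (((hG x' y').some.length : ℕ) : ℝ))
            (fun _ _ => Finset.sum_nonneg fun _ _ => Nat.cast_nonneg _) (Finset.mem_univ x)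
  refine ⟨ℓ * D, mul_nonneg hℓ0 hD0, ?_⟩
  intro L g hL hg hmean x
  have hpair : ∀ y, |g x - g y| ≤ L * (ℓ * D) := by
    intro y
    have := walk_bound G len ℓ hlen L hL g hg (hG x y).some
    calc |g x - g y| ≤ L * ℓ * ((hG x y).some.length : ℝ) := this
      _ ≤ L * ℓ * D := mul_le_mul_of_nonneg_left (hDle x y) (mul_nonneg hL hℓ0)
      _ = L * (ℓ * D) := by ring
  have hcard : (0 : ℝ) < Fintype.card X := by
    have : 0 < Fintype.card X := Fintype.card_pos_iff.mpr ⟨x⟩
    exact_mod_cast this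
  have e : (Fintype.card X : ℝ) * g x = ∑ y, (g x - g y) := by
    rw [Finset.sum_sub_distrib, hmean, Finset.sum_const, Finset.card_univ]
    simp
  have h2 : |(Fintype.card X : ℝ) * g x| ≤ (Fintype.card X : ℝ) * (L * (ℓ * D)) := by
    rw [e]
    calc |∑ y, (g x - g y)| ≤ ∑ y, |g x - g y| := Finset.abs_sum_le_sum_abs _ _
      _ ≤ ∑ _y : X, L * (ℓ * D) := Finset.sum_le_sum fun y _ => hpair y
      _ = _ := by rw [Finset.sum_const, Finset.card_univ]; simp
  rw [abs_mul, abs_of_pos hcard] at h2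
  exact le_of_mul_le_mul_left h2 hcard

/-- every function is edge Lipschitz with some constant -/
lemma exists_edgeLip (G : SimpleGraph X) (len : X → X → ℝ)
    (hlen : ∀ x y, G.Adj x y → 0 < len x y) (f : X → ℝ) :
    ∃ L : ℝ, 0 ≤ L ∧ EdgeLip G len L f := by
  refine ⟨∑ x, ∑ y, |f x - f y| / |len x y|, ?_, ?_⟩
  · exact Finset.sum_nonneg fun _ _ => Finset.sum_nonneg fun _ _ =>
      div_nonneg (abs_nonneg _) (abs_nonneg _)
  · intro x y hxy
    have hp := hlen x y hxy
    have h1 : |f x - f y| / |len x y| ≤ ∑ x', ∑ y', |f x' - f y'| / |len x' y'| := by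
      calc |f x - f y| / |len x y| ≤ ∑ y', |f x - f y'| / |len x y'| :=
            Finset.single_le_sum (f := fun y' => |f x - f y'| / |len x y'|)
              (fun _ _ => div_nonneg (abs_nonneg _) (abs_nonneg _)) (Finset.mem_univ y)
        _ ≤ _ := Finset.single_le_sum (f := fun x' => ∑ y', |f x' - f y'| / |len x' y'|)
              (fun _ _ => Finset.sum_nonneg fun _ _ => div_nonneg (abs_nonneg _) (abs_nonneg _))
              (Finset.mem_univ x)
    rw [abs_of_pos hp, div_le_iff₀ hp] at h1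
    exact h1

/-- **Contraction along edges bounds the operator on mean zero functions.** -/
theorem norm_app_le (G : SimpleGraph X) (hG : G.Preconnected) (len : X → X → ℝ)
    (hlen : ∀ x y, G.Adj x y → 0 < len x y)
    (K : X → X → ℝ) (hK : ∀ x y, K x y = K y x) (s : ℝ) (hs : ∀ x, ∑ y, K x y = s)
    (a : ℝ) (ha : 0 ≤ a)
    (hcontr : ∀ (L : ℝ) (f : X → ℝ), 0 ≤ L → EdgeLip G len L f → EdgeLip G len (a * L) (app K f))
    (f : X → ℝ) (hf : ∑ x, f x = 0) :
    ∑ x, (app K f x) ^ 2 ≤ a ^ 2 * ∑ x, (f x) ^ 2 := by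
  obtain ⟨C, hC0, hC⟩ := exists_sup_bound G hG len
  obtain ⟨L, hL0, hL⟩ := exists_edgeLip G len hlen f
  have hit : ∀ t : ℕ, EdgeLip G len (a ^ t * L) ((app K)^[t] f) ∧ ∑ x, (app K)^[t] f x = 0 := by
    intro t
    induction t with
    | zero => simpa using ⟨hL, hf⟩
    | succ t ih =>
      rw [Function.iterate_succ_apply']
      refine ⟨?_, ?_⟩
      · have := hcontr _ _ (mul_nonneg (pow_nonneg ha t) hL0) ih.1
        rw [pow_succ]
        have e : a ^ t * a * L = a * (a ^ t * L) := by ring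
        rw [e]; exact this
      · rw [sum_app K hK s hs, ih.2, mul_zero]
  have hup : ∀ t : ℕ, rr K f t ≤ ((Fintype.card X : ℝ) * (L * C) ^ 2) * (a ^ 2) ^ t := by
    intro t
    unfold rr
    have hb : ∀ x, ((app K)^[t] f x) ^ 2 ≤ (a ^ t * L * C) ^ 2 := by
      intro x
      have := hC _ _ (mul_nonneg (pow_nonneg ha t) hL0) (hit t).1 (hit t).2 x
      rw [← sq_abs]
      exact pow_le_pow_left₀ (abs_nonneg _) this 2
    calc ∑ x, ((app K)^[t] f x) ^ 2 ≤ ∑ _x : X, (a ^ t * L * C) ^ 2 :=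
          Finset.sum_le_sum fun x _ => hb x
      _ = _ := by
          rw [Finset.sum_const, Finset.card_univ, nsmul_eq_mul, ← pow_mul, mul_comm 2 t, pow_mul]
          ring
  have e0 : rr K f 0 = ∑ x, (f x) ^ 2 := by simp [rr]
  have e1 : rr K f 1 = ∑ x, (app K f x) ^ 2 := by simp [rr]
  rw [← e0, ← e1]
  by_contra hcon
  push Not at hcon
  have h0 : 0 ≤ rr K f 0 := rr_nonneg K f 0
  rcases eq_or_lt_of_le h0 with h00 | h00
  · -- f = 0
    have hz : ∀ x, f x = 0 := by
      intro x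
      rw [e0] at h00
      have := (Finset.sum_eq_zero_iff_of_nonneg (fun x _ => sq_nonneg (f x))).mp h00.symm x
        (Finset.mem_univ x)
      exact pow_eq_zero_iff (two_ne_zero) |>.mp this
    have : rr K f 1 = 0 := by
      rw [e1]
      apply Finset.sum_eq_zero
      intro x _
      unfold app
      simp [hz]
    rw [this, ← h00] at hcon
    simp at hcon
  · set ρ := rr K f 1 / rr K f 0 with hρ
    have hρ1 : a ^ 2 < ρ := by
      rw [hρ, lt_div_iff₀ h00]; exact hcon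
    have hρ0 : 0 < ρ := lt_of_le_of_lt (sq_nonneg a) hρ1
    have h1 : ρ * rr K f 0 ≤ rr K f 1 := by
      rw [hρ, div_mul_cancel₀ _ h00.ne']
    exact geom_contra ρ (a ^ 2) (rr K f 0) _ (sq_nonneg a) hρ1 h00
      (fun t => (rr_lower K hK f ρ hρ0 h00 h1 t).trans (hup t))

/-- quadratic form version -/
theorem quad_app_le (G : SimpleGraph X) (hG : G.Preconnected) (len : X → X → ℝ)
    (hlen : ∀ x y, G.Adj x y → 0 < len x y)
    (K : X → X → ℝ) (hK : ∀ x y, K x y = K y x) (s : ℝ) (hs : ∀ x, ∑ y, K x y = s)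
    (a : ℝ) (ha : 0 ≤ a)
    (hcontr : ∀ (L : ℝ) (f : X → ℝ), 0 ≤ L → EdgeLip G len L f → EdgeLip G len (a * L) (app K f))
    (f : X → ℝ) (hf : ∑ x, f x = 0) :
    |∑ x, f x * app K f x| ≤ a * ∑ x, (f x) ^ 2 := by
  have h := norm_app_le G hG len hlen K hK s hs a ha hcontr f hf
  have cs := Finset.sum_mul_sq_le_sq_mul_sq univ f (app K f)
  set A := ∑ x, (f x) ^ 2 with hA
  have hA0 : 0 ≤ A := Finset.sum_nonneg fun _ _ => sq_nonneg _
  have h2 : (∑ x, f x * app K f x) ^ 2 ≤ (a * A) ^ 2 := by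
    calc (∑ x, f x * app K f x) ^ 2 ≤ A * ∑ x, (app K f x) ^ 2 := cs
      _ ≤ A * (a ^ 2 * A) := mul_le_mul_of_nonneg_left h hA0
      _ = (a * A) ^ 2 := by ring
  exact abs_le_of_sq_le_sq h2 (mul_nonneg ha hA0)

end Vale.Agent.P335
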