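import Mathlib

open Finset

namespace Vale.Agent.P335

/-- Biregular correspondences: double counting with a Lipschitz bound. -/
lemma sum_close_of_biregular {X ι : Type*}
    (A B : Finset X) (SA SB : X → Finset ι) (T T' : X → ι → X) (dA dB : ℕ)
    (hA : ∀ z ∈ A, (SA z).card = dA) (hB : ∀ w ∈ B, (SB w).card = dB)
    (hT : ∀ z ∈ A, ∀ l ∈ SA z, T z l ∈ B ∧ l ∈ SB (T z l) ∧ T' (T z l) l = z)
    (hT' : ∀ w ∈ B, ∀ l ∈ SB w, T' w l ∈ A ∧ l ∈ SA (T' w l) ∧ T (T' w l) l = w)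
    (F : X → ℝ) (δ : ℝ) (hF : ∀ z ∈ A, ∀ l ∈ SA z, |F z - F (T z l)| ≤ δ) :
    (dA : ℝ) * A.card = dB * B.card ∧
      |(dA : ℝ) * ∑ z ∈ A, F z - dB * ∑ w ∈ B, F w| ≤ dA * A.card * δ := by
  have key : ∀ g : X → ℝ, (dB : ℝ) * ∑ w ∈ B, g w = ∑ z ∈ A, ∑ l ∈ SA z, g (T z l) := by
    intro g
    have h1 : (dB : ℝ) * ∑ w ∈ B, g w = ∑ w ∈ B, ∑ _l ∈ SB w, g w := by
      rw [Finset.mul_sum]
      apply Finset.sum_congr rfl
      intro w hw
      rw [Finset.sum_const, hB w hw, nsmul_eq_mul]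
    rw [h1, Finset.sum_sigma', Finset.sum_sigma']
    symm
    apply Finset.sum_bij' (fun (p : (_ : X) × ι) _ => (⟨T p.1 p.2, p.2⟩ : (_ : X) × ι))
      (fun (p : (_ : X) × ι) _ => (⟨T' p.1 p.2, p.2⟩ : (_ : X) × ι))
    · rintro ⟨z, l⟩ h
      simp only [Finset.mem_sigma] at h ⊢
      exact ⟨(hT z h.1 l h.2).1, (hT z h.1 l h.2).2.1⟩
    · rintro ⟨w, l⟩ h
      simp only [Finset.mem_sigma] at h ⊢
      exact ⟨(hT' w h.1 l h.2).1, (hT' w h.1 l h.2).2.1⟩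
    · rintro ⟨z, l⟩ h
      simp only [Finset.mem_sigma] at h
      simp only [(hT z h.1 l h.2).2.2]
    · rintro ⟨w, l⟩ h
      simp only [Finset.mem_sigma] at h
      simp only [(hT' w h.1 l h.2).2.2]
    · rintro ⟨z, l⟩ _
      rfl
  have keyA : ∀ g : X → ℝ, (dA : ℝ) * ∑ z ∈ A, g z = ∑ z ∈ A, ∑ _l ∈ SA z, g z := by
    intro g
    rw [Finset.mul_sum]
    apply Finset.sum_congr rfl
    intro w hw
    rw [Finset.sum_const, hA w hw, nsmul_eq_mul]
  constructor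
  · have h1 := key (fun _ => 1)
    have h2 := keyA (fun _ => 1)
    simp only [Finset.sum_const, nsmul_eq_mul, mul_one] at h1 h2
    rw [h1, h2]
  · rw [key F, keyA F, ← Finset.sum_sub_distrib]
    calc |∑ z ∈ A, (∑ _l ∈ SA z, F z - ∑ l ∈ SA z, F (T z l))|
        ≤ ∑ z ∈ A, |∑ _l ∈ SA z, F z - ∑ l ∈ SA z, F (T z l)| := Finset.abs_sum_le_sum_abs _ _
      _ ≤ ∑ z ∈ A, (dA : ℝ) * δ := by
          apply Finset.sum_le_sum
          intro z hz
          rw [← Finset.sum_sub_distrib]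
          calc |∑ l ∈ SA z, (F z - F (T z l))| ≤ ∑ l ∈ SA z, |F z - F (T z l)| :=
                Finset.abs_sum_le_sum_abs _ _
            _ ≤ ∑ _l ∈ SA z, δ := Finset.sum_le_sum (fun l hl => hF z hz l hl)
            _ = (dA : ℝ) * δ := by rw [Finset.sum_const, hA z hz, nsmul_eq_mul]
      _ = dA * A.card * δ := by rw [Finset.sum_const, nsmul_eq_mul]; ring

/-- class bound: the sum over `B` of `F - avg_A F` is at most `|B| δ`. -/
lemma class_bound {X ι : Type*}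
    (A B : Finset X) (SA SB : X → Finset ι) (T T' : X → ι → X) (dA dB : ℕ)
    (hA : ∀ z ∈ A, (SA z).card = dA) (hB : ∀ w ∈ B, (SB w).card = dB)
    (hT : ∀ z ∈ A, ∀ l ∈ SA z, T z l ∈ B ∧ l ∈ SB (T z l) ∧ T' (T z l) l = z)
    (hT' : ∀ w ∈ B, ∀ l ∈ SB w, T' w l ∈ A ∧ l ∈ SA (T' w l) ∧ T (T' w l) l = w)
    (F : X → ℝ) (δ : ℝ) (hF : ∀ z ∈ A, ∀ l ∈ SA z, |F z - F (T z l)| ≤ δ)
    (hdB : 0 < dB) (hAne : A.Nonempty) :
    |∑ w ∈ B, (F w - (∑ z ∈ A, F z) / A.card)| ≤ B.card * δ := by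
  obtain ⟨h1, h2⟩ := sum_close_of_biregular A B SA SB T T' dA dB hA hB hT hT' F δ hF
  have hAc : (0 : ℝ) < A.card := by exact_mod_cast hAne.card_pos
  have hdB' : (0 : ℝ) < dB := by exact_mod_cast hdB
  set m := (∑ z ∈ A, F z) / A.card with hm
  have hmA : ∑ z ∈ A, F z = A.card * m := by rw [hm]; field_simp
  rw [Finset.sum_sub_distrib, Finset.sum_const, nsmul_eq_mul]
  have e : (dB : ℝ) * (∑ w ∈ B, F w - B.card * m) = -((dA : ℝ) * ∑ z ∈ A, F z - dB * ∑ w ∈ B, F w) := by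
    rw [hmA]
    have : (dA : ℝ) * (A.card * m) = dB * B.card * m := by rw [← mul_assoc, h1]
    rw [this]; ring
  have h3 : (dB : ℝ) * |∑ w ∈ B, F w - B.card * m| ≤ dB * (B.card * δ) := by
    rw [← abs_of_pos hdB', ← abs_mul, e, abs_neg, abs_of_pos hdB']
    calc _ ≤ dA * A.card * δ := h2
      _ = dB * (B.card * δ) := by rw [h1]; ring
  exact le_of_mul_le_mul_left h3 hdB'

/-- gluing class bounds -/
lemma sum_close_of_classes {X κ : Type*} [Fintype κ] [DecidableEq κ] (B : Finset X) (cls : X → κ)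
    (g : X → ℝ) (δ : ℝ)
    (h : ∀ c, |∑ w ∈ B.filter (fun w => cls w = c), g w| ≤ (B.filter (fun w => cls w = c)).card * δ) :
    |∑ w ∈ B, g w| ≤ B.card * δ := by
  rw [← Finset.sum_fiberwise B cls g]
  calc |∑ c, ∑ w ∈ B.filter (fun w => cls w = c), g w|
      ≤ ∑ c, |∑ w ∈ B.filter (fun w => cls w = c), g w| := Finset.abs_sum_le_sum_abs _ _
    _ ≤ ∑ c, ((B.filter (fun w => cls w = c)).card : ℝ) * δ := Finset.sum_le_sum (fun c _ => h c)
    _ = B.card * δ := by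
        rw [← Finset.sum_mul]
        congr 1
        have := Finset.card_eq_sum_card_fiberwise (f := cls) (s := B) (t := univ) (fun _ _ => by simp)
        rw [this]; push_cast; rfl

/-- from the unnormalised bound to averages -/
lemma avg_close {X : Type*} (B : Finset X) (F : X → ℝ) (m δ : ℝ) (hB : B.Nonempty)
    (h : |∑ w ∈ B, (F w - m)| ≤ B.card * δ) : |m - (∑ w ∈ B, F w) / B.card| ≤ δ := by
  have hBc : (0 : ℝ) < B.card := by exact_mod_cast hB.card_pos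
  rw [Finset.sum_sub_distrib, Finset.sum_const, nsmul_eq_mul] at h
  have e : m - (∑ w ∈ B, F w) / B.card = -((∑ w ∈ B, F w - B.card * m) / B.card) := by
    field_simp; ring
  rw [e, abs_neg, abs_div, abs_of_pos hBc, div_le_iff₀ hBc]
  linarith

end Vale.Agent.P335
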