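import Mathlib
import Vale.Agent.P335.BiReg

open Finset

set_option linter.unusedSectionVars false
set_option linter.unusedVariables false

namespace Vale.Agent.P335.ThreeRow

variable {C : Type*} [Fintype C] [DecidableEq C]

/-- signed count of the value `k` -/
def cnt (s : C → ℤ) (σ : C → Fin 3) (k : Fin 3) : ℤ := ∑ j, if σ j = k then s j else 0

/-- the states: columns of charge zero are pinned to `0`, all signed counts are prescribed -/
def Valid (s : C → ℤ) (ρ : Fin 3 → ℤ) (σ : C → Fin 3) : Prop :=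
  (∀ j, s j = 0 → σ j = 0) ∧ ∀ k, cnt s σ k = ρ k

instance (s : C → ℤ) (ρ : Fin 3 → ℤ) : DecidablePred (Valid s ρ) := fun σ => by
  unfold Valid; infer_instance

/-- same sign switch: two columns of equal sign exchange their (distinct) values -/
def AdjS (s : C → ℤ) (σ τ : C → Fin 3) : Prop :=
  ∃ j j', s j = s j' ∧ σ j ≠ σ j' ∧ τ j = σ j' ∧ τ j' = σ j ∧ ∀ l, l ≠ j → l ≠ j' → τ l = σ l

/-- mixed switch: two columns of opposite sign with a common value move to another common value -/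
def AdjM (s : C → ℤ) (σ τ : C → Fin 3) : Prop :=
  ∃ j j', s j = 1 ∧ s j' = -1 ∧ σ j = σ j' ∧ τ j = τ j' ∧ τ j ≠ σ j ∧
    ∀ l, l ≠ j → l ≠ j' → τ l = σ l

lemma AdjS.symm {s : C → ℤ} {σ τ : C → Fin 3} (h : AdjS s σ τ) : AdjS s τ σ := by
  obtain ⟨j, j', h1, h2, h3, h4, h5⟩ := h
  exact ⟨j, j', h1, by rw [h3, h4]; exact h2.symm, h4.symm, h3.symm,
    fun l a b => (h5 l a b).symm⟩

lemma AdjM.symm {s : C → ℤ} {σ τ : C → Fin 3} (h : AdjM s σ τ) : AdjM s τ σ := by
  obtain ⟨j, j', h1, h2, h3, h4, h5, h6⟩ := h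
  exact ⟨j, j', h1, h2, h4, h3, h5.symm, fun l a b => (h6 l a b).symm⟩

lemma AdjS.ne {s : C → ℤ} {σ τ : C → Fin 3} (h : AdjS s σ τ) : σ ≠ τ := by
  obtain ⟨j, j', h1, h2, h3, h4, h5⟩ := h
  intro e; subst e; exact h2 h3

lemma AdjM.ne {s : C → ℤ} {σ τ : C → Fin 3} (h : AdjM s σ τ) : σ ≠ τ := by
  obtain ⟨j, j', h1, h2, h3, h4, h5, h6⟩ := h
  intro e; subst e; exact h5 rfl

lemma cnt_update (s : C → ℤ) (σ : C → Fin 3) (j : C) (v k : Fin 3) :
    cnt s (Function.update σ j v) k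
      = cnt s σ k - (if σ j = k then s j else 0) + (if v = k then s j else 0) := by
  unfold cnt
  rw [← Finset.add_sum_erase _ _ (mem_univ j),
    ← Finset.add_sum_erase univ (fun l => if σ l = k then s l else 0) (mem_univ j)]
  have : ∑ l ∈ univ.erase j, (if Function.update σ j v l = k then s l else 0)
      = ∑ l ∈ univ.erase j, (if σ l = k then s l else 0) := by
    apply sum_congr rfl
    intro l hl
    rw [Function.update_of_ne (ne_of_mem_erase hl)]
  rw [this]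
  simp
  ring

lemma cnt_comp_perm (s : C → ℤ) (σ : C → Fin 3) (π : Equiv.Perm C) (hπ : ∀ l, s (π l) = s l)
    (k : Fin 3) : cnt s (σ ∘ π) k = cnt s σ k := by
  unfold cnt
  rw [← Equiv.sum_comp π (fun l => if σ l = k then s l else 0)]
  apply sum_congr rfl
  intro l _
  simp [hπ l]

lemma valid_comp_swap {s : C → ℤ} {ρ : Fin 3 → ℤ} {σ : C → Fin 3} (h : Valid s ρ σ) (j j' : C)
    (hj : s j = s j') : Valid s ρ (σ ∘ Equiv.swap j j') := by
  have hπ : ∀ l, s (Equiv.swap j j' l) = s l := by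
    intro l
    by_cases h1 : l = j
    · subst h1; simp [hj]
    · by_cases h2 : l = j'
      · subst h2; simp [hj]
      · rw [Equiv.swap_apply_of_ne_of_ne h1 h2]
  refine ⟨fun l hl => h.1 _ ((hπ l).trans hl), fun k => ?_⟩
  rw [cnt_comp_perm _ _ _ hπ, h.2 k]

/-- the mixed move keeps validity -/
lemma valid_mix {s : C → ℤ} {ρ : Fin 3 → ℤ} {σ : C → Fin 3} (h : Valid s ρ σ) (j j' : C)
    (hj : s j = 1) (hj' : s j' = -1) (hσ : σ j = σ j') (b : Fin 3) :
    Valid s ρ (Function.update (Function.update σ j b) j' b) := by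
  have hne : j' ≠ j := by intro e; rw [e] at hj'; omega
  refine ⟨fun l hl => ?_, fun k => ?_⟩
  · have h1 : l ≠ j' := by rintro rfl; omega
    have h2 : l ≠ j := by rintro rfl; omega
    rw [Function.update_of_ne h1, Function.update_of_ne h2]
    exact h.1 l hl
  · rw [cnt_update, cnt_update, Function.update_of_ne hne, h.2 k, hj, hj', hσ]
    split_ifs <;> omega

/-- raw fibre of `keep the level set of k` -/
def fibR (s : C → ℤ) (ρ : Fin 3 → ℤ) (k : Fin 3) (σ : C → Fin 3) : Finset (C → Fin 3) :=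
  univ.filter fun τ => Valid s ρ τ ∧ ∀ l, τ l = k ↔ σ l = k

lemma mem_fibR {s : C → ℤ} {ρ : Fin 3 → ℤ} {k : Fin 3} {σ τ : C → Fin 3} :
    τ ∈ fibR s ρ k σ ↔ Valid s ρ τ ∧ ∀ l, τ l = k ↔ σ l = k := by
  simp [fibR]

/-- raw average -/
noncomputable def avgR (s : C → ℤ) (ρ : Fin 3 → ℤ) (k : Fin 3) (F : (C → Fin 3) → ℝ)
    (σ : C → Fin 3) : ℝ :=
  (∑ τ ∈ fibR s ρ k σ, F τ) / (fibR s ρ k σ).card

lemma fibR_congr {s : C → ℤ} {ρ : Fin 3 → ℤ} {k : Fin 3} {σ σ' : C → Fin 3}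
    (h : ∀ l, σ l = k ↔ σ' l = k) : fibR s ρ k σ = fibR s ρ k σ' := by
  ext τ
  simp only [mem_fibR]
  constructor
  · rintro ⟨a, b⟩; exact ⟨a, fun l => (b l).trans (h l)⟩
  · rintro ⟨a, b⟩; exact ⟨a, fun l => (b l).trans (h l).symm⟩

/-- Lipschitz hypotheses in raw form -/
structure RawLip (s : C → ℤ) (ρ : Fin 3 → ℤ) (eps L : ℝ) (F : (C → Fin 3) → ℝ) : Prop where
  same : ∀ σ τ, Valid s ρ σ → Valid s ρ τ → AdjS s σ τ → |F σ - F τ| ≤ L * eps
  mixed : ∀ σ τ, Valid s ρ σ → Valid s ρ τ → AdjM s σ τ → |F σ - F τ| ≤ L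

/-- same sign edge: every `avgR k` moves by at most `L * eps`. -/
lemma avgR_same {s : C → ℤ} {ρ : Fin 3 → ℤ} {eps L : ℝ} {F : (C → Fin 3) → ℝ}
    (hF : RawLip s ρ eps L F) (hL : 0 ≤ L) (heps : 0 ≤ eps) (k : Fin 3) (σ : C → Fin 3)
    (hσ : Valid s ρ σ) (j j' : C) (hj : s j = s j') :
    |avgR s ρ k F σ - avgR s ρ k F (σ ∘ Equiv.swap j j')| ≤ L * eps := by
  set π := Equiv.swap j j' with hπ
  have hinv : ∀ τ : C → Fin 3, (τ ∘ π) ∘ π = τ := by
    intro τ; funext l; simp [hπ]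
  have hne : (fibR s ρ k σ).Nonempty := ⟨σ, mem_fibR.mpr ⟨hσ, fun _ => Iff.rfl⟩⟩
  have hcb := class_bound (ι := Unit) (fibR s ρ k σ) (fibR s ρ k (σ ∘ π)) (fun _ => {()})
    (fun _ => {()}) (fun τ _ => τ ∘ π) (fun τ _ => τ ∘ π) 1 1 (fun _ _ => rfl) (fun _ _ => rfl)
    (by
      intro z hz l _
      rw [mem_fibR] at hz
      refine ⟨mem_fibR.mpr ⟨valid_comp_swap hz.1 j j' hj, fun l => ?_⟩, by simp, hinv z⟩
      simp only [Function.comp]
      exact hz.2 _)
    (by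
      intro z hz l _
      rw [mem_fibR] at hz
      refine ⟨mem_fibR.mpr ⟨valid_comp_swap hz.1 j j' hj, fun l => ?_⟩, by simp, hinv z⟩
      have := hz.2 (π l)
      simp only [Function.comp] at this ⊢
      rw [this]
      simp [hπ])
    F (L * eps)
    (by
      intro z hz l _
      rw [mem_fibR] at hz
      by_cases hzz : z j = z j'
      · have : z ∘ π = z := by
          funext l
          simp only [Function.comp]
          by_cases h1 : l = j
          · subst h1; simp [hπ, hzz]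
          · by_cases h2 : l = j'
            · subst h2; simp [hπ, hzz]
            · rw [hπ, Equiv.swap_apply_of_ne_of_ne h1 h2]
        rw [this]; simp; positivity
      · apply hF.same z (z ∘ π) hz.1 (valid_comp_swap hz.1 j j' hj)
        refine ⟨j, j', hj, hzz, by simp [hπ], by simp [hπ], ?_⟩
        intro l h1 h2
        simp only [Function.comp]
        rw [hπ, Equiv.swap_apply_of_ne_of_ne h1 h2])
    Nat.one_pos hne
  have hne2 : (fibR s ρ k (σ ∘ π)).Nonempty :=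
    ⟨σ ∘ π, mem_fibR.mpr ⟨valid_comp_swap hσ j j' hj, fun _ => Iff.rfl⟩⟩
  exact avg_close _ F _ _ hne2 hcb

end Vale.Agent.P335.ThreeRow
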