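import Mathlib
import Vale.Agent.P335.ThreeRowBasic

open Finset

set_option linter.unusedSectionVars false
set_option linter.unusedVariables false

namespace Vale.Agent.P335.ThreeRow

variable {C : Type*} [Fintype C] [DecidableEq C]

/-- number of disagreements -/
def hd (x y : C → Fin 3) : ℕ := (univ.filter fun l => x l ≠ y l).card

lemma hd_lt {x x' y : C → Fin 3} (u v : C) (hu : x u ≠ y u) (hv : x v ≠ y v) (hu' : x' u = y u)
    (h : ∀ l, l ≠ u → l ≠ v → x' l = x l) : hd x' y < hd x y := by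
  apply Finset.card_lt_card
  rw [Finset.ssubset_iff_of_subset]
  · exact ⟨u, by simp [hu], by simp [hu']⟩
  · intro l hl
    simp only [Finset.mem_filter, Finset.mem_univ, true_and] at hl ⊢
    by_cases h1 : l = u
    · subst h1; exact absurd hu' hl
    · by_cases h2 : l = v
      · subst h2; exact hv
      · rw [← h l h1 h2]; exact hl

lemma compensate {s : C → ℤ} (hs : ∀ l, s l = 1 ∨ s l = -1 ∨ s l = 0) {x y : C → Fin 3} (k : Fin 3)
    (h : cnt s x k = cnt s y k) (j0 : C)
    (hj0 : (if x j0 = k then s j0 else 0) - (if y j0 = k then s j0 else 0) ≠ 0) :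
    ∃ j1, (s j1 = 1 ∧ x j1 = k ∧ y j1 ≠ k) ∨ (s j1 = -1 ∧ y j1 = k ∧ x j1 ≠ k) := by
  have hsum : ∑ l, ((if x l = k then s l else 0) - (if y l = k then s l else 0)) = 0 := by
    rw [Finset.sum_sub_distrib]
    unfold cnt at h
    omega
  obtain ⟨j1, _, hj1⟩ := Finset.exists_pos_of_sum_zero_of_exists_nonzero _ hsum ⟨j0, mem_univ _, hj0⟩
  refine ⟨j1, ?_⟩
  rcases hs j1 with h1 | h1 | h1 <;> rw [h1] at hj1 <;> split_ifs at hj1 with p q q <;>
    simp_all

variable {s : C → ℤ} {ρ : Fin 3 → ℤ}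

lemma imp_neg (hs : ∀ l, s l = 1 ∨ s l = -1 ∨ s l = 0) {x y : C → Fin 3} (hx : Valid s ρ x)
    (hy : Valid s ρ y) (j' : C) (hj' : s j' = -1) (hne : x j' ≠ y j') :
    ∃ x', Valid s ρ x' ∧ (AdjS s x x' ∨ AdjM s x x') ∧ hd x' y < hd x y := by
  obtain ⟨j'', hj''⟩ := compensate hs (x j') ((hx.2 _).trans (hy.2 _).symm) j' (by
    rw [if_pos rfl, if_neg hne.symm, hj']; norm_num)
  rcases hj'' with ⟨h1, h2, h3⟩ | ⟨h1, h2, h3⟩
  · have hjj : j' ≠ j'' := by rintro rfl; omega
    refine ⟨Function.update (Function.update x j'' (y j')) j' (y j'),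
      valid_mix hx j'' j' h1 hj' h2 _, Or.inr ?_, ?_⟩
    · refine ⟨j'', j', h1, hj', h2, by simp [hjj.symm], by simp [hjj.symm, h2, hne.symm], ?_⟩
      intro l p q
      simp [p, q]
    · apply hd_lt j' j'' hne (by rw [h2]; exact h3.symm) (by simp)
      intro l p q
      simp [p, q]
  · have hjj : j' ≠ j'' := by rintro rfl; exact h3 rfl
    refine ⟨x ∘ Equiv.swap j' j'', valid_comp_swap hx j' j'' (hj'.trans h1.symm), Or.inl ?_, ?_⟩
    · refine ⟨j', j'', hj'.trans h1.symm, h3.symm, by simp, by simp, ?_⟩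
      intro l p q
      simp only [Function.comp]
      rw [Equiv.swap_apply_of_ne_of_ne p q]
    · apply hd_lt j'' j' (by rw [h2]; exact h3) hne (by simp [h2])
      intro l p q
      simp only [Function.comp]
      rw [Equiv.swap_apply_of_ne_of_ne q p]

lemma imp_pos (hs : ∀ l, s l = 1 ∨ s l = -1 ∨ s l = 0) {x y : C → Fin 3} (hx : Valid s ρ x)
    (hy : Valid s ρ y) (j : C) (hj : s j = 1) (hne : x j ≠ y j) :
    ∃ x', Valid s ρ x' ∧ (AdjS s x x' ∨ AdjM s x x') ∧ hd x' y < hd x y := by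
  obtain ⟨j', hj'⟩ := compensate hs (y j) ((hx.2 _).trans (hy.2 _).symm) j (by
    rw [if_pos rfl, if_neg hne, hj]; norm_num)
  rcases hj' with ⟨h1, h2, h3⟩ | ⟨h1, h2, h3⟩
  · refine ⟨x ∘ Equiv.swap j j', valid_comp_swap hx j j' (hj.trans h1.symm), Or.inl ?_, ?_⟩
    · refine ⟨j, j', hj.trans h1.symm, by rw [h2]; exact hne, by simp, by simp, ?_⟩
      intro l p q
      simp only [Function.comp]
      rw [Equiv.swap_apply_of_ne_of_ne p q]
    · apply hd_lt j j' hne (by rw [h2]; exact h3.symm) (by simp [h2])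
      intro l p q
      simp only [Function.comp]
      rw [Equiv.swap_apply_of_ne_of_ne p q]
  · exact imp_neg hs hx hy j' h1 (by rw [h2]; exact h3)

/-- if two states differ there is a move from the first one decreasing the number of
disagreements -/
lemma exists_improving (hs : ∀ l, s l = 1 ∨ s l = -1 ∨ s l = 0) {x y : C → Fin 3}
    (hx : Valid s ρ x) (hy : Valid s ρ y) (hne : x ≠ y) :
    ∃ x', Valid s ρ x' ∧ (AdjS s x x' ∨ AdjM s x x') ∧ hd x' y < hd x y := by
  obtain ⟨j, hj⟩ := Function.ne_iff.mp hne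
  rcases hs j with h | h | h
  · exact imp_pos hs hx hy j h hj
  · exact imp_neg hs hx hy j h hj
  · exact absurd ((hx.1 j h).trans (hy.1 j h).symm) hj

end Vale.Agent.P335.ThreeRow
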