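import Mathlib
import Vale.Agent.P335.ThreeRowBasic

open Finset

set_option linter.unusedSectionVars false
set_option linter.unusedVariables false

namespace Vale.Agent.P335.ThreeRow

variable {C : Type*} [Fintype C] [DecidableEq C]

lemma three_cases : ∀ k a b : Fin 3, a ≠ k → b ≠ k → a ≠ b → ∀ v : Fin 3, v = k ∨ v = a ∨ v = b := by
  decide

/-- the columns that can be flipped so as to lower the `a` count -/
def SS (s : C → ℤ) (a b : Fin 3) (σ : C → Fin 3) : Finset C :=
  univ.filter fun l => (s l = 1 ∧ σ l = a) ∨ (s l = -1 ∧ σ l = b)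

lemma mem_SS {s : C → ℤ} {a b : Fin 3} {σ : C → Fin 3} {l : C} :
    l ∈ SS s a b σ ↔ (s l = 1 ∧ σ l = a) ∨ (s l = -1 ∧ σ l = b) := by
  simp [SS]

lemma card_SS {s : C → ℤ} (hs : ∀ l, s l = 1 ∨ s l = -1 ∨ s l = 0) (k a b : Fin 3) (hak : a ≠ k)
    (hbk : b ≠ k) (hab : a ≠ b) (σ : C → Fin 3) :
    ((SS s a b σ).card : ℤ)
      = cnt s σ a + ((univ.filter fun l => s l = -1 ∧ σ l ≠ k).card : ℤ) := by
  unfold SS cnt
  rw [Finset.card_filter, Finset.card_filter]
  push_cast
  rw [← Finset.sum_add_distrib]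
  apply Finset.sum_congr rfl
  intro l _
  rcases hs l with h | h | h <;> rcases three_cases k a b hak hbk hab (σ l) with h' | h' | h' <;>
    simp [h, h', hak, hbk, hab, hak.symm, hbk.symm, hab.symm]

section mixed

variable {s : C → ℤ} {ρ : Fin 3 → ℤ} {eps L : ℝ} {F : (C → Fin 3) → ℝ}

/-- class `(a,a)` -/
lemma class_eq (hF : RawLip s ρ eps L F) (k : Fin 3) (x y : C → Fin 3) (hx : Valid s ρ x)
    (j j' : C) (hj : s j = 1) (hj' : s j' = -1) (hxj : x j = k) (hxj' : x j' = k)
    (hy : ∀ l, y l = k ↔ (x l = k ∧ l ≠ j ∧ l ≠ j')) (a : Fin 3) (ha : a ≠ k) :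
    |∑ w ∈ (fibR s ρ k y).filter (fun w => (w j, w j') = (a, a)),
        (F w - (∑ z ∈ fibR s ρ k x, F z) / (fibR s ρ k x).card)|
      ≤ ((fibR s ρ k y).filter (fun w => (w j, w j') = (a, a))).card * L := by
  have hne : j' ≠ j := by intro e; rw [e] at hj'; omega
  have hAne : (fibR s ρ k x).Nonempty := ⟨x, mem_fibR.mpr ⟨hx, fun _ => Iff.rfl⟩⟩
  apply class_bound (ι := Unit) (fibR s ρ k x) _ (fun _ => {()}) (fun _ => {()})
    (fun z _ => Function.update (Function.update z j a) j' a)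
    (fun w _ => Function.update (Function.update w j k) j' k) 1 1 (fun _ _ => rfl) (fun _ _ => rfl)
    _ _ F L _ Nat.one_pos hAne
  · intro z hz _ _
    rw [mem_fibR] at hz
    have hzj : z j = k := (hz.2 j).mpr hxj
    have hzj' : z j' = k := (hz.2 j').mpr hxj'
    refine ⟨?_, by simp, ?_⟩
    · rw [Finset.mem_filter, mem_fibR]
      refine ⟨⟨valid_mix hz.1 j j' hj hj' (hzj.trans hzj'.symm) a, ?_⟩, ?_⟩
      · intro l
        rw [hy l]
        by_cases h1 : l = j'
        · subst h1; simp [ha]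
        · by_cases h2 : l = j
          · subst h2; simp [ha, h1]
          · simp [h1, h2, hz.2 l]
      · simp [hne.symm]
    · funext l
      by_cases h1 : l = j'
      · subst h1; simp [hzj']
      · by_cases h2 : l = j
        · subst h2; simp [h1, hzj]
        · simp [h1, h2]
  · intro w hw _ _
    rw [Finset.mem_filter, mem_fibR] at hw
    obtain ⟨⟨hwv, hwl⟩, hwc⟩ := hw
    simp only [Prod.mk.injEq] at hwc
    refine ⟨?_, by simp, ?_⟩
    · rw [mem_fibR]
      refine ⟨valid_mix hwv j j' hj hj' (hwc.1.trans hwc.2.symm) k, ?_⟩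
      intro l
      by_cases h1 : l = j'
      · subst h1; simp [hxj']
      · by_cases h2 : l = j
        · subst h2; simp [h1, hxj]
        · simp [h1, h2, hwl l, hy l]
    · funext l
      by_cases h1 : l = j'
      · subst h1; simp [hwc.2]
      · by_cases h2 : l = j
        · subst h2; simp [h1, hwc.1]
        · simp [h1, h2]
  · intro z hz _ _
    rw [mem_fibR] at hz
    have hzj : z j = k := (hz.2 j).mpr hxj
    have hzj' : z j' = k := (hz.2 j').mpr hxj'
    apply hF.mixed _ _ hz.1 (valid_mix hz.1 j j' hj hj' (hzj.trans hzj'.symm) a)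
    refine ⟨j, j', hj, hj', hzj.trans hzj'.symm, by simp [hne.symm], by simp [hne.symm, hzj, ha], ?_⟩
    intro l h1 h2
    simp [h1, h2]

/-- hexagon move -/
def TT (a b : Fin 3) (j j' : C) (σ : C → Fin 3) (l : C) : C → Fin 3 :=
  Function.update (Function.update (Function.update σ j a) j' b) l (if σ l = a then b else a)

/-- inverse hexagon move -/
def TT' (k a b : Fin 3) (j j' : C) (τ : C → Fin 3) (l : C) : C → Fin 3 :=
  Function.update (Function.update (Function.update τ j k) j' k) l (if τ l = a then b else a)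

lemma TT_l (a b : Fin 3) (j j' : C) (σ : C → Fin 3) (l : C) :
    TT a b j j' σ l l = if σ l = a then b else a := by simp [TT]

lemma TT_j' (a b : Fin 3) (j j' : C) (σ : C → Fin 3) (l : C) (h : j' ≠ l) :
    TT a b j j' σ l j' = b := by simp [TT, h]

lemma TT_j (a b : Fin 3) (j j' : C) (σ : C → Fin 3) (l : C) (h : j ≠ l) (h' : j ≠ j') :
    TT a b j j' σ l j = a := by simp [TT, h, h']

lemma TT_other (a b : Fin 3) (j j' : C) (σ : C → Fin 3) (l l' : C) (h : l' ≠ l) (h' : l' ≠ j')
    (h'' : l' ≠ j) : TT a b j j' σ l l' = σ l' := by simp [TT, h, h', h'']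

lemma TT'_l (k a b : Fin 3) (j j' : C) (σ : C → Fin 3) (l : C) :
    TT' k a b j j' σ l l = if σ l = a then b else a := by simp [TT']

lemma TT'_j' (k a b : Fin 3) (j j' : C) (σ : C → Fin 3) (l : C) (h : j' ≠ l) :
    TT' k a b j j' σ l j' = k := by simp [TT', h]

lemma TT'_j (k a b : Fin 3) (j j' : C) (σ : C → Fin 3) (l : C) (h : j ≠ l) (h' : j ≠ j') :
    TT' k a b j j' σ l j = k := by simp [TT', h, h']

lemma TT'_other (k a b : Fin 3) (j j' : C) (σ : C → Fin 3) (l l' : C) (h : l' ≠ l) (h' : l' ≠ j')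
    (h'' : l' ≠ j) : TT' k a b j j' σ l l' = σ l' := by simp [TT', h, h', h'']

lemma valid_TT {z : C → Fin 3} (hz : Valid s ρ z) (k a b : Fin 3) (hab : a ≠ b) (j j' l : C)
    (hj : s j = 1) (hj' : s j' = -1) (hzj : z j = k) (hzj' : z j' = k) (hlj : l ≠ j) (hlj' : l ≠ j')
    (hl : l ∈ SS s a b z) : Valid s ρ (TT a b j j' z l) := by
  have hne : j' ≠ j := by intro e; rw [e] at hj'; omega
  refine ⟨fun l' hl' => ?_, fun c => ?_⟩
  · have h1 : l' ≠ j' := by rintro rfl; omega
    have h2 : l' ≠ j := by rintro rfl; omega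
    have h3 : l' ≠ l := by
      rintro rfl
      rcases mem_SS.mp hl with ⟨h1, h2⟩ | ⟨h1, h2⟩ <;> omega
    rw [TT_other _ _ _ _ _ _ _ h3 h1 h2]
    exact hz.1 l' hl'
  unfold TT
  rw [cnt_update, cnt_update, cnt_update, Function.update_of_ne hlj', Function.update_of_ne hlj,
    Function.update_of_ne hne, hz.2 c, hj, hj', hzj, hzj']
  rcases mem_SS.mp hl with ⟨h1, h2⟩ | ⟨h1, h2⟩
  · rw [h1, h2]; simp only [if_true]; split_ifs <;> omega
  · rw [h1, h2, if_neg hab.symm]; split_ifs <;> omega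

lemma valid_TT' {w : C → Fin 3} (hw : Valid s ρ w) (k a b : Fin 3) (hab : a ≠ b) (j j' l : C)
    (hj : s j = 1) (hj' : s j' = -1) (hwj : w j = a) (hwj' : w j' = b) (hlj : l ≠ j) (hlj' : l ≠ j')
    (hl : l ∈ SS s b a w) : Valid s ρ (TT' k a b j j' w l) := by
  have hne : j' ≠ j := by intro e; rw [e] at hj'; omega
  refine ⟨fun l' hl' => ?_, fun c => ?_⟩
  · have h1 : l' ≠ j' := by rintro rfl; omega
    have h2 : l' ≠ j := by rintro rfl; omega
    have h3 : l' ≠ l := by
      rintro rfl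
      rcases mem_SS.mp hl with ⟨h1, h2⟩ | ⟨h1, h2⟩ <;> omega
    rw [TT'_other _ _ _ _ _ _ _ _ h3 h1 h2]
    exact hw.1 l' hl'
  unfold TT'
  rw [cnt_update, cnt_update, cnt_update, Function.update_of_ne hlj', Function.update_of_ne hlj,
    Function.update_of_ne hne, hw.2 c, hj, hj', hwj, hwj']
  rcases mem_SS.mp hl with ⟨h1, h2⟩ | ⟨h1, h2⟩
  · rw [h1, h2, if_neg hab.symm]; split_ifs <;> omega
  · rw [h1, h2]; simp only [if_true]; split_ifs <;> omega

/-- the two step path of the hexagon -/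
lemma hexagon (hF : RawLip s ρ eps L F) {z : C → Fin 3} (hz : Valid s ρ z) (k a b : Fin 3)
    (ha : a ≠ k) (hb : b ≠ k) (hab : a ≠ b) (j j' l : C)
    (hj : s j = 1) (hj' : s j' = -1) (hzj : z j = k) (hzj' : z j' = k) (hlj : l ≠ j) (hlj' : l ≠ j')
    (hl : l ∈ SS s a b z) : |F z - F (TT a b j j' z l)| ≤ L * eps + L := by
  have hne : j' ≠ j := by intro e; rw [e] at hj'; omega
  have hv := valid_TT hz k a b hab j j' l hj hj' hzj hzj' hlj hlj' hl
  rcases mem_SS.mp hl with ⟨h1, h2⟩ | ⟨h1, h2⟩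
  · -- swap j and l, then mixed move on (l, j')
    have hmv : Valid s ρ (z ∘ Equiv.swap j l) := valid_comp_swap hz j l (hj.trans h1.symm)
    have e1 : AdjS s z (z ∘ Equiv.swap j l) := by
      refine ⟨j, l, hj.trans h1.symm, by rw [hzj, h2]; exact ha.symm, by simp, by simp, ?_⟩
      intro l' p q
      simp only [Function.comp]
      rw [Equiv.swap_apply_of_ne_of_ne p q]
    have e2 : AdjM s (z ∘ Equiv.swap j l) (TT a b j j' z l) := by
      refine ⟨l, j', h1, hj', ?_, ?_, ?_, ?_⟩
      · simp only [Function.comp]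
        rw [Equiv.swap_apply_right, Equiv.swap_apply_of_ne_of_ne hne hlj'.symm, hzj, hzj']
      · rw [TT_l, TT_j' _ _ _ _ _ _ hlj'.symm, h2]; simp
      · rw [TT_l, h2]; simp [hzj, hb]
      · intro l' p q
        by_cases r : l' = j
        · subst r
          rw [TT_j _ _ _ _ _ _ hlj.symm hne.symm]; simp [h2]
        · rw [TT_other _ _ _ _ _ _ _ p q r]
          simp only [Function.comp]
          rw [Equiv.swap_apply_of_ne_of_ne r p]
    have b1 := hF.same _ _ hz hmv e1
    have b2 := hF.mixed _ _ hmv hv e2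
    calc |F z - F (TT a b j j' z l)|
        = |(F z - F (z ∘ Equiv.swap j l)) + (F (z ∘ Equiv.swap j l) - F (TT a b j j' z l))| := by
          congr 1; ring
      _ ≤ _ := (abs_add_le _ _).trans (add_le_add b1 b2)
  · -- swap j' and l, then mixed move on (j, l)
    have hmv : Valid s ρ (z ∘ Equiv.swap j' l) := valid_comp_swap hz j' l (hj'.trans h1.symm)
    have e1 : AdjS s z (z ∘ Equiv.swap j' l) := by
      refine ⟨j', l, hj'.trans h1.symm, by rw [hzj', h2]; exact hb.symm, by simp, by simp, ?_⟩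
      intro l' p q
      simp only [Function.comp]
      rw [Equiv.swap_apply_of_ne_of_ne p q]
    have e2 : AdjM s (z ∘ Equiv.swap j' l) (TT a b j j' z l) := by
      refine ⟨j, l, hj, h1, ?_, ?_, ?_, ?_⟩
      · simp only [Function.comp]
        rw [Equiv.swap_apply_right, Equiv.swap_apply_of_ne_of_ne hne.symm hlj.symm, hzj, hzj']
      · rw [TT_l, TT_j _ _ _ _ _ _ hlj.symm hne.symm, h2, if_neg hab.symm]
      · rw [TT_j _ _ _ _ _ _ hlj.symm hne.symm]
        simp only [Function.comp]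
        rw [Equiv.swap_apply_of_ne_of_ne hne.symm hlj.symm, hzj]; exact ha
      · intro l' p q
        by_cases r : l' = j'
        · subst r
          rw [TT_j' _ _ _ _ _ _ hlj'.symm]; simp [h2]
        · rw [TT_other _ _ _ _ _ _ _ q r p]
          simp only [Function.comp]
          rw [Equiv.swap_apply_of_ne_of_ne r q]
    have b1 := hF.same _ _ hz hmv e1
    have b2 := hF.mixed _ _ hmv hv e2
    calc |F z - F (TT a b j j' z l)|
        = |(F z - F (z ∘ Equiv.swap j' l)) + (F (z ∘ Equiv.swap j' l) - F (TT a b j j' z l))| := by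
          congr 1; ring
      _ ≤ _ := (abs_add_le _ _).trans (add_le_add b1 b2)

/-- class `(a,b)` with `a ≠ b` -/
lemma class_ne (hs : ∀ l, s l = 1 ∨ s l = -1 ∨ s l = 0) (hF : RawLip s ρ eps L F) (k : Fin 3)
    (x y : C → Fin 3) (hx : Valid s ρ x)
    (j j' : C) (hj : s j = 1) (hj' : s j' = -1) (hxj : x j = k) (hxj' : x j' = k)
    (hy : ∀ l, y l = k ↔ (x l = k ∧ l ≠ j ∧ l ≠ j')) (a b : Fin 3) (ha : a ≠ k) (hb : b ≠ k)
    (hab : a ≠ b) :
    |∑ w ∈ (fibR s ρ k y).filter (fun w => (w j, w j') = (a, b)),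
        (F w - (∑ z ∈ fibR s ρ k x, F z) / (fibR s ρ k x).card)|
      ≤ ((fibR s ρ k y).filter (fun w => (w j, w j') = (a, b))).card * (L * eps + L) := by
  have hne : j' ≠ j := by intro e; rw [e] at hj'; omega
  have hAne : (fibR s ρ k x).Nonempty := ⟨x, mem_fibR.mpr ⟨hx, fun _ => Iff.rfl⟩⟩
  -- facts on A
  have factA : ∀ z ∈ fibR s ρ k x, ∀ l ∈ SS s a b z, z j = k ∧ z j' = k ∧ l ≠ j ∧ l ≠ j' := by
    intro z hz l hl
    rw [mem_fibR] at hz
    have hzj : z j = k := (hz.2 j).mpr hxj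
    have hzj' : z j' = k := (hz.2 j').mpr hxj'
    refine ⟨hzj, hzj', ?_, ?_⟩
    · rintro rfl
      rcases mem_SS.mp hl with ⟨h1, h2⟩ | ⟨h1, h2⟩
      · exact ha (h2.symm.trans hzj)
      · exact hb (h2.symm.trans hzj)
    · rintro rfl
      rcases mem_SS.mp hl with ⟨h1, h2⟩ | ⟨h1, h2⟩
      · exact ha (h2.symm.trans hzj')
      · exact hb (h2.symm.trans hzj')
  have factB : ∀ w ∈ (fibR s ρ k y).filter (fun w => (w j, w j') = (a, b)), ∀ l ∈ SS s b a w,
      w j = a ∧ w j' = b ∧ l ≠ j ∧ l ≠ j' := by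
    intro w hw l hl
    rw [Finset.mem_filter, mem_fibR] at hw
    obtain ⟨⟨hwv, hwl⟩, hwc⟩ := hw
    simp only [Prod.mk.injEq] at hwc
    refine ⟨hwc.1, hwc.2, ?_, ?_⟩
    · rintro rfl
      rcases mem_SS.mp hl with ⟨h1, h2⟩ | ⟨h1, h2⟩
      · exact hab (hwc.1.symm.trans h2)
      · omega
    · rintro rfl
      rcases mem_SS.mp hl with ⟨h1, h2⟩ | ⟨h1, h2⟩
      · omega
      · exact hab (h2.symm.trans hwc.2)
  apply class_bound (fibR s ρ k x) _ (SS s a b) (SS s b a) (TT a b j j') (TT' k a b j j')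
    (SS s a b x).card ((SS s b a x).card + 1) _ _ _ _ F _ _ (Nat.succ_pos _) hAne
  · -- hA
    intro z hz
    rw [mem_fibR] at hz
    have h1 := card_SS hs k a b ha hb hab z
    have h2 := card_SS hs k a b ha hb hab x
    have h3 : (univ.filter fun l => s l = -1 ∧ z l ≠ k) = (univ.filter fun l => s l = -1 ∧ x l ≠ k) := by
      ext l; simp [hz.2 l]
    rw [h3, hz.1.2 a] at h1
    rw [hx.2 a] at h2
    omega
  · -- hB
    intro w hw
    rw [Finset.mem_filter, mem_fibR] at hw
    obtain ⟨⟨hwv, hwl⟩, hwc⟩ := hw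
    have h1 := card_SS hs k b a hb ha hab.symm w
    have h2 := card_SS hs k b a hb ha hab.symm x
    have h3 : (univ.filter fun l => s l = -1 ∧ w l ≠ k)
        = insert j' (univ.filter fun l => s l = -1 ∧ x l ≠ k) := by
      ext l
      simp only [Finset.mem_filter, Finset.mem_univ, true_and, Finset.mem_insert, ne_eq, hwl l, hy l]
      constructor
      · rintro ⟨p, q⟩
        by_cases r : l = j'
        · exact Or.inl r
        · right
          refine ⟨p, fun hxl => q ⟨hxl, ?_, r⟩⟩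
          rintro rfl; omega
      · rintro (rfl | ⟨p, q⟩)
        · exact ⟨hj', fun h => h.2.2 rfl⟩
        · exact ⟨p, fun h => q h.1⟩
    have h4 : j' ∉ (univ.filter fun l => s l = -1 ∧ x l ≠ k) := by simp [hxj']
    rw [h3, Finset.card_insert_of_notMem h4, hwv.2 b] at h1
    rw [hx.2 b] at h2
    push_cast at h1
    omega
  · -- hT
    intro z hz l hl
    obtain ⟨hzj, hzj', hlj, hlj'⟩ := factA z hz l hl
    rw [mem_fibR] at hz
    refine ⟨?_, ?_, ?_⟩
    · rw [Finset.mem_filter, mem_fibR]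
      refine ⟨⟨valid_TT hz.1 k a b hab j j' l hj hj' hzj hzj' hlj hlj' hl, ?_⟩, ?_⟩
      · intro l'
        rw [hy l']
        by_cases h0 : l' = l
        · subst h0
          rw [TT_l]
          have hzl : z l' ≠ k := by
            rcases mem_SS.mp hl with ⟨h1, h2⟩ | ⟨h1, h2⟩
            · rw [h2]; exact ha
            · rw [h2]; exact hb
          have hxl : x l' ≠ k := fun h => hzl ((hz.2 l').mpr h)
          constructor
          · intro h; split_ifs at h
            · exact absurd h hb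
            · exact absurd h ha
          · intro h; exact absurd h.1 hxl
        · by_cases h1 : l' = j'
          · subst h1
            rw [TT_j' _ _ _ _ _ _ h0]
            simp [hb]
          · by_cases h2 : l' = j
            · subst h2
              rw [TT_j _ _ _ _ _ _ h0 h1]
              simp [ha]
            · rw [TT_other _ _ _ _ _ _ _ h0 h1 h2, hz.2 l']
              simp [h1, h2]
      · rw [TT_j _ _ _ _ _ _ hlj.symm hne.symm, TT_j' _ _ _ _ _ _ hlj'.symm]
    · rw [mem_SS, TT_l]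
      rcases mem_SS.mp hl with ⟨h1, h2⟩ | ⟨h1, h2⟩
      · left; exact ⟨h1, by simp [h2]⟩
      · right; exact ⟨h1, by rw [h2, if_neg hab.symm]⟩
    · funext l'
      by_cases h0 : l' = l
      · subst h0
        rw [TT'_l, TT_l]
        rcases mem_SS.mp hl with ⟨h1, h2⟩ | ⟨h1, h2⟩
        · rw [h2]; simp [hab.symm]
        · rw [h2]; simp [hab.symm]
      · by_cases h1 : l' = j'
        · subst h1
          rw [TT'_j' _ _ _ _ _ _ _ h0, hzj']
        · by_cases h2 : l' = j
          · subst h2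
            rw [TT'_j _ _ _ _ _ _ _ h0 h1, hzj]
          · rw [TT'_other _ _ _ _ _ _ _ _ h0 h1 h2, TT_other _ _ _ _ _ _ _ h0 h1 h2]
  · -- hT'
    intro w hw l hl
    obtain ⟨hwj, hwj', hlj, hlj'⟩ := factB w hw l hl
    rw [Finset.mem_filter, mem_fibR] at hw
    obtain ⟨⟨hwv, hwl⟩, hwc⟩ := hw
    refine ⟨?_, ?_, ?_⟩
    · rw [mem_fibR]
      refine ⟨valid_TT' hwv k a b hab j j' l hj hj' hwj hwj' hlj hlj' hl, ?_⟩
      intro l'
      by_cases h0 : l' = l
      · subst h0
        rw [TT'_l]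
        have hwl' : w l' ≠ k := by
          rcases mem_SS.mp hl with ⟨h1, h2⟩ | ⟨h1, h2⟩
          · rw [h2]; exact hb
          · rw [h2]; exact ha
        have hxl : x l' ≠ k := by
          intro h
          exact hwl' ((hwl l').mpr ((hy l').mpr ⟨h, hlj, hlj'⟩))
        constructor
        · intro h; split_ifs at h
          · exact absurd h hb
          · exact absurd h ha
        · intro h; exact absurd h hxl
      · by_cases h1 : l' = j'
        · subst h1
          rw [TT'_j' _ _ _ _ _ _ _ h0]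
          simp [hxj']
        · by_cases h2 : l' = j
          · subst h2
            rw [TT'_j _ _ _ _ _ _ _ h0 h1]
            simp [hxj]
          · rw [TT'_other _ _ _ _ _ _ _ _ h0 h1 h2, hwl l', hy l']
            simp [h1, h2]
    · rw [mem_SS, TT'_l]
      rcases mem_SS.mp hl with ⟨h1, h2⟩ | ⟨h1, h2⟩
      · left; exact ⟨h1, by rw [h2, if_neg hab.symm]⟩
      · right; exact ⟨h1, by simp [h2]⟩
    · funext l'
      by_cases h0 : l' = l
      · subst h0
        rw [TT_l, TT'_l]
        rcases mem_SS.mp hl with ⟨h1, h2⟩ | ⟨h1, h2⟩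
        · rw [h2]; simp [hab.symm]
        · rw [h2]; simp [hab.symm]
      · by_cases h1 : l' = j'
        · subst h1
          rw [TT_j' _ _ _ _ _ _ h0, hwj']
        · by_cases h2 : l' = j
          · subst h2
            rw [TT_j _ _ _ _ _ _ h0 h1, hwj]
          · rw [TT_other _ _ _ _ _ _ _ h0 h1 h2, TT'_other _ _ _ _ _ _ _ _ h0 h1 h2]
  · -- hF
    intro z hz l hl
    obtain ⟨hzj, hzj', hlj, hlj'⟩ := factA z hz l hl
    rw [mem_fibR] at hz
    exact hexagon hF hz.1 k a b ha hb hab j j' l hj hj' hzj hzj' hlj hlj' hl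

/-- **Lemma M**: if `j, j'` (signs `+,-`) are at level `k` in `x` and are free in `y`, the level set of
`k` being otherwise the same, then the two averages differ by at most `L * eps + L`. -/
lemma avgR_mixed (hs : ∀ l, s l = 1 ∨ s l = -1 ∨ s l = 0) (hF : RawLip s ρ eps L F) (hL : 0 ≤ L)
    (heps : 0 ≤ eps) (k : Fin 3)
    (x y : C → Fin 3) (hx : Valid s ρ x) (hyv : Valid s ρ y)
    (j j' : C) (hj : s j = 1) (hj' : s j' = -1) (hxj : x j = k) (hxj' : x j' = k)
    (hy : ∀ l, y l = k ↔ (x l = k ∧ l ≠ j ∧ l ≠ j')) :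
    |avgR s ρ k F x - avgR s ρ k F y| ≤ L * eps + L := by
  have hBne : (fibR s ρ k y).Nonempty := ⟨y, mem_fibR.mpr ⟨hyv, fun _ => Iff.rfl⟩⟩
  apply avg_close _ F _ _ hBne
  apply sum_close_of_classes _ (fun w => (w j, w j'))
  rintro ⟨a, b⟩
  by_cases ha : a = k
  · have : (fibR s ρ k y).filter (fun w => (w j, w j') = (a, b)) = ∅ := by
      apply Finset.filter_eq_empty_iff.mpr
      intro w hw hc
      rw [mem_fibR] at hw
      simp only [Prod.mk.injEq] at hc
      have := ((hy j).mp ((hw.2 j).mp (hc.1.trans ha))).2.1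
      exact this rfl
    rw [this]; simp
  by_cases hb : b = k
  · have : (fibR s ρ k y).filter (fun w => (w j, w j') = (a, b)) = ∅ := by
      apply Finset.filter_eq_empty_iff.mpr
      intro w hw hc
      rw [mem_fibR] at hw
      simp only [Prod.mk.injEq] at hc
      have := ((hy j').mp ((hw.2 j').mp (hc.2.trans hb))).2.2
      exact this rfl
    rw [this]; simp
  by_cases hab : a = b
  · subst hab
    refine (class_eq hF k x y hx j j' hj hj' hxj hxj' hy a ha).trans ?_
    apply mul_le_mul_of_nonneg_left _ (Nat.cast_nonneg _)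
    have := mul_nonneg hL heps
    linarith
  · exact class_ne hs hF k x y hx j j' hj hj' hxj hxj' hy a b ha hb hab

end mixed

end Vale.Agent.P335.ThreeRow
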