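import Vale.Agent.P335.Avg
import Vale.Agent.P335.Contraction
import Vale.Agent.P335.ThreeRowMixed
import Vale.Agent.P335.ThreeRowImp

/-!
# P335: the 3-row lemma in sum form (see file ThreeRow for the statement with `ip`)
-/

set_option linter.unusedSectionVars false
set_option linter.unusedVariables false

namespace Vale.Agent.P335

open Finset

open scoped Classical

noncomputable section

section kernel

variable {X : Type*} [Fintype X] {K : Type*}

/-- the matrix of `avg k` -/
def avgKer (k : X → K) (x y : X) : ℝ := if k y = k x then 1 / ((cls k x).card : ℝ) else 0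

lemma avgKer_symm (k : X → K) (x y : X) : avgKer k x y = avgKer k y x := by
  unfold avgKer
  by_cases h : k y = k x
  · rw [if_pos h, if_pos h.symm, cls_eq_of_key_eq h]
  · rw [if_neg h, if_neg (fun h' => h h'.symm)]

lemma app_avgKer (k : X → K) (f : X → ℝ) (x : X) : app (avgKer k) f x = avg k f x := by
  rw [avg_eq_sum]
  unfold app avgKer
  apply Finset.sum_congr rfl
  intro y _
  split_ifs <;> ring

lemma avgKer_row (k : X → K) (x : X) : ∑ y, avgKer k x y = 1 := by
  have h := app_avgKer k (fun _ => 1) x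
  have h1 : avg k (fun _ : X => (1 : ℝ)) = fun _ => 1 := avg_of_invariant (fun _ _ _ => rfl)
  rw [h1] at h
  unfold app at h
  simpa using h

end kernel

variable {J : Type*} [Fintype J]

/-- admissible colourings -/
def IsCol (eps : J → ℤ) (q : Fin 3 → ℤ) (chi : J → Fin 3) : Prop :=
  (∀ j, eps j = 0 → chi j = 0) ∧ ∀ i, ∑ j ∈ univ.filter (fun j => chi j = i), eps j = q i

/-- the state space of the 3-row system -/
abbrev Col (eps : J → ℤ) (q : Fin 3 → ℤ) : Type _ := {chi : J → Fin 3 // IsCol eps q chi}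

variable {eps : J → ℤ} {q : Fin 3 → ℤ}

/-- the colour class `k` -/
def rowKey (k : Fin 3) (chi : Col eps q) : Set J := {j | chi.1 j = k}

/-- `sum_k (1 - Pi_k)` -/
def D3 (g : Col eps q → ℝ) : Col eps q → ℝ :=
  fun chi => ∑ k : Fin 3, (g chi - avg (rowKey k) g chi)

lemma isCol_iff_valid (chi : J → Fin 3) : IsCol eps q chi ↔ ThreeRow.Valid eps q chi := by
  unfold IsCol ThreeRow.Valid ThreeRow.cnt
  simp only [Finset.sum_filter]

lemma rowKey_eq_iff (k : Fin 3) (x y : Col eps q) :
    rowKey k y = rowKey k x ↔ ∀ l, y.1 l = k ↔ x.1 l = k := by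
  unfold rowKey
  rw [Set.ext_iff]
  rfl

/-- extension by zero to all colourings -/
def extF (f : Col eps q → ℝ) (τ : J → Fin 3) : ℝ := if h : IsCol eps q τ then f ⟨τ, h⟩ else 0

lemma extF_val (f : Col eps q → ℝ) (x : Col eps q) : extF f x.1 = f x := by
  unfold extF
  rw [dif_pos x.2]

lemma col_sum_cls_eq (k : Fin 3) (x : Col eps q) (g : (J → Fin 3) → ℝ) :
    ∑ y ∈ cls (rowKey k) x, g y.1 = ∑ τ ∈ ThreeRow.fibR eps q k x.1, g τ := by
  apply Finset.sum_bij (fun (y : Col eps q) _ => y.1)
  · intro y hy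
    rw [mem_cls, rowKey_eq_iff] at hy
    exact ThreeRow.mem_fibR.mpr ⟨(isCol_iff_valid _).mp y.2, hy⟩
  · intro y _ y' _ h
    exact Subtype.ext h
  · intro τ hτ
    rw [ThreeRow.mem_fibR] at hτ
    refine ⟨⟨τ, (isCol_iff_valid _).mpr hτ.1⟩, ?_, rfl⟩
    rw [mem_cls, rowKey_eq_iff]
    exact hτ.2
  · intro y _
    rfl

lemma avg_eq_avgR (k : Fin 3) (f : Col eps q → ℝ) (x : Col eps q) :
    avg (rowKey k) f x = ThreeRow.avgR eps q k (extF f) x.1 := by
  unfold avg ThreeRow.avgR
  have h1 := col_sum_cls_eq k x (extF f)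
  have h2 := col_sum_cls_eq k x (fun _ => 1)
  simp only [extF_val] at h1
  simp only [Finset.sum_const, nsmul_eq_mul, mul_one] at h2
  rw [h1, h2]

/-- the move graph -/
def moveGraph (eps : J → ℤ) (q : Fin 3 → ℤ) : SimpleGraph (Col eps q) where
  Adj x y := ThreeRow.AdjS eps x.1 y.1 ∨ ThreeRow.AdjM eps x.1 y.1
  symm := ⟨by
    intro x y h
    rcases h with h | h
    · exact Or.inl h.symm
    · exact Or.inr h.symm⟩
  loopless := ⟨by
    intro x h
    rcases h with h | h
    · exact h.ne rfl
    · exact h.ne rfl⟩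

lemma moveGraph_preconnected (heps : ∀ j, eps j = 1 ∨ eps j = -1 ∨ eps j = 0) :
    (moveGraph eps q).Preconnected := by
  have key : ∀ n : ℕ, ∀ x y : Col eps q, ThreeRow.hd x.1 y.1 = n → (moveGraph eps q).Reachable x y := by
    intro n
    induction n using Nat.strong_induction_on with
    | _ n ih =>
      intro x y hn
      by_cases hxy : x = y
      · subst hxy; exact SimpleGraph.Reachable.refl _
      · have hne : x.1 ≠ y.1 := fun h => hxy (Subtype.ext h)
        obtain ⟨x', hv, hadj, hlt⟩ := ThreeRow.exists_improving heps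
          ((isCol_iff_valid _).mp x.2) ((isCol_iff_valid _).mp y.2) hne
        have h1 : (moveGraph eps q).Adj x ⟨x', (isCol_iff_valid _).mpr hv⟩ := hadj
        exact h1.reachable.trans (ih _ (hn ▸ hlt) ⟨x', (isCol_iff_valid _).mpr hv⟩ y rfl)
  intro x y
  exact key _ x y rfl

/-- edge lengths -/
def moveLen (eps : J → ℤ) (q : Fin 3 → ℤ) (η : ℝ) (x y : Col eps q) : ℝ :=
  if ThreeRow.AdjS eps x.1 y.1 then η else 1

/-- the kernel of `sum_k avg (rowKey k)` -/
def K3 (eps : J → ℤ) (q : Fin 3 → ℤ) (x y : Col eps q) : ℝ := ∑ k : Fin 3, avgKer (rowKey k) x y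

lemma app_K3 (f : Col eps q → ℝ) (x : Col eps q) :
    app (K3 eps q) f x = ∑ k : Fin 3, avg (rowKey k) f x := by
  unfold app K3
  simp_rw [Finset.sum_mul]
  rw [Finset.sum_comm]
  apply Finset.sum_congr rfl
  intro k _
  exact app_avgKer (rowKey k) f x

lemma rawLip_of_edgeLip {η L : ℝ} (hη : η ≤ 1) (hL : 0 ≤ L) (f : Col eps q → ℝ)
    (h : EdgeLip (moveGraph eps q) (moveLen eps q η) L f) : ThreeRow.RawLip eps q η L (extF f) := by
  constructor
  · intro σ τ hσ hτ hadj
    have := h ⟨σ, (isCol_iff_valid _).mpr hσ⟩ ⟨τ, (isCol_iff_valid _).mpr hτ⟩ (Or.inl hadj)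
    rw [← extF_val f, ← extF_val f] at this
    unfold moveLen at this
    rw [if_pos hadj] at this
    exact this
  · intro σ τ hσ hτ hadj
    have := h ⟨σ, (isCol_iff_valid _).mpr hσ⟩ ⟨τ, (isCol_iff_valid _).mpr hτ⟩ (Or.inr hadj)
    rw [← extF_val f, ← extF_val f] at this
    refine this.trans ?_
    unfold moveLen
    split_ifs
    · nlinarith
    · linarith

lemma K3_contr (heps : ∀ j, eps j = 1 ∨ eps j = -1 ∨ eps j = 0) {η : ℝ} (hη0 : 0 < η) (hη : η ≤ 1)
    (L : ℝ) (f : Col eps q → ℝ) (hL : 0 ≤ L)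
    (h : EdgeLip (moveGraph eps q) (moveLen eps q η) L f) :
    EdgeLip (moveGraph eps q) (moveLen eps q η) (2 * (1 + η) * L) (app (K3 eps q) f) := by
  intro x y hadj
  have hF := rawLip_of_edgeLip hη hL f h
  have hxv := (isCol_iff_valid _).mp x.2
  have hyv := (isCol_iff_valid _).mp y.2
  rw [app_K3, app_K3, ← Finset.sum_sub_distrib]
  simp_rw [avg_eq_avgR]
  by_cases hS : ThreeRow.AdjS eps x.1 y.1
  · unfold moveLen
    rw [if_pos hS]
    obtain ⟨j, j', h1, h2, h3, h4, h5⟩ := hS
    have hy : y.1 = x.1 ∘ Equiv.swap j j' := by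
      funext l
      simp only [Function.comp]
      by_cases p : l = j
      · subst p; simp [h3]
      · by_cases p' : l = j'
        · subst p'; simp [h4]
        · rw [Equiv.swap_apply_of_ne_of_ne p p', h5 l p p']
    rw [Finset.sum_eq_add (x.1 j) (x.1 j') h2 _ (by simp) (by simp)]
    · have b1 := ThreeRow.avgR_same hF hL hη0.le (x.1 j) x.1 hxv j j' h1
      have b2 := ThreeRow.avgR_same hF hL hη0.le (x.1 j') x.1 hxv j j' h1
      rw [← hy] at b1 b2
      have b3 := (abs_add_le _ _).trans (add_le_add b1 b2)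
      refine b3.trans ?_
      have : 0 ≤ L * η * η := by positivity
      nlinarith
    · intro c _ hc
      have : ThreeRow.fibR eps q c x.1 = ThreeRow.fibR eps q c y.1 := by
        apply ThreeRow.fibR_congr
        intro l
        by_cases p : l = j
        · subst p
          rw [h3]
          exact ⟨fun e => absurd e.symm hc.1, fun e => absurd e.symm hc.2⟩
        · by_cases p' : l = j'
          · subst p'
            rw [h4]
            exact ⟨fun e => absurd e.symm hc.2, fun e => absurd e.symm hc.1⟩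
          · rw [h5 l p p']
      unfold ThreeRow.avgR
      rw [this, sub_self]
  · unfold moveLen
    rw [if_neg hS]
    have hM : ThreeRow.AdjM eps x.1 y.1 := by
      rcases hadj with h' | h'
      · exact absurd h' hS
      · exact h'
    obtain ⟨j, j', h1, h2, h3, h4, h5, h6⟩ := hM
    rw [Finset.sum_eq_add (x.1 j) (y.1 j) h5.symm _ (by simp) (by simp)]
    · have b1 := ThreeRow.avgR_mixed heps hF hL hη0.le (x.1 j) x.1 y.1 hxv hyv j j' h1 h2 rfl h3.symm
        (by
          intro l
          by_cases p : l = j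
          · subst p
            simp [h5]
          · by_cases p' : l = j'
            · subst p'
              simp [← h4, h5]
            · simp [h6 l p p', p, p'])
      have b2 := ThreeRow.avgR_mixed heps hF hL hη0.le (y.1 j) y.1 x.1 hyv hxv j j' h1 h2 rfl h4.symm
        (by
          intro l
          by_cases p : l = j
          · subst p
            simp [h5.symm]
          · by_cases p' : l = j'
            · subst p'
              simp [← h3, h5.symm]
            · simp [h6 l p p', p, p'])
      rw [abs_sub_comm] at b2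
      have b3 := (abs_add_le _ _).trans (add_le_add b1 b2)
      refine b3.trans ?_
      nlinarith
    · intro c _ hc
      have : ThreeRow.fibR eps q c x.1 = ThreeRow.fibR eps q c y.1 := by
        apply ThreeRow.fibR_congr
        intro l
        by_cases p : l = j
        · subst p
          exact ⟨fun e => absurd e.symm hc.1, fun e => absurd e.symm hc.2⟩
        · by_cases p' : l = j'
          · subst p'
            rw [← h3, ← h4]
            exact ⟨fun e => absurd e.symm hc.1, fun e => absurd e.symm hc.2⟩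
          · rw [h6 l p p']
      unfold ThreeRow.avgR
      rw [this, sub_self]

/-- 3-row lemma, quadratic form version, in sum form -/
theorem three_row_form_sum (heps : ∀ j, eps j = 1 ∨ eps j = -1 ∨ eps j = 0) (g : Col eps q → ℝ)
    (hg : ∑ chi, g chi = 0) :
    ∑ chi, g chi * ∑ k : Fin 3, avg (rowKey k) g chi ≤ 2 * ∑ chi, g chi ^ 2 := by
  have hsymm : ∀ x y, K3 eps q x y = K3 eps q y x := by
    intro x y
    unfold K3
    exact Finset.sum_congr rfl (fun k _ => avgKer_symm _ x y)
  have hrow : ∀ x, ∑ y, K3 eps q x y = 3 := by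
    intro x
    unfold K3
    rw [Finset.sum_comm]
    simp [avgKer_row]
  have main : ∀ η : ℝ, 0 < η → η ≤ 1 →
      ∑ chi, g chi * ∑ k : Fin 3, avg (rowKey k) g chi ≤ 2 * (1 + η) * ∑ chi, g chi ^ 2 := by
    intro η h0 h1
    have := quad_app_le (moveGraph eps q) (moveGraph_preconnected heps) (moveLen eps q η)
      (by
        intro x y _
        unfold moveLen
        split_ifs
        · exact h0
        · exact one_pos)
      (K3 eps q) hsymm 3 hrow (2 * (1 + η)) (by positivity)
      (fun L f hL h => K3_contr heps h0 h1 L f hL h) g hg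
    simp_rw [app_K3] at this
    exact (le_abs_self _).trans this
  set A := ∑ chi, g chi ^ 2 with hA
  have hA0 : 0 ≤ A := Finset.sum_nonneg fun _ _ => sq_nonneg _
  set B := ∑ chi, g chi * ∑ k : Fin 3, avg (rowKey k) g chi with hB
  by_contra hcon
  push Not at hcon
  have hpos : 0 < B - 2 * A := by linarith
  have hden : 0 < 2 * A + (B - 2 * A) := by linarith
  set η := min 1 ((B - 2 * A) / (2 * (2 * A + (B - 2 * A)))) with hη
  have hη0 : 0 < η := lt_min one_pos (by positivity)
  have hη1 : η ≤ 1 := min_le_left _ _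
  have hη2 : η ≤ (B - 2 * A) / (2 * (2 * A + (B - 2 * A))) := min_le_right _ _
  have h3 := main η hη0 hη1
  have h4 : 2 * η * A ≤ (B - 2 * A) / 2 := by
    have : η * (2 * (2 * A + (B - 2 * A))) ≤ B - 2 * A := by
      rw [le_div_iff₀ (by positivity)] at hη2
      exact hη2
    nlinarith
  nlinarith

/-- 3-row lemma in sum form: `<g, D3 g> <= |D3 g|^2`. -/
theorem three_row_sum (heps : ∀ j, eps j = 1 ∨ eps j = -1 ∨ eps j = 0) (g : Col eps q → ℝ) :
    ∑ chi, g chi * D3 g chi ≤ ∑ chi, D3 g chi * D3 g chi := by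
  rcases isEmpty_or_nonempty (Col eps q) with hE | hE
  · simp
  set N : ℝ := (Fintype.card (Col eps q) : ℝ) with hN
  have hN0 : 0 < N := by
    rw [hN]; exact_mod_cast Fintype.card_pos
  set m : ℝ := (∑ chi, g chi) / N with hm
  set g0 : Col eps q → ℝ := fun chi => g chi - m with hg0
  have hsum0 : ∑ chi, g0 chi = 0 := by
    simp only [hg0, Finset.sum_sub_distrib, Finset.sum_const, Finset.card_univ, nsmul_eq_mul]
    rw [hm, ← hN]; field_simp; ring
  have havg : ∀ k chi, avg (rowKey k) g0 chi = avg (rowKey k) g chi - m := by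
    intro k chi
    have h1 : g0 = g - fun _ => m := by funext x; simp [hg0]
    have h2 : avg (rowKey (eps := eps) (q := q) k) (fun _ => m) = fun _ => m :=
      avg_of_invariant (fun _ _ _ => rfl)
    rw [h1, avg_sub, h2]; rfl
  have hD : ∀ chi, D3 g0 chi = D3 g chi := by
    intro chi
    unfold D3
    apply Finset.sum_congr rfl
    intro k _
    rw [havg]; simp [hg0]
  have hDexp : ∀ chi, D3 g0 chi = 3 * g0 chi - ∑ k : Fin 3, avg (rowKey k) g0 chi := by
    intro chi
    unfold D3
    rw [Finset.sum_sub_distrib]; simp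
  have hsumD : ∑ chi, D3 g0 chi = 0 := by
    simp_rw [hDexp]
    rw [Finset.sum_sub_distrib, ← Finset.mul_sum, hsum0, Finset.sum_comm]
    simp [sum_avg, hsum0]
  have e1 : ∑ chi, g chi * D3 g chi = ∑ chi, g0 chi * D3 g0 chi := by
    have : ∀ chi, g chi * D3 g chi = g0 chi * D3 g0 chi + m * D3 g0 chi := by
      intro chi; rw [hD]; simp only [hg0]; ring
    simp_rw [this]
    rw [Finset.sum_add_distrib, ← Finset.mul_sum, hsumD]; ring
  have e2 : ∑ chi, D3 g chi * D3 g chi = ∑ chi, D3 g0 chi * D3 g0 chi := by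
    simp_rw [hD]
  rw [e1, e2]
  set a := ∑ chi, g0 chi ^ 2 with ha
  set b := ∑ chi, g0 chi * D3 g0 chi with hb
  set c := ∑ chi, D3 g0 chi * D3 g0 chi with hc
  have hform := three_row_form_sum heps g0 hsum0
  have hab : a ≤ b := by
    have : b = 3 * a - ∑ chi, g0 chi * ∑ k : Fin 3, avg (rowKey k) g0 chi := by
      rw [hb, ha, Finset.mul_sum, ← Finset.sum_sub_distrib]
      apply Finset.sum_congr rfl
      intro chi _
      rw [hDexp]; ring
    rw [this]; linarith
  have ha0 : 0 ≤ a := Finset.sum_nonneg fun _ _ => sq_nonneg _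
  have hc0 : 0 ≤ c := Finset.sum_nonneg fun _ _ => mul_self_nonneg _
  have cs : b ^ 2 ≤ a * c := by
    have := Finset.sum_mul_sq_le_sq_mul_sq univ g0 (D3 g0)
    have hc' : c = ∑ chi, D3 g0 chi ^ 2 := by
      rw [hc]; exact Finset.sum_congr rfl (fun _ _ => by ring)
    rw [hc']; exact this
  -- b^2 ≤ a c ≤ b c
  by_contra hcon
  push Not at hcon
  have hb0 : 0 < b := lt_of_le_of_lt hc0 hcon
  nlinarith

end

end Vale.Agent.P335
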