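import Vale.Agent.P335.OpAlg
import Vale.Agent.P335.Contraction
import Vale.Agent.P335.ThreeRowMain

/-!
# P335: the 3-row lemma, abstract (colouring) form

Columns `j : J` carry a charge `eps j` in `{1,-1,0}`.  (`1`: a column of sum 1, its colour is the row
of its unique one; `-1`: a column of sum 2, its colour is the row of its unique zero; `0`: a frozen
column, pinned to colour 0.)  A state is a colouring `chi : J -> Fin 3` such that every colour class
has prescribed total charge `q i`.  `rowKey k chi` = the colour class `k`.  `avg (rowKey k)` keeps row
`k` and resamples the two other rows.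

The definitions `IsCol`, `Col`, `rowKey`, `D3` live in file ThreeRowMain (same namespace), together
with the proofs in sum form:
* ThreeRowBasic : moves `AdjS`, `AdjM`, charge calculus, contraction along (S) edges;
* ThreeRowMixed : contraction along (N) edges (class-wise biregular double counting, file BiReg);
* ThreeRowImp   : an improving move exists (connectivity of the move graph);
* ThreeRowMain  : kernel, bridge to `avg (rowKey k)`, `quad_app_le`, `eta -> 0`, Cauchy-Schwarz.

THEOREM `three_row`: with `D3 g = sum_k (g - avg (rowKey k) g)` one has `<g, D3 g> <= |D3 g|^2`.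
-/

namespace Vale.Agent.P335

open Finset

open scoped Classical

noncomputable section

variable {J : Type*} [Fintype J] {eps : J → ℤ} {q : Fin 3 → ℤ}

/-- 3-row lemma, quadratic form version -/
theorem three_row_form (heps : ∀ j, eps j = 1 ∨ eps j = -1 ∨ eps j = 0) (g : Col eps q → ℝ)
    (hg : ∑ chi, g chi = 0) : ∑ k : Fin 3, ip g (avg (rowKey k) g) ≤ 2 * ip g g := by
  have h := three_row_form_sum heps g hg
  unfold ip
  rw [Finset.sum_comm]
  simp_rw [← Finset.mul_sum]
  refine h.trans (le_of_eq ?_)
  congr 1
  exact Finset.sum_congr rfl (fun _ _ => by ring)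

/-- 3-row lemma -/
theorem three_row (heps : ∀ j, eps j = 1 ∨ eps j = -1 ∨ eps j = 0) (g : Col eps q → ℝ) :
    ip g (D3 g) ≤ ip (D3 g) (D3 g) :=
  three_row_sum heps g

end

end Vale.Agent.P335
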