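import Vale.Agent.P335.OpAlg
import Vale.Agent.P335.AvgRect

/-!
# P335: the slot projections `Q La` on `Omega d`

FACT 1: `Q La` and `Q Lb` commute when `La`, `Lb` are disjoint (degrees are additive over slots, so
the glued graph `G1 on La, G2 on Lb, G elsewhere` has again the degrees `d`).
-/

namespace Vale.Agent.P335

open Finset

open scoped Classical

noncomputable section

variable {n : ℕ} {d : Fin n → ℕ}

theorem keyOff_eq_iff (La : Set (Sym2 (Fin n))) (G G' : Omega d) :
    keyOff La G = keyOff La G' ↔ ∀ e, e ∉ La → (e ∈ G.1.edgeSet ↔ e ∈ G'.1.edgeSet) := by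
  unfold keyOff
  constructor
  · intro h e he
    have := Set.ext_iff.1 h e
    simp only [Set.mem_sdiff, he, not_false_eq_true, and_true] at this
    exact this
  · intro h
    ext e
    simp only [Set.mem_sdiff]
    by_cases he : e ∈ La
    · simp [he]
    · simp [he, h e he]

/-- adjacency version -/
theorem adj_iff_of_keyOff_eq {La : Set (Sym2 (Fin n))} {G G' : Omega d}
    (h : keyOff La G = keyOff La G') {a b : Fin n} (hab : s(a, b) ∉ La) :
    G.1.Adj a b ↔ G'.1.Adj a b := by
  have := (keyOff_eq_iff La G G').1 h s(a, b) hab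
  simpa [SimpleGraph.mem_edgeSet] using this

theorem keyOff_mono {La Lb : Set (Sym2 (Fin n))} (h : La ⊆ Lb) {G G' : Omega d}
    (hk : keyOff La G = keyOff La G') : keyOff Lb G = keyOff Lb G' := by
  rw [keyOff_eq_iff] at hk ⊢
  intro e he
  exact hk e (fun h' => he (h h'))

/-- the degree as the number of `j` with `s(i, j)` an edge -/
theorem degree_eq_card_filter (H : SimpleGraph (Fin n)) (i : Fin n) :
    H.degree i = (univ.filter (fun j => s(i, j) ∈ H.edgeSet)).card := by
  rw [← SimpleGraph.card_neighborFinset_eq_degree]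
  congr 1
  ext j
  simp [SimpleGraph.mem_edgeSet]

/-- a general way to build elements of `Omega d`: a graph `H` such that at every vertex the number
of neighbours equals that of `G`. -/
theorem exists_omega_of_edgeSet (E : Set (Sym2 (Fin n))) (hE : ∀ e ∈ E, ¬ e.IsDiag)
    (hdeg : ∀ i : Fin n, (univ.filter (fun j => s(i, j) ∈ E)).card = d i) :
    ∃ H : Omega d, H.1.edgeSet = E := by
  have hes : (SimpleGraph.fromEdgeSet E).edgeSet = E := by
    rw [SimpleGraph.edgeSet_fromEdgeSet]
    ext e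
    simp only [Set.mem_sdiff]
    exact ⟨fun h => h.1, fun h => ⟨h, hE e h⟩⟩
  refine ⟨⟨SimpleGraph.fromEdgeSet E, fun i => ?_⟩, hes⟩
  rw [degree_eq_card_filter, ← hdeg i]
  congr 1
  ext j
  simp only [mem_filter, mem_univ, true_and, hes]

/-- GLUING: `G1 ~ G` off `La`, `G2 ~ G` off `Lb`, `La`, `Lb` disjoint. Then the graph equal to `G1`
on `La`, to `G2` on `Lb` and to `G` elsewhere is in `Omega d`. -/
theorem glue (La Lb : Set (Sym2 (Fin n))) (h : Disjoint La Lb) (G G1 G2 : Omega d)
    (h1 : keyOff La G1 = keyOff La G) (h2 : keyOff Lb G2 = keyOff Lb G) :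
    ∃ H : Omega d, keyOff Lb H = keyOff Lb G1 ∧ keyOff La H = keyOff La G2 := by
  rw [keyOff_eq_iff] at h1 h2
  have hdisj : ∀ e, e ∈ La → e ∉ Lb := fun e ha hb => Set.disjoint_left.1 h ha hb
  set E : Set (Sym2 (Fin n)) :=
    {e | (e ∈ La ∧ e ∈ G1.1.edgeSet) ∨ (e ∉ La ∧ e ∈ G2.1.edgeSet)} with hEdef
  have hE : ∀ e ∈ E, ¬ e.IsDiag := by
    intro e he
    rcases he with ⟨_, he⟩ | ⟨_, he⟩
    · exact SimpleGraph.not_isDiag_of_mem_edgeSet _ he
    · exact SimpleGraph.not_isDiag_of_mem_edgeSet _ he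
  obtain ⟨H, hH⟩ := exists_omega_of_edgeSet (d := d) E hE (by
    intro i
    have e0 := G.2 i
    have e1 := G1.2 i
    have e2 := G2.2 i
    rw [degree_eq_card_filter, card_filter] at e0 e1 e2
    rw [card_filter]
    have key : ∑ j : Fin n, (if s(i, j) ∈ E then 1 else 0) +
        ∑ j : Fin n, (if s(i, j) ∈ G.1.edgeSet then 1 else 0) =
        ∑ j : Fin n, (if s(i, j) ∈ G1.1.edgeSet then 1 else 0) +
        ∑ j : Fin n, (if s(i, j) ∈ G2.1.edgeSet then 1 else 0) := by
      rw [← sum_add_distrib, ← sum_add_distrib]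
      refine sum_congr rfl (fun j _ => ?_)
      by_cases ha : s(i, j) ∈ La
      · have hb := hdisj _ ha
        have hG2 := h2 _ hb
        have hEj : s(i, j) ∈ E ↔ s(i, j) ∈ G1.1.edgeSet := by
          simp only [hEdef, Set.mem_ofPred_eq, ha, true_and, not_true_eq_false, false_and, or_false]
        simp only [hEj, hG2]
      · have hG1 := h1 _ ha
        have hEj : s(i, j) ∈ E ↔ s(i, j) ∈ G2.1.edgeSet := by
          simp only [hEdef, Set.mem_ofPred_eq, ha, false_and, not_false_eq_true, true_and, false_or]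
        simp only [hEj, hG1]
        ring
    calc _ = ∑ j : Fin n, (if s(i, j) ∈ E then 1 else 0) := by
          refine sum_congr rfl (fun j _ => ?_)
          congr
      _ = d i := by omega)
  refine ⟨H, ?_, ?_⟩
  · rw [keyOff_eq_iff]
    intro e he
    rw [hH]
    by_cases ha : e ∈ La
    · simp only [hEdef, Set.mem_ofPred_eq, ha, true_and, not_true_eq_false, false_and, or_false]
    · simp only [hEdef, Set.mem_ofPred_eq, ha, false_and, not_false_eq_true, true_and, false_or]
      rw [h2 e he, h1 e ha]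
  · rw [keyOff_eq_iff]
    intro e ha
    rw [hH]
    simp only [hEdef, Set.mem_ofPred_eq, ha, false_and, not_false_eq_true, true_and, false_or]

theorem eq_of_keyOff_eq (La Lb : Set (Sym2 (Fin n))) (h : Disjoint La Lb) (G G' : Omega d)
    (h1 : keyOff La G = keyOff La G') (h2 : keyOff Lb G = keyOff Lb G') : G = G' := by
  rw [keyOff_eq_iff] at h1 h2
  apply Subtype.ext
  apply SimpleGraph.edgeSet_injective
  ext e
  by_cases ha : e ∈ La
  · exact h2 e (fun hb => Set.disjoint_left.1 h ha hb)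
  · exact h1 e ha

/-- FACT 1 -/
theorem Q_comm (La Lb : Set (Sym2 (Fin n))) (h : Disjoint La Lb) (f : Omega d → ℝ) :
    Q La (Q Lb f) = Q Lb (Q La f) := by
  unfold Q
  apply avg_comm_of_rect'
  intro x y z hxy hxz
  obtain ⟨H, hH1, hH2⟩ := glue La Lb h x y z hxy.symm hxz.symm
  refine ⟨H, ⟨hH1.symm, hH2.symm⟩, ?_⟩
  intro H' hH'
  exact eq_of_keyOff_eq La Lb h H' H (hH'.2.symm.trans hH2.symm) (hH'.1.symm.trans hH1.symm)

theorem Q_tower (La Lb : Set (Sym2 (Fin n))) (h : La ⊆ Lb) (f : Omega d → ℝ) :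
    Q Lb (Q La f) = Q Lb f :=
  avg_avg_of_finer (fun _ _ hk => keyOff_mono h hk) f

theorem Q_tower' (La Lb : Set (Sym2 (Fin n))) (h : La ⊆ Lb) (f : Omega d → ℝ) :
    Q La (Q Lb f) = Q Lb f :=
  avg_avg_of_coarser (fun _ _ hk => keyOff_mono h hk) f

theorem Q_mul_inv (La : Set (Sym2 (Fin n))) (g f : Omega d → ℝ)
    (hg : ∀ G G' : Omega d, keyOff La G = keyOff La G' → g G = g G') :
    Q La (fun G => g G * f G) = fun G => g G * Q La f G :=
  avg_mul_of_invariant hg f

/-- linear version of `Q` -/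
def QL (La : Set (Sym2 (Fin n))) : (Omega d → ℝ) →ₗ[ℝ] (Omega d → ℝ) := avgL (keyOff La)

@[simp] theorem QL_apply (La : Set (Sym2 (Fin n))) (f : Omega d → ℝ) : QL La f = Q La f := rfl

theorem isProj_QL (La : Set (Sym2 (Fin n))) : IsProj (QL (d := d) La) := isProj_avgL _

theorem touch_comm (u v : Fin n) : touch u v = touch v u := by
  ext e
  simp only [touch, Set.mem_ofPred_eq]
  exact or_comm

theorem R_comm (u v : Fin n) (f : Omega d → ℝ) : R u v f = R v u f := by
  unfold R
  rw [touch_comm]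

theorem Ms_swap (u v w x : Fin n) : Ms w x u v = Ms u v w x := by
  ext e
  simp only [Ms, Set.mem_insert_iff, Set.mem_singleton_iff]
  rw [Sym2.eq_swap (a := w) (b := u), Sym2.eq_swap (a := w) (b := v),
    Sym2.eq_swap (a := x) (b := u), Sym2.eq_swap (a := x) (b := v)]
  tauto

theorem Ms_subset_touch (u v w x : Fin n) : Ms u v w x ⊆ touch u v := by
  intro e he
  simp only [Ms, Set.mem_insert_iff, Set.mem_singleton_iff] at he
  simp only [touch, Set.mem_ofPred_eq]
  rcases he with rfl | rfl | rfl | rfl <;> simp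

theorem Ystate_swap (u v w x : Fin n) (G : SimpleGraph (Fin n)) :
    Ystate w x u v G ↔ Ystate u v w x G := by
  unfold Ystate
  rw [G.adj_comm w u, G.adj_comm x v, G.adj_comm w v, G.adj_comm x u]
  tauto

/-- `<R f, R f> = <f, R f>` -/
theorem ip_R_R (u v : Fin n) (f : Omega d → ℝ) : ip (R u v f) (R u v f) = ip f (R u v f) :=
  (ip_sub_avg (keyOff (touch u v)) f).symm

theorem ip_R_symm (u v : Fin n) (f g : Omega d → ℝ) : ip (R u v f) g = ip f (R u v g) := by
  have e1 : R u v f = f - avg (keyOff (touch u v)) f := rfl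
  have e2 : R u v g = g - avg (keyOff (touch u v)) g := rfl
  rw [e1, e2, ip_sub_left, ip_sub_right, ip_avg_left]

/-- for four distinct vertices the slot sets `touch u v minus Ms` and `touch w x` are disjoint -/
theorem disjoint_touch_diff (u v w x : Fin n) (h : Dist4 u v w x) :
    Disjoint (touch u v \ Ms u v w x) (touch w x) := by
  obtain ⟨huv, huw, hux, hvw, hvx, hwx⟩ := h
  rw [Set.disjoint_left]
  intro e he he'
  obtain ⟨he1, he2⟩ := he
  apply he2
  simp only [touch, Set.mem_ofPred_eq] at he1 he'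
  simp only [Ms, Set.mem_insert_iff, Set.mem_singleton_iff]
  rcases he1 with h1 | h1 <;> rcases he' with h2 | h2
  · left
    exact ((Sym2.mem_and_mem_iff huw).1 ⟨h1, h2⟩)
  · right; left
    exact ((Sym2.mem_and_mem_iff hux).1 ⟨h1, h2⟩)
  · right; right; left
    exact ((Sym2.mem_and_mem_iff hvw).1 ⟨h1, h2⟩)
  · right; right; right
    exact ((Sym2.mem_and_mem_iff hvx).1 ⟨h1, h2⟩)

end

end Vale.Agent.P335
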