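import Vale.Agent.P335.TripleGraph
import Vale.Agent.P335.Slots
import Vale.Agent.P335.ThreeRow

/-!
# P335: three vertices, the fibre of `keyOff (touch3 ..)` is a 3-row system

`fibEquiv u hu G0` identifies the fibre through `G0` with `Col (eps0 u G0.1) (q0 u G0)`, and the keys
`keyOff (touch (u (i+1)) (u (i+2)))` correspond to the colour classes `rowKey i`.
-/

namespace Vale.Agent.P335.Triple

open Finset

open scoped Classical

noncomputable section

variable {n : ℕ} {d : Fin n → ℕ}

/-- the key of the triple -/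
def key3 (u : Fin 3 → Fin n) (G : Omega d) : Set (Sym2 (Fin n)) :=
  keyOff (touch3 (u 0) (u 1) (u 2)) G

theorem adj_out_of_key3 (u : Fin 3 → Fin n) {G G' : Omega d} (h : key3 u G = key3 u G')
    (a b : Fin n) (ha : ∀ k, a ≠ u k) (hb : ∀ k, b ≠ u k) : G.1.Adj a b ↔ G'.1.Adj a b := by
  refine adj_iff_of_keyOff_eq h ?_
  rw [mk_mem_touch3]
  rintro (⟨k, hk⟩ | ⟨k, hk⟩)
  · exact ha k hk
  · exact hb k hk

theorem key3_eq_of_adj_out (u : Fin 3 → Fin n) {G G' : Omega d}
    (h : ∀ a b, (∀ k, a ≠ u k) → (∀ k, b ≠ u k) → (G.1.Adj a b ↔ G'.1.Adj a b)) :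
    key3 u G = key3 u G' := by
  rw [key3, key3, keyOff_eq_iff]
  intro e
  induction e using Sym2.inductionOn with
  | hf a b =>
    intro he
    rw [mk_mem_touch3] at he
    push Not at he
    exact h a b he.1 he.2

/-- sum of the three row identities -/
theorem two_cs_none (u : Fin 3 → Fin n) (hu : Function.Injective u) (G : SimpleGraph (Fin n)) :
    2 * cs u G none = ∑ y, cs u G (some y) + 6 - ∑ i, (G.degree (u i) : ℤ) := by
  have h : ∀ i, (G.degree (u i) : ℤ) = ∑ c, ind (cell u G c i) + 2 - cs u G none :=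
    deg_row u hu G
  simp_rw [h]
  rw [sum_sub_distrib, sum_add_distrib, sum_comm]
  have h2 : ∀ c, ∑ i, ind (cell u G c i) = cs u G c := fun c => (cnt_eq_sum _).symm
  simp_rw [h2]
  rw [Fintype.sum_option]
  simp
  ring

/-- (P1) column sums are constant on the fibre -/
theorem cs_eq_of_key3 (u : Fin 3 → Fin n) (hu : Function.Injective u) {G G' : Omega d}
    (h : key3 u G = key3 u G') (c : Option (Fin n)) : cs u G.1 c = cs u G'.1 c := by
  have hsome : ∀ y, cs u G.1 (some y) = cs u G'.1 (some y) := by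
    intro y
    by_cases hy : ∀ k, y ≠ u k
    · have e1 := deg_col u hu G.1 y hy
      have e2 := deg_col u hu G'.1 y hy
      rw [G.2 y] at e1
      rw [G'.2 y] at e2
      have e3 : ∑ b, ind ((∀ k, b ≠ u k) ∧ G.1.Adj y b) =
          ∑ b, ind ((∀ k, b ≠ u k) ∧ G'.1.Adj y b) := by
        refine sum_congr rfl (fun b _ => ind_congr ?_)
        constructor
        · rintro ⟨hb, hab⟩
          exact ⟨hb, (adj_out_of_key3 u h y b hy hb).1 hab⟩
        · rintro ⟨hb, hab⟩
          exact ⟨hb, (adj_out_of_key3 u h y b hy hb).2 hab⟩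
      linarith
    · rw [cs_some_of_mem u _ y hy, cs_some_of_mem u _ y hy]
  cases c with
  | some y => exact hsome y
  | none =>
    have e1 := two_cs_none u hu G.1
    have e2 := two_cs_none u hu G'.1
    simp_rw [G.2] at e1
    simp_rw [G'.2] at e2
    simp_rw [hsome] at e1
    linarith

/-- the charges of the columns -/
def eps0 (u : Fin 3 → Fin n) (G0 : SimpleGraph (Fin n)) (c : Option (Fin n)) : ℤ :=
  epsOf (cs u G0 c)

/-- the charges of the colours -/
def q0 (u : Fin 3 → Fin n) (G0 : Omega d) (i : Fin 3) : ℤ :=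
  (d (u i) : ℤ) - 2 + cs u G0.1 none - ∑ c, baseOf (cs u G0.1 c)

/-- charge of the colour `i` in terms of the degree of `u i` -/
theorem charge_eq (u : Fin 3 → Fin n) (hu : Function.Injective u) (G : SimpleGraph (Fin n))
    (i : Fin 3) :
    ∑ c ∈ univ.filter (fun c => chiOf u G c = i), eps0 u G c =
      (G.degree (u i) : ℤ) - 2 + cs u G none - ∑ c, baseOf (cs u G c) := by
  rw [deg_row u hu G i, sum_filter]
  have h : ∀ c, ind (cell u G c i) =
      baseOf (cs u G c) + (if chiOf u G c = i then eps0 u G c else 0) := by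
    intro c
    rw [ind_eq_base (cell u G c) i]
    unfold cs chiOf eps0 cs ind
    split_ifs <;> simp
  simp_rw [h]
  rw [sum_add_distrib]
  ring

theorem eps0_eq_of_key3 (u : Fin 3 → Fin n) (hu : Function.Injective u) {G G' : Omega d}
    (h : key3 u G = key3 u G') : eps0 u G.1 = eps0 u G'.1 := by
  funext c
  unfold eps0
  rw [cs_eq_of_key3 u hu h c]

/-- (P2) the colouring of a graph of the fibre is admissible -/
theorem isCol_chiOf (u : Fin 3 → Fin n) (hu : Function.Injective u) {G G0 : Omega d}
    (h : key3 u G = key3 u G0) : IsCol (eps0 u G0.1) (q0 u G0) (chiOf u G.1) := by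
  constructor
  · intro c hc
    rw [← eps0_eq_of_key3 u hu h] at hc
    exact colOf_of_eps_zero _ hc
  · intro i
    rw [← eps0_eq_of_key3 u hu h]
    have := charge_eq u hu G.1 i
    rw [G.2] at this
    simp_rw [cs_eq_of_key3 u hu h] at this
    unfold q0
    convert this using 2

/-- cells and colours -/
theorem cell_iff_chi (u : Fin 3 → Fin n) (G G' : SimpleGraph (Fin n)) (c : Option (Fin n))
    (hcs : cs u G c = cs u G' c) (i : Fin 3) :
    (cell u G c i ↔ cell u G' c i) ↔ (chiOf u G c = i ↔ chiOf u G' c = i) := by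
  have hA : (cell u G c i ↔ cell u G' c i) ↔ ind (cell u G c i) = ind (cell u G' c i) :=
    ind_eq_iff.symm
  have hB : (chiOf u G c = i ↔ chiOf u G' c = i) ↔
      ind (chiOf u G c = i) = ind (chiOf u G' c = i) := ind_eq_iff.symm
  rw [hA, hB, ind_eq_base (cell u G c) i, ind_eq_base (cell u G' c) i]
  change baseOf (cs u G c) + epsOf (cs u G c) * ind (chiOf u G c = i) =
    baseOf (cs u G' c) + epsOf (cs u G' c) * ind (chiOf u G' c = i) ↔ _
  rw [hcs]
  by_cases h0 : epsOf (cs u G' c) = 0
  · have e1 : chiOf u G c = 0 := colOf_of_eps_zero _ (by rw [← h0, ← hcs]; rfl)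
    have e2 : chiOf u G' c = 0 := colOf_of_eps_zero _ h0
    rw [h0, e1, e2]
    simp
  · constructor
    · intro h
      exact mul_left_cancel₀ h0 (add_left_cancel h)
    · intro h
      rw [h]

/-- (P3) injectivity -/
theorem eq_of_chiOf_eq (u : Fin 3 → Fin n) (hu : Function.Injective u) {G G' : Omega d}
    (h : key3 u G = key3 u G') (hchi : chiOf u G.1 = chiOf u G'.1) : G = G' := by
  apply Subtype.ext
  refine eq_of_cells u G.1 G'.1 (adj_out_of_key3 u h) (fun c i => ?_)
  rw [cell_iff_chi u G.1 G'.1 c (cs_eq_of_key3 u hu h c) i, hchi]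

/-- (P4) surjectivity -/
theorem exists_of_isCol (u : Fin 3 → Fin n) (hu : Function.Injective u) (G0 : Omega d)
    (chi : Option (Fin n) → Fin 3) (hchi : IsCol (eps0 u G0.1) (q0 u G0) chi) :
    ∃ G : Omega d, key3 u G = key3 u G0 ∧ chiOf u G.1 = chi := by
  set m : Option (Fin n) → Fin 3 → Prop := fun c i => dec (cs u G0.1 c) (chi c) i with hm
  set H := mkG u G0.1 m with hH
  have hm0 : ∀ y i, m (some y) i → ∀ k, y ≠ u k := by
    intro y i hmi
    by_contra hy
    have h0 := cs_some_of_mem u G0.1 y hy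
    simp only [hm, dec, h0] at hmi
    omega
  have hcell : ∀ c i, cell u H c i ↔ m c i := cell_mkG u hu G0.1 m hm0
  have hcellf : ∀ c, cell u H c = m c := fun c => funext (fun i => propext (hcell c i))
  have hcs : ∀ c, cs u H c = cs u G0.1 c := by
    intro c
    unfold cs
    rw [hcellf c]
    exact cnt_dec _ (cnt_range _) _
  have hcol : chiOf u H = chi := by
    funext c
    unfold chiOf
    rw [hcellf c]
    by_cases h0 : epsOf (cs u G0.1 c) = 0
    · rw [hchi.1 c h0]
      apply colOf_of_eps_zero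
      rw [← hcellf c]
      change epsOf (cs u H c) = 0
      rw [hcs c]; exact h0
    · exact colOf_dec _ _ h0
  have heps : eps0 u H = eps0 u G0.1 := by
    funext c
    unfold eps0
    rw [hcs c]
  have hdeg : ∀ a, H.degree a = d a := by
    intro a
    by_cases ha : ∀ k, a ≠ u k
    · have e1 := deg_col u hu H a ha
      have e2 := deg_col u hu G0.1 a ha
      rw [G0.2 a] at e2
      have e3 : ∑ b, ind ((∀ k, b ≠ u k) ∧ H.Adj a b) =
          ∑ b, ind ((∀ k, b ≠ u k) ∧ G0.1.Adj a b) := by
        refine sum_congr rfl (fun b _ => ind_congr ?_)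
        constructor
        · rintro ⟨hb, hab⟩
          exact ⟨hb, (mkG_adj_out u G0.1 m a b ha hb).1 hab⟩
        · rintro ⟨hb, hab⟩
          exact ⟨hb, (mkG_adj_out u G0.1 m a b ha hb).2 hab⟩
      rw [e3, hcs] at e1
      have : (H.degree a : ℤ) = (d a : ℤ) := by linarith
      exact_mod_cast this
    · push Not at ha
      obtain ⟨i, rfl⟩ := ha
      have e1 := charge_eq u hu H i
      rw [hcol, heps] at e1
      simp_rw [hcs] at e1
      have e2 := hchi.2 i
      unfold q0 at e2
      have e3 : ∑ c ∈ univ.filter (fun c => chi c = i), eps0 u G0.1 c =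
          (d (u i) : ℤ) - 2 + cs u G0.1 none - ∑ c, baseOf (cs u G0.1 c) := by
        convert e2 using 2
      have : (H.degree (u i) : ℤ) = (d (u i) : ℤ) := by linarith
      exact_mod_cast this
  refine ⟨⟨H, hdeg⟩, ?_, hcol⟩
  exact key3_eq_of_adj_out u (fun a b ha hb => mkG_adj_out u G0.1 m a b ha hb)

/-- (P5), step A: the key of the pair opposite to `u i` is the row `i` of the real columns -/
theorem keyOff_touch_iff (u : Fin 3 → Fin n) (hu : Function.Injective u) {G G' : Omega d}
    (h : key3 u G = key3 u G') (i : Fin 3) :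
    keyOff (touch (u (i + 1)) (u (i + 2))) G = keyOff (touch (u (i + 1)) (u (i + 2))) G' ↔
      ∀ y, (cell u G.1 (some y) i ↔ cell u G'.1 (some y) i) := by
  constructor
  · intro hk y
    rw [cell_some, cell_some]
    have hrow : (∀ k, y ≠ u k) → (G.1.Adj (u i) y ↔ G'.1.Adj (u i) y) := by
      intro hy
      refine adj_iff_of_keyOff_eq hk ?_
      rw [mk_mem_touch]
      rintro ((h1 | h1) | (h1 | h1))
      · exact fin3_ne1 i (hu h1)
      · exact hy _ h1.symm
      · exact fin3_ne2 i (hu h1)
      · exact hy _ h1.symm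
    constructor
    · rintro ⟨hy, ha⟩
      exact ⟨hy, (hrow hy).1 ha⟩
    · rintro ⟨hy, ha⟩
      exact ⟨hy, (hrow hy).2 ha⟩
  · intro hc
    have hrow : ∀ y, (∀ k, y ≠ u k) → (G.1.Adj (u i) y ↔ G'.1.Adj (u i) y) := by
      intro y hy
      have := hc y
      rw [cell_some, cell_some] at this
      exact ⟨fun ha => (this.1 ⟨hy, ha⟩).2, fun ha => (this.2 ⟨hy, ha⟩).2⟩
    rw [keyOff_eq_iff]
    intro e
    induction e using Sym2.inductionOn with
    | hf a b =>
      intro he
      rw [mk_mem_touch] at he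
      push Not at he
      obtain ⟨⟨h1a, h1b⟩, h2a, h2b⟩ := he
      have hki : ∀ k x, x = u k → u (i + 1) ≠ x → u (i + 2) ≠ x → k = i := by
        intro k x hx h1 h2
        rcases fin3_cases i k with hk | hk | hk
        · exact hk
        · exact absurd (by rw [hx, hk]) h1
        · exact absurd (by rw [hx, hk]) h2
      rw [SimpleGraph.mem_edgeSet, SimpleGraph.mem_edgeSet]
      by_cases ha : ∀ k, a ≠ u k
      · by_cases hb : ∀ k, b ≠ u k
        · exact adj_out_of_key3 u h a b ha hb
        · push Not at hb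
          obtain ⟨k, hk⟩ := hb
          have := hki k b hk h1b h2b
          subst this
          subst hk
          rw [G.1.adj_comm, G'.1.adj_comm]
          exact hrow a ha
      · push Not at ha
        obtain ⟨k, hk⟩ := ha
        have := hki k a hk h1a h2a
        subst this
        subst hk
        by_cases hb : ∀ k, b ≠ u k
        · exact hrow b hb
        · push Not at hb
          obtain ⟨k', hk'⟩ := hb
          have := hki k' b hk' h1b h2b
          subst this
          subst hk'
          simp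

/-- (P5), step B: the virtual cell of row `i` is determined by the real cells of row `i` -/
theorem cell_none_iff (u : Fin 3 → Fin n) (hu : Function.Injective u) {G G' : Omega d}
    (h : key3 u G = key3 u G') (i : Fin 3)
    (hc : ∀ y, (cell u G.1 (some y) i ↔ cell u G'.1 (some y) i)) :
    cell u G.1 none i ↔ cell u G'.1 none i := by
  have e1 := deg_row u hu G.1 i
  have e2 := deg_row u hu G'.1 i
  rw [G.2, Fintype.sum_option] at e1
  rw [G'.2, Fintype.sum_option] at e2
  have e3 : ∑ y, ind (cell u G.1 (some y) i) = ∑ y, ind (cell u G'.1 (some y) i) :=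
    sum_congr rfl (fun y _ => ind_congr (hc y))
  have e4 := cs_eq_of_key3 u hu h none
  rw [← ind_eq_iff]
  linarith

/-- (P5) -/
theorem keyOff_touch_iff_chi (u : Fin 3 → Fin n) (hu : Function.Injective u) {G G' : Omega d}
    (h : key3 u G = key3 u G') (i : Fin 3) :
    keyOff (touch (u (i + 1)) (u (i + 2))) G = keyOff (touch (u (i + 1)) (u (i + 2))) G' ↔
      ∀ c, (chiOf u G.1 c = i ↔ chiOf u G'.1 c = i) := by
  rw [keyOff_touch_iff u hu h i]
  constructor
  · intro hc c
    rw [← cell_iff_chi u G.1 G'.1 c (cs_eq_of_key3 u hu h c) i]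
    cases c with
    | none => exact cell_none_iff u hu h i hc
    | some y => exact hc y
  · intro hc y
    rw [cell_iff_chi u G.1 G'.1 (some y) (cs_eq_of_key3 u hu h _) i]
    exact hc (some y)

/-- the fibre through `G0` is a 3-row system -/
def fibEquiv (u : Fin 3 → Fin n) (hu : Function.Injective u) (G0 : Omega d) :
    {G : Omega d // key3 u G = key3 u G0} ≃ Col (eps0 u G0.1) (q0 u G0) :=
  Equiv.ofBijective (fun G => ⟨chiOf u G.1.1, isCol_chiOf u hu G.2⟩)
    ⟨fun G G' hGG' => Subtype.ext
        (eq_of_chiOf_eq u hu (G.2.trans G'.2.symm) (congrArg Subtype.val hGG')),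
      fun chi => by
        obtain ⟨G, hG, hc⟩ := exists_of_isCol u hu G0 chi.1 chi.2
        exact ⟨⟨G, hG⟩, Subtype.ext hc⟩⟩

theorem fibEquiv_val (u : Fin 3 → Fin n) (hu : Function.Injective u) (G0 : Omega d)
    (G : {G : Omega d // key3 u G = key3 u G0}) : (fibEquiv u hu G0 G).1 = chiOf u G.1.1 := rfl

theorem fibEquiv_key (u : Fin 3 → Fin n) (hu : Function.Injective u) (G0 : Omega d) (i : Fin 3)
    (G G' : {G : Omega d // key3 u G = key3 u G0}) :
    keyOff (touch (u (i + 1)) (u (i + 2))) G.1 = keyOff (touch (u (i + 1)) (u (i + 2))) G'.1 ↔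
      rowKey i (fibEquiv u hu G0 G) = rowKey i (fibEquiv u hu G0 G') := by
  rw [keyOff_touch_iff_chi u hu (G.2.trans G'.2.symm) i, Set.ext_iff]
  exact Iff.rfl

theorem eps0_cases (u : Fin 3 → Fin n) (G0 : SimpleGraph (Fin n)) (c : Option (Fin n)) :
    eps0 u G0 c = 1 ∨ eps0 u G0 c = -1 ∨ eps0 u G0 c = 0 := epsOf_cases _

end

end Vale.Agent.P335.Triple
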