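import Vale.Agent.P335.Slots
import Vale.Agent.P335.ThreeRow
import Vale.Agent.P335.TripleFibre

/-!
# P335: three vertices (adjacent pairs)

ADJ: for distinct `u0 u1 u2`:
`0 <= <R u0 u1 f, R u0 u2 f> + <R u0 u1 f, R u1 u2 f> + <R u0 u2 f, R u1 u2 f>`,
equivalently `<f, D_T f> <= |D_T f|^2` for `D_T = R u1 u2 + R u0 u2 + R u0 u1`.

Proof.  Everything decomposes over the fibres of `keyOff (touch3 u0 u1 u2)`.  Fix a fibre, with
representative `G0`.  Columns `J = Option (Fin n)`.
* `some y`, `y` outside `T = {u0,u1,u2}`, `s y` = number of neighbours of `y` in `T` (constant on the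
  fibre): `eps = 1` if `s y = 1`, `-1` if `s y = 2`, `0` otherwise; also `eps (some y) = 0` for `y` in `T`.
  Colour of `G` at `some y`: the `i` with `G.Adj (u i) y` if `s y = 1`; the `i` with
  `not G.Adj (u i) y` if `s y = 2`; `0` if frozen.
* `none` (virtual column): `e` = number of edges of `G` inside `T` (constant on the fibre).
  `e = 1`: `eps = -1`, colour = the `i` such that `u i` is not on the inner edge.
  `e = 2`: `eps = 1`, colour = the `i` such that `u i` is on both inner edges.  `e = 0, 3`: frozen.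
Then `deg (u i) = const + charge of colour i`, the map `G -> colouring` is a bijection from the fibre
onto `Col eps q`, and `keyOff (touch (u j) (u k)) G = keyOff (touch (u j) (u k)) G'` iff the colour
classes `i` agree (`{i,j,k} = {0,1,2}`).  Use `avg_transport` and `three_row`.
-/

namespace Vale.Agent.P335

open Finset Triple

open scoped Classical

noncomputable section

variable {n : ℕ} {d : Fin n → ℕ}

/-- `D_T` -/
def DT (u v w : Fin n) (f : Omega d → ℝ) : Omega d → ℝ :=
  fun G => R u v f G + R u w f G + R v w f G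

/-- the inequality on one fibre, transported from the 3-row lemma -/
theorem fibre_ineq {J : Type*} [Fintype J] {eps : J → ℤ} {q : Fin 3 → ℤ}
    (heps : ∀ j, eps j = 1 ∨ eps j = -1 ∨ eps j = 0)
    (u v w : Fin n) (C : Omega d → Prop)
    (hC : ∀ G G' : Omega d, keyOff (touch3 u v w) G = keyOff (touch3 u v w) G' → (C G ↔ C G'))
    (e : {G : Omega d // C G} ≃ Col eps q)
    (h0 : ∀ x y : {G : Omega d // C G},
      keyOff (touch v w) x.1 = keyOff (touch v w) y.1 ↔ rowKey 0 (e x) = rowKey 0 (e y))
    (h1 : ∀ x y : {G : Omega d // C G},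
      keyOff (touch u w) x.1 = keyOff (touch u w) y.1 ↔ rowKey 1 (e x) = rowKey 1 (e y))
    (h2 : ∀ x y : {G : Omega d // C G},
      keyOff (touch u v) x.1 = keyOff (touch u v) y.1 ↔ rowKey 2 (e x) = rowKey 2 (e y))
    (f : Omega d → ℝ) :
    ∑ x : {G : Omega d // C G}, f x.1 * DT u v w f x.1 ≤
      ∑ x : {G : Omega d // C G}, DT u v w f x.1 * DT u v w f x.1 := by
  set g : Col eps q → ℝ := fun chi => f (e.symm chi).1 with hg
  have sub_vw : touch v w ⊆ touch3 u v w := by
    intro s hs
    rcases hs with hs | hs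
    · exact Or.inr (Or.inl hs)
    · exact Or.inr (Or.inr hs)
  have sub_uw : touch u w ⊆ touch3 u v w := by
    intro s hs
    rcases hs with hs | hs
    · exact Or.inl hs
    · exact Or.inr (Or.inr hs)
  have sub_uv : touch u v ⊆ touch3 u v w := by
    intro s hs
    rcases hs with hs | hs
    · exact Or.inl hs
    · exact Or.inr (Or.inl hs)
  have t0 : ∀ x : {G : Omega d // C G},
      Q (touch v w) f x.1 = avg (rowKey 0) g (e x) := fun x =>
    avg_transport (keyOff (touch v w)) (rowKey 0) C
      (fun G G' hk => hC G G' (keyOff_mono sub_vw hk)) e h0 f x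
  have t1 : ∀ x : {G : Omega d // C G},
      Q (touch u w) f x.1 = avg (rowKey 1) g (e x) := fun x =>
    avg_transport (keyOff (touch u w)) (rowKey 1) C
      (fun G G' hk => hC G G' (keyOff_mono sub_uw hk)) e h1 f x
  have t2 : ∀ x : {G : Omega d // C G},
      Q (touch u v) f x.1 = avg (rowKey 2) g (e x) := fun x =>
    avg_transport (keyOff (touch u v)) (rowKey 2) C
      (fun G G' hk => hC G G' (keyOff_mono sub_uv hk)) e h2 f x
  have hf : ∀ x : {G : Omega d // C G}, f x.1 = g (e x) := by
    intro x
    simp [hg]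
  have hD : ∀ x : {G : Omega d // C G}, DT u v w f x.1 = D3 g (e x) := by
    intro x
    unfold DT R D3
    rw [Fin.sum_univ_three, t0, t1, t2, hf]
    ring
  have key := three_row heps g
  unfold ip at key
  simp_rw [hD, hf]
  rw [Equiv.sum_comp e (fun chi => g chi * D3 g chi),
    Equiv.sum_comp e (fun chi => D3 g chi * D3 g chi)]
  exact key

/-- a sum over a class as a sum over a subtype -/
theorem sum_cls_eq_sum_subtype {X : Type*} [Fintype X] {K : Type*} (k : X → K) (x0 : X)
    (F : X → ℝ) (C : X → Prop) (hC : ∀ x, C x ↔ k x = k x0) :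
    ∑ x ∈ cls k x0, F x = ∑ x : {x // C x}, F x.1 := by
  have h1 : cls k x0 = univ.filter C := by
    ext x
    simp [mem_cls, hC]
  rw [h1]
  exact (Finset.sum_subtype_eq_sum_filter (s := univ) (p := C) (f := F)).symm.trans (by simp)

/-- the 3-vertex lemma -/
theorem triple_ineq (u v w : Fin n) (huv : u ≠ v) (huw : u ≠ w) (hvw : v ≠ w) (f : Omega d → ℝ) :
    ip f (DT u v w f) ≤ ip (DT u v w f) (DT u v w f) := by
  set uu : Fin 3 → Fin n := ![u, v, w] with huu
  have hinj : Function.Injective uu := by
    intro i j hij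
    fin_cases i <;> fin_cases j <;> simp_all
  set F : Omega d → ℝ := fun G => DT u v w f G * DT u v w f G - f G * DT u v w f G with hF
  have hfib : ∀ G0 : Omega d, 0 ≤ ∑ G ∈ cls (keyOff (touch3 u v w)) G0, F G := by
    intro G0
    have hk3 : ∀ G : Omega d, key3 uu G = keyOff (touch3 u v w) G := fun G => rfl
    have h := fibre_ineq (eps0_cases uu G0.1) u v w (fun G => key3 uu G = key3 uu G0)
      (fun G G' hk => by rw [hk3, hk3, hk3, hk])
      (fibEquiv uu hinj G0)
      (fun x y => fibEquiv_key uu hinj G0 0 x y)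
      (fun x y => by
        have := fibEquiv_key uu hinj G0 1 x y
        rw [touch_comm u w]
        exact this)
      (fun x y => fibEquiv_key uu hinj G0 2 x y) f
    rw [sum_cls_eq_sum_subtype (keyOff (touch3 u v w)) G0 F (fun G => key3 uu G = key3 uu G0)
      (fun G => Iff.rfl), hF]
    simp only [sum_sub_distrib]
    linarith
  have hsum : 0 ≤ ∑ G, F G := by
    rw [← sum_avg (keyOff (touch3 u v w)) F]
    refine sum_nonneg (fun G0 _ => ?_)
    unfold avg
    exact div_nonneg (hfib G0) (Nat.cast_nonneg _)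
  rw [hF, sum_sub_distrib] at hsum
  unfold ip
  linarith

/-- ADJ -/
theorem adj_ineq (u v w : Fin n) (huv : u ≠ v) (huw : u ≠ w) (hvw : v ≠ w) (f : Omega d → ℝ) :
    0 ≤ ip (R u v f) (R u w f) + ip (R u v f) (R v w f) + ip (R u w f) (R v w f) := by
  have h := triple_ineq u v w huv huw hvw f
  have hDT : DT u v w f = R u v f + R u w f + R v w f := rfl
  rw [hDT] at h
  simp only [ip_add_left, ip_add_right] at h
  rw [ip_R_R, ip_R_R, ip_R_R, ip_comm (R u w f) (R u v f), ip_comm (R v w f) (R u v f),
    ip_comm (R v w f) (R u w f)] at h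
  linarith

end

end Vale.Agent.P335
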