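import Vale.Agent.P335.Defs
import Vale.Agent.P335.Mixing

/-!
# P335: from the spectral gap of the switch graph to the mixing time bound

`SwitchGap d` is the statement that the Laplacian of the switch graph on `Omega d` is at least `2`
on functions of mean zero.  It implies `tmix d ≤ n ^ 6`.
-/

namespace Vale.Agent.P335

open Finset

open scoped Classical

noncomputable section

variable {n : ℕ}

/-- The Laplacian of the switch graph on `Omega d` has spectral gap at least `2`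
(Poincare inequality form; the double sum runs over ordered pairs, hence the factor `1/2`). -/
def SwitchGap (d : Fin n → ℕ) : Prop :=
  ∀ f : Omega d → ℝ,
    2 * ∑ G, (f G - (∑ H, f H) / (Fintype.card (Omega d) : ℝ)) ^ 2 ≤
      1 / 2 * ∑ G : Omega d, ∑ G' : Omega d,
        if SwitchAdj G.1 G'.1 then (f G - f G') ^ 2 else 0

theorem card_Omega_le (d : Fin n → ℕ) : Fintype.card (Omega d) ≤ 2 ^ (n + 1).choose 2 := by
  have h1 : Fintype.card (Omega d) ≤ Fintype.card (Set (Sym2 (Fin n))) := by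
    apply Fintype.card_le_of_injective (fun G : Omega d => G.1.edgeSet)
    intro G G' h
    exact Subtype.ext (SimpleGraph.edgeSet_inj.mp h)
  rw [Fintype.card_set, Sym2.card, Fintype.card_fin] at h1
  exact h1

theorem poincare_of_gap (d : Fin n → ℕ) (hgap : SwitchGap d) (f : Omega d → ℝ) :
    (1 / (6 * (n.choose 4 : ℝ))) * ∑ G, (f G - (∑ H, f H) / (Fintype.card (Omega d) : ℝ)) ^ 2 ≤
      1 / 2 * ∑ G, ∑ G', P d G G' * (f G - f G') ^ 2 := by
  rw [P_dirichlet_eq]
  have h := hgap f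
  have hc : (0 : ℝ) ≤ 1 / (12 * (n.choose 4 : ℝ)) := by positivity
  have h2 := mul_le_mul_of_nonneg_left h hc
  calc (1 / (6 * (n.choose 4 : ℝ))) *
        ∑ G, (f G - (∑ H, f H) / (Fintype.card (Omega d) : ℝ)) ^ 2
      = 1 / (12 * (n.choose 4 : ℝ)) *
        (2 * ∑ G, (f G - (∑ H, f H) / (Fintype.card (Omega d) : ℝ)) ^ 2) := by
        by_cases hz : (n.choose 4 : ℝ) = 0
        · simp [hz]
        · field_simp
          ring
    _ ≤ _ := h2
    _ = _ := by ring

theorem log_card_le (hn : 4 ≤ n) (d : Fin n → ℕ) [Nonempty (Omega d)] :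
    Real.log (4 * (Fintype.card (Omega d) : ℝ)) ≤ (1 / (6 * (n.choose 4 : ℝ))) * ((n ^ 6 : ℕ) : ℝ) := by
  have hcard : (0 : ℝ) < (Fintype.card (Omega d) : ℝ) := by exact_mod_cast Fintype.card_pos
  have hn' : (4 : ℝ) ≤ n := by exact_mod_cast hn
  have h1 : (4 * (Fintype.card (Omega d) : ℝ)) ≤ (2 : ℝ) ^ (2 + (n + 1).choose 2) := by
    have : (Fintype.card (Omega d) : ℝ) ≤ (2 : ℝ) ^ (n + 1).choose 2 := by
      exact_mod_cast card_Omega_le d
    rw [pow_add]
    nlinarith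
  have h2 : Real.log (4 * (Fintype.card (Omega d) : ℝ)) ≤ (2 + (n + 1).choose 2 : ℕ) * Real.log 2 := by
    rw [← Real.log_pow]
    exact Real.log_le_log (by positivity) h1
  have hlog2 : Real.log 2 ≤ 1 := by
    have := Real.log_two_lt_d9
    linarith
  have hch2 : (((n + 1).choose 2 : ℕ) : ℝ) ≤ (n : ℝ) ^ 2 := by
    have : (n + 1).choose 2 ≤ n ^ 2 := by
      rw [Nat.choose_two_right]
      have : (n + 1) * (n + 1 - 1) ≤ 2 * n ^ 2 := by
        simp only [Nat.add_sub_cancel]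
        nlinarith
      omega
    exact_mod_cast this
  have h3 : Real.log (4 * (Fintype.card (Omega d) : ℝ)) ≤ 2 + (n : ℝ) ^ 2 := by
    calc _ ≤ ((2 + (n + 1).choose 2 : ℕ) : ℝ) * Real.log 2 := h2
      _ ≤ ((2 + (n + 1).choose 2 : ℕ) : ℝ) * 1 :=
          mul_le_mul_of_nonneg_left hlog2 (by positivity)
      _ ≤ 2 + (n : ℝ) ^ 2 := by push_cast; linarith
  have hch4 : (n.choose 4 : ℝ) ≤ (n : ℝ) ^ 4 / 24 := by
    have := Nat.choose_le_pow_div (α := ℝ) 4 n
    simpa [Nat.factorial] using this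
  have hpos : (0 : ℝ) < (n.choose 4 : ℝ) := by exact_mod_cast Nat.choose_pos hn
  have h4 : 4 * (n : ℝ) ^ 2 ≤ (1 / (6 * (n.choose 4 : ℝ))) * ((n ^ 6 : ℕ) : ℝ) := by
    rw [one_div, inv_mul_eq_div, le_div_iff₀ (by positivity)]
    push_cast
    have : 4 * (n : ℝ) ^ 2 * (6 * (n.choose 4 : ℝ)) ≤ 4 * (n : ℝ) ^ 2 * (6 * ((n : ℝ) ^ 4 / 24)) := by
      apply mul_le_mul_of_nonneg_left _ (by positivity)
      linarith
    calc _ ≤ 4 * (n : ℝ) ^ 2 * (6 * ((n : ℝ) ^ 4 / 24)) := this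
      _ = (n : ℝ) ^ 6 := by ring
  nlinarith

/-- The spectral gap bound implies that the chain is mixed at time `n ^ 6`. -/
theorem mixed_of_gap (hn : 4 ≤ n) (d : Fin n → ℕ) [Nonempty (Omega d)] (hgap : SwitchGap d) :
    Mixed d (n ^ 6) := by
  intro G
  exact tv_le_quarter_of_poincare (P d) (P_symm d) (P_nonneg d) (P_row_sum d hn) (half_le_P_diag d)
    (1 / (6 * (n.choose 4 : ℝ))) (poincare_of_gap d hgap) (n ^ 6) (log_card_le hn d) G

theorem tmix_le_of_gap (hn : 4 ≤ n) (d : Fin n → ℕ) [Nonempty (Omega d)] (hgap : SwitchGap d) :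
    tmix d ≤ n ^ 6 :=
  tmix_le_of_mixed (mixed_of_gap hn d hgap)

end

end Vale.Agent.P335
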