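import Vale.Agent.P335.Core

/-!
# P335: inner product lemmas for the averaging operators `avg k` (complements file Avg)

All statements are for a finite type `X` with the counting measure.
-/

namespace Vale.Agent.P335

open Finset

open scoped Classical

noncomputable section

variable {X : Type*} [Fintype X] {K K' : Type*}

theorem ip_comm (f g : X → ℝ) : ip f g = ip g f := by
  unfold ip; exact sum_congr rfl (fun x _ => mul_comm _ _)

theorem ip_add_left (f g h : X → ℝ) : ip (f + g) h = ip f h + ip g h := by
  unfold ip; rw [← sum_add_distrib]; exact sum_congr rfl (fun _ _ => by simp [add_mul])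

theorem ip_sub_left (f g h : X → ℝ) : ip (f - g) h = ip f h - ip g h := by
  unfold ip; rw [← sum_sub_distrib]; exact sum_congr rfl (fun _ _ => by simp [sub_mul])

theorem ip_add_right (f g h : X → ℝ) : ip f (g + h) = ip f g + ip f h := by
  rw [ip_comm, ip_add_left, ip_comm g, ip_comm h]

theorem ip_sub_right (f g h : X → ℝ) : ip f (g - h) = ip f g - ip f h := by
  rw [ip_comm, ip_sub_left, ip_comm g, ip_comm h]

theorem ip_smul_left (c : ℝ) (f g : X → ℝ) : ip (c • f) g = c * ip f g := by
  unfold ip; rw [mul_sum]; exact sum_congr rfl (fun x _ => by simp [mul_assoc])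

theorem ip_smul_right (c : ℝ) (f g : X → ℝ) : ip f (c • g) = c * ip f g := by
  rw [ip_comm, ip_smul_left, ip_comm]

theorem ip_self_nonneg (f : X → ℝ) : 0 ≤ ip f f := sum_nonneg (fun x _ => mul_self_nonneg _)

theorem ip_sum_left {ι : Type*} (s : Finset ι) (F : ι → X → ℝ) (g : X → ℝ) :
    ip (∑ i ∈ s, F i) g = ∑ i ∈ s, ip (F i) g := by
  unfold ip
  rw [sum_comm]
  exact sum_congr rfl (fun x _ => by rw [Finset.sum_apply, sum_mul])

theorem ip_sum_right {ι : Type*} (s : Finset ι) (f : X → ℝ) (G : ι → X → ℝ) :
    ip f (∑ i ∈ s, G i) = ∑ i ∈ s, ip f (G i) := by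
  rw [ip_comm, ip_sum_left]; exact sum_congr rfl (fun i _ => ip_comm _ _)

/-- linear map version of `avg` -/
def avgL (k : X → K) : (X → ℝ) →ₗ[ℝ] (X → ℝ) where
  toFun := avg k
  map_add' := avg_add k
  map_smul' := by
    intro c f
    simpa using avg_smul k c f

@[simp] theorem avgL_apply (k : X → K) (f : X → ℝ) : avgL k f = avg k f := rfl

/-- `avg k f` is constant on the fibres of `k` -/
theorem avg_eq_of_key_eq (k : X → K) (f : X → ℝ) {x y : X} (h : k x = k y) :
    avg k f x = avg k f y :=
  avg_congr_key f h

/-- a function constant on the fibres is fixed -/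
theorem avg_of_inv (k : X → K) (f : X → ℝ) (h : ∀ x y, k x = k y → f x = f y) : avg k f = f :=
  avg_of_invariant h

/-- symmetry -/
theorem ip_avg_left (k : X → K) (f g : X → ℝ) : ip (avg k f) g = ip f (avg k g) := by
  unfold ip
  exact (sum_mul_avg k g f).symm

theorem ip_avg_self (k : X → K) (f : X → ℝ) : ip f (avg k f) = ip (avg k f) (avg k f) := by
  rw [ip_avg_left, avg_idem]

/-- `<f, f - avg f> = |f - avg f|^2` -/
theorem ip_sub_avg (k : X → K) (f : X → ℝ) :
    ip f (f - avg k f) = ip (f - avg k f) (f - avg k f) := by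
  rw [ip_sub_left f (avg k f), ip_sub_right (avg k f), ip_avg_left k f f, ip_avg_self]
  ring

theorem ip_avg_le (k : X → K) (f : X → ℝ) : ip (avg k f) (avg k f) ≤ ip f f := by
  have h := ip_self_nonneg (f - avg k f)
  rw [← ip_sub_avg, ip_sub_right, ip_avg_self] at h
  linarith

/-- tower property: `k'` coarser than `k` -/
theorem avg_tower (k : X → K) (k' : X → K') (h : ∀ x y, k x = k y → k' x = k' y) (f : X → ℝ) :
    avg k' (avg k f) = avg k' f :=
  avg_avg_of_finer h f

theorem avg_tower' (k : X → K) (k' : X → K') (h : ∀ x y, k x = k y → k' x = k' y) (f : X → ℝ) :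
    avg k (avg k' f) = avg k' f :=
  avg_avg_of_coarser h f

/-- multiplication by a function constant on the fibres commutes with `avg` -/
theorem avg_mul_inv (k : X → K) (g f : X → ℝ) (h : ∀ x y, k x = k y → g x = g y) :
    avg k (fun x => g x * f x) = fun x => g x * avg k f x :=
  avg_mul_of_invariant h f

/-- if the fibres of `k` and `k'` through `x` coincide, so do the averages at `x` -/
theorem avg_eq_avg_of_fibre_eq (k : X → K) (k' : X → K') (f : X → ℝ) (x : X)
    (h : ∀ y, k y = k x ↔ k' y = k' x) : avg k f x = avg k' f x := by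
  apply avg_eq_of_cls_eq
  ext y
  rw [mem_cls, mem_cls, h]

/-- if `f` and `g` agree on the fibre through `x`, so do the averages at `x` -/
theorem avg_congr_fibre (k : X → K) (f g : X → ℝ) (x : X)
    (h : ∀ y, k y = k x → f y = g y) : avg k f x = avg k g x := by
  unfold avg
  rw [sum_congr rfl (fun y hy => h y (mem_cls.1 hy))]

end

end Vale.Agent.P335
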