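import Vale.Agent.P335.Defs

/-!
# P335: the switch graph on `Omega d` is connected

Classical fact (Havel-Hakimi type argument).  We freeze a growing set `W` of vertices; for a vertex
`v` outside `W` we make the neighbourhoods of `v` in `G` and `G'` equal by switches performed in `G`
or in `G'`, none of which touches a pair meeting `W`.
-/

namespace Vale.Agent.P335

open Finset

open scoped Classical

noncomputable section

variable {n : ℕ}

/-- Performing a switch inside `Omega d`. -/
theorem exists_switch (d : Fin n → ℕ) (G : Omega d) {a b c e : Fin n}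
    (hab : a ≠ b) (hac : a ≠ c) (hae : a ≠ e) (hbc : b ≠ c) (hbe : b ≠ e) (hce : c ≠ e)
    (h1 : G.1.Adj a b) (h2 : G.1.Adj c e) (h3 : ¬ G.1.Adj a c) (h4 : ¬ G.1.Adj b e) :
    ∃ H : Omega d, SwitchAdj G.1 H.1 ∧ ∀ p q, H.1.Adj p q ↔
      (G.1.Adj p q ∧ s(p, q) ≠ s(a, b) ∧ s(p, q) ≠ s(c, e)) ∨ s(p, q) = s(a, c) ∨
        s(p, q) = s(b, e) := by
  set F : Finset (Sym2 (Fin n)) := {s(a, b), s(c, e)} with hF
  set F' : Finset (Sym2 (Fin n)) := {s(a, c), s(b, e)} with hF'
  have pF : IsPM {a, b, c, e} F := (isPM_four_iff hab hac hae hbc hbe hce _).2 (Or.inl rfl)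
  have pF' : IsPM {a, b, c, e} F' := (isPM_four_iff hab hac hae hbc hbe hce _).2 (Or.inr (Or.inl rfl))
  have m1 : ∀ g ∈ F, g ∈ G.1.edgeSet := by
    intro g hg
    simp only [hF, mem_insert, mem_singleton] at hg
    rcases hg with rfl | rfl
    · exact h1
    · exact h2
  have m2 : ∀ g ∈ F', g ∉ G.1.edgeSet := by
    intro g hg
    simp only [hF', mem_insert, mem_singleton] at hg
    rcases hg with rfl | rfl
    · exact h3
    · exact h4
  obtain ⟨H0, hE⟩ : ∃ H0 : SimpleGraph (Fin n),
      H0.edgeSet = (G.1.edgeSet \ (F : Set (Sym2 (Fin n)))) ∪ F' :=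
    ⟨_, edgeSet_fromEdgeSet_switch G.1 pF'⟩
  have hdeg : ∀ i, H0.degree i = d i := fun i => by
    rw [degree_of_edgeSet_eq pF pF' m1 m2 hE i]; exact G.2 i
  refine ⟨⟨H0, hdeg⟩, ?_, ?_⟩
  · exact switchAdj_of_pm hab hac hae hbc hbe hce hF hF' m1 m2 hE
  · intro p q
    show H0.Adj p q ↔ _
    rw [← SimpleGraph.mem_edgeSet, hE]
    simp only [Set.mem_union, Set.mem_sdiff, SimpleGraph.mem_edgeSet, mem_coe, hF, hF', mem_insert,
      mem_singleton, not_or]

/-- One step of the switch graph on `Omega d`. -/
def Step (d : Fin n → ℕ) (A B : Omega d) : Prop := SwitchAdj A.1 B.1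

/-- Connection by a finite sequence of switches. -/
def Conn (d : Fin n → ℕ) (A B : Omega d) : Prop := Relation.ReflTransGen (Step d) A B

theorem Conn.symm {d : Fin n → ℕ} {A B : Omega d} (h : Conn d A B) : Conn d B A := by
  unfold Conn at h ⊢
  induction h with
  | refl => exact Relation.ReflTransGen.refl
  | tail _ hbc ih =>
    exact (Relation.ReflTransGen.single (r := Step d) (switchAdj_symm hbc)).trans ih

theorem Conn.trans {d : Fin n → ℕ} {A B C : Omega d} (h : Conn d A B) (h' : Conn d B C) :
    Conn d A C := Relation.ReflTransGen.trans h h'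

theorem Conn.single {d : Fin n → ℕ} {A B : Omega d} (h : SwitchAdj A.1 B.1) : Conn d A B :=
  Relation.ReflTransGen.single h

/-- The two graphs agree on all pairs meeting `W`. -/
def AgreeOn {d : Fin n → ℕ} (W : Finset (Fin n)) (G G' : Omega d) : Prop :=
  ∀ a ∈ W, ∀ b, G.1.Adj a b ↔ G'.1.Adj a b

theorem exists_x (G : SimpleGraph (Fin n)) (W : Finset (Fin n)) {v y z : Fin n}
    (hvy : G.Adj v y) (hvz : ¬ G.Adj v z) (hvz' : v ≠ z) (hv : v ∉ W) (hy : y ∉ W) (hz : z ∉ W)
    (hcard : ((G.neighborFinset y) \ W).card ≤ ((G.neighborFinset z) \ W).card) :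
    ∃ x, G.Adj z x ∧ ¬ G.Adj y x ∧ x ∉ W ∧ x ≠ y := by
  by_contra hcon
  push Not at hcon
  have hsub : ((G.neighborFinset z) \ W).erase y ⊆ (((G.neighborFinset y) \ W).erase v).erase z := by
    intro x hx
    simp only [mem_erase, mem_sdiff, SimpleGraph.mem_neighborFinset] at hx ⊢
    obtain ⟨hxy, hzx, hxW⟩ := hx
    refine ⟨?_, ?_, ?_, hxW⟩
    · rintro rfl; exact G.irrefl hzx
    · rintro rfl; exact hvz hzx.symm
    · by_contra hyx
      exact hxy (hcon x hzx hyx hxW)
  have hvmem : v ∈ (G.neighborFinset y) \ W := by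
    simp only [mem_sdiff, SimpleGraph.mem_neighborFinset]; exact ⟨hvy.symm, hv⟩
  have hle := card_le_card hsub
  by_cases hyz : G.Adj y z
  · have h1 : y ∈ (G.neighborFinset z) \ W := by
      simp only [mem_sdiff, SimpleGraph.mem_neighborFinset]; exact ⟨hyz.symm, hy⟩
    have h2 : z ∈ ((G.neighborFinset y) \ W).erase v := by
      simp only [mem_erase, mem_sdiff, SimpleGraph.mem_neighborFinset]
      exact ⟨hvz'.symm, hyz, hz⟩
    rw [card_erase_of_mem h1, card_erase_of_mem h2, card_erase_of_mem hvmem] at hle
    have : 0 < ((G.neighborFinset y) \ W).card := card_pos.mpr ⟨v, hvmem⟩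
    have : 0 < (((G.neighborFinset y) \ W).erase v).card := card_pos.mpr ⟨z, h2⟩
    rw [card_erase_of_mem hvmem] at this
    omega
  · have h1 : y ∉ (G.neighborFinset z) \ W := by
      simp only [mem_sdiff, SimpleGraph.mem_neighborFinset, not_and]
      intro h; exact absurd h.symm hyz
    rw [erase_eq_of_notMem h1] at hle
    have h3 := card_le_card (erase_subset z (((G.neighborFinset y) \ W).erase v))
    rw [card_erase_of_mem hvmem] at h3
    have : 0 < ((G.neighborFinset y) \ W).card := card_pos.mpr ⟨v, hvmem⟩
    omega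

theorem card_sdiff_eq_of_agree {d : Fin n → ℕ} {W : Finset (Fin n)} {G G' : Omega d}
    (h : AgreeOn W G G') (y : Fin n) :
    ((G.1.neighborFinset y) \ W).card = ((G'.1.neighborFinset y) \ W).card := by
  have e1 := card_sdiff_add_card_inter (G.1.neighborFinset y) W
  have e2 := card_sdiff_add_card_inter (G'.1.neighborFinset y) W
  have e3 : (G.1.neighborFinset y) ∩ W = (G'.1.neighborFinset y) ∩ W := by
    ext x
    simp only [mem_inter, SimpleGraph.mem_neighborFinset]
    constructor
    · rintro ⟨h1, h2⟩; exact ⟨((h x h2 y).1 h1.symm).symm, h2⟩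
    · rintro ⟨h1, h2⟩; exact ⟨((h x h2 y).2 h1.symm).symm, h2⟩
  rw [SimpleGraph.card_neighborFinset_eq_degree, G.2 y] at e1
  rw [SimpleGraph.card_neighborFinset_eq_degree, G'.2 y] at e2
  rw [e3] at e1
  omega

theorem AgreeOn.symm {d : Fin n → ℕ} {W : Finset (Fin n)} {G G' : Omega d}
    (h : AgreeOn W G G') : AgreeOn W G' G := fun a ha b => (h a ha b).symm

theorem reduce_step {d : Fin n → ℕ} {W : Finset (Fin n)} (G G' : Omega d) (hag : AgreeOn W G G')
    {v y z : Fin n} (hv : v ∉ W) (hy : G.1.Adj v y) (hy' : ¬ G'.1.Adj v y)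
    (hz : ¬ G.1.Adj v z) (hz' : G'.1.Adj v z)
    (hcard : ((G.1.neighborFinset y) \ W).card ≤ ((G.1.neighborFinset z) \ W).card) :
    ∃ G1 : Omega d, SwitchAdj G.1 G1.1 ∧ AgreeOn W G1 G' ∧
      ∀ q, G1.1.Adj v q ↔ (G.1.Adj v q ∧ q ≠ y) ∨ q = z := by
  have hyW : y ∉ W := fun h => hy' (((hag y h v).1 hy.symm).symm)
  have hzW : z ∉ W := fun h => hz (((hag z h v).2 hz'.symm).symm)
  have hvz : v ≠ z := hz'.ne
  have hvy : v ≠ y := hy.ne
  have hyz : y ≠ z := by rintro rfl; exact hz hy
  obtain ⟨x, hzx, hyx, hxW, hxy⟩ := exists_x G.1 W hy hz hvz hv hyW hzW hcard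
  have hvx : v ≠ x := by rintro rfl; exact hz hzx.symm
  have hzx' : z ≠ x := hzx.ne
  obtain ⟨G1, hs, hadj⟩ := exists_switch d G hvy hvz hvx hyz hxy.symm hzx' hy hzx hz hyx
  refine ⟨G1, hs, ?_, ?_⟩
  · intro a ha b
    rw [hadj, ← hag a ha b]
    have hav : a ≠ v := by rintro rfl; exact hv ha
    have hay : a ≠ y := by rintro rfl; exact hyW ha
    have haz : a ≠ z := by rintro rfl; exact hzW ha
    have hax : a ≠ x := by rintro rfl; exact hxW ha
    simp only [Sym2.eq_iff, ne_eq]
    tauto
  · intro q
    rw [hadj]
    simp only [Sym2.eq_iff, ne_eq]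
    constructor
    · rintro (⟨h1, h2, -⟩ | h | h)
      · left; refine ⟨h1, ?_⟩; rintro rfl; exact h2 (Or.inl ⟨trivial, rfl⟩)
      · rcases h with h | h
        · right; exact h.2
        · exact absurd h.1 hvz
      · rcases h with h | h
        · exact absurd h.1 hvy
        · exact absurd h.1 hvx
    · rintro (⟨h1, h2⟩ | rfl)
      · left
        refine ⟨h1, ?_, ?_⟩
        · rintro (h | h)
          · exact h2 h.2
          · exact hvy h.1
        · rintro (h | h)
          · exact hvz h.1
          · exact hvx h.1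
      · right; left; left; exact ⟨trivial, rfl⟩

theorem conn_of_agree (d : Fin n → ℕ) : ∀ (k : ℕ) (W : Finset (Fin n)), (univ \ W).card = k →
    ∀ G G' : Omega d, AgreeOn W G G' → Conn d G G' := by
  intro k
  induction k with
  | zero =>
    intro W hW G G' hag
    have hWu : ∀ a, a ∈ W := by
      intro a
      by_contra ha
      have : a ∈ univ \ W := by simp [ha]
      rw [card_eq_zero] at hW
      rw [hW] at this
      simp at this
    have : G = G' := by
      apply Subtype.ext
      ext a b
      exact hag a (hWu a) b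
    rw [this]
    exact Relation.ReflTransGen.refl
  | succ k ih =>
    intro W hW
    have hne : (univ \ W).Nonempty := by rw [← card_pos]; omega
    obtain ⟨v, hv⟩ := hne
    have hvW : v ∉ W := by simpa using hv
    have inner : ∀ (m : ℕ) (G G' : Omega d), AgreeOn W G G' →
        ((G.1.neighborFinset v) \ (G'.1.neighborFinset v)).card = m → Conn d G G' := by
      intro m
      induction m with
      | zero =>
        intro G G' hag hm
        rw [card_eq_zero, sdiff_eq_empty_iff_subset] at hm
        have hcard : (G'.1.neighborFinset v).card ≤ (G.1.neighborFinset v).card := by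
          rw [SimpleGraph.card_neighborFinset_eq_degree, SimpleGraph.card_neighborFinset_eq_degree,
            G.2 v, G'.2 v]
        have heq := eq_of_subset_of_card_le hm hcard
        apply ih (insert v W)
        · have : univ \ insert v W = (univ \ W).erase v := by
            ext a; simp only [mem_sdiff, mem_univ, true_and, mem_insert, not_or, mem_erase]
          rw [this, card_erase_of_mem hv, hW]; rfl
        · intro a ha b
          rw [mem_insert] at ha
          rcases ha with rfl | ha
          · rw [← SimpleGraph.mem_neighborFinset, ← SimpleGraph.mem_neighborFinset, heq]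
          · exact hag a ha b
      | succ m ihm =>
        intro G G' hag hm
        have hcd : (G.1.neighborFinset v).card = (G'.1.neighborFinset v).card := by
          rw [SimpleGraph.card_neighborFinset_eq_degree, SimpleGraph.card_neighborFinset_eq_degree,
            G.2 v, G'.2 v]
        have hm' : ((G'.1.neighborFinset v) \ (G.1.neighborFinset v)).card = m + 1 := by
          rw [← card_sdiff_comm hcd, hm]
        obtain ⟨y, hy⟩ : ((G.1.neighborFinset v) \ (G'.1.neighborFinset v)).Nonempty := by
          rw [← card_pos]; omega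
        obtain ⟨z, hz⟩ : ((G'.1.neighborFinset v) \ (G.1.neighborFinset v)).Nonempty := by
          rw [← card_pos]; omega
        have hy0 := hy
        simp only [mem_sdiff, SimpleGraph.mem_neighborFinset] at hy hz
        rcases le_total ((G.1.neighborFinset y) \ W).card ((G.1.neighborFinset z) \ W).card
          with hle | hle
        · obtain ⟨G1, hs, hag1, hadj⟩ := reduce_step G G' hag hvW hy.1 hy.2 hz.2 hz.1 hle
          refine (Conn.single hs).trans (ihm G1 G' hag1 ?_)
          have : (G1.1.neighborFinset v) \ (G'.1.neighborFinset v) =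
              ((G.1.neighborFinset v) \ (G'.1.neighborFinset v)).erase y := by
            ext q
            simp only [mem_sdiff, SimpleGraph.mem_neighborFinset, mem_erase, hadj]
            constructor
            · rintro ⟨⟨h1, h2⟩ | rfl, h3⟩
              · exact ⟨h2, h1, h3⟩
              · exact absurd hz.1 h3
            · rintro ⟨h1, h2, h3⟩
              exact ⟨Or.inl ⟨h2, h1⟩, h3⟩
          rw [this, card_erase_of_mem hy0, hm]; rfl
        · rw [card_sdiff_eq_of_agree hag y, card_sdiff_eq_of_agree hag z] at hle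
          obtain ⟨G1, hs, hag1, hadj⟩ := reduce_step G' G hag.symm hvW hz.1 hz.2 hy.2 hy.1 hle
          refine (ihm G G1 hag1.symm ?_).trans (Conn.single hs).symm
          have : (G.1.neighborFinset v) \ (G1.1.neighborFinset v) =
              ((G.1.neighborFinset v) \ (G'.1.neighborFinset v)).erase y := by
            ext q
            simp only [mem_sdiff, SimpleGraph.mem_neighborFinset, mem_erase, hadj, not_or, not_and,
              not_not]
            constructor
            · rintro ⟨h1, h2, h3⟩
              refine ⟨h3, h1, ?_⟩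
              intro h4
              have := h2 h4
              subst this
              exact hz.2 h1
            · rintro ⟨h1, h2, h3⟩
              exact ⟨h2, fun h4 => absurd h4 h3, h1⟩
          rw [this, card_erase_of_mem hy0, hm]; rfl
    intro G G' hag
    exact inner _ G G' hag rfl

/-- Any two realisations of `d` are joined by a sequence of switches. -/
theorem switch_connected (d : Fin n → ℕ) (G G' : Omega d) :
    Relation.ReflTransGen (fun A B : Omega d => SwitchAdj A.1 B.1) G G' :=
  conn_of_agree d _ ∅ rfl G G' (fun a ha => absurd ha (notMem_empty a))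

/-- A function on `Omega d` which is invariant under switches is constant. -/
theorem const_of_switch_invariant (d : Fin n → ℕ) {α : Type*} (f : Omega d → α)
    (h : ∀ A B : Omega d, SwitchAdj A.1 B.1 → f A = f B) (G G' : Omega d) : f G = f G' := by
  have := switch_connected d G G'
  induction this with
  | refl => rfl
  | tail _ hbc ih => exact ih.trans (h _ _ hbc)

end

end Vale.Agent.P335
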