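import Vale.Agent.P335.Slots
import Vale.Agent.P335.Connected

/-!
# P335: the kernel of `DD` consists of the constants

Uses the connectivity of the switch graph (file Connected).  If `DD f = 0` then
`0 = <f, DD f> = sum |R u v f|^2`, so every `R u v f = 0`, i.e. `f` is constant on the fibres of every
`keyOff (touch u v)`; a switch `{a b, c e} -> {a c, b e}` only changes slots touching `{a, e}`.
-/

namespace Vale.Agent.P335

open Finset

open scoped Classical

noncomputable section

variable {n : ℕ} {d : Fin n → ℕ}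

/-- a switch is a resampling of a pair -/
theorem exists_touch_of_switchAdj (G G' : Omega d) (h : SwitchAdj G.1 G'.1) :
    ∃ u v : Fin n, u ≠ v ∧ keyOff (touch u v) G = keyOff (touch u v) G' := by
  obtain ⟨a, b, c, e, hab, hac, hae, hbc, hbe, hce, -, -, -, -, hE⟩ := h
  refine ⟨a, e, hae, ?_⟩
  unfold keyOff
  rw [hE]
  ext x
  have h1 : s(a, b) ∈ touch a e := Or.inl (by simp)
  have h2 : s(c, e) ∈ touch a e := Or.inr (by simp)
  have h3 : s(a, c) ∈ touch a e := Or.inl (by simp)
  have h4 : s(b, e) ∈ touch a e := Or.inr (by simp)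
  simp only [Set.mem_sdiff, Set.mem_union, Set.mem_insert_iff, Set.mem_singleton_iff]
  constructor
  · rintro ⟨hx, hnt⟩
    refine ⟨Or.inl ⟨hx, ?_⟩, hnt⟩
    rintro (rfl | rfl)
    · exact hnt h1
    · exact hnt h2
  · rintro ⟨(⟨hx, -⟩ | (rfl | rfl)), hnt⟩
    · exact ⟨hx, hnt⟩
    · exact absurd h3 hnt
    · exact absurd h4 hnt

/-- `sum_G f G * R u v f G = sum_G (R u v f G)^2` -/
theorem conn_sum_mul_R (u v : Fin n) (f : Omega d → ℝ) :
    ∑ G, f G * R u v f G = ∑ G, (R u v f G) ^ 2 := by
  have key : ∑ G, Q (touch u v) f G * R u v f G = 0 := by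
    have e1 : ∑ G, Q (touch u v) f G * Q (touch u v) f G = ∑ G, Q (touch u v) f G * f G := by
      have := sum_mul_avg (keyOff (d := d) (touch u v)) f (Q (touch u v) f)
      unfold Q at this ⊢
      rw [this, avg_idem]
    have : ∀ G, Q (touch u v) f G * R u v f G
        = Q (touch u v) f G * f G - Q (touch u v) f G * Q (touch u v) f G := by
      intro G; unfold R; ring
    simp_rw [this]
    rw [sum_sub_distrib, e1, sub_self]
  have : ∀ G, (R u v f G) ^ 2 = f G * R u v f G - Q (touch u v) f G * R u v f G := by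
    intro G; unfold R; ring
  simp_rw [this]
  rw [sum_sub_distrib, key, sub_zero]

/-- KER: the kernel of `DD` consists of the constants -/
theorem const_of_DD_eq_zero (f : Omega d → ℝ) (h : DD f = 0) (G G' : Omega d) : f G = f G' := by
  have h0 : ∑ A : Omega d, f A * DD f A = 0 := by
    rw [h]; simp
  have h1 : ∑ A : Omega d, f A * DD f A
      = ∑ u : Fin n, ∑ v : Fin n, if u ≠ v then ∑ A : Omega d, (R u v f A) ^ 2 else 0 := by
    unfold DD
    simp_rw [mul_sum]
    rw [sum_comm]
    refine sum_congr rfl fun u _ => ?_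
    rw [sum_comm]
    refine sum_congr rfl fun v _ => ?_
    by_cases huv : u ≠ v
    · simp only [if_pos huv]
      exact conn_sum_mul_R u v f
    · simp only [if_neg huv]
      simp
  rw [h1] at h0
  have hnn : ∀ u v : Fin n, 0 ≤ (if u ≠ v then ∑ A : Omega d, (R u v f A) ^ 2 else 0) := by
    intro u v
    split_ifs
    · exact sum_nonneg fun A _ => sq_nonneg _
    · exact le_rfl
  have hz : ∀ u v : Fin n, u ≠ v → ∀ A : Omega d, R u v f A = 0 := by
    intro u v huv A
    have a1 := (sum_eq_zero_iff_of_nonneg (fun u _ => sum_nonneg fun v _ => hnn u v)).1 h0 u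
      (mem_univ u)
    have a2 := (sum_eq_zero_iff_of_nonneg (fun v _ => hnn u v)).1 a1 v (mem_univ v)
    rw [if_pos huv] at a2
    have a3 := (sum_eq_zero_iff_of_nonneg (fun A _ => sq_nonneg (R u v f A))).1 a2 A (mem_univ A)
    exact pow_eq_zero_iff (two_ne_zero) |>.1 a3
  refine const_of_switch_invariant d f (fun A B hAB => ?_) G G'
  obtain ⟨u, v, huv, hk⟩ := exists_touch_of_switchAdj A B hAB
  have hA := hz u v huv A
  have hB := hz u v huv B
  unfold R at hA hB
  have hQ : Q (touch u v) f A = Q (touch u v) f B := avg_congr_key f hk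
  linarith

end

end Vale.Agent.P335
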