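import Vale.Agent.P335.Defs
import Vale.Agent.P335.Avg

/-!
# P335 core definitions: averaging operators, slot projections

* `ip f g`      : the inner product `sum_x f x * g x`;
* `avg k f`     : (file Avg) average of `f` over the fibres of the key map `k`;
* `keyOff La G` : the edges of `G` outside the slot set `La`;
* `Q La`        : resample the slots in `La` (conditional expectation given the slots outside `La`);
* `touch u v`   : slots touching `u` or `v`;  `R u v f = f - Q (touch u v) f`;
* `Ms u v w x`  : the four slots between `{u,v}` and `{w,x}`;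
* `Ystate u v w x G` : the block between `{u,v}` and `{w,x}` is a perfect matching.
-/

namespace Vale.Agent.P335

open Finset

open scoped Classical

noncomputable section

/-- inner product of two real functions on a finite type -/
def ip {X : Type*} [Fintype X] (f g : X → ℝ) : ℝ := ∑ x, f x * g x

variable {n : ℕ} {d : Fin n → ℕ}

/-- the edges of `G` outside the slot set `La` -/
def keyOff (La : Set (Sym2 (Fin n))) (G : Omega d) : Set (Sym2 (Fin n)) := G.1.edgeSet \ La

/-- resample the slots in `La` -/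
def Q (La : Set (Sym2 (Fin n))) (f : Omega d → ℝ) : Omega d → ℝ := avg (keyOff La) f

/-- slots touching `u` or `v` -/
def touch (u v : Fin n) : Set (Sym2 (Fin n)) := {e | u ∈ e ∨ v ∈ e}

/-- slots touching `u`, `v` or `w` -/
def touch3 (u v w : Fin n) : Set (Sym2 (Fin n)) := {e | u ∈ e ∨ v ∈ e ∨ w ∈ e}

/-- the four slots between `{u,v}` and `{w,x}` -/
def Ms (u v w x : Fin n) : Set (Sym2 (Fin n)) := {s(u, w), s(u, x), s(v, w), s(v, x)}

/-- `1 - Q_b` for the pair `b = {u,v}` -/
def R (u v : Fin n) (f : Omega d → ℝ) : Omega d → ℝ := fun G => f G - Q (touch u v) f G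

/-- the block between `{u,v}` and `{w,x}` is one of the two perfect matchings -/
def Ystate (u v w x : Fin n) (G : SimpleGraph (Fin n)) : Prop :=
  (G.Adj u w ∧ G.Adj v x ∧ ¬ G.Adj u x ∧ ¬ G.Adj v w) ∨
  (G.Adj u x ∧ G.Adj v w ∧ ¬ G.Adj u w ∧ ¬ G.Adj v x)

/-- `B_1 = Q_{La_b minus M} Q_M - Q_b` -/
def B1 (u v w x : Fin n) (f : Omega d → ℝ) : Omega d → ℝ := fun G =>
  Q (touch u v \ Ms u v w x) (Q (Ms u v w x) f) G - Q (touch u v) f G

/-- the negative term: `sum over Y-states of (B_1 f)^2` -/
def NN (u v w x : Fin n) (f : Omega d → ℝ) : ℝ :=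
  ∑ G : Omega d, if Ystate u v w x G.1 then (B1 u v w x f G) ^ 2 else 0

/-- `<f, (1 - Q_M) f>`: half the Dirichlet form of the switches on the 4-cycle `u w v x` -/
def E4 (u v w x : Fin n) (f : Omega d → ℝ) : ℝ := ip f (fun G => f G - Q (Ms u v w x) f G)

/-- four distinct vertices -/
def Dist4 (u v w x : Fin n) : Prop := u ≠ v ∧ u ≠ w ∧ u ≠ x ∧ v ≠ w ∧ v ≠ x ∧ w ≠ x

/-- `DD f = sum over ordered pairs (u,v), u != v, of R u v f` (twice the operator D of the notes) -/
def DD (f : Omega d → ℝ) : Omega d → ℝ := fun G =>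
  ∑ u : Fin n, ∑ v : Fin n, if u ≠ v then R u v f G else 0

end

end Vale.Agent.P335
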