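import Mathlib

/-!
# P335 (Kannan-Tetali-Vempala, simple graphs): definitions and basic facts

Faithful definitions of the objects of the problem file:
* `Omega d`  : labelled simple graphs on `Fin n` with degree `d i` at vertex `i`;
* `IsPM S F` : `F` is a perfect matching of the complete graph on the vertex set `S`;
* `switchStep G F F'` : replace `F` by `F'` if both edges of `F` are present and both edges of
  `F'` are absent, otherwise do nothing;
* `P d` : the transition matrix of the lazy switch chain of the problem file;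
* `tv`, `unif`, `Mixed`, `tmix` : total variation distance, uniform law, mixing time.

Basic facts: there are exactly three perfect matchings on a 4-set (`card_pms`), switches preserve
degrees, `P d` is symmetric, stochastic, lazy, and its off-diagonal entries are
`1 / (12 * choose n 4)` on switch-adjacent pairs and `0` otherwise.
-/

namespace Vale.Agent.P335

open Finset

open scoped Classical

noncomputable section

variable {n : ℕ}

/-- The set of labelled simple graphs on `Fin n` having degree `d i` at the vertex `i`. -/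
abbrev Omega (d : Fin n → ℕ) : Type :=
  {G : SimpleGraph (Fin n) // ∀ i, G.degree i = d i}

/-- `F` is a perfect matching of the complete graph on the vertex set `S`: its members are
edges (no loops) inside `S`, and every vertex of `S` lies on exactly one member of `F`. -/
def IsPM (S : Finset (Fin n)) (F : Finset (Sym2 (Fin n))) : Prop :=
  (∀ e ∈ F, ¬ e.IsDiag ∧ ∀ v ∈ e, v ∈ S) ∧ ∀ v ∈ S, ∃! e, e ∈ F ∧ v ∈ e

/-- The perfect matchings of the complete graph on `S`. -/
def pms (S : Finset (Fin n)) : Finset (Finset (Sym2 (Fin n))) :=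
  univ.filter (IsPM S)

/-- One step with the proposal `(F, F')`: if all edges of `F` are present and all edges of `F'`
are absent, replace `F` by `F'`; otherwise stay put. -/
def switchStep (G : SimpleGraph (Fin n)) (F F' : Finset (Sym2 (Fin n))) : SimpleGraph (Fin n) :=
  if (∀ e ∈ F, e ∈ G.edgeSet) ∧ (∀ e ∈ F', e ∉ G.edgeSet) then
    SimpleGraph.fromEdgeSet ((G.edgeSet \ (F : Set (Sym2 (Fin n)))) ∪ (F' : Set (Sym2 (Fin n))))
  else G

/-- The transition matrix of the switch chain: with probability `1/2` stay put; otherwise choose a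
`4`-element set `S` uniformly, then choose uniformly an ordered pair `(F, F')` of distinct perfect
matchings of the complete graph on `S` (there are six of them, see `card_offDiag_pms`), and
perform `switchStep`. -/
def P (d : Fin n → ℕ) : Matrix (Omega d) (Omega d) ℝ := fun G G' =>
  (1 / 2 : ℝ) * (if G = G' then 1 else 0) +
  (1 / 2 : ℝ) * ((1 / ((powersetCard 4 (univ : Finset (Fin n))).card : ℝ)) *
    ∑ S ∈ powersetCard 4 (univ : Finset (Fin n)),
      (1 / ((pms S).offDiag.card : ℝ)) *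
        ∑ p ∈ (pms S).offDiag, (if switchStep G.1 p.1 p.2 = G'.1 then (1 : ℝ) else 0))

/-- Total variation distance of two weight functions on a finite set. -/
def tv {X : Type*} [Fintype X] (μ ν : X → ℝ) : ℝ := (1 / 2 : ℝ) * ∑ x, |μ x - ν x|

/-- The uniform distribution on `Omega d`. -/
def unif (d : Fin n → ℕ) : Omega d → ℝ := fun _ => 1 / (Fintype.card (Omega d) : ℝ)

/-- At time `t` the chain is within total variation distance `1/4` of uniform from every start. -/
def Mixed (d : Fin n → ℕ) (t : ℕ) : Prop :=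
  ∀ G : Omega d, tv ((P d ^ t) G) (unif d) ≤ 1 / 4

/-- The mixing time. -/
def tmix (d : Fin n → ℕ) : ℕ := sInf {t : ℕ | Mixed d t}

/-- `G'` arises from `G` by one switch. -/
def SwitchAdj (G G' : SimpleGraph (Fin n)) : Prop :=
  ∃ a b c e : Fin n, a ≠ b ∧ a ≠ c ∧ a ≠ e ∧ b ≠ c ∧ b ≠ e ∧ c ≠ e ∧
    G.Adj a b ∧ G.Adj c e ∧ ¬ G.Adj a c ∧ ¬ G.Adj b e ∧
    G'.edgeSet = (G.edgeSet \ {s(a, b), s(c, e)}) ∪ {s(a, c), s(b, e)}

theorem tmix_le_of_mixed {d : Fin n → ℕ} {t : ℕ} (h : Mixed d t) : tmix d ≤ t :=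
  Nat.sInf_le h

theorem mixed_tmix {d : Fin n → ℕ} (h : ∃ t, Mixed d t) : Mixed d (tmix d) :=
  Nat.sInf_mem h

theorem IsPM.uniq {S : Finset (Fin n)} {F : Finset (Sym2 (Fin n))} (h : IsPM S F)
    {v : Fin n} {g₁ g₂ : Sym2 (Fin n)} (h₁ : g₁ ∈ F) (h₂ : g₂ ∈ F) (hv₁ : v ∈ g₁) (hv₂ : v ∈ g₂) :
    g₁ = g₂ := by
  have hvS : v ∈ S := (h.1 g₁ h₁).2 v hv₁
  exact (h.2 v hvS).unique ⟨h₁, hv₁⟩ ⟨h₂, hv₂⟩

theorem IsPM.eq_of_mem {a b c e : Fin n} (hac : a ≠ c) (hbc : b ≠ c) (hce : c ≠ e)
    {F : Finset (Sym2 (Fin n))} (h : IsPM {a, b, c, e} F) (hab : s(a, b) ∈ F) :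
    F = {s(a, b), s(c, e)} := by
  have hcS : c ∈ ({a, b, c, e} : Finset (Fin n)) := by simp
  obtain ⟨f, ⟨hfF, hcf⟩, -⟩ := h.2 c hcS
  obtain ⟨x, rfl⟩ := hcf
  have hx := (h.1 _ hfF).2 x (by simp)
  have hd := (h.1 _ hfF).1
  rw [Sym2.mk_isDiag_iff] at hd
  have hxe : x = e := by
    simp only [mem_insert, mem_singleton] at hx
    rcases hx with rfl | rfl | rfl | rfl
    · exfalso
      have := h.uniq hfF hab (v := x) (by simp) (by simp)
      have hc : c ∈ s(x, b) := this ▸ (by simp)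
      simp only [Sym2.mem_iff] at hc
      rcases hc with hc | hc
      · exact hac hc.symm
      · exact hbc hc.symm
    · exfalso
      have := h.uniq hfF hab (v := x) (by simp) (by simp)
      have hc : c ∈ s(a, x) := this ▸ (by simp)
      simp only [Sym2.mem_iff] at hc
      rcases hc with hc | hc
      · exact hac hc.symm
      · exact hbc hc.symm
    · exact absurd rfl hd
    · rfl
  subst hxe
  ext g
  simp only [mem_insert, mem_singleton]
  constructor
  · intro hg
    induction g using Sym2.inductionOn with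
    | hf u v =>
      have hu := (h.1 _ hg).2 u (by simp)
      simp only [mem_insert, mem_singleton] at hu
      rcases hu with rfl | rfl | rfl | rfl
      · left; exact h.uniq hg hab (v := u) (by simp) (by simp)
      · left; exact h.uniq hg hab (v := u) (by simp) (by simp)
      · right; exact h.uniq hg hfF (v := u) (by simp) (by simp)
      · right; exact h.uniq hg hfF (v := u) (by simp) (by simp)
  · rintro (rfl | rfl)
    · exact hab
    · exact hfF

theorem isPM_pair {a b c e : Fin n} (hab : a ≠ b) (hac : a ≠ c) (hae : a ≠ e) (hbc : b ≠ c)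
    (hbe : b ≠ e) (hce : c ≠ e) : IsPM {a, b, c, e} {s(a, b), s(c, e)} := by
  constructor
  · intro g hg
    simp only [mem_insert, mem_singleton] at hg
    rcases hg with rfl | rfl
    · refine ⟨by simpa using hab, ?_⟩
      intro v hv
      simp only [Sym2.mem_iff] at hv
      rcases hv with rfl | rfl <;> simp
    · refine ⟨by simpa using hce, ?_⟩
      intro v hv
      simp only [Sym2.mem_iff] at hv
      rcases hv with rfl | rfl <;> simp
  · intro v hv
    simp only [mem_insert, mem_singleton] at hv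
    rcases hv with rfl | rfl | rfl | rfl
    · refine ⟨s(v, b), ⟨by simp, by simp⟩, ?_⟩
      rintro g ⟨hg, hvg⟩
      simp only [mem_insert, mem_singleton] at hg
      rcases hg with rfl | rfl
      · rfl
      · simp only [Sym2.mem_iff] at hvg
        rcases hvg with h | h
        · exact absurd h hac
        · exact absurd h hae
    · refine ⟨s(a, v), ⟨by simp, by simp⟩, ?_⟩
      rintro g ⟨hg, hvg⟩
      simp only [mem_insert, mem_singleton] at hg
      rcases hg with rfl | rfl
      · rfl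
      · simp only [Sym2.mem_iff] at hvg
        rcases hvg with h | h
        · exact absurd h hbc
        · exact absurd h hbe
    · refine ⟨s(v, e), ⟨by simp, by simp⟩, ?_⟩
      rintro g ⟨hg, hvg⟩
      simp only [mem_insert, mem_singleton] at hg
      rcases hg with rfl | rfl
      · simp only [Sym2.mem_iff] at hvg
        rcases hvg with h | h
        · exact absurd h.symm hac
        · exact absurd h.symm hbc
      · rfl
    · refine ⟨s(c, v), ⟨by simp, by simp⟩, ?_⟩
      rintro g ⟨hg, hvg⟩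
      simp only [mem_insert, mem_singleton] at hg
      rcases hg with rfl | rfl
      · simp only [Sym2.mem_iff] at hvg
        rcases hvg with h | h
        · exact absurd h.symm hae
        · exact absurd h.symm hbe
      · rfl

/-- The three perfect matchings on four distinct vertices. -/
theorem isPM_four_iff {a b c e : Fin n} (hab : a ≠ b) (hac : a ≠ c) (hae : a ≠ e) (hbc : b ≠ c)
    (hbe : b ≠ e) (hce : c ≠ e) (F : Finset (Sym2 (Fin n))) :
    IsPM {a, b, c, e} F ↔
      F = {s(a, b), s(c, e)} ∨ F = {s(a, c), s(b, e)} ∨ F = {s(a, e), s(b, c)} := by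
  have e1 : ({a, b, c, e} : Finset (Fin n)) = {a, c, b, e} := by
    ext x; simp only [mem_insert, mem_singleton]; tauto
  have e2 : ({a, b, c, e} : Finset (Fin n)) = {a, e, b, c} := by
    ext x; simp only [mem_insert, mem_singleton]; tauto
  constructor
  · intro h
    obtain ⟨f, ⟨hfF, haf⟩, -⟩ := h.2 a (by simp)
    obtain ⟨x, rfl⟩ := haf
    have hx := (h.1 _ hfF).2 x (by simp)
    have hd := (h.1 _ hfF).1
    rw [Sym2.mk_isDiag_iff] at hd
    simp only [mem_insert, mem_singleton] at hx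
    rcases hx with rfl | rfl | rfl | rfl
    · exact absurd rfl hd
    · left; exact h.eq_of_mem hac hbc hce hfF
    · right; left
      rw [e1] at h
      exact h.eq_of_mem hab hbc.symm hbe hfF
    · right; right
      rw [e2] at h
      exact h.eq_of_mem hab hbe.symm hbc hfF
  · rintro (rfl | rfl | rfl)
    · exact isPM_pair hab hac hae hbc hbe hce
    · rw [e1]; exact isPM_pair hac hab hae hbc.symm hce hbe
    · rw [e2]; exact isPM_pair hae hab hac hbe.symm hce.symm hbc

theorem exists_four {S : Finset (Fin n)} (hS : S.card = 4) :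
    ∃ a b c e : Fin n, a ≠ b ∧ a ≠ c ∧ a ≠ e ∧ b ≠ c ∧ b ≠ e ∧ c ≠ e ∧ S = {a, b, c, e} := by
  obtain ⟨a, T, haT, rfl, hT⟩ := Finset.card_eq_succ.mp hS
  obtain ⟨b, c, e, hbc, hbe, hce, rfl⟩ := Finset.card_eq_three.mp hT
  simp only [mem_insert, mem_singleton, not_or] at haT
  exact ⟨a, b, c, e, haT.1, haT.2.1, haT.2.2, hbc, hbe, hce, rfl⟩

theorem card_pms {S : Finset (Fin n)} (hS : S.card = 4) : (pms S).card = 3 := by
  obtain ⟨a, b, c, e, hab, hac, hae, hbc, hbe, hce, rfl⟩ := exists_four hS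
  have : pms ({a, b, c, e} : Finset (Fin n)) =
      {{s(a, b), s(c, e)}, {s(a, c), s(b, e)}, {s(a, e), s(b, c)}} := by
    ext F
    simp only [pms, mem_filter, mem_univ, true_and, mem_insert, mem_singleton]
    exact isPM_four_iff hab hac hae hbc hbe hce F
  rw [this]
  have h1 : ({s(a, b), s(c, e)} : Finset (Sym2 (Fin n))) ≠ {s(a, c), s(b, e)} := by
    intro h
    have : s(a, b) ∈ ({s(a, c), s(b, e)} : Finset (Sym2 (Fin n))) := h ▸ (by simp)
    simp only [mem_insert, mem_singleton, Sym2.eq_iff] at this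
    tauto
  have h2 : ({s(a, b), s(c, e)} : Finset (Sym2 (Fin n))) ≠ {s(a, e), s(b, c)} := by
    intro h
    have : s(a, b) ∈ ({s(a, e), s(b, c)} : Finset (Sym2 (Fin n))) := h ▸ (by simp)
    simp only [mem_insert, mem_singleton, Sym2.eq_iff] at this
    tauto
  have h3 : ({s(a, c), s(b, e)} : Finset (Sym2 (Fin n))) ≠ {s(a, e), s(b, c)} := by
    intro h
    have : s(a, c) ∈ ({s(a, e), s(b, c)} : Finset (Sym2 (Fin n))) := h ▸ (by simp)
    simp only [mem_insert, mem_singleton, Sym2.eq_iff] at this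
    tauto
  rw [card_insert_of_notMem, card_insert_of_notMem, card_singleton]
  · simpa using h3
  · simp only [mem_insert, mem_singleton, not_or]; exact ⟨h1, h2⟩




theorem IsPM.card_filter {S : Finset (Fin n)} {F : Finset (Sym2 (Fin n))} (h : IsPM S F)
    (i : Fin n) : (F.filter (fun e => i ∈ e)).card = if i ∈ S then 1 else 0 := by
  split_ifs with hi
  · obtain ⟨f, ⟨hfF, hif⟩, huniq⟩ := h.2 i hi
    rw [card_eq_one]
    refine ⟨f, ?_⟩
    ext g
    simp only [mem_filter, mem_singleton]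
    constructor
    · intro hg; exact huniq g hg
    · rintro rfl; exact ⟨hfF, hif⟩
  · rw [card_eq_zero, filter_eq_empty_iff]
    intro g hg hig
    exact hi ((h.1 g hg).2 i hig)

theorem edgeSet_fromEdgeSet_switch (G : SimpleGraph (Fin n)) {S : Finset (Fin n)}
    {F F' : Finset (Sym2 (Fin n))} (hF' : IsPM S F') :
    (SimpleGraph.fromEdgeSet ((G.edgeSet \ (F : Set (Sym2 (Fin n)))) ∪
      (F' : Set (Sym2 (Fin n))))).edgeSet = (G.edgeSet \ (F : Set (Sym2 (Fin n)))) ∪ F' := by
  rw [SimpleGraph.edgeSet_fromEdgeSet]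
  ext g
  simp only [Set.mem_sdiff, Set.mem_union, mem_coe, Sym2.mem_diagSet]
  constructor
  · exact fun h => h.1
  · intro h
    refine ⟨h, ?_⟩
    rcases h with h | h
    · exact G.not_isDiag_of_mem_edgeSet h.1
    · exact (hF'.1 g h).1

theorem degree_of_edgeSet_eq {G H : SimpleGraph (Fin n)} {S : Finset (Fin n)}
    {F F' : Finset (Sym2 (Fin n))} (hF : IsPM S F) (hF' : IsPM S F')
    (h1 : ∀ e ∈ F, e ∈ G.edgeSet) (h2 : ∀ e ∈ F', e ∉ G.edgeSet)
    (hH : H.edgeSet = (G.edgeSet \ (F : Set (Sym2 (Fin n)))) ∪ F') (i : Fin n) :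
    H.degree i = G.degree i := by
  rw [← SimpleGraph.card_incidenceFinset_eq_degree, ← SimpleGraph.card_incidenceFinset_eq_degree,
    SimpleGraph.incidenceFinset_eq_filter, SimpleGraph.incidenceFinset_eq_filter]
  have hHf : H.edgeFinset = (G.edgeFinset \ F) ∪ F' := by
    ext g
    simp only [SimpleGraph.mem_edgeFinset, mem_union, mem_sdiff, hH, Set.mem_union, Set.mem_sdiff,
      mem_coe]
  have hGf : G.edgeFinset = (G.edgeFinset \ F) ∪ F := by
    ext g
    simp only [SimpleGraph.mem_edgeFinset, mem_union, mem_sdiff]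
    constructor
    · intro h; by_cases hg : g ∈ F
      · exact Or.inr hg
      · exact Or.inl ⟨h, hg⟩
    · rintro (h | h)
      · exact h.1
      · exact h1 g h
  have d1 : Disjoint (G.edgeFinset \ F) F' := by
    rw [disjoint_left]
    intro g hg hg'
    exact h2 g hg' (by simpa using (mem_sdiff.mp hg).1)
  have d2 : Disjoint (G.edgeFinset \ F) F := sdiff_disjoint
  rw [hHf, filter_union, card_union_of_disjoint (disjoint_filter_filter d1)]
  conv_rhs => rw [hGf, filter_union, card_union_of_disjoint (disjoint_filter_filter d2)]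
  rw [hF.card_filter, hF'.card_filter]

theorem degree_switchStep (G : SimpleGraph (Fin n)) {S : Finset (Fin n)}
    {F F' : Finset (Sym2 (Fin n))} (hF : IsPM S F) (hF' : IsPM S F') (i : Fin n) :
    (switchStep G F F').degree i = G.degree i := by
  by_cases h : (∀ e ∈ F, e ∈ G.edgeSet) ∧ (∀ e ∈ F', e ∉ G.edgeSet)
  · have e : switchStep G F F' = SimpleGraph.fromEdgeSet
        ((G.edgeSet \ (F : Set (Sym2 (Fin n)))) ∪ (F' : Set (Sym2 (Fin n)))) := if_pos h
    rw [e]
    exact degree_of_edgeSet_eq hF hF' h.1 h.2 (edgeSet_fromEdgeSet_switch G hF') i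
  · have e : switchStep G F F' = G := if_neg h
    rw [e]

/-- Matching-level description of a switch. -/
def PMAdj (G G' : SimpleGraph (Fin n)) : Prop :=
  ∃ (S : Finset (Fin n)) (F F' : Finset (Sym2 (Fin n))), S.card = 4 ∧ IsPM S F ∧ IsPM S F' ∧
    F ≠ F' ∧ (∀ e ∈ F, e ∈ G.edgeSet) ∧ (∀ e ∈ F', e ∉ G.edgeSet) ∧
    G'.edgeSet = (G.edgeSet \ (F : Set (Sym2 (Fin n)))) ∪ F'

theorem PMAdj.symm {G G' : SimpleGraph (Fin n)} (h : PMAdj G G') : PMAdj G' G := by
  obtain ⟨S, F, F', hS, hF, hF', hne, h1, h2, hE⟩ := h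
  refine ⟨S, F', F, hS, hF', hF, hne.symm, ?_, ?_, ?_⟩
  · intro e he; rw [hE]; exact Or.inr he
  · intro e he; rw [hE]
    rintro (h | h)
    · exact h.2 he
    · exact h2 e h (h1 e he)
  · rw [hE]
    ext g
    simp only [Set.mem_sdiff, Set.mem_union, mem_coe]
    constructor
    · intro hg
      by_cases hgF : g ∈ F
      · exact Or.inr hgF
      · exact Or.inl ⟨Or.inl ⟨hg, hgF⟩, fun h => h2 g h hg⟩
    · rintro (⟨h | h, h'⟩ | h)
      · exact h.1
      · exact absurd h h'
      · exact h1 g h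

theorem IsPM.nonempty {S : Finset (Fin n)} {F : Finset (Sym2 (Fin n))} (h : IsPM S F)
    (hS : S.card = 4) : F.Nonempty := by
  have : S.Nonempty := by rw [← card_pos]; omega
  obtain ⟨v, hv⟩ := this
  obtain ⟨f, ⟨hfF, -⟩, -⟩ := h.2 v hv
  exact ⟨f, hfF⟩

theorem PMAdj.ne {G G' : SimpleGraph (Fin n)} (h : PMAdj G G') : G ≠ G' := by
  obtain ⟨S, F, F', hS, hF, hF', hne, h1, h2, hE⟩ := h
  rintro rfl
  obtain ⟨f, hf⟩ := hF'.nonempty hS
  exact h2 f hf (hE ▸ Or.inr hf)

theorem IsPM.support_eq {S : Finset (Fin n)} {F : Finset (Sym2 (Fin n))} (h : IsPM S F) :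
    S = univ.filter (fun v => ∃ e ∈ F, v ∈ e) := by
  ext v
  simp only [mem_filter, mem_univ, true_and]
  constructor
  · intro hv
    obtain ⟨f, ⟨hfF, hvf⟩, -⟩ := h.2 v hv
    exact ⟨f, hfF, hvf⟩
  · rintro ⟨f, hfF, hvf⟩
    exact (h.1 f hfF).2 v hvf



theorem card_four {a b c e : Fin n} (hab : a ≠ b) (hac : a ≠ c) (hae : a ≠ e) (hbc : b ≠ c)
    (hbe : b ≠ e) (hce : c ≠ e) : ({a, b, c, e} : Finset (Fin n)).card = 4 := by
  rw [card_insert_of_notMem, card_insert_of_notMem, card_insert_of_notMem, card_singleton]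
  · simpa using hce
  · simp only [mem_insert, mem_singleton, not_or]; exact ⟨hbc, hbe⟩
  · simp only [mem_insert, mem_singleton, not_or]; exact ⟨hab, hac, hae⟩

theorem switchAdj_of_pm {G G' : SimpleGraph (Fin n)} {a b c e : Fin n}
    (hab : a ≠ b) (hac : a ≠ c) (hae : a ≠ e) (hbc : b ≠ c) (hbe : b ≠ e) (hce : c ≠ e)
    {F F' : Finset (Sym2 (Fin n))} (hF : F = {s(a, b), s(c, e)}) (hF' : F' = {s(a, c), s(b, e)})
    (h1 : ∀ g ∈ F, g ∈ G.edgeSet) (h2 : ∀ g ∈ F', g ∉ G.edgeSet)
    (hE : G'.edgeSet = (G.edgeSet \ (F : Set (Sym2 (Fin n)))) ∪ F') : SwitchAdj G G' := by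
  subst hF hF'
  refine ⟨a, b, c, e, hab, hac, hae, hbc, hbe, hce, ?_, ?_, ?_, ?_, ?_⟩
  · exact h1 s(a, b) (by simp)
  · exact h1 s(c, e) (by simp)
  · exact h2 s(a, c) (by simp)
  · exact h2 s(b, e) (by simp)
  · rw [hE]; simp

theorem switchAdj_iff_pmAdj {G G' : SimpleGraph (Fin n)} : SwitchAdj G G' ↔ PMAdj G G' := by
  constructor
  · rintro ⟨a, b, c, e, hab, hac, hae, hbc, hbe, hce, h1, h2, h3, h4, hE⟩
    refine ⟨{a, b, c, e}, {s(a, b), s(c, e)}, {s(a, c), s(b, e)}, card_four hab hac hae hbc hbe hce,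
      (isPM_four_iff hab hac hae hbc hbe hce _).2 (Or.inl rfl),
      (isPM_four_iff hab hac hae hbc hbe hce _).2 (Or.inr (Or.inl rfl)), ?_, ?_, ?_, ?_⟩
    · intro h
      have : s(a, b) ∈ ({s(a, c), s(b, e)} : Finset (Sym2 (Fin n))) := h ▸ (by simp)
      simp only [mem_insert, mem_singleton, Sym2.eq_iff] at this
      tauto
    · intro g hg
      simp only [mem_insert, mem_singleton] at hg
      rcases hg with rfl | rfl
      · exact h1
      · exact h2
    · intro g hg
      simp only [mem_insert, mem_singleton] at hg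
      rcases hg with rfl | rfl
      · exact h3
      · exact h4
    · rw [hE]; simp
  · rintro ⟨S, F, F', hS, hF, hF', hne, h1, h2, hE⟩
    obtain ⟨a, b, c, e, hab, hac, hae, hbc, hbe, hce, rfl⟩ := exists_four hS
    rw [isPM_four_iff hab hac hae hbc hbe hce] at hF hF'
    rcases hF with hF | hF | hF <;> rcases hF' with hF' | hF' | hF'
    · exact absurd (hF.trans hF'.symm) hne
    · exact switchAdj_of_pm hab hac hae hbc hbe hce hF hF' h1 h2 hE
    · exact switchAdj_of_pm hab hae hac hbe hbc hce.symm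
        (by rw [hF, @Sym2.eq_swap _ c e]) hF' h1 h2 hE
    · exact switchAdj_of_pm hac hab hae hbc.symm hce hbe hF hF' h1 h2 hE
    · exact absurd (hF.trans hF'.symm) hne
    · exact switchAdj_of_pm hac hae hab hce hbc.symm hbe.symm
        (by rw [hF, @Sym2.eq_swap _ b e]) (by rw [hF', @Sym2.eq_swap _ b c]) h1 h2 hE
    · exact switchAdj_of_pm hae hab hac hbe.symm hce.symm hbc hF
        (by rw [hF', @Sym2.eq_swap _ c e]) h1 h2 hE
    · exact switchAdj_of_pm hae hac hab hce.symm hbe.symm hbc.symm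
        (by rw [hF, @Sym2.eq_swap _ b c]) (by rw [hF', @Sym2.eq_swap _ b e]) h1 h2 hE
    · exact absurd (hF.trans hF'.symm) hne

theorem switchAdj_symm {G G' : SimpleGraph (Fin n)} (h : SwitchAdj G G') : SwitchAdj G' G :=
  switchAdj_iff_pmAdj.2 (switchAdj_iff_pmAdj.1 h).symm

theorem switchAdj_ne {G G' : SimpleGraph (Fin n)} (h : SwitchAdj G G') : G ≠ G' :=
  (switchAdj_iff_pmAdj.1 h).ne

theorem switchAdj_comm {G G' : SimpleGraph (Fin n)} : SwitchAdj G G' ↔ SwitchAdj G' G :=
  ⟨switchAdj_symm, switchAdj_symm⟩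

theorem card_offDiag_pms {S : Finset (Fin n)} (hS : S.card = 4) : (pms S).offDiag.card = 6 := by
  rw [offDiag_card, card_pms hS]

/-- All proposals `(S, (F, F'))` of the chain. -/
def moves (n : ℕ) :
    Finset (Σ _ : Finset (Fin n), Finset (Sym2 (Fin n)) × Finset (Sym2 (Fin n))) :=
  (powersetCard 4 (univ : Finset (Fin n))).sigma (fun S => (pms S).offDiag)

theorem mem_moves {m : Σ _ : Finset (Fin n), Finset (Sym2 (Fin n)) × Finset (Sym2 (Fin n))} :
    m ∈ moves n ↔ m.1.card = 4 ∧ IsPM m.1 m.2.1 ∧ IsPM m.1 m.2.2 ∧ m.2.1 ≠ m.2.2 := by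
  simp only [moves, mem_sigma, mem_powersetCard, subset_univ, true_and, mem_offDiag, pms,
    mem_filter, mem_univ]

theorem card_moves : (moves n).card = 6 * n.choose 4 := by
  rw [moves, card_sigma, sum_congr rfl (fun S hS => card_offDiag_pms (mem_powersetCard.mp hS).2),
    sum_const, card_powersetCard, card_univ, Fintype.card_fin, smul_eq_mul, mul_comm]

theorem step_spec {G G' : SimpleGraph (Fin n)} (hne : G ≠ G') {S : Finset (Fin n)}
    {F F' : Finset (Sym2 (Fin n))} (hF' : IsPM S F') (h : switchStep G F F' = G') :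
    (∀ e ∈ F, e ∈ G.edgeSet) ∧ (∀ e ∈ F', e ∉ G.edgeSet) ∧
      G'.edgeSet = (G.edgeSet \ (F : Set (Sym2 (Fin n)))) ∪ F' := by
  by_cases hc : (∀ e ∈ F, e ∈ G.edgeSet) ∧ (∀ e ∈ F', e ∉ G.edgeSet)
  · refine ⟨hc.1, hc.2, ?_⟩
    have e : switchStep G F F' = SimpleGraph.fromEdgeSet
        ((G.edgeSet \ (F : Set (Sym2 (Fin n)))) ∪ (F' : Set (Sym2 (Fin n)))) := if_pos hc
    rw [← h, e]
    exact edgeSet_fromEdgeSet_switch G hF'
  · have e : switchStep G F F' = G := if_neg hc
    exact absurd (e.symm.trans h) hne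

theorem switchStep_eq_of {G G' : SimpleGraph (Fin n)} {S : Finset (Fin n)}
    {F F' : Finset (Sym2 (Fin n))} (hF' : IsPM S F')
    (h1 : ∀ e ∈ F, e ∈ G.edgeSet) (h2 : ∀ e ∈ F', e ∉ G.edgeSet)
    (hE : G'.edgeSet = (G.edgeSet \ (F : Set (Sym2 (Fin n)))) ∪ F') : switchStep G F F' = G' := by
  have e : switchStep G F F' = SimpleGraph.fromEdgeSet
      ((G.edgeSet \ (F : Set (Sym2 (Fin n)))) ∪ (F' : Set (Sym2 (Fin n)))) := if_pos ⟨h1, h2⟩
  rw [e, ← SimpleGraph.edgeSet_inj, hE]
  exact edgeSet_fromEdgeSet_switch G hF'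

theorem card_filter_moves_adj {G G' : SimpleGraph (Fin n)} (h : SwitchAdj G G') :
    ((moves n).filter (fun m => switchStep G m.2.1 m.2.2 = G')).card = 1 := by
  have hne := switchAdj_ne h
  obtain ⟨S, F, F', hS, hF, hF', hFF, h1, h2, hE⟩ := switchAdj_iff_pmAdj.1 h
  apply le_antisymm
  · rw [card_le_one]
    rintro ⟨S₁, F₁, F₁'⟩ hm₁ ⟨S₂, F₂, F₂'⟩ hm₂
    simp only [mem_filter, mem_moves] at hm₁ hm₂
    obtain ⟨⟨-, hP₁, hP₁', -⟩, hs₁⟩ := hm₁
    obtain ⟨⟨-, hP₂, hP₂', -⟩, hs₂⟩ := hm₂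
    obtain ⟨a₁, b₁, c₁⟩ := step_spec hne hP₁' hs₁
    obtain ⟨a₂, b₂, c₂⟩ := step_spec hne hP₂' hs₂
    have key : ∀ {A A' : Finset (Sym2 (Fin n))}, (∀ e ∈ A, e ∈ G.edgeSet) →
        (∀ e ∈ A', e ∉ G.edgeSet) → G'.edgeSet = (G.edgeSet \ (A : Set (Sym2 (Fin n)))) ∪ A' →
        (∀ g, g ∈ A ↔ g ∈ G.edgeSet ∧ g ∉ G'.edgeSet) ∧
        (∀ g, g ∈ A' ↔ g ∈ G'.edgeSet ∧ g ∉ G.edgeSet) := by
      intro A A' a b c
      constructor
      · intro g
        rw [c]
        simp only [Set.mem_union, Set.mem_sdiff, mem_coe]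
        constructor
        · intro hg
          refine ⟨a g hg, ?_⟩
          rintro (h | h)
          · exact h.2 hg
          · exact b g h (a g hg)
        · rintro ⟨hg, hg'⟩
          by_contra hgA
          exact hg' (Or.inl ⟨hg, hgA⟩)
      · intro g
        rw [c]
        simp only [Set.mem_union, Set.mem_sdiff, mem_coe]
        constructor
        · intro hg
          exact ⟨Or.inr hg, b g hg⟩
        · rintro ⟨h | h, hg'⟩
          · exact absurd h.1 hg'
          · exact h
    have k₁ := key a₁ b₁ c₁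
    have k₂ := key a₂ b₂ c₂
    have eF : F₁ = F₂ := by ext g; rw [k₁.1, k₂.1]
    have eF' : F₁' = F₂' := by ext g; rw [k₁.2, k₂.2]
    subst eF eF'
    have eS : S₁ = S₂ := by rw [hP₁.support_eq, ← hP₂.support_eq]
    subst eS
    rfl
  · rw [Nat.succ_le_iff, card_pos]
    refine ⟨⟨S, F, F'⟩, ?_⟩
    simp only [mem_filter, mem_moves]
    exact ⟨⟨hS, hF, hF', hFF⟩, switchStep_eq_of hF' h1 h2 hE⟩

theorem card_filter_moves_nonadj {G G' : SimpleGraph (Fin n)} (hne : G ≠ G')
    (h : ¬ SwitchAdj G G') :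
    ((moves n).filter (fun m => switchStep G m.2.1 m.2.2 = G')).card = 0 := by
  rw [card_eq_zero, filter_eq_empty_iff]
  rintro ⟨S, F, F'⟩ hm hs
  rw [mem_moves] at hm
  obtain ⟨hS, hF, hF', hFF⟩ := hm
  obtain ⟨a, b, c⟩ := step_spec hne hF' hs
  exact h (switchAdj_iff_pmAdj.2 ⟨S, F, F', hS, hF, hF', hFF, a, b, c⟩)



/-- Counting form of the transition matrix. -/
theorem P_eq (d : Fin n → ℕ) (G G' : Omega d) :
    P d G G' = (1 / 2 : ℝ) * (if G = G' then 1 else 0) +
      (1 / (12 * (n.choose 4 : ℝ))) *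
        (((moves n).filter (fun m => switchStep G.1 m.2.1 m.2.2 = G'.1)).card : ℝ) := by
  have h1 : ∑ S ∈ powersetCard 4 (univ : Finset (Fin n)),
      (1 / ((pms S).offDiag.card : ℝ)) *
        ∑ p ∈ (pms S).offDiag, (if switchStep G.1 p.1 p.2 = G'.1 then (1 : ℝ) else 0)
      = (1 / 6 : ℝ) * (((moves n).filter (fun m => switchStep G.1 m.2.1 m.2.2 = G'.1)).card : ℝ) := by
    rw [card_filter, Nat.cast_sum, moves, sum_sigma, mul_sum]
    refine sum_congr rfl (fun S hS => ?_)
    rw [card_offDiag_pms (mem_powersetCard.mp hS).2]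
    congr 1
    · refine sum_congr rfl (fun p _ => ?_)
      split_ifs <;> simp
  unfold P
  rw [h1, card_powersetCard, card_univ, Fintype.card_fin]
  by_cases hc : (n.choose 4 : ℝ) = 0
  · simp [hc]
  · field_simp
    ring

theorem P_adj (d : Fin n → ℕ) {G G' : Omega d} (h : SwitchAdj G.1 G'.1) :
    P d G G' = 1 / (12 * (n.choose 4 : ℝ)) := by
  have hne : G ≠ G' := fun e => switchAdj_ne h (congrArg Subtype.val e)
  rw [P_eq, card_filter_moves_adj h, if_neg hne]
  simp

theorem P_nonadj (d : Fin n → ℕ) {G G' : Omega d} (hne : G ≠ G') (h : ¬ SwitchAdj G.1 G'.1) :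
    P d G G' = 0 := by
  have hne' : G.1 ≠ G'.1 := fun e => hne (Subtype.ext e)
  rw [P_eq, card_filter_moves_nonadj hne' h, if_neg hne]
  simp

theorem P_symm (d : Fin n → ℕ) (G G' : Omega d) : P d G G' = P d G' G := by
  by_cases he : G = G'
  · rw [he]
  · by_cases h : SwitchAdj G.1 G'.1
    · rw [P_adj d h, P_adj d (switchAdj_symm h)]
    · rw [P_nonadj d he h, P_nonadj d (Ne.symm he) (fun h' => h (switchAdj_symm h'))]

theorem P_nonneg (d : Fin n → ℕ) (G G' : Omega d) : 0 ≤ P d G G' := by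
  rw [P_eq]
  have : (0 : ℝ) ≤ (if G = G' then 1 else 0) := by split_ifs <;> norm_num
  positivity

theorem half_le_P_diag (d : Fin n → ℕ) (G : Omega d) : 1 / 2 ≤ P d G G := by
  rw [P_eq, if_pos rfl]
  have : (0 : ℝ) ≤ (1 / (12 * (n.choose 4 : ℝ))) *
        (((moves n).filter (fun m => switchStep G.1 m.2.1 m.2.2 = G.1)).card : ℝ) := by positivity
  linarith

theorem P_row_sum (d : Fin n → ℕ) (hn : 4 ≤ n) (G : Omega d) : ∑ G', P d G G' = 1 := by
  have hc : (n.choose 4 : ℝ) ≠ 0 := by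
    have := Nat.choose_pos hn
    positivity
  simp_rw [P_eq]
  rw [sum_add_distrib, ← mul_sum, ← mul_sum, sum_ite_eq, if_pos (mem_univ _)]
  have h2 : ∑ G' : Omega d,
      (((moves n).filter (fun m => switchStep G.1 m.2.1 m.2.2 = G'.1)).card : ℝ)
      = ((moves n).card : ℝ) := by
    simp_rw [card_filter, Nat.cast_sum]
    rw [sum_comm, card_eq_sum_ones, Nat.cast_sum]
    refine sum_congr rfl (fun m hm => ?_)
    rw [mem_moves] at hm
    have hdeg : ∀ i, (switchStep G.1 m.2.1 m.2.2).degree i = d i := fun i => by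
      rw [degree_switchStep G.1 hm.2.1 hm.2.2.1 i]; exact G.2 i
    rw [sum_eq_single (⟨switchStep G.1 m.2.1 m.2.2, hdeg⟩ : Omega d)]
    · simp
    · intro H _ hH
      rw [if_neg]
      · simp
      · intro e; exact hH (Subtype.ext e.symm)
    · intro h; exact absurd (mem_univ _) h
  rw [h2, card_moves]
  push_cast
  field_simp
  norm_num

/-- Dirichlet form of the chain in terms of switch-adjacent pairs. -/
theorem P_dirichlet_eq (d : Fin n → ℕ) (f : Omega d → ℝ) :
    ∑ G, ∑ G', P d G G' * (f G - f G') ^ 2 =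
      (1 / (12 * (n.choose 4 : ℝ))) *
        ∑ G : Omega d, ∑ G' : Omega d, if SwitchAdj G.1 G'.1 then (f G - f G') ^ 2 else 0 := by
  rw [mul_sum]
  refine sum_congr rfl (fun G _ => ?_)
  rw [mul_sum]
  refine sum_congr rfl (fun G' _ => ?_)
  by_cases h : SwitchAdj G.1 G'.1
  · rw [P_adj d h, if_pos h]
  · rw [if_neg h]
    by_cases he : G = G'
    · rw [he]; simp
    · rw [P_nonadj d he h]; simp

end
end Vale.Agent.P335
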