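import Vale.Agent.P335.DisjVanish

/-!
# P335: the inequality for two disjoint pairs

`<R_b f, R_c f> >= <f,(1-Q_M) f> - (1/2) NN(b;c) - (1/2) NN(c;b)`.

Proof.  `op2` with `e1 = Q (touch u v minus Ms)`, `e2 = Q (touch w x minus Ms)`, `eM = Q Ms`,
`Qb = Q (touch u v)`, `Qc = Q (touch w x)` (commutations from `Q_comm`, towers from `Q_tower`) gives
`<R_b f, R_c f> >= E4 + <B1 f, B2 f>` with `B2 = B1 w x u v` (use `Ms_swap`).
Split `<B1 f, B2 f> = sum_G` according to `blk`:
* `blk != 2`: with `chi` the indicator of the sector, `sum_G chi B1f B2f = <B1 (chi f), B2 (chi f)>`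
  (`chi` is invariant under all five keys, `Q_mul_inv`), and `B1`, `B2` commute at `chi f` by
  `Q_comm_sector`; so it is `>= 0` by `ip_proj_comm_nonneg`.
* `blk = 2`, not a Y-state: `B1 f G = 0` or `B2 f G = 0` (`B1_vanish`, `blk_two_cases`).
* Y-states: `a b >= -(a^2+b^2)/2`.
-/

namespace Vale.Agent.P335

open Finset

open scoped Classical

noncomputable section

variable {n : ℕ} {d : Fin n → ℕ}

/-- all the commutation and tower relations between the five projections -/
structure FiveRel (e1 e2 eM Qb Qc : (Omega d → ℝ) →ₗ[ℝ] (Omega d → ℝ)) : Prop where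
  h1 : IsProj e1
  h2 : IsProj e2
  hM : IsProj eM
  hb : IsProj Qb
  hc : IsProj Qc
  c12 : ∀ f, e1 (e2 f) = e2 (e1 f)
  c1M : ∀ f, e1 (eM f) = eM (e1 f)
  c2M : ∀ f, e2 (eM f) = eM (e2 f)
  c1c : ∀ f, e1 (Qc f) = Qc (e1 f)
  c2b : ∀ f, e2 (Qb f) = Qb (e2 f)
  tb1 : ∀ f, Qb (e1 f) = Qb f
  tb1' : ∀ f, e1 (Qb f) = Qb f
  tbM : ∀ f, Qb (eM f) = Qb f
  tbM' : ∀ f, eM (Qb f) = Qb f
  tc2 : ∀ f, Qc (e2 f) = Qc f
  tc2' : ∀ f, e2 (Qc f) = Qc f
  tcM : ∀ f, Qc (eM f) = Qc f
  tcM' : ∀ f, eM (Qc f) = Qc f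

theorem fiveRel (u v w x : Fin n) (h : Dist4 u v w x) :
    FiveRel (d := d) (QL (touch u v \ Ms u v w x)) (QL (touch w x \ Ms u v w x))
      (QL (Ms u v w x)) (QL (touch u v)) (QL (touch w x)) := by
  have hMb : Ms u v w x ⊆ touch u v := Ms_subset_touch u v w x
  have hMc : Ms u v w x ⊆ touch w x := by
    have := Ms_subset_touch w x u v
    rwa [Ms_swap] at this
  have d1 : Disjoint (touch u v \ Ms u v w x) (touch w x) := disjoint_touch_diff u v w x h
  have d2 : Disjoint (touch w x \ Ms u v w x) (touch u v) := by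
    have := disjoint_touch_diff w x u v h.swap
    rwa [Ms_swap] at this
  refine ⟨isProj_QL _, isProj_QL _, isProj_QL _, isProj_QL _, isProj_QL _, ?_, ?_, ?_, ?_, ?_,
    ?_, ?_, ?_, ?_, ?_, ?_, ?_, ?_⟩
  · intro f
    exact Q_comm _ _ (d1.mono_right Set.sdiff_subset) f
  · intro f
    exact Q_comm _ _ Set.disjoint_sdiff_left f
  · intro f
    exact Q_comm _ _ Set.disjoint_sdiff_left f
  · intro f
    exact Q_comm _ _ d1 f
  · intro f
    exact Q_comm _ _ d2 f
  · intro f
    exact Q_tower _ _ Set.sdiff_subset f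
  · intro f
    exact Q_tower' _ _ Set.sdiff_subset f
  · intro f
    exact Q_tower _ _ hMb f
  · intro f
    exact Q_tower' _ _ hMb f
  · intro f
    exact Q_tower _ _ Set.sdiff_subset f
  · intro f
    exact Q_tower' _ _ Set.sdiff_subset f
  · intro f
    exact Q_tower _ _ hMc f
  · intro f
    exact Q_tower' _ _ hMc f

theorem B1_eq (u v w x : Fin n) (f : Omega d → ℝ) :
    B1 u v w x f = QL (touch u v \ Ms u v w x) (QL (Ms u v w x) f) - QL (touch u v) f := rfl

theorem B1_eq' (u v w x : Fin n) (f : Omega d → ℝ) :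
    B1 w x u v f = QL (touch w x \ Ms u v w x) (QL (Ms u v w x) f) - QL (touch w x) f := by
  rw [B1_eq, Ms_swap]

/-- step 1: operator decomposition -/
theorem disj_step1 (u v w x : Fin n) (h : Dist4 u v w x) (f : Omega d → ℝ) :
    E4 u v w x f + ip (B1 u v w x f) (B1 w x u v f) ≤ ip (R u v f) (R w x f) := by
  have r := fiveRel (d := d) u v w x h
  have key := op2 _ _ _ _ _ r.h1 r.h2 r.hM r.hb r.hc r.c12 r.c1M r.c2M r.c1c r.c2b r.tb1 r.tb1'
    r.tbM r.tbM' r.tc2 r.tc2' r.tcM r.tcM' f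
  rw [B1_eq, B1_eq']
  exact key

/-- `e1 eM - Qb` is a projection -/
theorem isProj_diff {e1 eM Qb : (Omega d → ℝ) →ₗ[ℝ] (Omega d → ℝ)}
    (h1 : IsProj e1) (hM : IsProj eM) (hb : IsProj Qb)
    (c1M : ∀ f, e1 (eM f) = eM (e1 f))
    (tb1 : ∀ f, Qb (e1 f) = Qb f) (tb1' : ∀ f, e1 (Qb f) = Qb f)
    (tbM : ∀ f, Qb (eM f) = Qb f) (tbM' : ∀ f, eM (Qb f) = Qb f) :
    IsProj (e1 ∘ₗ eM - Qb) := by
  constructor
  · intro f g
    simp only [LinearMap.sub_apply, LinearMap.comp_apply, ip_sub_left, ip_sub_right]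
    rw [h1.symm, hM.symm, c1M, hb.symm]
  · intro f
    simp only [LinearMap.sub_apply, LinearMap.comp_apply, map_sub]
    rw [tbM', tb1', tb1, tbM, hb.idem, ← c1M (eM f), hM.idem, h1.idem]
    abel

/-- the indicator of the sector `blk != 2` -/
def chi (u v w x : Fin n) (G : Omega d) : ℝ := if blk u v w x G.1 ≠ 2 then 1 else 0

theorem chi_inv_b (u v w x : Fin n) (h : Dist4 u v w x) {La : Set (Sym2 (Fin n))}
    (hLa : La ⊆ touch u v) (G G' : Omega d) (hk : keyOff La G = keyOff La G') :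
    chi u v w x G = chi u v w x G' := by
  unfold chi
  rw [blk_inv u v w x h G G' (keyOff_mono hLa hk)]

theorem chi_inv_c (u v w x : Fin n) (h : Dist4 u v w x) {La : Set (Sym2 (Fin n))}
    (hLa : La ⊆ touch w x) (G G' : Omega d) (hk : keyOff La G = keyOff La G') :
    chi u v w x G = chi u v w x G' := by
  unfold chi
  rw [blk_inv' u v w x h G G' (keyOff_mono hLa hk)]

theorem B1_chi (u v w x : Fin n) (h : Dist4 u v w x) (f : Omega d → ℝ) :
    B1 u v w x (fun G => chi u v w x G * f G) = fun G => chi u v w x G * B1 u v w x f G := by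
  funext G
  unfold B1
  rw [Q_mul_inv (Ms u v w x) _ f (chi_inv_b u v w x h (Ms_subset_touch u v w x)),
    Q_mul_inv (touch u v \ Ms u v w x) _ _ (chi_inv_b u v w x h Set.sdiff_subset),
    Q_mul_inv (touch u v) _ f (chi_inv_b u v w x h subset_rfl)]
  ring

theorem B1_chi' (u v w x : Fin n) (h : Dist4 u v w x) (f : Omega d → ℝ) :
    B1 w x u v (fun G => chi u v w x G * f G) = fun G => chi u v w x G * B1 w x u v f G := by
  funext G
  unfold B1
  rw [Q_mul_inv (Ms w x u v) _ f (chi_inv_c u v w x h (Ms_subset_touch w x u v)),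
    Q_mul_inv (touch w x \ Ms w x u v) _ _ (chi_inv_c u v w x h Set.sdiff_subset),
    Q_mul_inv (touch w x) _ f (chi_inv_c u v w x h subset_rfl)]
  ring

/-- the two big projections commute at functions supported on the sector -/
theorem Q_comm_chi (u v w x : Fin n) (h : Dist4 u v w x) (f : Omega d → ℝ) :
    Q (touch u v) (Q (touch w x) (fun G => chi u v w x G * f G)) =
      Q (touch w x) (Q (touch u v) (fun G => chi u v w x G * f G)) := by
  rw [Q_mul_inv (touch w x) _ f (chi_inv_c u v w x h subset_rfl),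
    Q_mul_inv (touch u v) _ f (chi_inv_b u v w x h subset_rfl),
    Q_mul_inv (touch u v) _ _ (chi_inv_b u v w x h subset_rfl),
    Q_mul_inv (touch w x) _ _ (chi_inv_c u v w x h subset_rfl)]
  funext G
  by_cases hG : blk u v w x G.1 ≠ 2
  · rw [Q_comm_sector u v w x h f G hG]
  · simp [chi, hG]

/-- step 2: the sector `blk != 2` contributes a nonnegative amount -/
theorem disj_step2 (u v w x : Fin n) (h : Dist4 u v w x) (f : Omega d → ℝ) :
    0 ≤ ∑ G : Omega d, if blk u v w x G.1 ≠ 2 then B1 u v w x f G * B1 w x u v f G else 0 := by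
  have r := fiveRel (d := d) u v w x h
  set g : Omega d → ℝ := fun G => chi u v w x G * f G with hg
  have e : (∑ G : Omega d, if blk u v w x G.1 ≠ 2 then B1 u v w x f G * B1 w x u v f G else 0) =
      ip (B1 u v w x g) (B1 w x u v g) := by
    rw [hg, B1_chi u v w x h, B1_chi' u v w x h]
    unfold ip
    refine sum_congr rfl (fun G _ => ?_)
    by_cases hG : blk u v w x G.1 ≠ 2
    · simp [chi, hG]
    · simp [chi, hG]
  rw [e, B1_eq, B1_eq']
  have pp := isProj_diff r.h1 r.hM r.hb r.c1M r.tb1 r.tb1' r.tbM r.tbM'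
  have pq := isProj_diff r.h2 r.hM r.hc r.c2M r.tc2 r.tc2' r.tcM r.tcM'
  have hQ : QL (touch u v) (QL (touch w x) g) = QL (touch w x) (QL (touch u v) g) :=
    Q_comm_chi u v w x h f
  refine ip_proj_comm_nonneg _ _ pp pq g ?_
  simp only [LinearMap.sub_apply, LinearMap.comp_apply, map_sub]
  have hA : QL (touch u v \ Ms u v w x) (QL (Ms u v w x) (QL (touch w x \ Ms u v w x)
      (QL (Ms u v w x) g))) = QL (touch w x \ Ms u v w x) (QL (Ms u v w x)
      (QL (touch u v \ Ms u v w x) (QL (Ms u v w x) g))) := by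
    rw [← r.c2M, r.hM.idem, ← r.c1M (QL (Ms u v w x) g), r.hM.idem, r.c12]
  have hB : QL (touch u v) (QL (touch w x \ Ms u v w x) (QL (Ms u v w x) g)) =
      QL (touch w x \ Ms u v w x) (QL (Ms u v w x) (QL (touch u v) g)) := by
    rw [← r.c2b, r.tbM, r.tbM']
  have hC : QL (touch u v \ Ms u v w x) (QL (Ms u v w x) (QL (touch w x) g)) =
      QL (touch w x) (QL (touch u v \ Ms u v w x) (QL (Ms u v w x) g)) := by
    rw [← r.c1c, r.tcM, r.tcM']
  rw [hA, hB, hC, hQ]
  abel

/-- step 3: the sector `blk = 2` -/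
theorem disj_step3 (u v w x : Fin n) (h : Dist4 u v w x) (f : Omega d → ℝ) :
    - (1 / 2) * NN u v w x f - (1 / 2) * NN w x u v f ≤
      ∑ G : Omega d, if blk u v w x G.1 = 2 then B1 u v w x f G * B1 w x u v f G else 0 := by
  unfold NN
  rw [mul_sum, mul_sum, ← sum_sub_distrib]
  refine sum_le_sum (fun G _ => ?_)
  by_cases hY : Ystate u v w x G.1
  · have hY' : Ystate w x u v G.1 := (Ystate_swap u v w x G.1).2 hY
    rw [if_pos hY, if_pos hY', if_pos (blk_of_Ystate u v w x G.1 hY)]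
    nlinarith [sq_nonneg (B1 u v w x f G + B1 w x u v f G)]
  · have hY' : ¬ Ystate w x u v G.1 := fun hh => hY ((Ystate_swap u v w x G.1).1 hh)
    rw [if_neg hY, if_neg hY']
    by_cases hb : blk u v w x G.1 = 2
    · rw [if_pos hb]
      rcases blk_two_cases u v w x G.1 hb with h1 | ⟨h1, h2⟩ | ⟨h1, h2⟩
      · exact absurd h1 hY
      · rw [B1_vanish u v w x h f G h1 h2]; simp
      · rw [B1_vanish w x u v h.swap f G h1 h2]; simp
    · rw [if_neg hb]; simp

/-- DISJ -/
theorem disj_ineq (u v w x : Fin n) (h : Dist4 u v w x) (f : Omega d → ℝ) :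
    E4 u v w x f - (1 / 2) * NN u v w x f - (1 / 2) * NN w x u v f ≤
      ip (R u v f) (R w x f) := by
  have s1 := disj_step1 u v w x h f
  have s2 := disj_step2 u v w x h f
  have s3 := disj_step3 u v w x h f
  have e : ip (B1 u v w x f) (B1 w x u v f) =
      (∑ G : Omega d, if blk u v w x G.1 ≠ 2 then B1 u v w x f G * B1 w x u v f G else 0) +
      ∑ G : Omega d, if blk u v w x G.1 = 2 then B1 u v w x f G * B1 w x u v f G else 0 := by
    unfold ip
    rw [← sum_add_distrib]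
    refine sum_congr rfl (fun G _ => ?_)
    by_cases hb : blk u v w x G.1 = 2 <;> simp [hb]
  linarith

end

end Vale.Agent.P335
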