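import Vale.Agent.P335.Slots

/-!
# P335, disjoint pairs: the sectors `blk != 2`

`b = {u,v}`, `c = {w,x}` disjoint.  `blk u v w x G` is the number of edges of `G` among the four
slots between `b` and `c`.  It is invariant under resampling `b` and under resampling `c`.
On the sector `blk != 2` the projections `Q (touch u v)` and `Q (touch w x)` commute
(rectangle lemma `avg_comm_of_rect`): given `G1 ~b G ~c G2`, take `H` equal to `G1` on
`touch u v minus Ms`, to `G2` on `touch w x minus Ms`, to `G` on the other slots outside `Ms`, and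
on `Ms` the unique 2 x 2 zero-one block with the row sums of `G1` and the column sums of `G2`
(it exists and is unique because the total is 0, 1, 3 or 4; a finite check over Bool blocks).
-/

namespace Vale.Agent.P335

open Finset

open scoped Classical

noncomputable section

variable {n : ℕ} {d : Fin n → ℕ}

/-! ### Indicators -/

/-- indicator of a slot -/
def phi (G : SimpleGraph (Fin n)) (z : Sym2 (Fin n)) : ℤ := if z ∈ G.edgeSet then 1 else 0

/-- a Boolean as an integer -/
def bi (b : Bool) : ℤ := if b then 1 else 0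

theorem phi_eq_bi (G : SimpleGraph (Fin n)) (z : Sym2 (Fin n)) :
    phi G z = bi (decide (z ∈ G.edgeSet)) := by
  unfold phi bi; simp

theorem phi_self (G : SimpleGraph (Fin n)) (i : Fin n) : phi G s(i, i) = 0 := by
  unfold phi; simp

theorem sum_phi (G : Omega d) (i : Fin n) : ∑ j, phi G.1 s(i, j) = d i := by
  have h := G.2 i
  rw [← SimpleGraph.card_neighborFinset_eq_degree, SimpleGraph.neighborFinset_eq_filter,
    Finset.card_filter] at h
  unfold phi
  rw [← h]
  push_cast
  rfl

theorem not_mem_touch {u v a b : Fin n} (h1 : a ≠ u) (h2 : a ≠ v) (h3 : b ≠ u) (h4 : b ≠ v) :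
    s(a, b) ∉ touch u v := by
  intro h
  rcases h with h | h
  · rcases Sym2.mem_iff.1 h with h | h
    · exact h1 h.symm
    · exact h3 h.symm
  · rcases Sym2.mem_iff.1 h with h | h
    · exact h2 h.symm
    · exact h4 h.symm

theorem phi_eq_of_keyOff {La : Set (Sym2 (Fin n))} {G G' : Omega d}
    (h : keyOff La G = keyOff La G') {z : Sym2 (Fin n)} (hz : z ∉ La) :
    phi G.1 z = phi G'.1 z := by
  unfold phi
  simp only [(keyOff_eq_iff La G G').1 h z hz]

/-- split a sum at two points -/
theorem sum_split2 (f : Fin n → ℤ) (u v : Fin n) (huv : u ≠ v) :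
    ∑ j, f j = f u + f v + ∑ j ∈ (univ.erase u).erase v, f j := by
  rw [← Finset.add_sum_erase univ f (Finset.mem_univ u),
    ← Finset.add_sum_erase (univ.erase u) f (Finset.mem_erase.2 ⟨huv.symm, Finset.mem_univ v⟩)]
  ring

theorem colsum_phi (u v w : Fin n) (huw : u ≠ w) (hvw : v ≠ w) (huv : u ≠ v) (G G' : Omega d)
    (hk : keyOff (touch u v) G = keyOff (touch u v) G') :
    phi G.1 s(w, u) + phi G.1 s(w, v) = phi G'.1 s(w, u) + phi G'.1 s(w, v) := by
  have h1 := sum_phi G w
  have h2 := sum_phi G' w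
  rw [sum_split2 _ u v huv] at h1 h2
  have h3 : ∑ j ∈ (univ.erase u).erase v, phi G.1 s(w, j)
      = ∑ j ∈ (univ.erase u).erase v, phi G'.1 s(w, j) := by
    apply Finset.sum_congr rfl
    intro j hj
    simp only [Finset.mem_erase, Finset.mem_univ, and_true] at hj
    exact phi_eq_of_keyOff hk (not_mem_touch huw.symm hvw.symm hj.2 hj.1)
  linarith

theorem phi_adj (G : SimpleGraph (Fin n)) (a b : Fin n) :
    phi G s(a, b) = if G.Adj a b then 1 else 0 := by
  unfold phi; simp only [SimpleGraph.mem_edgeSet]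

/-- number of edges in the block between `{u,v}` and `{w,x}` -/
def blk (u v w x : Fin n) (G : SimpleGraph (Fin n)) : ℕ :=
  (if G.Adj u w then 1 else 0) + (if G.Adj u x then 1 else 0) +
  (if G.Adj v w then 1 else 0) + (if G.Adj v x then 1 else 0)

/-- resampling `{u,v}` preserves the column sums of the block -/
theorem colsum_inv (u v w : Fin n) (huw : u ≠ w) (hvw : v ≠ w) (huv : u ≠ v) (G G' : Omega d)
    (hk : keyOff (touch u v) G = keyOff (touch u v) G') :
    (if G.1.Adj u w then 1 else 0) + (if G.1.Adj v w then 1 else 0) =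
    (if G'.1.Adj u w then 1 else 0) + (if G'.1.Adj v w then (1 : ℕ) else 0) := by
  have h := colsum_phi u v w huw hvw huv G G' hk
  simp only [phi_adj, G.1.adj_comm w, G'.1.adj_comm w] at h
  split_ifs at h ⊢ <;> first | rfl | omega

theorem blk_inv (u v w x : Fin n) (h : Dist4 u v w x) (G G' : Omega d)
    (hk : keyOff (touch u v) G = keyOff (touch u v) G') :
    blk u v w x G.1 = blk u v w x G'.1 := by
  obtain ⟨huv, huw, hux, hvw, hvx, hwx⟩ := h
  have c1 := colsum_inv u v w huw hvw huv G G' hk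
  have c2 := colsum_inv u v x hux hvx huv G G' hk
  unfold blk
  omega

theorem blk_swap (u v w x : Fin n) (G : SimpleGraph (Fin n)) :
    blk w x u v G = blk u v w x G := by
  unfold blk
  simp only [G.adj_comm w, G.adj_comm x]
  omega

theorem Dist4.swap {u v w x : Fin n} (h : Dist4 u v w x) : Dist4 w x u v := by
  obtain ⟨huv, huw, hux, hvw, hvx, hwx⟩ := h
  exact ⟨hwx, huw.symm, hvw.symm, hux.symm, hvx.symm, huv⟩

theorem blk_inv' (u v w x : Fin n) (h : Dist4 u v w x) (G G' : Omega d)
    (hk : keyOff (touch w x) G = keyOff (touch w x) G') :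
    blk u v w x G.1 = blk u v w x G'.1 := by
  rw [← blk_swap, ← blk_swap u v w x]
  exact blk_inv w x u v h.swap G G' hk

/-- the edge `u v` is determined by the graph off `touch u v` -/
theorem adj_uv_inv (u v : Fin n) (huv : u ≠ v) (G G' : Omega d)
    (hk : keyOff (touch u v) G = keyOff (touch u v) G') : G.1.Adj u v ↔ G'.1.Adj u v := by
  have a1 := sum_phi G u
  have a2 := sum_phi G v
  have b1 := sum_phi G' u
  have b2 := sum_phi G' v
  rw [sum_split2 _ u v huv] at a1 a2 b1 b2
  have h3 : ∑ j ∈ (univ.erase u).erase v, phi G.1 s(u, j)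
        + ∑ j ∈ (univ.erase u).erase v, phi G.1 s(v, j)
      = ∑ j ∈ (univ.erase u).erase v, phi G'.1 s(u, j)
        + ∑ j ∈ (univ.erase u).erase v, phi G'.1 s(v, j) := by
    rw [← Finset.sum_add_distrib, ← Finset.sum_add_distrib]
    apply Finset.sum_congr rfl
    intro j hj
    simp only [Finset.mem_erase, Finset.mem_univ, and_true] at hj
    have := colsum_phi u v j hj.2.symm hj.1.symm huv G G' hk
    rw [Sym2.eq_swap (a := u), Sym2.eq_swap (a := v)]
    exact this
  rw [phi_self] at a1 a2 b1 b2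
  rw [Sym2.eq_swap (a := v) (b := u)] at a2 b2
  have h4 : phi G.1 s(u, v) = phi G'.1 s(u, v) := by linarith
  simp only [phi_adj] at h4
  split_ifs at h4 with c1 c2 c2
  · exact ⟨fun _ => c2, fun _ => c1⟩
  · exact absurd h4 (by norm_num)
  · exact absurd h4 (by norm_num)
  · exact ⟨fun hh => absurd hh c1, fun hh => absurd hh c2⟩

/-! ### Blocks -/

theorem block_exists : ∀ a1 b1 c1 e1 a2 b2 c2 e2 : Bool,
    bi a1 + bi b1 + bi c1 + bi e1 = bi a2 + bi b2 + bi c2 + bi e2 →
    bi a1 + bi b1 + bi c1 + bi e1 ≠ 2 →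
    ∃ a b c e : Bool, bi a + bi b = bi a1 + bi b1 ∧ bi c + bi e = bi c1 + bi e1 ∧
      bi a + bi c = bi a2 + bi c2 ∧ bi b + bi e = bi b2 + bi e2 := by
  decide

theorem block_unique : ∀ a1 b1 c1 e1 a2 b2 c2 e2 : Bool,
    bi a1 + bi b1 + bi c1 + bi e1 ≠ 2 →
    bi a1 + bi b1 = bi a2 + bi b2 → bi c1 + bi e1 = bi c2 + bi e2 →
    bi a1 + bi c1 = bi a2 + bi c2 → bi b1 + bi e1 = bi b2 + bi e2 →
    a1 = a2 ∧ b1 = b2 ∧ c1 = c2 ∧ e1 = e2 := by
  decide

theorem blk_eq_phi (u v w x : Fin n) (G : SimpleGraph (Fin n)) :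
    (blk u v w x G : ℤ) = phi G s(u, w) + phi G s(u, x) + phi G s(v, w) + phi G s(v, x) := by
  unfold blk
  simp only [phi_adj]
  push_cast
  rfl

/-- the number of `j` with `s(i,j) = s(p,q)` -/
theorem sum_slot (i p q : Fin n) (hpq : p ≠ q) (c : ℤ) :
    ∑ j, (if s(i, j) = s(p, q) then c else 0)
      = (if i = p then c else 0) + (if i = q then c else 0) := by
  by_cases h1 : i = p
  · subst h1
    have : ∀ j, (if s(i, j) = s(i, q) then c else 0) = if j = q then c else 0 := by
      intro j
      have : s(i, j) = s(i, q) ↔ j = q := by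
        rw [Sym2.eq_iff]
        constructor
        · rintro (h | h)
          · exact h.2
          · exact absurd h.1 hpq
        · intro h; exact Or.inl ⟨rfl, h⟩
      simp only [this]
    simp only [this, Finset.sum_ite_eq', Finset.mem_univ, if_true, if_neg hpq, add_zero]
  · by_cases h2 : i = q
    · subst h2
      have : ∀ j, (if s(i, j) = s(p, i) then c else 0) = if j = p then c else 0 := by
        intro j
        have : s(i, j) = s(p, i) ↔ j = p := by
          rw [Sym2.eq_iff]
          constructor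
          · rintro (h | h)
            · exact absurd h.1 h1
            · exact h.2
          · intro h; exact Or.inr ⟨rfl, h⟩
        simp only [this]
      simp only [this, Finset.sum_ite_eq', Finset.mem_univ, if_true, if_neg h1, zero_add]
    · rw [if_neg h1, if_neg h2, add_zero]
      apply Finset.sum_eq_zero
      intro j _
      rw [if_neg]
      rw [Sym2.eq_iff]
      rintro (h | h)
      · exact h1 h.1
      · exact h2 h.1

theorem slot_ne {p q p' q' : Fin n} (h1 : ¬ (p = p' ∧ q = q')) (h2 : ¬ (p = q' ∧ q = p')) :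
    s(p, q) ≠ s(p', q') := by
  rw [Ne, Sym2.eq_iff]
  tauto

theorem mem_Ms_iff (u v w x : Fin n) (z : Sym2 (Fin n)) :
    z ∈ Ms u v w x ↔ z = s(u, w) ∨ z = s(u, x) ∨ z = s(v, w) ∨ z = s(v, x) := by
  unfold Ms
  simp only [Set.mem_insert_iff, Set.mem_singleton_iff]

theorem not_touch_of_not_Ms (u v w x : Fin n) (h : Dist4 u v w x) (z : Sym2 (Fin n))
    (hz : z ∉ Ms u v w x) (hz' : z ∈ touch w x) : z ∉ touch u v := fun h3 =>
  Set.disjoint_left.1 (disjoint_touch_diff u v w x h) ⟨h3, hz⟩ hz'

/-- rectangle property on the sector `blk != 2` -/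
theorem rect_sector (u v w x : Fin n) (h : Dist4 u v w x) (G G1 G2 : Omega d)
    (hG : blk u v w x G.1 ≠ 2)
    (h1 : keyOff (touch u v) G1 = keyOff (touch u v) G)
    (h2 : keyOff (touch w x) G2 = keyOff (touch w x) G) :
    ∃ H : Omega d, keyOff (touch w x) H = keyOff (touch w x) G1 ∧
      keyOff (touch u v) H = keyOff (touch u v) G2 := by
  have hd := h
  obtain ⟨huv, huw, hux, hvw, hvx, hwx⟩ := hd
  have t1 : (blk u v w x G1.1 : ℤ) = blk u v w x G.1 := by rw [blk_inv u v w x h G1 G h1]
  have t2 : (blk u v w x G2.1 : ℤ) = blk u v w x G.1 := by rw [blk_inv' u v w x h G2 G h2]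
  have t0 : (blk u v w x G.1 : ℤ) ≠ 2 := by exact_mod_cast hG
  rw [blk_eq_phi] at t1 t2
  obtain ⟨a, b, c, e, r1, r2, k1, k2⟩ := block_exists
    (decide (s(u, w) ∈ G1.1.edgeSet)) (decide (s(u, x) ∈ G1.1.edgeSet))
    (decide (s(v, w) ∈ G1.1.edgeSet)) (decide (s(v, x) ∈ G1.1.edgeSet))
    (decide (s(u, w) ∈ G2.1.edgeSet)) (decide (s(u, x) ∈ G2.1.edgeSet))
    (decide (s(v, w) ∈ G2.1.edgeSet)) (decide (s(v, x) ∈ G2.1.edgeSet))
    (by simp only [← phi_eq_bi]; rw [t1, t2]) (by simp only [← phi_eq_bi]; rw [t1]; exact t0)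
  simp only [← phi_eq_bi] at r1 r2 k1 k2
  -- the four slots are distinct
  have n12 : s(u, w) ≠ s(u, x) := slot_ne (fun hh => hwx hh.2) (fun hh => hux hh.1)
  have n13 : s(u, w) ≠ s(v, w) := slot_ne (fun hh => huv hh.1) (fun hh => huw hh.1)
  have n14 : s(u, w) ≠ s(v, x) := slot_ne (fun hh => huv hh.1) (fun hh => hux hh.1)
  have n23 : s(u, x) ≠ s(v, w) := slot_ne (fun hh => huv hh.1) (fun hh => huw hh.1)
  have n24 : s(u, x) ≠ s(v, x) := slot_ne (fun hh => huv hh.1) (fun hh => hux hh.1)
  have n34 : s(v, w) ≠ s(v, x) := slot_ne (fun hh => hwx hh.2) (fun hh => hvx hh.1)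
  set E : Set (Sym2 (Fin n)) := fun z =>
    (z ∉ Ms u v w x ∧ ((z ∈ touch w x ∧ z ∈ G2.1.edgeSet) ∨ (z ∉ touch w x ∧ z ∈ G1.1.edgeSet))) ∨
    (z = s(u, w) ∧ a = true) ∨ (z = s(u, x) ∧ b = true) ∨ (z = s(v, w) ∧ c = true) ∨
    (z = s(v, x) ∧ e = true) with hE
  have memE : ∀ z, z ∈ E ↔
      ((z ∉ Ms u v w x ∧
        ((z ∈ touch w x ∧ z ∈ G2.1.edgeSet) ∨ (z ∉ touch w x ∧ z ∈ G1.1.edgeSet))) ∨
      (z = s(u, w) ∧ a = true) ∨ (z = s(u, x) ∧ b = true) ∨ (z = s(v, w) ∧ c = true) ∨
      (z = s(v, x) ∧ e = true)) := fun z => Iff.rfl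
  have mE0 : ∀ z, z ∉ Ms u v w x → (z ∈ E ↔
      ((z ∈ touch w x ∧ z ∈ G2.1.edgeSet) ∨ (z ∉ touch w x ∧ z ∈ G1.1.edgeSet))) := by
    intro z hz
    rw [memE]
    rw [mem_Ms_iff] at hz
    constructor
    · rintro (hh | hh | hh | hh | hh)
      · exact hh.2
      · exact absurd (Or.inl hh.1) hz
      · exact absurd (Or.inr (Or.inl hh.1)) hz
      · exact absurd (Or.inr (Or.inr (Or.inl hh.1))) hz
      · exact absurd (Or.inr (Or.inr (Or.inr hh.1))) hz
    · intro hh
      exact Or.inl ⟨by rw [mem_Ms_iff]; exact hz, hh⟩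
  have mE1 : s(u, w) ∈ E ↔ a = true := by
    rw [memE]
    constructor
    · rintro (hh | hh | hh | hh | hh)
      · exact absurd ((mem_Ms_iff u v w x _).2 (Or.inl rfl)) hh.1
      · exact hh.2
      · exact absurd hh.1 n12
      · exact absurd hh.1 n13
      · exact absurd hh.1 n14
    · intro hh; exact Or.inr (Or.inl ⟨rfl, hh⟩)
  have mE2 : s(u, x) ∈ E ↔ b = true := by
    rw [memE]
    constructor
    · rintro (hh | hh | hh | hh | hh)
      · exact absurd ((mem_Ms_iff u v w x _).2 (Or.inr (Or.inl rfl))) hh.1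
      · exact absurd hh.1 n12.symm
      · exact hh.2
      · exact absurd hh.1 n23
      · exact absurd hh.1 n24
    · intro hh; exact Or.inr (Or.inr (Or.inl ⟨rfl, hh⟩))
  have mE3 : s(v, w) ∈ E ↔ c = true := by
    rw [memE]
    constructor
    · rintro (hh | hh | hh | hh | hh)
      · exact absurd ((mem_Ms_iff u v w x _).2 (Or.inr (Or.inr (Or.inl rfl)))) hh.1
      · exact absurd hh.1 n13.symm
      · exact absurd hh.1 n23.symm
      · exact hh.2
      · exact absurd hh.1 n34
    · intro hh; exact Or.inr (Or.inr (Or.inr (Or.inl ⟨rfl, hh⟩)))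
  have mE4 : s(v, x) ∈ E ↔ e = true := by
    rw [memE]
    constructor
    · rintro (hh | hh | hh | hh | hh)
      · exact absurd ((mem_Ms_iff u v w x _).2 (Or.inr (Or.inr (Or.inr rfl)))) hh.1
      · exact absurd hh.1 n14.symm
      · exact absurd hh.1 n24.symm
      · exact absurd hh.1 n34.symm
      · exact hh.2
    · intro hh; exact Or.inr (Or.inr (Or.inr (Or.inr ⟨rfl, hh⟩)))
  -- corrections
  obtain ⟨ca, hca⟩ : ∃ ca, ca = bi a - phi G1.1 s(u, w) - phi G2.1 s(u, w) + phi G.1 s(u, w) :=
    ⟨_, rfl⟩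
  obtain ⟨cb, hcb⟩ : ∃ cb, cb = bi b - phi G1.1 s(u, x) - phi G2.1 s(u, x) + phi G.1 s(u, x) :=
    ⟨_, rfl⟩
  obtain ⟨cc, hcc⟩ : ∃ cc, cc = bi c - phi G1.1 s(v, w) - phi G2.1 s(v, w) + phi G.1 s(v, w) :=
    ⟨_, rfl⟩
  obtain ⟨ce, hce⟩ : ∃ ce, ce = bi e - phi G1.1 s(v, x) - phi G2.1 s(v, x) + phi G.1 s(v, x) :=
    ⟨_, rfl⟩
  have hpt : ∀ z : Sym2 (Fin n), (if z ∈ E then (1 : ℤ) else 0)
      = phi G1.1 z + phi G2.1 z - phi G.1 z + (if z = s(u, w) then ca else 0)
        + (if z = s(u, x) then cb else 0) + (if z = s(v, w) then cc else 0)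
        + (if z = s(v, x) then ce else 0) := by
    intro z
    by_cases hz : z ∈ Ms u v w x
    · rcases (mem_Ms_iff u v w x z).1 hz with rfl | rfl | rfl | rfl
      · rw [if_pos rfl, if_neg n12, if_neg n13, if_neg n14, hca]
        simp only [mE1, bi]
        ring
      · rw [if_neg n12.symm, if_pos rfl, if_neg n23, if_neg n24, hcb]
        simp only [mE2, bi]
        ring
      · rw [if_neg n13.symm, if_neg n23.symm, if_pos rfl, if_neg n34, hcc]
        simp only [mE3, bi]
        ring
      · rw [if_neg n14.symm, if_neg n24.symm, if_neg n34.symm, if_pos rfl, hce]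
        simp only [mE4, bi]
        ring
    · have hz' := hz
      rw [mem_Ms_iff] at hz'
      rw [if_neg (fun hh => hz' (Or.inl hh)), if_neg (fun hh => hz' (Or.inr (Or.inl hh))),
        if_neg (fun hh => hz' (Or.inr (Or.inr (Or.inl hh)))),
        if_neg (fun hh => hz' (Or.inr (Or.inr (Or.inr hh))))]
      by_cases ht : z ∈ touch w x
      · have e1 : phi G1.1 z = phi G.1 z :=
          phi_eq_of_keyOff h1 (not_touch_of_not_Ms u v w x h z hz ht)
        have e2 : (if z ∈ E then (1 : ℤ) else 0) = phi G2.1 z := by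
          unfold phi
          simp only [mE0 z hz, ht, true_and, not_true_eq_false, false_and, or_false]
        rw [e1, e2]
        ring
      · have e1 : phi G2.1 z = phi G.1 z := phi_eq_of_keyOff h2 ht
        have e2 : (if z ∈ E then (1 : ℤ) else 0) = phi G1.1 z := by
          unfold phi
          simp only [mE0 z hz, ht, false_and, not_false_eq_true, true_and, false_or]
        rw [e1, e2]
        ring
  -- row and column sums of the corrections vanish
  have q1 := colsum_phi w x u huw.symm hux.symm hwx G2 G h2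
  have q2 := colsum_phi w x v hvw.symm hvx.symm hwx G2 G h2
  have q3 := colsum_phi u v w huw hvw huv G1 G h1
  have q4 := colsum_phi u v x hux hvx huv G1 G h1
  rw [Sym2.eq_swap (a := w) (b := u), Sym2.eq_swap (a := w) (b := v)] at q3
  rw [Sym2.eq_swap (a := x) (b := u), Sym2.eq_swap (a := x) (b := v)] at q4
  have z1 : ca + cb = 0 := by rw [hca, hcb]; linarith
  have z2 : cc + ce = 0 := by rw [hcc, hce]; linarith
  have z3 : ca + cc = 0 := by rw [hca, hcc]; linarith
  have z4 : cb + ce = 0 := by rw [hcb, hce]; linarith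
  obtain ⟨H, hH⟩ := exists_omega_of_edgeSet (d := d) E (by
      intro z hz
      rcases (memE z).1 hz with hh | hh | hh | hh | hh
      · rcases hh.2 with h3 | h3
        · exact G2.1.not_isDiag_of_mem_edgeSet h3.2
        · exact G1.1.not_isDiag_of_mem_edgeSet h3.2
      · rw [hh.1, Sym2.mk_isDiag_iff]; exact huw
      · rw [hh.1, Sym2.mk_isDiag_iff]; exact hux
      · rw [hh.1, Sym2.mk_isDiag_iff]; exact hvw
      · rw [hh.1, Sym2.mk_isDiag_iff]; exact hvx) (by
      intro i
      have hcast : (((univ.filter (fun j => s(i, j) ∈ E)).card : ℕ) : ℤ) = (d i : ℤ) := by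
        rw [Finset.card_filter]
        push_cast
        simp only [hpt]
        simp only [Finset.sum_add_distrib, Finset.sum_sub_distrib, sum_phi,
          sum_slot i u w huw, sum_slot i u x hux, sum_slot i v w hvw, sum_slot i v x hvx]
        by_cases i1 : i = u
        · subst i1
          simp only [if_true, if_neg huv, if_neg huw, if_neg hux]
          linarith
        · by_cases i2 : i = v
          · subst i2
            simp only [if_true, if_neg i1, if_neg hvw, if_neg hvx]
            linarith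
          · by_cases i3 : i = w
            · subst i3
              simp only [if_true, if_neg i1, if_neg i2, if_neg hwx]
              linarith
            · by_cases i4 : i = x
              · subst i4
                simp only [if_true, if_neg i1, if_neg i2, if_neg i3]
                linarith
              · simp only [if_neg i1, if_neg i2, if_neg i3, if_neg i4]
                linarith
      exact_mod_cast hcast)
  refine ⟨H, ?_, ?_⟩
  · rw [keyOff_eq_iff]
    intro z hz
    have hzM : z ∉ Ms u v w x := fun hh =>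
      hz (Ms_subset_touch w x u v (by rw [Ms_swap]; exact hh))
    rw [hH, mE0 z hzM]
    simp only [hz, false_and, not_false_eq_true, true_and, false_or]
  · rw [keyOff_eq_iff]
    intro z hz
    have hzM : z ∉ Ms u v w x := fun hh => hz (Ms_subset_touch u v w x hh)
    rw [hH, mE0 z hzM]
    by_cases ht : z ∈ touch w x
    · simp only [ht, true_and, not_true_eq_false, false_and, or_false]
    · simp only [ht, false_and, not_false_eq_true, true_and, false_or]
      rw [(keyOff_eq_iff _ _ _).1 h1 z hz, (keyOff_eq_iff _ _ _).1 h2 z ht]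

theorem inj_sector (u v w x : Fin n) (h : Dist4 u v w x) (G G' : Omega d)
    (hG : blk u v w x G.1 ≠ 2)
    (h1 : keyOff (touch u v) G = keyOff (touch u v) G')
    (h2 : keyOff (touch w x) G = keyOff (touch w x) G') : G = G' := by
  have hd := h
  obtain ⟨huv, huw, hux, hvw, hvx, hwx⟩ := hd
  have t0 : (blk u v w x G.1 : ℤ) ≠ 2 := by exact_mod_cast hG
  rw [blk_eq_phi] at t0
  have q1 := colsum_phi w x u huw.symm hux.symm hwx G G' h2
  have q2 := colsum_phi w x v hvw.symm hvx.symm hwx G G' h2
  have q3 := colsum_phi u v w huw hvw huv G G' h1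
  have q4 := colsum_phi u v x hux hvx huv G G' h1
  rw [Sym2.eq_swap (a := w) (b := u), Sym2.eq_swap (a := w) (b := v)] at q3
  rw [Sym2.eq_swap (a := x) (b := u), Sym2.eq_swap (a := x) (b := v)] at q4
  simp only [phi_eq_bi] at t0 q1 q2 q3 q4
  obtain ⟨e1, e2, e3, e4⟩ := block_unique _ _ _ _ _ _ _ _ t0 q1 q2 q3 q4
  rw [decide_eq_decide] at e1 e2 e3 e4
  apply Subtype.ext
  rw [← SimpleGraph.edgeSet_inj]
  ext z
  by_cases hz : z ∈ Ms u v w x
  · rcases (mem_Ms_iff u v w x z).1 hz with rfl | rfl | rfl | rfl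
    · exact e1
    · exact e2
    · exact e3
    · exact e4
  · by_cases ht : z ∈ touch w x
    · exact (keyOff_eq_iff _ _ _).1 h1 z (not_touch_of_not_Ms u v w x h z hz ht)
    · exact (keyOff_eq_iff _ _ _).1 h2 z ht

theorem Q_comm_sector (u v w x : Fin n) (h : Dist4 u v w x) (f : Omega d → ℝ) (G : Omega d)
    (hG : blk u v w x G.1 ≠ 2) :
    Q (touch u v) (Q (touch w x) f) G = Q (touch w x) (Q (touch u v) f) G := by
  refine avg_comm_of_rect (k1 := keyOff (d := d) (touch u v)) (k2 := keyOff (d := d) (touch w x))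
    (fun G : Omega d => blk u v w x G.1 ≠ 2) ?_ ?_ ?_ f G hG
  · intro X Y hk hX
    rw [← blk_inv u v w x h X Y hk]
    exact hX
  · intro X Y hk hX
    rw [← blk_inv' u v w x h X Y hk]
    exact hX
  · intro X Y Z hX hXY hXZ
    obtain ⟨H, hH1, hH2⟩ := rect_sector u v w x h X Y Z hX hXY.symm hXZ.symm
    refine ⟨H, ⟨hH1.symm, hH2.symm⟩, ?_⟩
    intro H' hH'
    have hb : blk u v w x H'.1 ≠ 2 := by
      rw [← blk_inv' u v w x h Y H' hH'.1, ← blk_inv u v w x h X Y hXY]
      exact hX
    exact inj_sector u v w x h H' H hb (hH'.2.symm.trans hH2.symm) (hH'.1.symm.trans hH1.symm)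

end

end Vale.Agent.P335
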