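import Vale.Agent.P335.DisjSector

/-!
# P335, disjoint pairs: the sector `blk = 2`

If `blk = 2` and the two edges of the block sit in the same column (`w` adjacent to both `u`, `v`
and `x` to none, or conversely) then the `touch u v`-fibre of `G` equals its
`touch u v minus Ms`-fibre (column sums are invariant, so the block is frozen) and `Q Ms` acts
trivially on all its members.  Hence `B1 f G = 0`.
-/

namespace Vale.Agent.P335

open Finset

open scoped Classical

noncomputable section

variable {n : ℕ} {d : Fin n → ℕ}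

/-- two graphs of `Omega d` with the same adjacency relation are equal -/
theorem omega_ext {G G' : Omega d} (h : ∀ a b, G.1.Adj a b ↔ G'.1.Adj a b) : G = G' := by
  apply Subtype.ext
  ext a b
  exact h a b

/-- a Boolean fact on `2 x 2` blocks with equal row and column sums -/
theorem block_eq_of_sums (a b c e a' b' c' e' : Prop)
    (h1 : (if a then 1 else 0) + (if c then 1 else 0) =
      (if a' then 1 else 0) + (if c' then (1 : ℕ) else 0))
    (h2 : (if b then 1 else 0) + (if e then 1 else 0) =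
      (if b' then 1 else 0) + (if e' then (1 : ℕ) else 0))
    (h3 : (if a then 1 else 0) + (if b then 1 else 0) =
      (if a' then 1 else 0) + (if b' then (1 : ℕ) else 0))
    (hY : ¬ ((a ∧ e ∧ ¬ b ∧ ¬ c) ∨ (b ∧ c ∧ ¬ a ∧ ¬ e))) :
    (a ↔ a') ∧ (b ↔ b') ∧ (c ↔ c') ∧ (e ↔ e') := by
  by_cases ha : a <;> by_cases hb : b <;> by_cases hc : c <;> by_cases he : e <;>
    by_cases ha' : a' <;> by_cases hb' : b' <;> by_cases hc' : c' <;> by_cases he' : e' <;>
    simp_all

/-- the fibre of `Q Ms` through a state that is not a Y-state is a singleton -/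
theorem eq_of_keyOff_Ms (u v w x : Fin n) (h : Dist4 u v w x) (G G' : Omega d)
    (hY : ¬ Ystate u v w x G.1) (hk : keyOff (Ms u v w x) G' = keyOff (Ms u v w x) G) :
    G' = G := by
  obtain ⟨huv, huw, hux, hvw, hvx, hwx⟩ := h
  have hk1 : keyOff (touch u v) G = keyOff (touch u v) G' :=
    keyOff_mono (Ms_subset_touch u v w x) hk.symm
  have hk2 : keyOff (touch w x) G = keyOff (touch w x) G' := by
    have := Ms_subset_touch w x u v
    rw [Ms_swap] at this
    exact keyOff_mono this hk.symm
  have c1 := colsum_inv u v w huw hvw huv G G' hk1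
  have c2 := colsum_inv u v x hux hvx huv G G' hk1
  have c3 := colsum_inv w x u huw.symm hux.symm hwx G G' hk2
  simp only [G.1.adj_comm w u, G.1.adj_comm x u, G'.1.adj_comm w u, G'.1.adj_comm x u] at c3
  obtain ⟨e1, e2, e3, e4⟩ := block_eq_of_sums _ _ _ _ _ _ _ _ c1 c2 c3 hY
  apply omega_ext
  intro a b
  by_cases hab : s(a, b) ∈ Ms u v w x
  · rw [mem_Ms_iff] at hab
    rcases hab with hab | hab | hab | hab <;>
      · rw [← SimpleGraph.mem_edgeSet, ← SimpleGraph.mem_edgeSet, hab, SimpleGraph.mem_edgeSet,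
          SimpleGraph.mem_edgeSet]
        first
          | exact e1.symm
          | exact e2.symm
          | exact e3.symm
          | exact e4.symm
  · exact adj_iff_of_keyOff_eq hk hab

theorem Q_Ms_of_not_Ystate (u v w x : Fin n) (h : Dist4 u v w x) (f : Omega d → ℝ) (G : Omega d)
    (hY : ¬ Ystate u v w x G.1) : Q (Ms u v w x) f G = f G := by
  have h1 : Q (Ms u v w x) f G = Q (Ms u v w x) (fun _ => f G) G := by
    apply avg_congr_fibre
    intro G' hG'
    rw [eq_of_keyOff_Ms u v w x h G G' hY hG']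
  rw [h1]
  have h2 : Q (Ms u v w x) (fun _ : Omega d => f G) = fun _ => f G :=
    avg_of_inv _ _ (fun _ _ _ => rfl)
  rw [h2]

/-- a Boolean fact: a column with equal entries is frozen by its sum -/
theorem col_frozen (a c a' c' : Prop) (hac : a ↔ c)
    (h1 : (if a then 1 else 0) + (if c then 1 else 0) =
      (if a' then 1 else 0) + (if c' then (1 : ℕ) else 0)) : (a ↔ a') ∧ (c ↔ c') := by
  by_cases ha : a <;> by_cases hc : c <;> by_cases ha' : a' <;> by_cases hc' : c' <;> simp_all

/-- column type states: `B1` vanishes -/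
theorem B1_vanish (u v w x : Fin n) (h : Dist4 u v w x) (f : Omega d → ℝ) (G : Omega d)
    (hw : G.1.Adj u w ↔ G.1.Adj v w) (hx : G.1.Adj u x ↔ G.1.Adj v x) :
    B1 u v w x f G = 0 := by
  have h' := h
  obtain ⟨huv, huw, hux, hvw, hvx, hwx⟩ := h
  -- the block is frozen on the fibre
  have hfro : ∀ G' : Omega d, keyOff (touch u v) G' = keyOff (touch u v) G →
      (G.1.Adj u w ↔ G'.1.Adj u w) ∧ (G.1.Adj v w ↔ G'.1.Adj v w) ∧
      (G.1.Adj u x ↔ G'.1.Adj u x) ∧ (G.1.Adj v x ↔ G'.1.Adj v x) := by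
    intro G' hk
    have c1 := colsum_inv u v w huw hvw huv G G' hk.symm
    have c2 := colsum_inv u v x hux hvx huv G G' hk.symm
    obtain ⟨e1, e2⟩ := col_frozen _ _ _ _ hw c1
    obtain ⟨e3, e4⟩ := col_frozen _ _ _ _ hx c2
    exact ⟨e1, e2, e3, e4⟩
  have hfib : ∀ G' : Omega d, keyOff (touch u v \ Ms u v w x) G' = keyOff (touch u v \ Ms u v w x) G ↔
      keyOff (touch u v) G' = keyOff (touch u v) G := by
    intro G'
    constructor
    · intro hk
      exact keyOff_mono Set.sdiff_subset hk
    · intro hk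
      obtain ⟨e1, e2, e3, e4⟩ := hfro G' hk
      rw [keyOff_eq_iff]
      intro e he
      by_cases heM : e ∈ Ms u v w x
      · rw [mem_Ms_iff] at heM
        rcases heM with rfl | rfl | rfl | rfl
        · exact e1.symm
        · exact e3.symm
        · exact e2.symm
        · exact e4.symm
      · have : e ∉ touch u v := fun ht => he ⟨ht, heM⟩
        exact (keyOff_eq_iff _ _ _).1 hk e this
  have hstep1 : Q (touch u v \ Ms u v w x) (Q (Ms u v w x) f) G = Q (touch u v \ Ms u v w x) f G := by
    apply avg_congr_fibre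
    intro G' hG'
    apply Q_Ms_of_not_Ystate u v w x h'
    obtain ⟨e1, e2, e3, e4⟩ := hfro G' ((hfib G').1 hG')
    intro hY
    rcases hY with ⟨y1, y2, y3, y4⟩ | ⟨y1, y2, y3, y4⟩
    · exact y4 (e2.1 (hw.1 (e1.2 y1)))
    · exact y3 (e1.1 (hw.2 (e2.2 y2)))
  have hstep2 : Q (touch u v \ Ms u v w x) f G = Q (touch u v) f G :=
    avg_eq_avg_of_fibre_eq _ _ f G hfib
  unfold B1
  rw [hstep1, hstep2, sub_self]

/-- classification of the blocks with two edges -/
theorem blk_two_cases (u v w x : Fin n) (G : SimpleGraph (Fin n)) (hG : blk u v w x G = 2) :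
    Ystate u v w x G ∨ ((G.Adj u w ↔ G.Adj v w) ∧ (G.Adj u x ↔ G.Adj v x)) ∨
      ((G.Adj w u ↔ G.Adj x u) ∧ (G.Adj w v ↔ G.Adj x v)) := by
  unfold blk at hG
  unfold Ystate
  rw [G.adj_comm w u, G.adj_comm x u, G.adj_comm w v, G.adj_comm x v]
  by_cases h1 : G.Adj u w <;> by_cases h2 : G.Adj u x <;> by_cases h3 : G.Adj v w <;>
    by_cases h4 : G.Adj v x <;> simp_all

theorem blk_of_Ystate (u v w x : Fin n) (G : SimpleGraph (Fin n)) (hY : Ystate u v w x G) :
    blk u v w x G = 2 := by
  unfold blk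
  rcases hY with ⟨y1, y2, y3, y4⟩ | ⟨y1, y2, y3, y4⟩ <;> simp [y1, y2, y3, y4]

end

end Vale.Agent.P335
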