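import Vale.Agent.P335.Defs
import Vale.Agent.P335.Avg

/-!
# P335: auxiliary file for `edge_ineq` (self-contained: only Defs and Avg are used)

For four distinct vertices `u v w x` let `M4 u v w x` be the set of the four slots between `{u,v}`
and `{w,x}`.  Two distinct graphs of `Omega d` that agree off `M4 u v w x` differ exactly by the
4-cycle `u w v x`; hence they are switch adjacent, the fibre has at most two elements, and there
are at most 8 ordered 4-tuples for a given pair of graphs.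
-/

namespace Vale.Agent.P335

open Finset

open scoped Classical

set_option linter.unusedSimpArgs false

noncomputable section

section Abstract

variable {X : Type*} [Fintype X] {K : Type*}

theorem sum_mul_sub_avg (k : X → K) (f : X → ℝ) :
    ∑ x, f x * (f x - avg k f x) = ∑ x, (f x - avg k f x) ^ 2 := by
  have h1 : ∑ x, avg k f x * avg k f x = ∑ x, avg k f x * f x := by
    have := sum_mul_avg k f (avg k f)
    rw [avg_idem] at this
    exact this
  have h2 : ∑ x, (f x - avg k f x) ^ 2 =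
      ∑ x, f x * (f x - avg k f x) - (∑ x, avg k f x * f x - ∑ x, avg k f x * avg k f x) := by
    rw [← sum_sub_distrib, ← sum_sub_distrib]
    exact sum_congr rfl (fun x _ => by ring)
  rw [h2, h1]; ring

theorem sq_sub_avg_le (k : X → K) (f : X → ℝ) (x : X)
    (h : ∀ y z, k y = k x → k z = k x → y ≠ x → z ≠ x → y = z) :
    (f x - avg k f x) ^ 2 ≤
      (1 / 4 : ℝ) * ∑ y, if (k y = k x ∧ y ≠ x) then (f x - f y) ^ 2 else 0 := by
  have hnn : ∀ y ∈ (univ : Finset X),
      (0 : ℝ) ≤ if (k y = k x ∧ y ≠ x) then (f x - f y) ^ 2 else 0 := by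
    intro y _
    split_ifs
    · positivity
    · exact le_refl _
  by_cases hex : ∃ y, k y = k x ∧ y ≠ x
  · obtain ⟨y, hy, hyx⟩ := hex
    have hcls : cls k x = {x, y} := by
      ext z
      simp only [mem_cls, mem_insert, mem_singleton]
      constructor
      · intro hz
        by_cases hzx : z = x
        · exact Or.inl hzx
        · exact Or.inr (h z y hz hy hzx hyx)
      · rintro (rfl | rfl)
        · rfl
        · exact hy
    have havg : avg k f x = (f x + f y) / 2 := by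
      unfold avg
      rw [hcls, sum_pair (Ne.symm hyx), card_pair (Ne.symm hyx)]
      norm_num
    have hterm : (f x - f y) ^ 2 ≤
        ∑ y, if (k y = k x ∧ y ≠ x) then (f x - f y) ^ 2 else 0 := by
      have := single_le_sum hnn (mem_univ y)
      rwa [if_pos ⟨hy, hyx⟩] at this
    rw [havg]
    nlinarith [hterm]
  · have hcls : cls k x = {x} := by
      ext z
      simp only [mem_cls, mem_singleton]
      constructor
      · intro hz
        by_contra hzx
        exact hex ⟨z, hz, hzx⟩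
      · rintro rfl; rfl
    have havg : avg k f x = f x := by
      unfold avg
      rw [hcls]; simp
    have h0 : (f x - f x) ^ 2 = 0 := by ring
    rw [havg, h0]
    exact mul_nonneg (by norm_num) (sum_nonneg hnn)

end Abstract

variable {n : ℕ} {d : Fin n → ℕ}

/-- the four slots between `{u,v}` and `{w,x}` -/
def M4 (u v w x : Fin n) : Set (Sym2 (Fin n)) := {s(u, w), s(u, x), s(v, w), s(v, x)}

/-- four distinct vertices -/
def D4 (u v w x : Fin n) : Prop := u ≠ v ∧ u ≠ w ∧ u ≠ x ∧ v ≠ w ∧ v ≠ x ∧ w ≠ x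

theorem degree_eq_sum (G : SimpleGraph (Fin n)) (p : Fin n) :
    G.degree p = ∑ y, if G.Adj p y then 1 else 0 := by
  rw [← SimpleGraph.card_neighborFinset_eq_degree, SimpleGraph.neighborFinset_eq_filter,
    card_filter]

/-- if two graphs have the same degree at `p` and the same neighbours of `p` except possibly
`q1`, `q2`, then the number of neighbours among `q1`, `q2` is the same -/
theorem two_slot_count (G G' : SimpleGraph (Fin n)) (p q1 q2 : Fin n) (hq : q1 ≠ q2)
    (hdeg : G.degree p = G'.degree p)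
    (h : ∀ y, y ≠ q1 → y ≠ q2 → (G.Adj p y ↔ G'.Adj p y)) :
    (if G.Adj p q1 then 1 else 0) + (if G.Adj p q2 then 1 else 0) =
      (if G'.Adj p q1 then 1 else 0) + (if G'.Adj p q2 then (1 : ℕ) else 0) := by
  rw [degree_eq_sum, degree_eq_sum] at hdeg
  have split : ∀ H : SimpleGraph (Fin n), (∑ y, if H.Adj p y then 1 else 0) =
      (if H.Adj p q1 then 1 else 0) + ((if H.Adj p q2 then 1 else 0) +
        ∑ y ∈ (univ.erase q1).erase q2, if H.Adj p y then (1 : ℕ) else 0) := by
    intro H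
    rw [← add_sum_erase univ _ (mem_univ q1),
      ← add_sum_erase (univ.erase q1) _ (mem_erase.2 ⟨hq.symm, mem_univ q2⟩)]
  rw [split G, split G'] at hdeg
  have hrest : (∑ y ∈ (univ.erase q1).erase q2, if G.Adj p y then (1 : ℕ) else 0) =
      ∑ y ∈ (univ.erase q1).erase q2, if G'.Adj p y then (1 : ℕ) else 0 := by
    refine sum_congr rfl (fun y hy => ?_)
    have hy2 : y ≠ q2 := (mem_erase.1 hy).1
    have hy1 : y ≠ q1 := (mem_erase.1 (mem_erase.1 hy).2).1
    simp only [h y hy1 hy2]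
  omega

theorem prop_block (a1 a2 a3 a4 b1 b2 b3 b4 : Prop)
    (h1 : (if a1 then 1 else 0) + (if a2 then 1 else 0) =
      (if b1 then 1 else 0) + (if b2 then (1 : ℕ) else 0))
    (h2 : (if a3 then 1 else 0) + (if a4 then 1 else 0) =
      (if b3 then 1 else 0) + (if b4 then (1 : ℕ) else 0))
    (h3 : (if a1 then 1 else 0) + (if a3 then 1 else 0) =
      (if b1 then 1 else 0) + (if b3 then (1 : ℕ) else 0))
    (_h4 : (if a2 then 1 else 0) + (if a4 then 1 else 0) =
      (if b2 then 1 else 0) + (if b4 then (1 : ℕ) else 0))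
    (hne : ¬ ((a1 ↔ b1) ∧ (a2 ↔ b2) ∧ (a3 ↔ b3) ∧ (a4 ↔ b4))) :
    (b1 ↔ ¬ a1) ∧ (b2 ↔ ¬ a2) ∧ (b3 ↔ ¬ a3) ∧ (b4 ↔ ¬ a4) ∧ (a4 ↔ a1) ∧ (a2 ↔ ¬ a1) ∧
      (a3 ↔ ¬ a1) := by
  by_cases a1 <;> by_cases a2 <;> by_cases a3 <;> by_cases a4 <;> by_cases b1 <;> by_cases b2 <;>
    by_cases b3 <;> by_cases b4 <;> simp_all

theorem mem_M4 {u v w x a b : Fin n} : s(a, b) ∈ M4 u v w x ↔
    ((a = u ∨ a = v) ∧ (b = w ∨ b = x)) ∨ ((b = u ∨ b = v) ∧ (a = w ∨ a = x)) := by
  simp only [M4, Set.mem_insert_iff, Set.mem_singleton_iff, Sym2.eq_iff]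
  tauto

theorem off_M4 {u v w x : Fin n} {G G' : Omega d}
    (hk : G'.1.edgeSet \ M4 u v w x = G.1.edgeSet \ M4 u v w x) {e : Sym2 (Fin n)}
    (he : e ∉ M4 u v w x) : e ∈ G'.1.edgeSet ↔ e ∈ G.1.edgeSet := by
  have := Set.ext_iff.1 hk e
  simp only [Set.mem_sdiff, he, not_false_eq_true, and_true] at this
  exact this

/-- two distinct graphs that agree off the block differ by the full 4-cycle -/
theorem block_flip {u v w x : Fin n} (h : D4 u v w x) {G G' : Omega d}
    (hk : G'.1.edgeSet \ M4 u v w x = G.1.edgeSet \ M4 u v w x) (hne : G' ≠ G) :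
    (G'.1.Adj u w ↔ ¬ G.1.Adj u w) ∧ (G'.1.Adj u x ↔ ¬ G.1.Adj u x) ∧
    (G'.1.Adj v w ↔ ¬ G.1.Adj v w) ∧ (G'.1.Adj v x ↔ ¬ G.1.Adj v x) ∧
    (G.1.Adj v x ↔ G.1.Adj u w) ∧ (G.1.Adj u x ↔ ¬ G.1.Adj u w) ∧
    (G.1.Adj v w ↔ ¬ G.1.Adj u w) := by
  obtain ⟨huv, huw, hux, hvw, hvx, hwx⟩ := h
  have off : ∀ a b, s(a, b) ∉ M4 u v w x → (G.1.Adj a b ↔ G'.1.Adj a b) := by
    intro a b hab
    have := off_M4 hk hab
    simp only [SimpleGraph.mem_edgeSet] at this
    exact this.symm
  have hdeg : ∀ p, G.1.degree p = G'.1.degree p := fun p => by rw [G.2 p, G'.2 p]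
  have c1 := two_slot_count G.1 G'.1 u w x hwx (hdeg u) (by
    intro y hy1 hy2
    apply off
    rw [mem_M4]
    rintro (⟨-, h | h⟩ | ⟨-, h | h⟩)
    · exact hy1 h
    · exact hy2 h
    · exact huw h
    · exact hux h)
  have c2 := two_slot_count G.1 G'.1 v w x hwx (hdeg v) (by
    intro y hy1 hy2
    apply off
    rw [mem_M4]
    rintro (⟨-, h | h⟩ | ⟨-, h | h⟩)
    · exact hy1 h
    · exact hy2 h
    · exact hvw h
    · exact hvx h)
  have c3 := two_slot_count G.1 G'.1 w u v huv (hdeg w) (by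
    intro y hy1 hy2
    apply off
    rw [mem_M4]
    rintro (⟨h | h, -⟩ | ⟨h | h, -⟩)
    · exact huw h.symm
    · exact hvw h.symm
    · exact hy1 h
    · exact hy2 h)
  have c4 := two_slot_count G.1 G'.1 x u v huv (hdeg x) (by
    intro y hy1 hy2
    apply off
    rw [mem_M4]
    rintro (⟨h | h, -⟩ | ⟨h | h, -⟩)
    · exact hux h.symm
    · exact hvx h.symm
    · exact hy1 h
    · exact hy2 h)
  simp only [G.1.adj_comm w, G.1.adj_comm x, G'.1.adj_comm w, G'.1.adj_comm x] at c3 c4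
  refine prop_block _ _ _ _ _ _ _ _ c1 c2 c3 c4 ?_
  rintro ⟨e1, e2, e3, e4⟩
  apply hne
  apply Subtype.ext
  ext a b
  by_cases hab : s(a, b) ∈ M4 u v w x
  · rw [mem_M4] at hab
    rcases hab with ⟨rfl | rfl, rfl | rfl⟩ | ⟨rfl | rfl, rfl | rfl⟩
    · exact e1.symm
    · exact e2.symm
    · exact e3.symm
    · exact e4.symm
    · rw [G.1.adj_comm, G'.1.adj_comm]; exact e1.symm
    · rw [G.1.adj_comm, G'.1.adj_comm]; exact e2.symm
    · rw [G.1.adj_comm, G'.1.adj_comm]; exact e3.symm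
    · rw [G.1.adj_comm, G'.1.adj_comm]; exact e4.symm
  · exact (off a b hab).symm

theorem flip_edgeSet {u v w x : Fin n} (h : D4 u v w x) {G G' : Omega d}
    (hk : G'.1.edgeSet \ M4 u v w x = G.1.edgeSet \ M4 u v w x) (hne : G' ≠ G)
    {e : Sym2 (Fin n)} (he : e ∈ M4 u v w x) : e ∈ G'.1.edgeSet ↔ e ∉ G.1.edgeSet := by
  obtain ⟨f1, f2, f3, f4, -⟩ := block_flip h hk hne
  simp only [M4, Set.mem_insert_iff, Set.mem_singleton_iff] at he
  rcases he with rfl | rfl | rfl | rfl
  · simpa only [SimpleGraph.mem_edgeSet] using f1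
  · simpa only [SimpleGraph.mem_edgeSet] using f2
  · simpa only [SimpleGraph.mem_edgeSet] using f3
  · simpa only [SimpleGraph.mem_edgeSet] using f4

theorem mem_M4_iff_ne {u v w x : Fin n} (h : D4 u v w x) {G G' : Omega d}
    (hk : G'.1.edgeSet \ M4 u v w x = G.1.edgeSet \ M4 u v w x) (hne : G' ≠ G)
    (e : Sym2 (Fin n)) : e ∈ M4 u v w x ↔ ¬ (e ∈ G'.1.edgeSet ↔ e ∈ G.1.edgeSet) := by
  constructor
  · intro he hiff
    have := flip_edgeSet h hk hne he
    tauto
  · intro hn
    by_contra he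
    exact hn (off_M4 hk he)

/-- the fibre has at most one further element -/
theorem fibre_unique {u v w x : Fin n} (h : D4 u v w x) {G G' G'' : Omega d}
    (hk : G'.1.edgeSet \ M4 u v w x = G.1.edgeSet \ M4 u v w x) (hne : G' ≠ G)
    (hk2 : G''.1.edgeSet \ M4 u v w x = G.1.edgeSet \ M4 u v w x) (hne2 : G'' ≠ G) : G' = G'' := by
  apply Subtype.ext
  apply SimpleGraph.edgeSet_inj.1
  ext e
  by_cases he : e ∈ M4 u v w x
  · rw [flip_edgeSet h hk hne he, flip_edgeSet h hk2 hne2 he]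
  · rw [off_M4 hk he, off_M4 hk2 he]

theorem switchAdj_of_fibre {u v w x : Fin n} (h : D4 u v w x) {G G' : Omega d}
    (hk : G'.1.edgeSet \ M4 u v w x = G.1.edgeSet \ M4 u v w x) (hne : G' ≠ G) :
    SwitchAdj G.1 G'.1 := by
  obtain ⟨f1, f2, f3, f4, g1, g2, g3⟩ := block_flip h hk hne
  have hflip := fun e (he : e ∈ M4 u v w x) => flip_edgeSet h hk hne he
  have hoff := fun e (he : e ∉ M4 u v w x) => off_M4 hk he
  obtain ⟨huv, huw, hux, hvw, hvx, hwx⟩ := h
  by_cases a1 : G.1.Adj u w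
  · have a4 : G.1.Adj v x := g1.2 a1
    have a2 : ¬ G.1.Adj u x := fun hh => (g2.1 hh) a1
    have a3 : ¬ G.1.Adj v w := fun hh => (g3.1 hh) a1
    refine ⟨u, w, x, v, huw, hux, huv, hwx, hvw.symm, hvx.symm, a1, a4.symm, a2,
      fun hh => a3 hh.symm, ?_⟩
    ext e
    by_cases he : e ∈ M4 u v w x
    · rw [hflip e he]
      simp only [M4, Set.mem_insert_iff, Set.mem_singleton_iff] at he
      rcases he with rfl | rfl | rfl | rfl
      · simp [a1, huv, huw, hux, hvw, hvx, hwx, huv.symm, huw.symm, hux.symm, hvw.symm, hvx.symm, hwx.symm]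
      · simp [a2, huv, huw, hux, hvw, hvx, hwx, huv.symm, huw.symm, hux.symm, hvw.symm, hvx.symm, hwx.symm]
      · simp [a3, Sym2.eq_swap, huv, huw, hux, hvw, hvx, hwx, huv.symm, huw.symm, hux.symm, hvw.symm, hvx.symm, hwx.symm]
      · simp [a4, Sym2.eq_swap, huv, huw, hux, hvw, hvx, hwx, huv.symm, huw.symm, hux.symm, hvw.symm, hvx.symm, hwx.symm]
    · rw [hoff e he]
      simp only [M4, Set.mem_insert_iff, Set.mem_singleton_iff, not_or] at he
      obtain ⟨n1, n2, n3, n4⟩ := he
      have n3' : e ≠ s(w, v) := by rw [Sym2.eq_swap]; exact n3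
      have n4' : e ≠ s(x, v) := by rw [Sym2.eq_swap]; exact n4
      simp [n1, n2, n3', n4']
  · have a4 : ¬ G.1.Adj v x := fun hh => a1 (g1.1 hh)
    have a2 : G.1.Adj u x := g2.2 a1
    have a3 : G.1.Adj v w := g3.2 a1
    refine ⟨u, x, w, v, hux, huw, huv, hwx.symm, hvx.symm, hvw.symm, a2, a3.symm, a1,
      fun hh => a4 hh.symm, ?_⟩
    ext e
    by_cases he : e ∈ M4 u v w x
    · rw [hflip e he]
      simp only [M4, Set.mem_insert_iff, Set.mem_singleton_iff] at he
      rcases he with rfl | rfl | rfl | rfl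
      · simp [a1, huv, huw, hux, hvw, hvx, hwx, huv.symm, huw.symm, hux.symm, hvw.symm, hvx.symm, hwx.symm]
      · simp [a2, huv, huw, hux, hvw, hvx, hwx, huv.symm, huw.symm, hux.symm, hvw.symm, hvx.symm, hwx.symm]
      · simp [a3, Sym2.eq_swap, huv, huw, hux, hvw, hvx, hwx, huv.symm, huw.symm, hux.symm, hvw.symm, hvx.symm, hwx.symm]
      · simp [a4, Sym2.eq_swap, huv, huw, hux, hvw, hvx, hwx, huv.symm, huw.symm, hux.symm, hvw.symm, hvx.symm, hwx.symm]
    · rw [hoff e he]
      simp only [M4, Set.mem_insert_iff, Set.mem_singleton_iff, not_or] at he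
      obtain ⟨n1, n2, n3, n4⟩ := he
      have n3' : e ≠ s(w, v) := by rw [Sym2.eq_swap]; exact n3
      have n4' : e ≠ s(x, v) := by rw [Sym2.eq_swap]; exact n4
      simp [n1, n2, n3', n4']

/-- the admissible ordered 4-tuples for a pair of graphs -/
def tuples (G G' : Omega d) : Finset (Fin n × Fin n × Fin n × Fin n) :=
  univ.filter (fun t => D4 t.1 t.2.1 t.2.2.1 t.2.2.2 ∧
    G'.1.edgeSet \ M4 t.1 t.2.1 t.2.2.1 t.2.2.2 = G.1.edgeSet \ M4 t.1 t.2.1 t.2.2.1 t.2.2.2)

theorem card_tuples_le (G G' : Omega d) (hne : G' ≠ G) : (tuples G G').card ≤ 8 := by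
  by_cases hemp : tuples G G' = ∅
  · rw [hemp]; simp
  obtain ⟨⟨a, b, c, e⟩, ht0⟩ := nonempty_iff_ne_empty.2 hemp
  simp only [tuples, mem_filter, mem_univ, true_and] at ht0
  have hM : ∀ u v w x : Fin n, D4 u v w x →
      G'.1.edgeSet \ M4 u v w x = G.1.edgeSet \ M4 u v w x → M4 u v w x = M4 a b c e := by
    intro u v w x h hk
    ext g
    rw [mem_M4_iff_ne h hk hne, mem_M4_iff_ne ht0.1 ht0.2 hne]
  let L : List (Fin n × Fin n) := [(a, c), (a, e), (b, c), (b, e), (c, a), (e, a), (c, b), (e, b)]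
  have h1 : (tuples G G').card ≤ L.toFinset.card := by
    refine card_le_card_of_injOn (fun t => (t.1, t.2.2.1)) ?_ ?_
    · rintro ⟨u, v, w, x⟩ ht
      simp only [tuples, coe_filter, mem_univ, true_and, Set.mem_ofPred_eq] at ht
      have hm : s(u, w) ∈ M4 a b c e := by
        rw [← hM u v w x ht.1 ht.2, mem_M4]
        exact Or.inl ⟨Or.inl rfl, Or.inl rfl⟩
      rw [mem_M4] at hm
      simp only [L, List.coe_toFinset, List.mem_cons, List.not_mem_nil, or_false, Prod.mk.injEq,
        Set.mem_ofPred_eq]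
      tauto
    · rintro ⟨u, v, w, x⟩ ht ⟨u', v', w', x'⟩ ht' heq
      simp only [tuples, coe_filter, mem_univ, true_and, Set.mem_ofPred_eq] at ht ht'
      simp only [Prod.mk.injEq] at heq
      obtain ⟨rfl, rfl⟩ := heq
      have hMM : M4 u v' w x' = M4 u v w x := by
        rw [hM u v w x ht.1 ht.2, hM u v' w x' ht'.1 ht'.2]
      obtain ⟨huv, huw, hux, hvw, hvx, hwx⟩ := ht.1
      obtain ⟨huv', -, hux', hvw', hvx', hwx'⟩ := ht'.1
      have hx : x' = x := by
        have hm : s(u, x') ∈ M4 u v w x := by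
          rw [← hMM, mem_M4]
          exact Or.inl ⟨Or.inl rfl, Or.inr rfl⟩
        rw [mem_M4] at hm
        rcases hm with ⟨-, h | h⟩ | ⟨-, h | h⟩
        · exact absurd h.symm hwx'
        · exact h
        · exact absurd h huw
        · exact absurd h hux
      have hv : v' = v := by
        have hm : s(v', w) ∈ M4 u v w x := by
          rw [← hMM, mem_M4]
          exact Or.inl ⟨Or.inr rfl, Or.inl rfl⟩
        rw [mem_M4] at hm
        rcases hm with ⟨h | h, -⟩ | ⟨h | h, -⟩
        · exact absurd h.symm huv'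
        · exact h
        · exact absurd h.symm huw
        · exact absurd h.symm hvw
      rw [hx, hv]
  exact h1.trans (List.toFinset_card_le L)

/-- EDGE, in raw form -/
theorem edge_aux (f : Omega d → ℝ) :
    ∑ u : Fin n, ∑ v : Fin n, ∑ w : Fin n, ∑ x : Fin n,
        (if D4 u v w x then
          ∑ G : Omega d, f G * (f G - avg (fun H : Omega d => H.1.edgeSet \ M4 u v w x) f G)
        else 0) ≤
      2 * ∑ G : Omega d, ∑ G' : Omega d, if SwitchAdj G.1 G'.1 then (f G - f G') ^ 2 else 0 := by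
  let c : (Fin n × Fin n × Fin n × Fin n) → Omega d → Omega d → ℝ := fun t G G' =>
    if t ∈ tuples G G' ∧ G' ≠ G then (1 / 4 : ℝ) * (f G - f G') ^ 2 else 0
  have stepA : ∀ u v w x : Fin n,
      (if D4 u v w x then
          ∑ G : Omega d, f G * (f G - avg (fun H : Omega d => H.1.edgeSet \ M4 u v w x) f G)
        else 0) ≤ ∑ G : Omega d, ∑ G' : Omega d, c (u, v, w, x) G G' := by
    intro u v w x
    by_cases h : D4 u v w x
    · rw [if_pos h, sum_mul_sub_avg]
      refine sum_le_sum (fun G _ => ?_)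
      refine (sq_sub_avg_le _ f G (fun y z hy hz hyG hzG => fibre_unique h hy hyG hz hzG)).trans ?_
      rw [mul_sum]
      refine le_of_eq (sum_congr rfl (fun G' _ => ?_))
      simp only [c, tuples, mem_filter, mem_univ, true_and, h]
      split_ifs <;> simp
    · rw [if_neg h]
      refine sum_nonneg (fun G _ => sum_nonneg (fun G' _ => ?_))
      simp only [c]
      split_ifs
      · positivity
      · exact le_refl _
  have stepB : ∑ u : Fin n, ∑ v : Fin n, ∑ w : Fin n, ∑ x : Fin n,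
      ∑ G : Omega d, ∑ G' : Omega d, c (u, v, w, x) G G' =
      ∑ G : Omega d, ∑ G' : Omega d, ∑ t, c t G G' := by
    have e1 : ∑ u : Fin n, ∑ v : Fin n, ∑ w : Fin n, ∑ x : Fin n,
        ∑ G : Omega d, ∑ G' : Omega d, c (u, v, w, x) G G' =
        ∑ t, ∑ G : Omega d, ∑ G' : Omega d, c t G G' := by
      simp only [Fintype.sum_prod_type]
    have e2 : ∑ t, ∑ G : Omega d, ∑ G' : Omega d, c t G G' =
        ∑ G : Omega d, ∑ t, ∑ G' : Omega d, c t G G' := sum_comm
    have e3 : ∑ G : Omega d, ∑ t, ∑ G' : Omega d, c t G G' =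
        ∑ G : Omega d, ∑ G' : Omega d, ∑ t, c t G G' :=
      sum_congr rfl (fun G _ => sum_comm)
    rw [e1, e2, e3]
  have stepC : ∀ G G' : Omega d, ∑ t, c t G G' ≤
      2 * (if SwitchAdj G.1 G'.1 then (f G - f G') ^ 2 else 0) := by
    intro G G'
    have hR : (0 : ℝ) ≤ 2 * (if SwitchAdj G.1 G'.1 then (f G - f G') ^ 2 else 0) := by
      split_ifs
      · positivity
      · norm_num
    by_cases hne : G' = G
    · have : ∑ t, c t G G' = 0 := sum_eq_zero (fun t _ => by simp [c, hne])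
      rw [this]; exact hR
    · have hsum : ∑ t, c t G G' = ((tuples G G').card : ℝ) * ((1 / 4 : ℝ) * (f G - f G') ^ 2) := by
        have : ∀ t, c t G G' = if t ∈ tuples G G' then (1 / 4 : ℝ) * (f G - f G') ^ 2 else 0 := by
          intro t; simp only [c, hne, ne_eq, not_false_eq_true, and_true]
        simp only [this]
        rw [sum_ite_mem, univ_inter, sum_const, nsmul_eq_mul]
      by_cases hemp : tuples G G' = ∅
      · rw [hsum, hemp]; simpa using hR
      · obtain ⟨⟨a, b, c', e⟩, ht0⟩ := nonempty_iff_ne_empty.2 hemp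
        simp only [tuples, mem_filter, mem_univ, true_and] at ht0
        have hadj : SwitchAdj G.1 G'.1 := switchAdj_of_fibre ht0.1 ht0.2 hne
        rw [hsum, if_pos hadj]
        have hcard : ((tuples G G').card : ℝ) ≤ 8 := by exact_mod_cast card_tuples_le G G' hne
        nlinarith [sq_nonneg (f G - f G')]
  calc _ ≤ ∑ u : Fin n, ∑ v : Fin n, ∑ w : Fin n, ∑ x : Fin n,
      ∑ G : Omega d, ∑ G' : Omega d, c (u, v, w, x) G G' :=
        sum_le_sum (fun u _ => sum_le_sum (fun v _ => sum_le_sum (fun w _ =>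
          sum_le_sum (fun x _ => stepA u v w x))))
    _ = ∑ G : Omega d, ∑ G' : Omega d, ∑ t, c t G G' := stepB
    _ ≤ ∑ G : Omega d, ∑ G' : Omega d,
        2 * (if SwitchAdj G.1 G'.1 then (f G - f G') ^ 2 else 0) :=
        sum_le_sum (fun G _ => sum_le_sum (fun G' _ => stepC G G'))
    _ = _ := by
        rw [mul_sum]
        exact sum_congr rfl (fun G _ => by rw [mul_sum])

end

end Vale.Agent.P335
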