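import Vale.Agent.P335.Core
import Vale.Agent.P335.EdgeAux

/-!
# P335: the forms `E4` add up to the Dirichlet form of the switch graph

`E4 u v w x f = (1/4) sum over Y-states G of (f G - f (tau G))^2` where `tau G` is `G` with the block
between `{u,v}` and `{w,x}` flipped; `tau G` is switch-adjacent to `G`; for given `G` and a switch
neighbour `G'` there are at most (exactly) 8 ordered 4-tuples with `tau G = G'` (the symmetric
difference of the edge sets is the 4-cycle `u w v x`, whose two diagonals are `{u,v}`, `{w,x}`).
The proof is in file EdgeAux (`edge_aux`), stated with unfolded definitions.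
-/

namespace Vale.Agent.P335

open Finset

open scoped Classical

noncomputable section

variable {n : ℕ} {d : Fin n → ℕ}

/-- EDGE -/
theorem edge_ineq (f : Omega d → ℝ) :
    ∑ u : Fin n, ∑ v : Fin n, ∑ w : Fin n, ∑ x : Fin n,
        (if Dist4 u v w x then E4 u v w x f else 0) ≤
      2 * ∑ G : Omega d, ∑ G' : Omega d, if SwitchAdj G.1 G'.1 then (f G - f G') ^ 2 else 0 :=
  edge_aux f

end

end Vale.Agent.P335
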