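import Vale.Agent.P335.JSw

/-!
# P335, Johnson inequality: the Johnson graph on the `t`-subsets of `F` is connected
-/

namespace Vale.Agent.P335

open Finset

set_option linter.unusedSectionVars false

variable {α : Type*} [DecidableEq α]

/-- the Johnson graph: two different `t`-subsets are adjacent if a transposition of two elements of
`F` maps one to the other -/
def JG (F : Finset α) (t : ℕ) : SimpleGraph (powersetCard t F) where
  Adj A B := A ≠ B ∧ ∃ a ∈ F, ∃ b ∈ F, B.1 = sw a b A.1
  symm := ⟨by
    rintro A B ⟨hne, a, ha, b, hb, h⟩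
    exact ⟨hne.symm, a, ha, b, hb, by rw [h, sw_sw]⟩⟩
  loopless := ⟨fun A h => h.1 rfl⟩

lemma JG_reach (F : Finset α) (t : ℕ) (k : ℕ) :
    ∀ A B : powersetCard t F, (A.1 \ B.1).card = k → (JG F t).Reachable A B := by
  induction k with
  | zero =>
    intro A B h
    have hA := mem_powersetCard.1 A.2
    have hB := mem_powersetCard.1 B.2
    have hsub : A.1 ⊆ B.1 := by
      rw [card_eq_zero, sdiff_eq_empty_iff_subset] at h
      exact h
    have : A.1 = B.1 := Finset.eq_of_subset_of_card_le hsub (by rw [hA.2, hB.2])
    have : A = B := Subtype.ext this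
    rw [this]
  | succ k ih =>
    intro A B h
    have hA := mem_powersetCard.1 A.2
    have hB := mem_powersetCard.1 B.2
    have h' : (B.1 \ A.1).card = k + 1 := by
      rw [← h]
      exact Finset.card_sdiff_comm (by rw [hA.2, hB.2])
    obtain ⟨w, hw⟩ : (A.1 \ B.1).Nonempty := by
      rw [← card_pos]; omega
    obtain ⟨x, hx⟩ : (B.1 \ A.1).Nonempty := by
      rw [← card_pos]; omega
    rw [mem_sdiff] at hw hx
    have hwF : w ∈ F := hA.1 hw.1
    have hxF : x ∈ F := hB.1 hx.1
    set A' : powersetCard t F := ⟨sw w x A.1, sw_mem_powersetCard hwF hxF A.2⟩ with hA'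
    have hadj : (JG F t).Adj A A' := by
      refine ⟨?_, w, hwF, x, hxF, rfl⟩
      intro he
      have : sw w x A.1 = A.1 := by
        have := congrArg Subtype.val he
        exact this.symm
      rw [sw_eq_self_iff] at this
      exact this (Or.inl ⟨hw.1, hx.2⟩)
    have hcard : (A'.1 \ B.1).card = k := by
      have : A'.1 \ B.1 = (A.1 \ B.1).erase w := by
        rw [hA']
        simp only
        rw [sw_eq_insert_erase hw.1 hx.2]
        ext y
        simp only [mem_sdiff, mem_insert, mem_erase]
        constructor
        · rintro ⟨h1 | h1, h2⟩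
          · subst h1; exact absurd hx.1 h2
          · exact ⟨h1.1, h1.2, h2⟩
        · rintro ⟨h1, h2, h3⟩
          exact ⟨Or.inr ⟨h1, h2⟩, h3⟩
      rw [this, card_erase_of_mem (mem_sdiff.2 hw), h]
      rfl
    exact hadj.reachable.trans (ih A' B hcard)

lemma JG_preconnected (F : Finset α) (t : ℕ) : (JG F t).Preconnected :=
  fun A B => JG_reach F t _ A B rfl

end Vale.Agent.P335
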