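import Vale.Agent.P335.JKer

/-!
# P335, Johnson inequality: `JK` contracts along the edges of the Johnson graph
-/

namespace Vale.Agent.P335

open Finset

set_option linter.unusedSectionVars false

variable {α : Type*} [DecidableEq α]

lemma avgY_swap {F : Finset α} {t : ℕ} {a b : α} (ha : a ∈ F) (hb : b ∈ F) (w x : α)
    (f : Finset α → ℝ) :
    avgY F t (Equiv.swap a b w) (Equiv.swap a b x) f =
      avgY F t w x (fun B => f (sw a b B)) := by
  unfold avgY
  rw [splitSets_swap ha hb, Finset.sum_image (fun _ _ _ _ h => sw_injective a b h),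
    Finset.card_image_of_injective _ (sw_injective a b)]

lemma sum_pairs_swap {F : Finset α} {a b : α} (ha : a ∈ F) (hb : b ∈ F) (h : α → α → ℝ) :
    ∑ w ∈ F, ∑ x ∈ F.erase w, h w x =
      ∑ w ∈ F, ∑ x ∈ F.erase w, h (Equiv.swap a b w) (Equiv.swap a b x) := by
  symm
  apply Finset.sum_equiv (Equiv.swap a b)
  · intro w
    exact (swap_mem_iff ha hb).symm
  · intro w _
    apply Finset.sum_equiv (Equiv.swap a b)
    · intro x
      rw [mem_erase, mem_erase, swap_mem_iff ha hb, (Equiv.swap a b).injective.ne_iff]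
    · intro x _
      rfl

lemma JK_equivariant {F : Finset α} {t : ℕ} {a b : α} (ha : a ∈ F) (hb : b ∈ F)
    (f : Finset α → ℝ) (A : Finset α) :
    JK F t f (sw a b A) = JK F t (fun B => f (sw a b B)) A := by
  unfold JK
  congr 1
  rw [sum_pairs_swap ha hb]
  apply Finset.sum_congr rfl
  intro w _
  apply Finset.sum_congr rfl
  intro x _
  rw [avgY_swap ha hb, sw_conj]
  simp only [sw_mem_splitSets_iff ha hb]

lemma sum_split_zero {F : Finset α} {t : ℕ} {a b w x : α} (ha : a ∈ F) (hb : b ∈ F)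
    (hinv : splitSets F t (Equiv.swap a b w) (Equiv.swap a b x) = splitSets F t w x)
    (g : Finset α → ℝ) (g1 : ∀ B, g (sw a b B) = - g B) :
    ∑ B ∈ splitSets F t w x, g B = 0 := by
  have h : ∑ B ∈ splitSets F t w x, g B = ∑ B ∈ splitSets F t w x, g (sw a b B) := by
    conv_lhs => rw [← hinv, splitSets_swap ha hb,
      Finset.sum_image (fun _ _ _ _ h => sw_injective a b h)]
  simp only [g1, Finset.sum_neg_distrib] at h
  linarith

lemma avgY_zero {F : Finset α} {t : ℕ} {a b w x : α} (ha : a ∈ F) (hb : b ∈ F)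
    (hinv : splitSets F t (Equiv.swap a b w) (Equiv.swap a b x) = splitSets F t w x)
    (g : Finset α → ℝ) (g1 : ∀ B, g (sw a b B) = - g B) :
    avgY F t w x g = 0 := by
  unfold avgY
  rw [sum_split_zero ha hb hinv g g1, zero_div]

lemma anti_zero {a b : α} (g : Finset α → ℝ) (g1 : ∀ B, g (sw a b B) = - g B) {B : Finset α}
    (hB : ¬ Spl a b B) : g B = 0 := by
  have h := g1 B
  rw [sw_eq_self_iff.2 hB] at h
  linarith

lemma sum_split_half {F : Finset α} {t : ℕ} {a b w x : α} (hw : w ∈ F) (hx : x ∈ F)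
    (hab : a ≠ b)
    (h1 : w = a ∨ w = b ∨ x = a ∨ x = b) (h2 : ¬ (w = a ∧ x = b)) (h3 : ¬ (w = b ∧ x = a))
    (g : Finset α → ℝ) (L : ℝ) (hL : 0 ≤ L) (g1 : ∀ B, g (sw a b B) = - g B)
    (g2 : ∀ B ∈ powersetCard t F, |g B| ≤ L) :
    |∑ B ∈ splitSets F t w x, g B| ≤ L * ((splitSets F t w x).card : ℝ) / 2 := by
  set Y := splitSets F t w x with hY
  have e1 : ∑ B ∈ Y, g B = ∑ B ∈ Y.filter (fun B => Spl a b B), g B := by
    rw [Finset.sum_filter]
    apply Finset.sum_congr rfl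
    intro B _
    split_ifs with h
    · rfl
    · exact anti_zero g g1 h
  have e2 : |∑ B ∈ Y.filter (fun B => Spl a b B), g B| ≤
      ((Y.filter (fun B => Spl a b B)).card : ℝ) * L := by
    calc |∑ B ∈ Y.filter (fun B => Spl a b B), g B|
        ≤ ∑ B ∈ Y.filter (fun B => Spl a b B), |g B| := Finset.abs_sum_le_sum_abs _ _
      _ ≤ ∑ _B ∈ Y.filter (fun B => Spl a b B), L := by
          apply Finset.sum_le_sum
          intro B hB
          exact g2 B (splitSets_subset F t w x (Finset.mem_of_mem_filter B hB))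
      _ = _ := by rw [Finset.sum_const, nsmul_eq_mul]
  have e3 : (Y.filter (fun B => Spl a b B)).card ≤ (Y.filter (fun B => ¬ Spl a b B)).card := by
    apply Finset.card_le_card_of_injOn (sw w x)
    · intro B hB
      rw [Finset.mem_coe, mem_filter] at hB ⊢
      refine ⟨(sw_self_mem_splitSets_iff hw hx B).2 hB.1, ?_⟩
      exact keyS hab h1 h2 h3 (mem_splitSets.1 hB.1).2 hB.2
    · exact (sw_injective w x).injOn
  have e4 := Finset.card_filter_add_card_filter_not (s := Y) (fun B => Spl a b B)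
  have e5 : 2 * ((Y.filter (fun B => Spl a b B)).card : ℝ) ≤ (Y.card : ℝ) := by
    have : 2 * (Y.filter (fun B => Spl a b B)).card ≤ Y.card := by omega
    exact_mod_cast this
  rw [e1]
  nlinarith

lemma avgY_half {F : Finset α} {t : ℕ} {a b w x : α} (hw : w ∈ F) (hx : x ∈ F)
    (hab : a ≠ b)
    (h1 : w = a ∨ w = b ∨ x = a ∨ x = b) (h2 : ¬ (w = a ∧ x = b)) (h3 : ¬ (w = b ∧ x = a))
    (g : Finset α → ℝ) (L : ℝ) (hL : 0 ≤ L) (g1 : ∀ B, g (sw a b B) = - g B)
    (g2 : ∀ B ∈ powersetCard t F, |g B| ≤ L) :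
    |avgY F t w x g| ≤ L / 2 := by
  have h := sum_split_half hw hx hab h1 h2 h3 g L hL g1 g2
  unfold avgY
  rcases Nat.eq_zero_or_pos (splitSets F t w x).card with h0 | h0
  · rw [h0]
    simp only [Nat.cast_zero, div_zero, abs_zero]
    linarith
  · have hc : (0 : ℝ) < ((splitSets F t w x).card : ℝ) := by exact_mod_cast h0
    rw [abs_div, abs_of_pos hc, div_le_iff₀ hc]
    linarith

lemma term_bound {F : Finset α} {t : ℕ} {a b w x : α} (ha : a ∈ F) (hb : b ∈ F) (hw : w ∈ F)
    (hx : x ∈ F) (hwx : w ≠ x)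
    (g : Finset α → ℝ) (L : ℝ) (hL : 0 ≤ L) (g1 : ∀ B, g (sw a b B) = - g B)
    (g2 : ∀ B ∈ powersetCard t F, |g B| ≤ L) {A : Finset α} (hA : A ∈ powersetCard t F)
    (hAs : Spl a b A) :
    |(if A ∈ splitSets F t w x then (1 / 2) * avgY F t w x g + (1 / 4) * g (sw w x A) else 0) +
      ((if w = a ∧ x = b then g A / 2 else 0) + (if w = b ∧ x = a then g A / 2 else 0))| ≤
      (if A ∈ splitSets F t w x then (1 : ℝ) else 0) * (L / 4) := by
  have hab : a ≠ b := hAs.ne
  have hgA := g2 A hA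
  rw [abs_le] at hgA
  by_cases c1 : w = a ∧ x = b
  · obtain ⟨rfl, rfl⟩ := c1
    have hAY : A ∈ splitSets F t w x := mem_splitSets.2 ⟨hA, hAs⟩
    have c2 : ¬ (w = x ∧ x = w) := fun h => hwx h.1
    have hz : avgY F t w x g = 0 := by
      apply avgY_zero ha hb _ g g1
      rw [Equiv.swap_apply_left, Equiv.swap_apply_right, splitSets_comm]
    rw [if_pos hAY, if_pos hAY, if_pos ⟨rfl, rfl⟩, if_neg c2, hz, g1 A, abs_le]
    constructor <;> linarith [hgA.1, hgA.2]
  by_cases c2 : w = b ∧ x = a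
  · obtain ⟨rfl, rfl⟩ := c2
    have hAY : A ∈ splitSets F t w x := mem_splitSets.2 ⟨hA, spl_comm.1 hAs⟩
    have hz : avgY F t w x g = 0 := by
      apply avgY_zero ha hb _ g g1
      rw [Equiv.swap_apply_left, Equiv.swap_apply_right, splitSets_comm]
    rw [if_pos hAY, if_pos hAY, if_neg c1, if_pos ⟨rfl, rfl⟩, hz, sw_comm w x A, g1 A, abs_le]
    constructor <;> linarith [hgA.1, hgA.2]
  rw [if_neg c1, if_neg c2]
  by_cases hAY : A ∈ splitSets F t w x
  · rw [if_pos hAY, if_pos hAY]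
    by_cases hd : w = a ∨ w = b ∨ x = a ∨ x = b
    · have hh := avgY_half hw hx hab hd c1 c2 g L hL g1 g2
      have hz : g (sw w x A) = 0 :=
        anti_zero g g1 (keyS hab hd c1 c2 (mem_splitSets.1 hAY).2 hAs)
      rw [hz]
      rw [abs_le] at hh ⊢
      constructor <;> linarith [hh.1, hh.2]
    · push Not at hd
      have hz : avgY F t w x g = 0 := by
        apply avgY_zero ha hb _ g g1
        rw [Equiv.swap_apply_of_ne_of_ne hd.1 hd.2.1, Equiv.swap_apply_of_ne_of_ne hd.2.2.1 hd.2.2.2]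
      have hh := g2 _ (sw_mem_powersetCard hw hx hA)
      rw [hz]
      rw [abs_le] at hh ⊢
      constructor <;> linarith [hh.1, hh.2]
  · rw [if_neg hAY, if_neg hAY]
    simp

lemma sum_corr {F : Finset α} {a b : α} (ha : a ∈ F) (hb : b ∈ F) (hab : a ≠ b) (u : ℝ) :
    ∑ w ∈ F, ∑ x ∈ F.erase w, (if w = a ∧ x = b then u else 0) = u := by
  rw [Finset.sum_eq_single a]
  · rw [Finset.sum_eq_single b]
    · simp
    · intro x _ hxb
      simp [hxb]
    · intro h
      exact absurd (mem_erase.2 ⟨hab.symm, hb⟩) h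
  · intro w _ hwa
    simp [hwa]
  · intro h
    exact absurd ha h

lemma JK_anti_bound {F : Finset α} {t : ℕ} {a b : α} (ha : a ∈ F) (hb : b ∈ F)
    (g : Finset α → ℝ) (L : ℝ) (hL : 0 ≤ L) (g1 : ∀ B, g (sw a b B) = - g B)
    (g2 : ∀ B ∈ powersetCard t F, |g B| ≤ L) {A : Finset α} (hA : A ∈ powersetCard t F)
    (hAs : Spl a b A) :
    |JK F t g A| ≤ (2 * (t : ℝ) * ((F.card - t : ℕ) : ℝ)) / 4 * L := by
  have hab : a ≠ b := hAs.ne
  have hJK : JK F t g A = ∑ w ∈ F, ∑ x ∈ F.erase w,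
      ((if A ∈ splitSets F t w x then (1 / 2) * avgY F t w x g + (1 / 4) * g (sw w x A) else 0) +
      ((if w = a ∧ x = b then g A / 2 else 0) + (if w = b ∧ x = a then g A / 2 else 0))) := by
    unfold JK
    simp only [Finset.sum_add_distrib]
    rw [sum_corr ha hb hab, sum_corr hb ha hab.symm]
    ring
  rw [hJK, ← count_split hA]
  calc _ ≤ ∑ w ∈ F, |∑ x ∈ F.erase w,
      ((if A ∈ splitSets F t w x then (1 / 2) * avgY F t w x g + (1 / 4) * g (sw w x A) else 0) +
      ((if w = a ∧ x = b then g A / 2 else 0) + (if w = b ∧ x = a then g A / 2 else 0)))| :=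
        Finset.abs_sum_le_sum_abs _ _
    _ ≤ ∑ w ∈ F, ∑ x ∈ F.erase w,
      |((if A ∈ splitSets F t w x then (1 / 2) * avgY F t w x g + (1 / 4) * g (sw w x A) else 0) +
      ((if w = a ∧ x = b then g A / 2 else 0) + (if w = b ∧ x = a then g A / 2 else 0)))| :=
        Finset.sum_le_sum fun w _ => Finset.abs_sum_le_sum_abs _ _
    _ ≤ ∑ w ∈ F, ∑ x ∈ F.erase w, (if A ∈ splitSets F t w x then (1 : ℝ) else 0) * (L / 4) := by
        apply Finset.sum_le_sum
        intro w hw
        apply Finset.sum_le_sum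
        intro x hx
        exact term_bound ha hb hw (Finset.mem_of_mem_erase hx) (Finset.ne_of_mem_erase hx).symm
          g L hL g1 g2 hA hAs
    _ = _ := by
        simp only [← Finset.sum_mul]
        ring

/-- **Contraction.** -/
theorem JK_contr {F : Finset α} {t : ℕ} (f : Finset α → ℝ) (L : ℝ) (hL : 0 ≤ L)
    (hf : ∀ A ∈ powersetCard t F, ∀ a ∈ F, ∀ b ∈ F, |f A - f (sw a b A)| ≤ L)
    {A : Finset α} (hA : A ∈ powersetCard t F) {a b : α} (ha : a ∈ F) (hb : b ∈ F) :
    |JK F t f A - JK F t f (sw a b A)| ≤ (2 * (t : ℝ) * ((F.card - t : ℕ) : ℝ)) / 4 * L := by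
  by_cases hAs : Spl a b A
  · rw [JK_equivariant ha hb, ← JK_sub]
    apply JK_anti_bound ha hb _ L hL _ _ hA hAs
    · intro B
      simp only [sw_sw]
      ring
    · intro B hB
      exact hf B hB a ha b hb
  · rw [sw_eq_self_iff.2 hAs, sub_self, abs_zero]
    positivity

end Vale.Agent.P335
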