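import Vale.Agent.P335.JKer

/-!
# P335, Johnson inequality: the quadratic forms
-/

namespace Vale.Agent.P335

open Finset

set_option linter.unusedSectionVars false

variable {α : Type*} [DecidableEq α]

lemma sum_eq_card_mul_avgY (F : Finset α) (t : ℕ) (w x : α) (h : Finset α → ℝ) :
    ∑ A ∈ splitSets F t w x, h A = ((splitSets F t w x).card : ℝ) * avgY F t w x h := by
  unfold avgY
  rcases Nat.eq_zero_or_pos (splitSets F t w x).card with h0 | h0
  · rw [Finset.card_eq_zero.1 h0]
    simp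
  · have hc : ((splitSets F t w x).card : ℝ) ≠ 0 := by
      have : (splitSets F t w x).card ≠ 0 := by omega
      exact_mod_cast this
    field_simp

lemma sum_P_ite (F : Finset α) (t : ℕ) (w x : α) (φ : Finset α → ℝ) :
    ∑ A ∈ powersetCard t F, (if A ∈ splitSets F t w x then φ A else 0) =
      ∑ A ∈ splitSets F t w x, φ A := by
  rw [Finset.sum_ite_mem, Finset.inter_eq_right.2 (splitSets_subset F t w x)]

lemma sum_split_sw {F : Finset α} {t : ℕ} {w x : α} (hw : w ∈ F) (hx : x ∈ F)
    (φ : Finset α → ℝ) :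
    ∑ A ∈ splitSets F t w x, φ (sw w x A) = ∑ A ∈ splitSets F t w x, φ A := by
  have h := splitSets_swap (t := t) hw hx w x
  rw [Equiv.swap_apply_left, Equiv.swap_apply_right, splitSets_comm] at h
  conv_rhs => rw [h, Finset.sum_image (fun _ _ _ _ h => sw_injective w x h)]

lemma form_T1 (F : Finset α) (t : ℕ) (h : Finset α → ℝ) :
    ∑ A ∈ powersetCard t F, h A * JK F t h A =
      (1 / 2) * ∑ w ∈ F, ∑ x ∈ F.erase w,
        ((splitSets F t w x).card : ℝ) * (avgY F t w x h) ^ 2 +
      (1 / 4) * ∑ w ∈ F, ∑ x ∈ F.erase w, ∑ A ∈ splitSets F t w x, h A * h (sw w x A) +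
      ∑ A ∈ powersetCard t F, (h A) ^ 2 := by
  unfold JK
  simp only [mul_add, Finset.sum_add_distrib, Finset.mul_sum]
  congr 1
  · rw [Finset.sum_comm, ← Finset.sum_add_distrib]
    apply Finset.sum_congr rfl
    intro w _
    rw [Finset.sum_comm, ← Finset.sum_add_distrib]
    apply Finset.sum_congr rfl
    intro x _
    have e : ∀ A ∈ powersetCard t F,
        h A * (if A ∈ splitSets F t w x then
          1 / 2 * avgY F t w x h + 1 / 4 * h (sw w x A) else 0) =
        (if A ∈ splitSets F t w x then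
          h A * (1 / 2 * avgY F t w x h + 1 / 4 * h (sw w x A)) else 0) := by
      intro A _
      split_ifs <;> simp
    rw [Finset.sum_congr rfl e, sum_P_ite]
    simp only [mul_add, Finset.sum_add_distrib]
    congr 1
    · have : ∑ A ∈ splitSets F t w x, h A * (1 / 2 * avgY F t w x h) =
          (∑ A ∈ splitSets F t w x, h A) * (1 / 2 * avgY F t w x h) := by
        rw [Finset.sum_mul]
      rw [this, sum_eq_card_mul_avgY]
      ring
    · apply Finset.sum_congr rfl
      intro A _
      ring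
  · apply Finset.sum_congr rfl
    intro A _
    ring

lemma form_T2 {F : Finset α} {t : ℕ} {w x : α} (hw : w ∈ F) (hx : x ∈ F)
    (h : Finset α → ℝ) :
    ∑ A ∈ splitSets F t w x, (h A - h (sw w x A)) ^ 2 =
      2 * ∑ A ∈ (powersetCard t F).filter (fun A => w ∈ A ∧ x ∉ A),
        (h A - h (insert x (A.erase w))) ^ 2 := by
  unfold splitSets
  rw [Finset.filter_or, Finset.sum_union]
  · have e1 : ∑ A ∈ (powersetCard t F).filter (fun A => w ∈ A ∧ x ∉ A),
        (h A - h (sw w x A)) ^ 2 =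
        ∑ A ∈ (powersetCard t F).filter (fun A => w ∈ A ∧ x ∉ A),
          (h A - h (insert x (A.erase w))) ^ 2 := by
      apply Finset.sum_congr rfl
      intro A hA
      rw [mem_filter] at hA
      rw [sw_eq_insert_erase hA.2.1 hA.2.2]
    have e2 : ∑ A ∈ (powersetCard t F).filter (fun A => x ∈ A ∧ w ∉ A),
        (h A - h (sw w x A)) ^ 2 =
        ∑ A ∈ (powersetCard t F).filter (fun A => w ∈ A ∧ x ∉ A),
          (h A - h (sw w x A)) ^ 2 := by
      apply Finset.sum_nbij' (sw w x) (sw w x)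
      · intro A hA
        rw [mem_filter] at hA ⊢
        refine ⟨sw_mem_powersetCard hw hx hA.1, ?_⟩
        rw [mem_sw, mem_sw, Equiv.swap_apply_left, Equiv.swap_apply_right]
        exact hA.2
      · intro A hA
        rw [mem_filter] at hA ⊢
        refine ⟨sw_mem_powersetCard hw hx hA.1, ?_⟩
        rw [mem_sw, mem_sw, Equiv.swap_apply_left, Equiv.swap_apply_right]
        exact hA.2
      · intro A _
        exact sw_sw w x A
      · intro A _
        exact sw_sw w x A
      · intro A _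
        rw [sw_sw]
        ring
    rw [e2, e1]
    ring
  · rw [Finset.disjoint_filter]
    intro A _ h1 h2
    exact h2.2 h1.1

lemma form_T3 (F : Finset α) (t : ℕ) (h : Finset α → ℝ) :
    ∑ w ∈ F, ∑ x ∈ F.erase w, ∑ A ∈ splitSets F t w x, (h A - h (sw w x A)) ^ 2 =
      2 * (2 * (t : ℝ) * ((F.card - t : ℕ) : ℝ)) * ∑ A ∈ powersetCard t F, (h A) ^ 2 -
      2 * ∑ w ∈ F, ∑ x ∈ F.erase w, ∑ A ∈ splitSets F t w x, h A * h (sw w x A) := by
  have e1 : ∀ w ∈ F, ∀ x ∈ F.erase w,
      ∑ A ∈ splitSets F t w x, (h A - h (sw w x A)) ^ 2 =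
      2 * ∑ A ∈ powersetCard t F, (if A ∈ splitSets F t w x then (1 : ℝ) else 0) * (h A) ^ 2 -
      2 * ∑ A ∈ splitSets F t w x, h A * h (sw w x A) := by
    intro w hw x hx
    have hx' := Finset.mem_of_mem_erase hx
    have e : ∀ A ∈ powersetCard t F, (if A ∈ splitSets F t w x then (1 : ℝ) else 0) * (h A) ^ 2 =
        (if A ∈ splitSets F t w x then (h A) ^ 2 else 0) := by
      intro A _
      split_ifs <;> simp
    rw [Finset.sum_congr rfl e, sum_P_ite]
    have e' := sum_split_sw (t := t) hw hx' (fun A => (h A) ^ 2)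
    have : ∑ A ∈ splitSets F t w x, (h A - h (sw w x A)) ^ 2 =
        ∑ A ∈ splitSets F t w x, (h A) ^ 2 + ∑ A ∈ splitSets F t w x, (h (sw w x A)) ^ 2 -
        2 * ∑ A ∈ splitSets F t w x, h A * h (sw w x A) := by
      rw [Finset.mul_sum, ← Finset.sum_add_distrib, ← Finset.sum_sub_distrib]
      apply Finset.sum_congr rfl
      intro A _
      ring
    rw [this, e']
    ring
  have e2 : ∑ w ∈ F, ∑ x ∈ F.erase w, ∑ A ∈ splitSets F t w x, (h A - h (sw w x A)) ^ 2 =
      ∑ w ∈ F, ∑ x ∈ F.erase w,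
      (2 * ∑ A ∈ powersetCard t F, (if A ∈ splitSets F t w x then (1 : ℝ) else 0) * (h A) ^ 2 -
      2 * ∑ A ∈ splitSets F t w x, h A * h (sw w x A)) :=
    Finset.sum_congr rfl fun w hw => Finset.sum_congr rfl fun x hx => e1 w hw x hx
  rw [e2]
  simp only [Finset.sum_sub_distrib, ← Finset.mul_sum]
  congr 1
  have e3 : ∑ w ∈ F, ∑ x ∈ F.erase w, ∑ A ∈ powersetCard t F,
      (if A ∈ splitSets F t w x then (1 : ℝ) else 0) * (h A) ^ 2 =
      ∑ A ∈ powersetCard t F, (∑ w ∈ F, ∑ x ∈ F.erase w,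
      (if A ∈ splitSets F t w x then (1 : ℝ) else 0)) * (h A) ^ 2 := by
    simp only [Finset.sum_mul]
    rw [Finset.sum_comm]
    apply Finset.sum_congr rfl
    intro w _
    rw [Finset.sum_comm]
  rw [e3, mul_assoc, Finset.mul_sum (a := (2 * (t : ℝ) * ((F.card - t : ℕ) : ℝ)))]
  congr 1
  apply Finset.sum_congr rfl
  intro A hA
  rw [count_split hA]

end Vale.Agent.P335
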