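import Vale.Agent.P335.Contraction
import Vale.Agent.P335.JConn
import Vale.Agent.P335.JContr
import Vale.Agent.P335.JForm

/-!
# P335: the Johnson inequality (J'), abstract form

`F` a finite set, `P` the `t`-subsets of `F`, `m` the mean of `f` over `P`,
`Y w x` the members of `P` that split `{w,x}` (`splitSets`, defined in file JSw).  Then

`sum_A (f A - m)^2 + (1/2) sum_{(w,x)} |Y w x| (avg_{Y w x} f - m)^2
    <= (1/4) sum_{(w,x)} sum_{A : w in A, x notin A} (f A - f (A - w + x))^2`

(sums over ordered pairs `w != x` of elements of `F`).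

Proof.  We may assume `m = 0`.  Let `Kf(A) = sum_{unordered {w,x} split by A}
avg_{Y w x} f + (1/2) sum_{A' ~ A} f(A') + f(A)` (symmetric kernel with constant row sums;
`JK`, `JKer` in file JKer, written with sums over ordered pairs).
The claim is `<f,Kf> <= (t(|F|-t)/2) |f|^2` for `f` of mean zero, because
`(1/2) sum_edges (f A - f A')^2 = (t(|F|-t)/2)|f|^2 - (1/2)<f, Adj f>` (file JForm).
By `quad_app_le` (edge lengths 1 on the Johnson graph, which is connected, file JConn) it
suffices to show that `K` maps `L`-Lipschitz functions to `(t(|F|-t)/2) L`-Lipschitz functions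
(file JContr).
Let `A = C + a`, `A' = C + a'`, `p = (a a')`.  `K` commutes with the action of `p`, so
`Kf(A) - Kf(A') = (Kg)(A)` with `g = f - f o p`; `g o p = -g`, `|g(B)| <= L` if `B` splits `{a,a'}`,
`g(B) = 0` otherwise.
* pairs `{w,x}` disjoint from `{a,a'}` or equal to it: `Y w x` is `p`-invariant, so `avg g = 0`;
* pairs that share exactly one element with `{a,a'}`:
  at most half of `Y` splits `{a,a'}` (the transposition of the pair maps the splitting half into
  the other half), so `|avg g| <= L/2`, and `g (A - w + x) = 0`;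
* the pair `{a,a'}`: `g(A') = -g(A)`, which together with the term `g(A)` gives `g(A)/2`.
-/

namespace Vale.Agent.P335

open Finset

noncomputable section

variable {α : Type*} [DecidableEq α]

/-- the quadratic form bound for `JK` on functions of mean zero -/
theorem JK_form_le (F : Finset α) (t : ℕ) (h : Finset α → ℝ)
    (hmean : ∑ A ∈ powersetCard t F, h A = 0) :
    ∑ A ∈ powersetCard t F, h A * JK F t h A ≤
      (2 * (t : ℝ) * ((F.card - t : ℕ) : ℝ)) / 4 * ∑ A ∈ powersetCard t F, (h A) ^ 2 := by
  have happ : ∀ (f' : Finset α → ℝ) (A : powersetCard t F),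
      app (fun A B : powersetCard t F => JKer F t A.1 B.1) (fun B => f' B.1) A = JK F t f' A.1 := by
    intro f' A
    unfold app
    rw [← sum_JKer_mul A.2 f']
    exact Finset.sum_coe_sort (powersetCard t F) (fun B => JKer F t A.1 B * f' B)
  have key := quad_app_le (JG F t) (JG_preconnected F t) (fun _ _ => (1 : ℝ))
    (fun _ _ _ => one_pos) (fun A B : powersetCard t F => JKer F t A.1 B.1)
    (fun A B => JKer_symm F t A.1 B.1)
    ((3 / 4) * (2 * (t : ℝ) * ((F.card - t : ℕ) : ℝ)) + 1)
    (by
      intro A
      rw [← JK_one A.2, ← sum_JKer_mul A.2]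
      simp only [mul_one]
      exact Finset.sum_coe_sort (powersetCard t F) (fun B => JKer F t A.1 B))
    ((2 * (t : ℝ) * ((F.card - t : ℕ) : ℝ)) / 4) (by positivity)
    (by
      intro L f hL hf
      obtain ⟨f', rfl⟩ : ∃ f' : Finset α → ℝ, f = fun B => f' B.1 := by
        refine ⟨fun B => if hB : B ∈ powersetCard t F then f ⟨B, hB⟩ else 0, ?_⟩
        funext B
        simp [B.2]
      have hf' : ∀ A ∈ powersetCard t F, ∀ a ∈ F, ∀ b ∈ F, |f' A - f' (sw a b A)| ≤ L := by
        intro A hA a ha b hb
        by_cases he : sw a b A = A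
        · rw [he, sub_self, abs_zero]; exact hL
        · have := hf ⟨A, hA⟩ ⟨sw a b A, sw_mem_powersetCard ha hb hA⟩
            ⟨fun h => he (congrArg Subtype.val h).symm, a, ha, b, hb, rfl⟩
          simpa using this
      rintro A B ⟨_, a, ha, b, hb, hB⟩
      rw [happ, happ, hB, mul_one]
      exact JK_contr f' L hL hf' A.2 ha hb)
    (fun A => h A.1)
    (by
      rw [← hmean]
      exact Finset.sum_coe_sort (powersetCard t F) h)
  have e1 : ∑ A : powersetCard t F, h A.1 *
      app (fun A B : powersetCard t F => JKer F t A.1 B.1) (fun B => h B.1) A =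
      ∑ A ∈ powersetCard t F, h A * JK F t h A := by
    simp only [happ]
    exact Finset.sum_coe_sort (powersetCard t F) (fun A => h A * JK F t h A)
  have e2 : ∑ A : powersetCard t F, (h A.1) ^ 2 = ∑ A ∈ powersetCard t F, (h A) ^ 2 :=
    Finset.sum_coe_sort (powersetCard t F) (fun A => (h A) ^ 2)
  rw [e1, e2] at key
  exact (le_abs_self _).trans key

/-- (J') -/
theorem johnson_ineq (F : Finset α) (t : ℕ) (f : Finset α → ℝ) :
    ∑ A ∈ powersetCard t F,
        (f A - (∑ B ∈ powersetCard t F, f B) / ((powersetCard t F).card : ℝ)) ^ 2 +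
      (1 / 2) * ∑ w ∈ F, ∑ x ∈ F.erase w, ((splitSets F t w x).card : ℝ) *
        ((∑ A ∈ splitSets F t w x, f A) / ((splitSets F t w x).card : ℝ) -
          (∑ B ∈ powersetCard t F, f B) / ((powersetCard t F).card : ℝ)) ^ 2 ≤
      (1 / 4) * ∑ w ∈ F, ∑ x ∈ F.erase w,
        ∑ A ∈ (powersetCard t F).filter (fun A => w ∈ A ∧ x ∉ A),
          (f A - f (insert x (A.erase w))) ^ 2 := by
  set m : ℝ := (∑ B ∈ powersetCard t F, f B) / ((powersetCard t F).card : ℝ) with hm
  set h : Finset α → ℝ := fun A => f A - m with hh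
  have hmean : ∑ A ∈ powersetCard t F, h A = 0 := by
    rw [hh]
    simp only
    rw [Finset.sum_sub_distrib, Finset.sum_const, nsmul_eq_mul, hm]
    rcases Nat.eq_zero_or_pos (powersetCard t F).card with h0 | h0
    · rw [Finset.card_eq_zero.1 h0]
      simp
    · have hc : ((powersetCard t F).card : ℝ) ≠ 0 := by
        have : (powersetCard t F).card ≠ 0 := by omega
        exact_mod_cast this
      field_simp
      ring
  have key := JK_form_le F t h hmean
  rw [form_T1] at key
  have T3 := form_T3 F t h
  have T2 : ∑ w ∈ F, ∑ x ∈ F.erase w, ∑ A ∈ splitSets F t w x, (h A - h (sw w x A)) ^ 2 =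
      2 * ∑ w ∈ F, ∑ x ∈ F.erase w,
        ∑ A ∈ (powersetCard t F).filter (fun A => w ∈ A ∧ x ∉ A),
          (f A - f (insert x (A.erase w))) ^ 2 := by
    rw [Finset.mul_sum]
    apply Finset.sum_congr rfl
    intro w hw
    rw [Finset.mul_sum]
    apply Finset.sum_congr rfl
    intro x hx
    rw [form_T2 hw (Finset.mem_of_mem_erase hx)]
    congr 1
    apply Finset.sum_congr rfl
    intro A _
    rw [hh]
    ring
  have E : ∑ w ∈ F, ∑ x ∈ F.erase w, ((splitSets F t w x).card : ℝ) *
        ((∑ A ∈ splitSets F t w x, f A) / ((splitSets F t w x).card : ℝ) - m) ^ 2 =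
      ∑ w ∈ F, ∑ x ∈ F.erase w, ((splitSets F t w x).card : ℝ) * (avgY F t w x h) ^ 2 := by
    apply Finset.sum_congr rfl
    intro w _
    apply Finset.sum_congr rfl
    intro x _
    rcases Nat.eq_zero_or_pos (splitSets F t w x).card with h0 | h0
    · rw [h0]
      simp
    · have hc : ((splitSets F t w x).card : ℝ) ≠ 0 := by
        have : (splitSets F t w x).card ≠ 0 := by omega
        exact_mod_cast this
      congr 2
      unfold avgY
      rw [hh]
      simp only
      rw [Finset.sum_sub_distrib, Finset.sum_const, nsmul_eq_mul]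
      field_simp
  rw [E]
  rw [T2] at T3
  linarith

end

end Vale.Agent.P335
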