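import Vale.Agent.P335.PairFibre2
import Vale.Agent.P335.JohnsonAbs

/-!
# P335: the Johnson inequality on `Omega d`

`2 <f, R_b f> <= sum over ordered (w,x), w != x, outside b, of (E4 u v w x f - NN u v w x f)`.

Proof: split every sum over `Omega d` into the fibres of `keyOff (touch u v)`.  On the fibre of `G0`
put `F = free u v G0`, `t = |upSet u v G0|`, `ft A = f G` for the unique `G` of the fibre with
`upSet u v G = A`.  Then on this fibre
* `<f, R f>` is `sum_A (ft A - m)^2`;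
* `NN u v w x f` is `|Y w x| (avg_{Y w x} ft - m)^2` if `w, x` are in `F`, and `0` otherwise
  (`QQ_of_Ystate`, `Ystate_iff_split`);
* `E4 u v w x f` is `(1/2) sum_{A : w in A, x notin A} (ft A - ft (A - w + x))^2` if `w, x` in `F`
  and `0` otherwise (`exists_partner`, `Q_Ms_of_not_Ystate`);
and the claim is twice `johnson_ineq`.
-/

namespace Vale.Agent.P335

open Finset

open scoped Classical

noncomputable section

variable {n : ℕ} {d : Fin n → ℕ}

/-- an inequality between sums may be checked on the classes of a key -/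
theorem sum_le_of_cls {X K : Type*} [Fintype X] (k : X → K) (a b : X → ℝ)
    (h : ∀ x0, ∑ x ∈ cls k x0, a x ≤ ∑ x ∈ cls k x0, b x) : ∑ x, a x ≤ ∑ x, b x := by
  rw [← sum_avg k a, ← sum_avg k b]
  refine sum_le_sum (fun x _ => ?_)
  unfold avg
  exact div_le_div_of_nonneg_right (h x) (Nat.cast_nonneg _)

theorem sum_pairs_eq (F : Finset (Fin n)) (g : Fin n → Fin n → ℝ) :
    ∑ w ∈ F, ∑ x ∈ F.erase w, g w x =
      ∑ w : Fin n, ∑ x : Fin n, if w ∈ F ∧ x ∈ F ∧ w ≠ x then g w x else 0 := by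
  have h1 : ∀ w, ∑ x ∈ F.erase w, g w x = ∑ x : Fin n, if x ∈ F ∧ w ≠ x then g w x else 0 := by
    intro w
    rw [← sum_filter]
    refine sum_congr ?_ (fun _ _ => rfl)
    ext x
    simp only [mem_erase, mem_filter, mem_univ, true_and]
    constructor
    · rintro ⟨a, b⟩; exact ⟨b, a.symm⟩
    · rintro ⟨a, b⟩; exact ⟨b.symm, a⟩
  have h2 : ∑ w ∈ F, ∑ x ∈ F.erase w, g w x =
      ∑ w : Fin n, if w ∈ F then ∑ x ∈ F.erase w, g w x else 0 := by
    rw [← sum_filter]
    refine sum_congr ?_ (fun _ _ => rfl)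
    ext x
    simp
  rw [h2]
  refine sum_congr rfl (fun w _ => ?_)
  by_cases hw : w ∈ F
  · rw [if_pos hw, h1]
    refine sum_congr rfl (fun x _ => ?_)
    simp [hw]
  · rw [if_neg hw]
    simp [hw]

theorem NN_nonneg (u v w x : Fin n) (f : Omega d → ℝ) : 0 ≤ NN u v w x f := by
  unfold NN
  refine sum_nonneg (fun G _ => ?_)
  split_ifs
  · positivity
  · exact le_refl _

theorem ip_R_eq (u v : Fin n) (f : Omega d → ℝ) :
    ip f (R u v f) = ∑ G : Omega d, (f G - Q (touch u v) f G) ^ 2 := by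
  have := ip_sub_avg (keyOff (d := d) (touch u v)) f
  have e : R u v f = f - avg (keyOff (touch u v)) f := rfl
  rw [e, this]
  unfold ip
  refine sum_congr rfl (fun G _ => ?_)
  simp only [Pi.sub_apply, Q]
  ring

theorem E4_eq (u v w x : Fin n) (f : Omega d → ℝ) :
    E4 u v w x f = ∑ G : Omega d, (f G - Q (Ms u v w x) f G) ^ 2 := by
  have := ip_sub_avg (keyOff (d := d) (Ms u v w x)) f
  have e : E4 u v w x f = ip f (f - avg (keyOff (Ms u v w x)) f) := rfl
  rw [e, this]
  unfold ip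
  refine sum_congr rfl (fun G _ => ?_)
  simp only [Pi.sub_apply, Q]
  ring


/-- the function on subsets induced by `f` on a fibre -/
theorem exists_ft (u v : Fin n) (huv : u ≠ v) (f : Omega d → ℝ) (G0 : Omega d) :
    ∃ ft : Finset (Fin n) → ℝ, ∀ G : Omega d,
      keyOff (touch u v) G = keyOff (touch u v) G0 → ft (upSet u v G.1) = f G := by
  refine ⟨fun A => if h : ∃ G : Omega d, keyOff (touch u v) G = keyOff (touch u v) G0 ∧
    upSet u v G.1 = A then f h.choose else 0, ?_⟩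
  intro G hG
  have h : ∃ G' : Omega d, keyOff (touch u v) G' = keyOff (touch u v) G0 ∧
    upSet u v G'.1 = upSet u v G.1 := ⟨G, hG, rfl⟩
  simp only [dif_pos h]
  have hs := h.choose_spec
  rw [upSet_injOn u v huv h.choose G (hs.1.trans hG.symm) hs.2]

section fibre

variable (u v : Fin n) (huv : u ≠ v) (f : Omega d → ℝ) (G0 : Omega d)
  (ft : Finset (Fin n) → ℝ)
  (hft : ∀ G : Omega d, keyOff (touch u v) G = keyOff (touch u v) G0 → ft (upSet u v G.1) = f G)

include huv hft

theorem sum_cls_eq (Fn : Omega d → ℝ) (Fa : Finset (Fin n) → ℝ)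
    (h : ∀ G : Omega d, keyOff (touch u v) G = keyOff (touch u v) G0 → Fn G = Fa (upSet u v G.1)) :
    ∑ G ∈ cls (keyOff (touch u v)) G0, Fn G =
      ∑ A ∈ powersetCard (upSet u v G0.1).card (free u v G0.1), Fa A := by
  rw [← sum_fibre_eq u v huv G0 Fa]
  exact sum_congr rfl (fun G hG => h G (mem_cls.1 hG))

theorem Q_touch_eq (G : Omega d) (hG : keyOff (touch u v) G = keyOff (touch u v) G0) :
    Q (touch u v) f G =
      (∑ B ∈ powersetCard (upSet u v G0.1).card (free u v G0.1), ft B) /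
        ((powersetCard (upSet u v G0.1).card (free u v G0.1)).card : ℝ) := by
  show (∑ y ∈ cls (keyOff (touch u v)) G, f y) / ((cls (keyOff (d := d) (touch u v)) G).card : ℝ) = _
  rw [cls_eq_of_key_eq hG]
  rw [sum_cls_eq u v huv f G0 ft hft f ft (fun G hG => (hft G hG).symm)]
  have hc := sum_cls_eq u v huv f G0 ft hft (fun _ => 1) (fun _ => 1) (fun _ _ => rfl)
  simp only [sum_const, nsmul_eq_mul, mul_one] at hc
  rw [hc]


omit huv hft in
theorem Q_Ms_pair (w x : Fin n) (G G' : Omega d)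
    (hk : keyOff (Ms u v w x) G' = keyOff (Ms u v w x) G) (hne : G' ≠ G)
    (hcl : ∀ H : Omega d, keyOff (Ms u v w x) H = keyOff (Ms u v w x) G → H = G ∨ H = G') :
    Q (Ms u v w x) f G = (f G + f G') / 2 := by
  have : cls (keyOff (d := d) (Ms u v w x)) G = {G, G'} := by
    ext H
    simp only [mem_cls, mem_insert, mem_singleton]
    constructor
    · exact hcl H
    · rintro (rfl | rfl)
      · rfl
      · exact hk
  show (∑ y ∈ cls (keyOff (Ms u v w x)) G, f y) /
    ((cls (keyOff (d := d) (Ms u v w x)) G).card : ℝ) = _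
  rw [this, sum_pair hne.symm, card_pair hne.symm]
  norm_num

/-- local form of the `E4` integrand -/
theorem E4_local (w x : Fin n) (h : Dist4 u v w x) (G : Omega d)
    (hG : keyOff (touch u v) G = keyOff (touch u v) G0) :
    (f G - Q (Ms u v w x) f G) ^ 2 =
      if w ∈ free u v G0.1 ∧ x ∈ free u v G0.1 then
        (if w ∈ upSet u v G.1 ∧ x ∉ upSet u v G.1 then
          (ft (upSet u v G.1) - ft (insert x ((upSet u v G.1).erase w))) ^ 2 / 4 else 0) +
        (if x ∈ upSet u v G.1 ∧ w ∉ upSet u v G.1 then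
          (ft (upSet u v G.1) - ft (insert w ((upSet u v G.1).erase x))) ^ 2 / 4 else 0)
      else 0 := by
  have hfree : free u v G.1 = free u v G0.1 := free_inv u v huv G G0 hG
  by_cases hY : Ystate u v w x G.1
  · rw [Ystate_iff_split u v w x h] at hY
    obtain ⟨hw, hx, hsp⟩ := hY
    rw [if_pos ⟨hfree ▸ hw, hfree ▸ hx⟩]
    rcases hsp with ⟨a, b⟩ | ⟨a, b⟩
    · obtain ⟨G', hk, hne, hup, hcl⟩ := exists_partner u v w x h G a hx b
      have hQ := Q_Ms_pair u v f w x G G' hk hne hcl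
      have hG' : keyOff (touch u v) G' = keyOff (touch u v) G0 :=
        (keyOff_mono (Ms_subset_touch u v w x) hk).trans hG
      have e1 := hft G hG
      have e2 := hft G' hG'
      rw [hup] at e2
      rw [if_pos ⟨a, b⟩, if_neg (fun hh => b hh.1), e1, e2, hQ]
      ring
    · obtain ⟨G', hk, hne, hup, hcl⟩ := exists_partner u v x w h.swap_right G a hw b
      rw [Ms_swap_right] at hk hcl
      have hQ := Q_Ms_pair u v f w x G G' hk hne hcl
      have hG' : keyOff (touch u v) G' = keyOff (touch u v) G0 :=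
        (keyOff_mono (Ms_subset_touch u v w x) hk).trans hG
      have e1 := hft G hG
      have e2 := hft G' hG'
      rw [hup] at e2
      rw [if_neg (fun hh => b hh.1), if_pos ⟨a, b⟩, e1, e2, hQ]
      ring
  · rw [Q_Ms_of_not_Ystate u v w x h f G hY]
    rw [Ystate_iff_split u v w x h, hfree] at hY
    by_cases hF : w ∈ free u v G0.1 ∧ x ∈ free u v G0.1
    · rw [if_pos hF, if_neg (fun hh => hY ⟨hF.1, hF.2, Or.inl hh⟩),
        if_neg (fun hh => hY ⟨hF.1, hF.2, Or.inr hh⟩)]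
      ring
    · rw [if_neg hF]
      ring

/-- sums over the Y-states of a fibre -/
theorem sum_Y_eq (w x : Fin n) (h : Dist4 u v w x) (hw : w ∈ free u v G0.1)
    (hx : x ∈ free u v G0.1) (G : Omega d)
    (hG : keyOff (touch u v) G = keyOff (touch u v) G0)
    (Fn : Omega d → ℝ) (Fa : Finset (Fin n) → ℝ)
    (hF : ∀ G : Omega d, keyOff (touch u v) G = keyOff (touch u v) G0 →
      Fn G = Fa (upSet u v G.1)) :
    ∑ G' ∈ univ.filter (fun G' : Omega d =>
          keyOff (touch u v) G' = keyOff (touch u v) G ∧ Ystate u v w x G'.1), Fn G' =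
      ∑ A ∈ splitSets (free u v G0.1) (upSet u v G0.1).card w x, Fa A := by
  have e1 : ∑ G' ∈ univ.filter (fun G' : Omega d =>
          keyOff (touch u v) G' = keyOff (touch u v) G ∧ Ystate u v w x G'.1), Fn G' =
      ∑ G' ∈ cls (keyOff (touch u v)) G0, if Ystate u v w x G'.1 then Fn G' else 0 := by
    rw [← sum_filter]
    refine sum_congr ?_ (fun _ _ => rfl)
    ext H
    simp only [mem_filter, mem_univ, true_and, mem_cls, hG]
  rw [e1, sum_cls_eq u v huv f G0 ft hft _
    (fun A => if (w ∈ A ∧ x ∉ A) ∨ (x ∈ A ∧ w ∉ A) then Fa A else 0)]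
  · rw [splitSets, sum_filter]
  · intro H hH
    have hfree : free u v H.1 = free u v G0.1 := free_inv u v huv H G0 hH
    have : Ystate u v w x H.1 ↔ ((w ∈ upSet u v H.1 ∧ x ∉ upSet u v H.1) ∨
        (x ∈ upSet u v H.1 ∧ w ∉ upSet u v H.1)) := by
      rw [Ystate_iff_split u v w x h, hfree]
      tauto
    simp only [this, hF H hH]

/-- local form of the `NN` integrand -/
theorem NN_local (w x : Fin n) (h : Dist4 u v w x) (G : Omega d)
    (hG : keyOff (touch u v) G = keyOff (touch u v) G0) :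
    (if Ystate u v w x G.1 then (B1 u v w x f G) ^ 2 else 0) =
      if (w ∈ free u v G0.1 ∧ x ∈ free u v G0.1) ∧
          ((w ∈ upSet u v G.1 ∧ x ∉ upSet u v G.1) ∨ (x ∈ upSet u v G.1 ∧ w ∉ upSet u v G.1)) then
        ((∑ A ∈ splitSets (free u v G0.1) (upSet u v G0.1).card w x, ft A) /
            ((splitSets (free u v G0.1) (upSet u v G0.1).card w x).card : ℝ) -
          (∑ B ∈ powersetCard (upSet u v G0.1).card (free u v G0.1), ft B) /
            ((powersetCard (upSet u v G0.1).card (free u v G0.1)).card : ℝ)) ^ 2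
      else 0 := by
  have hfree : free u v G.1 = free u v G0.1 := free_inv u v huv G G0 hG
  by_cases hY : Ystate u v w x G.1
  · have hY' := hY
    rw [Ystate_iff_split u v w x h, hfree] at hY'
    rw [if_pos hY, if_pos ⟨⟨hY'.1, hY'.2.1⟩, hY'.2.2⟩]
    unfold B1
    rw [QQ_of_Ystate u v w x h f G hY, Q_touch_eq u v huv f G0 ft hft G hG,
      sum_Y_eq u v huv f G0 ft hft w x h hY'.1 hY'.2.1 G hG f ft (fun H hH => (hft H hH).symm)]
    have hc := sum_Y_eq u v huv f G0 ft hft w x h hY'.1 hY'.2.1 G hG (fun _ => 1) (fun _ => 1)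
      (fun _ _ => rfl)
    simp only [sum_const, nsmul_eq_mul, mul_one] at hc
    rw [hc]
  · rw [if_neg hY]
    rw [Ystate_iff_split u v w x h, hfree] at hY
    rw [if_neg (fun hh => hY ⟨hh.1.1, hh.1.2, hh.2⟩)]


theorem john_local :
    ∑ G ∈ cls (keyOff (touch u v)) G0, 2 * (f G - Q (touch u v) f G) ^ 2 ≤
      ∑ G ∈ cls (keyOff (touch u v)) G0, ∑ w : Fin n, ∑ x : Fin n,
        if Dist4 u v w x then (f G - Q (Ms u v w x) f G) ^ 2 -
          (if Ystate u v w x G.1 then (B1 u v w x f G) ^ 2 else 0) else 0 := by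
  set F := free u v G0.1 with hF
  set t := (upSet u v G0.1).card with ht
  set P := powersetCard t F with hP
  set m := (∑ B ∈ P, ft B) / (P.card : ℝ) with hm
  set SS : Fin n → Fin n → ℝ := fun w x =>
    ∑ A ∈ P.filter (fun A => w ∈ A ∧ x ∉ A), (ft A - ft (insert x (A.erase w))) ^ 2 with hSS
  set T : Fin n → Fin n → ℝ := fun w x => ((splitSets F t w x).card : ℝ) *
        ((∑ A ∈ splitSets F t w x, ft A) / ((splitSets F t w x).card : ℝ) - m) ^ 2 with hT
  have hJ := johnson_ineq F t ft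
  -- left side
  have hL : ∑ G ∈ cls (keyOff (touch u v)) G0, 2 * (f G - Q (touch u v) f G) ^ 2 =
      ∑ A ∈ P, 2 * (ft A - m) ^ 2 := by
    refine sum_cls_eq u v huv f G0 ft hft _ (fun A => 2 * (ft A - m) ^ 2) ?_
    intro G hG
    rw [Q_touch_eq u v huv f G0 ft hft G hG, hft G hG]
  -- right side
  have hR : ∑ G ∈ cls (keyOff (touch u v)) G0, ∑ w : Fin n, ∑ x : Fin n,
        (if Dist4 u v w x then (f G - Q (Ms u v w x) f G) ^ 2 -
          (if Ystate u v w x G.1 then (B1 u v w x f G) ^ 2 else 0) else 0) =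
      ∑ A ∈ P, ∑ w : Fin n, ∑ x : Fin n,
        (if Dist4 u v w x then
          (if w ∈ F ∧ x ∈ F then
            (if w ∈ A ∧ x ∉ A then (ft A - ft (insert x (A.erase w))) ^ 2 / 4 else 0) +
            (if x ∈ A ∧ w ∉ A then (ft A - ft (insert w (A.erase x))) ^ 2 / 4 else 0)
          else 0) -
          (if (w ∈ F ∧ x ∈ F) ∧ ((w ∈ A ∧ x ∉ A) ∨ (x ∈ A ∧ w ∉ A)) then
            ((∑ A ∈ splitSets F t w x, ft A) / ((splitSets F t w x).card : ℝ) - m) ^ 2
          else 0) else 0) := by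
    refine sum_cls_eq u v huv f G0 ft hft _ _ ?_
    intro G hG
    refine sum_congr rfl (fun w _ => sum_congr rfl (fun x _ => ?_))
    by_cases h : Dist4 u v w x
    · rw [if_pos h, if_pos h, E4_local u v huv f G0 ft hft w x h G hG,
        NN_local u v huv f G0 ft hft w x h G hG]
    · rw [if_neg h, if_neg h]
  have key : ∀ w x : Fin n, ∑ A ∈ P,
        (if Dist4 u v w x then
          (if w ∈ F ∧ x ∈ F then
            (if w ∈ A ∧ x ∉ A then (ft A - ft (insert x (A.erase w))) ^ 2 / 4 else 0) +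
            (if x ∈ A ∧ w ∉ A then (ft A - ft (insert w (A.erase x))) ^ 2 / 4 else 0)
          else 0) -
          (if (w ∈ F ∧ x ∈ F) ∧ ((w ∈ A ∧ x ∉ A) ∨ (x ∈ A ∧ w ∉ A)) then
            ((∑ A ∈ splitSets F t w x, ft A) / ((splitSets F t w x).card : ℝ) - m) ^ 2
          else 0) else 0) =
      (if w ∈ F ∧ x ∈ F ∧ w ≠ x then SS w x else 0) / 4 +
      (if w ∈ F ∧ x ∈ F ∧ w ≠ x then SS x w else 0) / 4 -
      (if w ∈ F ∧ x ∈ F ∧ w ≠ x then T w x else 0) := by
    intro w x
    by_cases hc : w ∈ F ∧ x ∈ F ∧ w ≠ x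
    · have hD : Dist4 u v w x := by
        obtain ⟨hw, hx, hwx⟩ := hc
        rw [hF, mem_free_iff] at hw hx
        exact ⟨huv, hw.1.symm, hx.1.symm, hw.2.1.symm, hx.2.1.symm, hwx⟩
      have hc2 : w ∈ F ∧ x ∈ F := ⟨hc.1, hc.2.1⟩
      rw [if_pos hc, if_pos hc, if_pos hc]
      rw [sum_congr rfl (fun A _ => by
        rw [if_pos hD, if_pos hc2, if_congr (and_iff_right hc2) rfl rfl])]
      rw [sum_sub_distrib, sum_add_distrib, ← sum_filter, ← sum_filter, ← sum_filter,
        ← sum_div, ← sum_div, sum_const, nsmul_eq_mul]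
      rfl
    · simp only [if_neg hc]
      by_cases hD : Dist4 u v w x
      · have hc2 : ¬ (w ∈ F ∧ x ∈ F) := fun hh => hc ⟨hh.1, hh.2, hD.2.2.2.2.2⟩
        simp [hc2]
      · simp [hD]
  have hsym : ∑ w : Fin n, ∑ x : Fin n, (if w ∈ F ∧ x ∈ F ∧ w ≠ x then SS x w else 0) =
      ∑ w : Fin n, ∑ x : Fin n, (if w ∈ F ∧ x ∈ F ∧ w ≠ x then SS w x else 0) := by
    rw [sum_comm]
    refine sum_congr rfl (fun w _ => sum_congr rfl (fun x _ => ?_))
    have : (x ∈ F ∧ w ∈ F ∧ x ≠ w) ↔ (w ∈ F ∧ x ∈ F ∧ w ≠ x) := by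
      constructor
      · rintro ⟨a, b, c⟩; exact ⟨b, a, c.symm⟩
      · rintro ⟨a, b, c⟩; exact ⟨b, a, c.symm⟩
    simp only [this]
  rw [hL, hR, sum_comm]
  have hR2 : ∀ w : Fin n, ∑ A ∈ P, ∑ x : Fin n,
        (if Dist4 u v w x then
          (if w ∈ F ∧ x ∈ F then
            (if w ∈ A ∧ x ∉ A then (ft A - ft (insert x (A.erase w))) ^ 2 / 4 else 0) +
            (if x ∈ A ∧ w ∉ A then (ft A - ft (insert w (A.erase x))) ^ 2 / 4 else 0)
          else 0) -
          (if (w ∈ F ∧ x ∈ F) ∧ ((w ∈ A ∧ x ∉ A) ∨ (x ∈ A ∧ w ∉ A)) then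
            ((∑ A ∈ splitSets F t w x, ft A) / ((splitSets F t w x).card : ℝ) - m) ^ 2
          else 0) else 0) = ∑ x : Fin n,
      ((if w ∈ F ∧ x ∈ F ∧ w ≠ x then SS w x else 0) / 4 +
      (if w ∈ F ∧ x ∈ F ∧ w ≠ x then SS x w else 0) / 4 -
      (if w ∈ F ∧ x ∈ F ∧ w ≠ x then T w x else 0)) := by
    intro w
    rw [sum_comm]
    exact sum_congr rfl (fun x _ => key w x)
  rw [sum_congr rfl (fun w _ => hR2 w)]
  simp only [sum_sub_distrib, sum_add_distrib, ← sum_div]
  rw [hsym, ← sum_pairs_eq F SS, ← sum_pairs_eq F T, ← mul_sum]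
  have hJ' : ∑ A ∈ P, (ft A - m) ^ 2 + (1 / 2) * ∑ w ∈ F, ∑ x ∈ F.erase w, T w x ≤
      (1 / 4) * ∑ w ∈ F, ∑ x ∈ F.erase w, SS w x := hJ
  linarith

end fibre


/-- JOHN -/
theorem john_ineq (u v : Fin n) (huv : u ≠ v) (f : Omega d → ℝ) :
    2 * ip f (R u v f) ≤
      ∑ w : Fin n, ∑ x : Fin n, if Dist4 u v w x then E4 u v w x f - NN u v w x f else 0 := by
  have hR : ∑ w : Fin n, ∑ x : Fin n,
      (if Dist4 u v w x then E4 u v w x f - NN u v w x f else 0) =
      ∑ G : Omega d, ∑ w : Fin n, ∑ x : Fin n,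
        if Dist4 u v w x then (f G - Q (Ms u v w x) f G) ^ 2 -
          (if Ystate u v w x G.1 then (B1 u v w x f G) ^ 2 else 0) else 0 := by
    conv_rhs => rw [sum_comm]
    refine sum_congr rfl (fun w _ => ?_)
    conv_rhs => rw [sum_comm]
    refine sum_congr rfl (fun x _ => ?_)
    by_cases h : Dist4 u v w x
    · simp only [if_pos h]
      rw [E4_eq, NN, sum_sub_distrib]
    · simp only [if_neg h]
      simp
  rw [hR, ip_R_eq, mul_sum]
  refine sum_le_of_cls (keyOff (touch u v)) _ _ (fun G0 => ?_)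
  obtain ⟨ft, hft⟩ := exists_ft u v huv f G0
  exact john_local u v huv f G0 ft hft

end

end Vale.Agent.P335
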