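import Vale.Agent.P335.Assembly
import Vale.Agent.P335.Spectral
import Vale.Agent.P335.Disj
import Vale.Agent.P335.John
import Vale.Agent.P335.Adj
import Vale.Agent.P335.Conn
import Vale.Agent.P335.Edge

/-!
# P335: the spectral gap of the switch graph is at least 2

`|DD g|^2 = sum over (u,v), (w,x), u != v, w != x of <R u v g, R w x g>`.
* `{w,x} = {u,v}` (2 ways): `<R g, R g> = <g, R g>`; total `2 <g, DD g>`.
* exactly one common vertex (4 patterns): each pattern is
  `sum over distinct (a,b,c) of <R a b g, R a c g>`, which is `>= 0` by `adj_ineq` (average over the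
  three cyclic relabellings).
* all distinct: by `disj_ineq`, the symmetry `(u,v,w,x) <-> (w,x,u,v)` and `john_ineq`:
  `>= sum_{Dist4} (E4 - NN) >= 2 <g, DD g>`.
Hence `|DD g|^2 >= 4 <g, DD g>`; `gap_of_sq` and `const_of_DD_eq_zero` give `<g, DD g> >= 4 |g|^2` for `g`
of mean zero; `john_ineq` (dropping `NN >= 0`) and `edge_ineq` give
`2 <g, DD g> <= sum_{Dist4} E4 <= 2 sum_G sum_G' [SwitchAdj] (g G - g G')^2`.
-/

namespace Vale.Agent.P335

open Finset

open scoped Classical

noncomputable section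

variable {n : ℕ} {d : Fin n → ℕ}

theorem gap_R_eq_sub (u v : Fin n) (f : Omega d → ℝ) :
    R u v f = f - avg (keyOff (touch u v)) f := rfl

theorem gap_touch_comm (u v : Fin n) : touch u v = touch v u := by
  ext e
  show (u ∈ e ∨ v ∈ e) ↔ (v ∈ e ∨ u ∈ e)
  exact or_comm

theorem gap_R_comm (u v : Fin n) (f : Omega d → ℝ) : R u v f = R v u f := by
  unfold R
  rw [gap_touch_comm]

theorem gap_ip_R_symm (u v : Fin n) (f g : Omega d → ℝ) : ip (R u v f) g = ip f (R u v g) := by
  have h := ip_avg_left (keyOff (d := d) (touch u v)) f g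
  unfold ip at h ⊢
  simp only [R, Q, sub_mul, mul_sub, Finset.sum_sub_distrib]
  rw [h]

theorem gap_ip_R_self (u v : Fin n) (f : Omega d → ℝ) : ip (R u v f) (R u v f) = ip f (R u v f) := by
  rw [gap_R_eq_sub]
  exact (ip_sub_avg _ f).symm

theorem gap_ip_DD_left (f g : Omega d → ℝ) :
    ip (DD f) g = ∑ u : Fin n, ∑ v : Fin n, if u ≠ v then ip (R u v f) g else 0 := by
  unfold ip DD
  simp_rw [Finset.sum_mul]
  rw [Finset.sum_comm]
  refine Finset.sum_congr rfl fun u _ => ?_
  rw [Finset.sum_comm]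
  refine Finset.sum_congr rfl fun v _ => ?_
  by_cases h : u ≠ v
  · simp [h]
  · simp [h]

theorem gap_ip_DD_right (f g : Omega d → ℝ) :
    ip g (DD f) = ∑ u : Fin n, ∑ v : Fin n, if u ≠ v then ip g (R u v f) else 0 := by
  rw [ip_comm, gap_ip_DD_left]
  refine Finset.sum_congr rfl fun u _ => Finset.sum_congr rfl fun v _ => ?_
  rw [ip_comm]

/-- linear version of `DD` -/
theorem exists_DDL : ∃ D : (Omega d → ℝ) →ₗ[ℝ] (Omega d → ℝ), ∀ f, D f = DD f := by
  refine ⟨∑ u : Fin n, ∑ v : Fin n,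
    if u ≠ v then (LinearMap.id - avgL (keyOff (d := d) (touch u v))) else 0, fun f => ?_⟩
  funext G
  simp only [LinearMap.sum_apply, Finset.sum_apply, DD]
  refine Finset.sum_congr rfl fun u _ => Finset.sum_congr rfl fun v _ => ?_
  by_cases h : u ≠ v
  · simp [h, R, Q]
  · simp [h]

theorem ip_DD_symm (f g : Omega d → ℝ) : ip (DD f) g = ip f (DD g) := by
  rw [gap_ip_DD_left, gap_ip_DD_right]
  refine Finset.sum_congr rfl fun u _ => Finset.sum_congr rfl fun v _ => ?_
  rw [gap_ip_R_symm]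

theorem ip_DD_eq (f : Omega d → ℝ) :
    ip f (DD f) = ∑ u : Fin n, ∑ v : Fin n, if u ≠ v then ip f (R u v f) else 0 :=
  gap_ip_DD_right f f

theorem ip_DD_nonneg (f : Omega d → ℝ) : 0 ≤ ip f (DD f) := by
  rw [ip_DD_eq]
  refine Finset.sum_nonneg fun u _ => Finset.sum_nonneg fun v _ => ?_
  split_ifs
  · rw [← gap_ip_R_self]
    exact ip_self_nonneg _
  · exact le_rfl

theorem gap_sum3_rot {α : Type*} [Fintype α] (F : α → α → α → ℝ) :
    ∑ a, ∑ b, ∑ c, F a b c = ∑ c, ∑ a, ∑ b, F a b c := by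
  calc ∑ a, ∑ b, ∑ c, F a b c = ∑ a, ∑ c, ∑ b, F a b c :=
        Finset.sum_congr rfl fun a _ => Finset.sum_comm
    _ = ∑ c, ∑ a, ∑ b, F a b c := Finset.sum_comm

/-- the sum over adjacent pairs is nonnegative -/
theorem sum_adj_nonneg (f : Omega d → ℝ) :
    0 ≤ ∑ a : Fin n, ∑ b : Fin n, ∑ c : Fin n,
      if a ≠ b ∧ a ≠ c ∧ b ≠ c then ip (R a b f) (R a c f) else 0 := by
  set S := ∑ a : Fin n, ∑ b : Fin n, ∑ c : Fin n,
      if a ≠ b ∧ a ≠ c ∧ b ≠ c then ip (R a b f) (R a c f) else 0 with hS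
  have h2 : (∑ a : Fin n, ∑ b : Fin n, ∑ c : Fin n,
      if a ≠ b ∧ a ≠ c ∧ b ≠ c then ip (R a b f) (R b c f) else 0) = S := by
    rw [hS, Finset.sum_comm]
    refine Finset.sum_congr rfl fun b _ => Finset.sum_congr rfl fun a _ =>
      Finset.sum_congr rfl fun c _ => ?_
    rw [gap_R_comm a b]
    by_cases h : a ≠ b ∧ a ≠ c ∧ b ≠ c
    · rw [if_pos h, if_pos ⟨h.1.symm, h.2.2, h.2.1⟩]
    · rw [if_neg h, if_neg (fun h' => h ⟨h'.1.symm, h'.2.2, h'.2.1⟩)]
  have h3 : (∑ a : Fin n, ∑ b : Fin n, ∑ c : Fin n,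
      if a ≠ b ∧ a ≠ c ∧ b ≠ c then ip (R a c f) (R b c f) else 0) = S := by
    rw [hS, gap_sum3_rot]
    refine Finset.sum_congr rfl fun c _ => Finset.sum_congr rfl fun a _ =>
      Finset.sum_congr rfl fun b _ => ?_
    rw [gap_R_comm a c, gap_R_comm b c]
    by_cases h : a ≠ b ∧ a ≠ c ∧ b ≠ c
    · rw [if_pos h, if_pos ⟨h.2.1.symm, h.2.2.symm, h.1⟩]
    · rw [if_neg h, if_neg (fun h' => h ⟨h'.2.2, h'.1.symm, h'.2.1.symm⟩)]
  have h : 0 ≤ ∑ a : Fin n, ∑ b : Fin n, ∑ c : Fin n,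
      if a ≠ b ∧ a ≠ c ∧ b ≠ c then
        (ip (R a b f) (R a c f) + ip (R a b f) (R b c f) + ip (R a c f) (R b c f)) else 0 := by
    refine Finset.sum_nonneg fun a _ => Finset.sum_nonneg fun b _ => Finset.sum_nonneg fun c _ => ?_
    split_ifs with h
    · exact adj_ineq a b c h.1 h.2.1 h.2.2 f
    · exact le_rfl
  have h4 : (∑ a : Fin n, ∑ b : Fin n, ∑ c : Fin n,
      if a ≠ b ∧ a ≠ c ∧ b ≠ c then
        (ip (R a b f) (R a c f) + ip (R a b f) (R b c f) + ip (R a c f) (R b c f)) else 0)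
      = S + S + S := by
    have e : S + S + S = S + (∑ a : Fin n, ∑ b : Fin n, ∑ c : Fin n,
      if a ≠ b ∧ a ≠ c ∧ b ≠ c then ip (R a b f) (R b c f) else 0) + (∑ a : Fin n, ∑ b : Fin n,
      ∑ c : Fin n, if a ≠ b ∧ a ≠ c ∧ b ≠ c then ip (R a c f) (R b c f) else 0) := by
      rw [h2, h3]
    rw [e, hS]
    simp only [← Finset.sum_add_distrib]
    refine Finset.sum_congr rfl fun a _ => Finset.sum_congr rfl fun b _ =>
      Finset.sum_congr rfl fun c _ => ?_
    split_ifs <;> simp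
  linarith

theorem gap_Dist4_swap {u v w x : Fin n} : Dist4 u v w x ↔ Dist4 w x u v := by
  unfold Dist4
  constructor
  · rintro ⟨h1, h2, h3, h4, h5, h6⟩
    exact ⟨h6, h2.symm, h4.symm, h3.symm, h5.symm, h1⟩
  · rintro ⟨h1, h2, h3, h4, h5, h6⟩
    exact ⟨h6, h2.symm, h4.symm, h3.symm, h5.symm, h1⟩

theorem gap_sum4_swap {α : Type*} [Fintype α] (F : α → α → α → α → ℝ) :
    ∑ u, ∑ v, ∑ w, ∑ x, F u v w x = ∑ w, ∑ x, ∑ u, ∑ v, F u v w x := by
  calc ∑ u, ∑ v, ∑ w, ∑ x, F u v w x = ∑ u, ∑ w, ∑ v, ∑ x, F u v w x :=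
        Finset.sum_congr rfl fun u _ => Finset.sum_comm
    _ = ∑ w, ∑ u, ∑ v, ∑ x, F u v w x := Finset.sum_comm
    _ = ∑ w, ∑ u, ∑ x, ∑ v, F u v w x :=
        Finset.sum_congr rfl fun w _ => Finset.sum_congr rfl fun u _ => Finset.sum_comm
    _ = ∑ w, ∑ x, ∑ u, ∑ v, F u v w x := Finset.sum_congr rfl fun w _ => Finset.sum_comm

/-- the sum over disjoint pairs -/
theorem sum_disj_ge (f : Omega d → ℝ) :
    2 * ip f (DD f) ≤ ∑ u : Fin n, ∑ v : Fin n, ∑ w : Fin n, ∑ x : Fin n,
      if Dist4 u v w x then ip (R u v f) (R w x f) else 0 := by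
  -- step 1: john
  have h1 : 2 * ip f (DD f) ≤ ∑ u : Fin n, ∑ v : Fin n, ∑ w : Fin n, ∑ x : Fin n,
      if Dist4 u v w x then E4 u v w x f - NN u v w x f else 0 := by
    rw [ip_DD_eq, Finset.mul_sum]
    refine Finset.sum_le_sum fun u _ => ?_
    rw [Finset.mul_sum]
    refine Finset.sum_le_sum fun v _ => ?_
    by_cases huv : u ≠ v
    · rw [if_pos huv]
      exact john_ineq u v huv f
    · rw [if_neg huv, mul_zero]
      refine le_of_eq (Eq.symm ?_)
      refine Finset.sum_eq_zero fun w _ => Finset.sum_eq_zero fun x _ => ?_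
      rw [if_neg (fun h => huv h.1)]
  -- step 2: symmetrisation of NN
  have h2 : (∑ u : Fin n, ∑ v : Fin n, ∑ w : Fin n, ∑ x : Fin n,
      if Dist4 u v w x then NN w x u v f else 0) = ∑ u : Fin n, ∑ v : Fin n, ∑ w : Fin n,
      ∑ x : Fin n, if Dist4 u v w x then NN u v w x f else 0 := by
    rw [gap_sum4_swap]
    refine Finset.sum_congr rfl fun w _ => Finset.sum_congr rfl fun x _ =>
      Finset.sum_congr rfl fun u _ => Finset.sum_congr rfl fun v _ => ?_
    by_cases h : Dist4 u v w x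
    · rw [if_pos h, if_pos (gap_Dist4_swap.1 h)]
    · rw [if_neg h, if_neg (fun h' => h (gap_Dist4_swap.2 h'))]
  have h3 : (∑ u : Fin n, ∑ v : Fin n, ∑ w : Fin n, ∑ x : Fin n,
      if Dist4 u v w x then E4 u v w x f - NN u v w x f else 0) =
      ∑ u : Fin n, ∑ v : Fin n, ∑ w : Fin n, ∑ x : Fin n,
      if Dist4 u v w x then
        E4 u v w x f - (1 / 2) * NN u v w x f - (1 / 2) * NN w x u v f else 0 := by
    have e1 : ∀ (A B : Fin n → Fin n → Fin n → Fin n → ℝ) (c : ℝ),
        (∑ u : Fin n, ∑ v : Fin n, ∑ w : Fin n, ∑ x : Fin n,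
          if Dist4 u v w x then A u v w x - c * B u v w x else 0) =
        (∑ u : Fin n, ∑ v : Fin n, ∑ w : Fin n, ∑ x : Fin n,
          if Dist4 u v w x then A u v w x else 0) -
        c * (∑ u : Fin n, ∑ v : Fin n, ∑ w : Fin n, ∑ x : Fin n,
          if Dist4 u v w x then B u v w x else 0) := by
      intro A B c
      simp only [Finset.mul_sum, ← Finset.sum_sub_distrib]
      refine Finset.sum_congr rfl fun u _ => Finset.sum_congr rfl fun v _ =>
        Finset.sum_congr rfl fun w _ => Finset.sum_congr rfl fun x _ => ?_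
      split_ifs <;> simp
    have e2 := e1 (fun u v w x => E4 u v w x f) (fun u v w x => NN u v w x f) 1
    have e3 := e1 (fun u v w x => E4 u v w x f - (1 / 2) * NN u v w x f)
      (fun u v w x => NN w x u v f) (1 / 2)
    have e4 := e1 (fun u v w x => E4 u v w x f) (fun u v w x => NN u v w x f) (1 / 2)
    simp only [one_mul] at e2
    rw [e2, e3, e4, h2]
    ring
  rw [h3] at h1
  refine h1.trans ?_
  refine Finset.sum_le_sum fun u _ => Finset.sum_le_sum fun v _ => Finset.sum_le_sum fun w _ =>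
    Finset.sum_le_sum fun x _ => ?_
  split_ifs with h
  · exact disj_ineq u v w x h f
  · exact le_rfl

/-- splitting of a sum over ordered pairs `w != x` relative to a fixed ordered pair `u != v` -/
theorem gap_sum_pair_split {α : Type*} [Fintype α] [DecidableEq α] (u v : α) (huv : u ≠ v)
    (A : α → α → ℝ) :
    (∑ w, ∑ x, if w ≠ x then A w x else 0) =
      A u v + A v u + (∑ x, if x ≠ u ∧ x ≠ v then A u x else 0)
        + (∑ w, if w ≠ u ∧ w ≠ v then A w u else 0)
        + (∑ x, if x ≠ u ∧ x ≠ v then A v x else 0)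
        + (∑ w, if w ≠ u ∧ w ≠ v then A w v else 0)
        + ∑ w, ∑ x, if (w ≠ u ∧ w ≠ v ∧ x ≠ u ∧ x ≠ v ∧ w ≠ x) then A w x else 0 := by
  have key : ∀ w x : α, (if w ≠ x then A w x else 0) =
      (if w = u then (if x = v then A u v else 0) else 0)
      + (if w = v then (if x = u then A v u else 0) else 0)
      + (if w = u then (if x ≠ u ∧ x ≠ v then A u x else 0) else 0)
      + (if x = u then (if w ≠ u ∧ w ≠ v then A w u else 0) else 0)
      + (if w = v then (if x ≠ u ∧ x ≠ v then A v x else 0) else 0)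
      + (if x = v then (if w ≠ u ∧ w ≠ v then A w v else 0) else 0)
      + (if (w ≠ u ∧ w ≠ v ∧ x ≠ u ∧ x ≠ v ∧ w ≠ x) then A w x else 0) := by
    intro w x
    have hvu : v ≠ u := huv.symm
    by_cases h1 : w = u
    · subst h1
      by_cases h2 : x = w
      · subst h2
        simp [huv]
      · by_cases h3 : x = v
        · subst h3
          simp [huv, hvu]
        · have h2' : w ≠ x := fun h => h2 h.symm
          simp [h2, h3, huv, h2']
    · by_cases h2 : w = v
      · subst h2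
        by_cases h3 : x = u
        · subst h3
          simp [huv, hvu]
        · by_cases h4 : x = w
          · subst h4
            simp [hvu]
          · have h4' : w ≠ x := fun h => h4 h.symm
            simp [h3, h4, hvu, h4']
      · by_cases h3 : x = u
        · subst h3
          simp [h1, h2, huv]
        · by_cases h4 : x = v
          · subst h4
            simp [h1, h2, hvu]
          · simp [h1, h2, h3, h4]
  simp only [key, Finset.sum_add_distrib, Finset.sum_ite_eq', Finset.mem_univ, if_true]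
  have c3 : ∀ g : α → ℝ, ∀ a : α,
      (∑ w : α, ∑ x : α, if w = a then g x else 0) = ∑ x, g x := by
    intro g a
    rw [Finset.sum_comm]
    refine Finset.sum_congr rfl fun w _ => ?_
    simp
  rw [c3 (fun x => if x = v then A u v else 0) u, c3 (fun x => if x = u then A v u else 0) v,
    c3 (fun x => if x ≠ u ∧ x ≠ v then A u x else 0) u,
    c3 (fun x => if x ≠ u ∧ x ≠ v then A v x else 0) v]
  simp

/-- expansion of `|DD f|^2` -/
theorem ip_DD_DD_eq (f : Omega d → ℝ) :
    ip (DD f) (DD f) = 2 * ip f (DD f) +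
      4 * (∑ a : Fin n, ∑ b : Fin n, ∑ c : Fin n,
        if a ≠ b ∧ a ≠ c ∧ b ≠ c then ip (R a b f) (R a c f) else 0) +
      ∑ u : Fin n, ∑ v : Fin n, ∑ w : Fin n, ∑ x : Fin n,
        if Dist4 u v w x then ip (R u v f) (R w x f) else 0 := by
  set S := ∑ a : Fin n, ∑ b : Fin n, ∑ c : Fin n,
      if a ≠ b ∧ a ≠ c ∧ b ≠ c then ip (R a b f) (R a c f) else 0 with hS
  -- the pointwise (in u, v) expansion
  have hexp : ∀ u v : Fin n, (if u ≠ v then ip (R u v f) (DD f) else 0) =
      (if u ≠ v then ip f (R u v f) else 0) + (if u ≠ v then ip f (R u v f) else 0)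
      + (∑ c : Fin n, if u ≠ v ∧ u ≠ c ∧ v ≠ c then ip (R u v f) (R u c f) else 0)
      + (∑ c : Fin n, if u ≠ v ∧ u ≠ c ∧ v ≠ c then ip (R u v f) (R u c f) else 0)
      + (∑ c : Fin n, if v ≠ u ∧ v ≠ c ∧ u ≠ c then ip (R v u f) (R v c f) else 0)
      + (∑ c : Fin n, if v ≠ u ∧ v ≠ c ∧ u ≠ c then ip (R v u f) (R v c f) else 0)
      + ∑ w : Fin n, ∑ x : Fin n, if Dist4 u v w x then ip (R u v f) (R w x f) else 0 := by
    intro u v
    by_cases huv : u ≠ v
    · rw [if_pos huv, if_pos huv, gap_ip_DD_right,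
        gap_sum_pair_split u v huv (fun w x => ip (R u v f) (R w x f))]
      have hvu : v ≠ u := huv.symm
      congr 1
      · congr 1
        · congr 1
          · congr 1
            · congr 1
              · congr 1
                · exact gap_ip_R_self u v f
                · rw [gap_R_comm v u]; exact gap_ip_R_self u v f
              · refine Finset.sum_congr rfl fun c _ => ?_
                by_cases h : c ≠ u ∧ c ≠ v
                · rw [if_pos h, if_pos ⟨huv, h.1.symm, h.2.symm⟩]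
                · rw [if_neg h, if_neg (fun h' => h ⟨h'.2.1.symm, h'.2.2.symm⟩)]
            · refine Finset.sum_congr rfl fun c _ => ?_
              rw [gap_R_comm c u]
              by_cases h : c ≠ u ∧ c ≠ v
              · rw [if_pos h, if_pos ⟨huv, h.1.symm, h.2.symm⟩]
              · rw [if_neg h, if_neg (fun h' => h ⟨h'.2.1.symm, h'.2.2.symm⟩)]
          · refine Finset.sum_congr rfl fun c _ => ?_
            rw [gap_R_comm u v]
            by_cases h : c ≠ u ∧ c ≠ v
            · rw [if_pos h, if_pos ⟨hvu, h.2.symm, h.1.symm⟩]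
            · rw [if_neg h, if_neg (fun h' => h ⟨h'.2.2.symm, h'.2.1.symm⟩)]
        · refine Finset.sum_congr rfl fun c _ => ?_
          rw [gap_R_comm u v, gap_R_comm c v]
          by_cases h : c ≠ u ∧ c ≠ v
          · rw [if_pos h, if_pos ⟨hvu, h.2.symm, h.1.symm⟩]
          · rw [if_neg h, if_neg (fun h' => h ⟨h'.2.2.symm, h'.2.1.symm⟩)]
      · refine Finset.sum_congr rfl fun w _ => Finset.sum_congr rfl fun x _ => ?_
        by_cases h : w ≠ u ∧ w ≠ v ∧ x ≠ u ∧ x ≠ v ∧ w ≠ x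
        · rw [if_pos h, if_pos ⟨huv, h.1.symm, h.2.2.1.symm, h.2.1.symm, h.2.2.2.1.symm, h.2.2.2.2⟩]
        · rw [if_neg h, if_neg (fun h' => h ⟨h'.2.1.symm, h'.2.2.2.1.symm, h'.2.2.1.symm,
            h'.2.2.2.2.1.symm, h'.2.2.2.2.2⟩)]
    · have hD : ∀ w x, ¬ Dist4 u v w x := fun w x h => huv h.1
      have h1 : ∀ c, ¬ (u ≠ v ∧ u ≠ c ∧ v ≠ c) := fun c h => huv h.1
      have h2 : ∀ c, ¬ (v ≠ u ∧ v ≠ c ∧ u ≠ c) := fun c h => huv h.1.symm
      simp only [if_neg huv, if_neg (hD _ _), if_neg (h1 _), if_neg (h2 _), Finset.sum_const_zero,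
        add_zero]
  rw [gap_ip_DD_left]
  simp only [hexp, Finset.sum_add_distrib]
  rw [← ip_DD_eq]
  have hswap : (∑ u : Fin n, ∑ v : Fin n, ∑ c : Fin n,
      if v ≠ u ∧ v ≠ c ∧ u ≠ c then ip (R v u f) (R v c f) else 0) = S := by
    rw [hS, Finset.sum_comm]
  rw [hswap, ← hS]
  ring

theorem DD_sq_ge (f : Omega d → ℝ) : 4 * ip f (DD f) ≤ ip (DD f) (DD f) := by
  have h1 := ip_DD_DD_eq f
  have h2 := sum_adj_nonneg f
  have h3 := sum_disj_ge f
  linarith

end

end Vale.Agent.P335
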