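import Vale.Agent.P335.Gap

/-!
# P335: final assembly: the Laplacian of the switch graph has spectral gap at least 2

`DD_sq_ge`, `gap_of_sq` and `const_of_DD_eq_zero` give `<g, DD g> >= 4 |g|^2` for `g` of mean zero;
`john_ineq` (dropping `NN >= 0`) and `edge_ineq` give
`2 <g, DD g> <= sum_{Dist4} E4 <= 2 sum_G sum_G' [SwitchAdj] (g G - g G')^2`.
-/

namespace Vale.Agent.P335

open Finset

open scoped Classical

noncomputable section

variable {n : ℕ} {d : Fin n → ℕ}

theorem DD_gap (f : Omega d → ℝ) (hf : ∑ G, f G = 0) : 4 * ip f f ≤ ip f (DD f) := by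
  obtain ⟨D, hD⟩ := exists_DDL (d := d)
  have h := gap_of_sq D (fun f g => by rw [hD, hD]; exact ip_DD_symm f g)
    (fun f => by rw [hD]; exact ip_DD_nonneg f) 4 (by norm_num)
    (fun f => by rw [hD]; exact DD_sq_ge f)
    (fun f h0 x y => const_of_DD_eq_zero f (by rw [← hD]; exact h0) x y) f hf
  rw [hD] at h
  exact h

theorem DD_le_dirichlet (f : Omega d → ℝ) :
    ip f (DD f) ≤ ∑ G : Omega d, ∑ G' : Omega d,
      if SwitchAdj G.1 G'.1 then (f G - f G') ^ 2 else 0 := by
  have h1 : 2 * ip f (DD f) ≤ ∑ u : Fin n, ∑ v : Fin n, ∑ w : Fin n, ∑ x : Fin n,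
        (if Dist4 u v w x then E4 u v w x f else 0) := by
    rw [ip_DD_eq, Finset.mul_sum]
    refine Finset.sum_le_sum fun u _ => ?_
    rw [Finset.mul_sum]
    refine Finset.sum_le_sum fun v _ => ?_
    by_cases huv : u ≠ v
    · rw [if_pos huv]
      refine (john_ineq u v huv f).trans ?_
      refine Finset.sum_le_sum fun w _ => Finset.sum_le_sum fun x _ => ?_
      split_ifs
      · have := NN_nonneg u v w x f
        linarith
      · exact le_rfl
    · rw [if_neg huv, mul_zero]
      refine Finset.sum_nonneg fun w _ => Finset.sum_nonneg fun x _ => ?_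
      rw [if_neg]
      intro h
      exact huv h.1
  have h2 := edge_ineq f
  linarith

/-- GAP -/
theorem switchGap (d : Fin n → ℕ) : SwitchGap d := by
  intro f
  set m : ℝ := (∑ H, f H) / (Fintype.card (Omega d) : ℝ) with hm
  set g : Omega d → ℝ := fun G => f G - m with hg
  have hsum : ∑ G, g G = 0 := by
    simp only [hg, Finset.sum_sub_distrib, Finset.sum_const, Finset.card_univ, nsmul_eq_mul]
    by_cases hc : (Fintype.card (Omega d) : ℝ) = 0
    · have hc' : Fintype.card (Omega d) = 0 := by exact_mod_cast hc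
      have : IsEmpty (Omega d) := Fintype.card_eq_zero_iff.mp hc'
      simp
    · rw [hm]
      field_simp
      ring
  have h1 := DD_gap g hsum
  have h2 := DD_le_dirichlet g
  have h3 : ip g g = ∑ G, (f G - m) ^ 2 := by
    unfold ip
    refine Finset.sum_congr rfl fun G _ => ?_
    simp only [hg]
    ring
  have h4 : (∑ G : Omega d, ∑ G' : Omega d,
      if SwitchAdj G.1 G'.1 then (g G - g G') ^ 2 else 0) =
      ∑ G : Omega d, ∑ G' : Omega d,
      if SwitchAdj G.1 G'.1 then (f G - f G') ^ 2 else 0 := by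
    refine Finset.sum_congr rfl fun G _ => Finset.sum_congr rfl fun G' _ => ?_
    simp only [hg]
    congr 1
    ring
  rw [h4] at h2
  rw [h3] at h1
  linarith

end

end Vale.Agent.P335
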