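import Vale.Agent.P335.JSw

/-!
# P335, Johnson inequality: the operator `JK` and its kernel
-/

namespace Vale.Agent.P335

open Finset

set_option linter.unusedSectionVars false

variable {α : Type*} [DecidableEq α]

noncomputable section

/-- average over the sets that split `{w,x}` -/
def avgY (F : Finset α) (t : ℕ) (w x : α) (f : Finset α → ℝ) : ℝ :=
  (∑ A ∈ splitSets F t w x, f A) / ((splitSets F t w x).card : ℝ)

/-- the operator of the proof of the Johnson inequality (sums over ordered pairs) -/
def JK (F : Finset α) (t : ℕ) (f : Finset α → ℝ) (A : Finset α) : ℝ :=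
  (∑ w ∈ F, ∑ x ∈ F.erase w,
    (if A ∈ splitSets F t w x then (1 / 2) * avgY F t w x f + (1 / 4) * f (sw w x A) else 0)) + f A

/-- one summand of the kernel -/
def JKer1 (F : Finset α) (t : ℕ) (w x : α) (A B : Finset α) : ℝ :=
  if A ∈ splitSets F t w x then
      (1 / 2) * (if B ∈ splitSets F t w x then 1 / ((splitSets F t w x).card : ℝ) else 0) +
      (1 / 4) * (if B = sw w x A then 1 else 0) else 0

/-- the kernel of `JK` -/
def JKer (F : Finset α) (t : ℕ) (A B : Finset α) : ℝ :=
  (∑ w ∈ F, ∑ x ∈ F.erase w, JKer1 F t w x A B) + (if B = A then 1 else 0)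

lemma JKer1_symm {F : Finset α} {t : ℕ} {w x : α} (hw : w ∈ F) (hx : x ∈ F) (A B : Finset α) :
    JKer1 F t w x A B = JKer1 F t w x B A := by
  unfold JKer1
  by_cases hA : A ∈ splitSets F t w x <;> by_cases hB : B ∈ splitSets F t w x
  · simp only [hA, hB, if_true]
    have : (B = sw w x A) ↔ (A = sw w x B) := by
      constructor
      · intro h; rw [h, sw_sw]
      · intro h; rw [h, sw_sw]
    simp only [this]
  · have : B ≠ sw w x A := by
      intro h
      apply hB
      rw [h]
      exact (sw_self_mem_splitSets_iff hw hx A).2 hA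
    simp [hA, hB, this]
  · have : A ≠ sw w x B := by
      intro h
      apply hA
      rw [h]
      exact (sw_self_mem_splitSets_iff hw hx B).2 hB
    simp [hA, hB, this]
  · simp [hA, hB]

lemma JKer_symm (F : Finset α) (t : ℕ) (A B : Finset α) : JKer F t A B = JKer F t B A := by
  unfold JKer
  congr 1
  · apply Finset.sum_congr rfl
    intro w hw
    apply Finset.sum_congr rfl
    intro x hx
    exact JKer1_symm hw (Finset.mem_of_mem_erase hx) A B
  · simp only [eq_comm]

lemma sum_JKer1_mul {F : Finset α} {t : ℕ} {w x : α} (hw : w ∈ F) (hx : x ∈ F) {A : Finset α}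
    (hA : A ∈ powersetCard t F) (f : Finset α → ℝ) :
    ∑ B ∈ powersetCard t F, JKer1 F t w x A B * f B =
      if A ∈ splitSets F t w x then (1 / 2) * avgY F t w x f + (1 / 4) * f (sw w x A) else 0 := by
  unfold JKer1
  split_ifs with h
  · have h1 : ∑ B ∈ powersetCard t F,
        (if B ∈ splitSets F t w x then 1 / ((splitSets F t w x).card : ℝ) else 0) * f B =
        avgY F t w x f := by
      unfold avgY
      generalize ((splitSets F t w x).card : ℝ) = c
      rw [Finset.sum_div]
      have : splitSets F t w x = (powersetCard t F).filter (fun B => B ∈ splitSets F t w x) := by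
        ext B
        rw [mem_filter]
        constructor
        · intro hB; exact ⟨splitSets_subset F t w x hB, hB⟩
        · intro hB; exact hB.2
      conv_rhs => rw [this]
      rw [Finset.sum_filter]
      apply Finset.sum_congr rfl
      intro B _
      split_ifs
      · ring
      · ring
    have h2 : ∑ B ∈ powersetCard t F, (if B = sw w x A then (1 : ℝ) else 0) * f B =
        f (sw w x A) := by
      simp only [ite_mul, one_mul, zero_mul]
      rw [Finset.sum_ite_eq' (powersetCard t F) (sw w x A) f]
      rw [if_pos (sw_mem_powersetCard hw hx hA)]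
    rw [← h1, ← h2, Finset.mul_sum, Finset.mul_sum, ← Finset.sum_add_distrib]
    apply Finset.sum_congr rfl
    intro B _
    ring
  · simp

lemma sum_JKer_mul {F : Finset α} {t : ℕ} {A : Finset α} (hA : A ∈ powersetCard t F)
    (f : Finset α → ℝ) :
    ∑ B ∈ powersetCard t F, JKer F t A B * f B = JK F t f A := by
  unfold JKer JK
  simp only [add_mul, Finset.sum_add_distrib, Finset.sum_mul]
  congr 1
  · rw [Finset.sum_comm]
    apply Finset.sum_congr rfl
    intro w hw
    rw [Finset.sum_comm]
    apply Finset.sum_congr rfl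
    intro x hx
    exact sum_JKer1_mul hw (Finset.mem_of_mem_erase hx) hA f
  · simp only [ite_mul, one_mul, zero_mul]
    rw [Finset.sum_ite_eq' (powersetCard t F) A f, if_pos hA]

lemma avgY_one {F : Finset α} {t : ℕ} {w x : α} {A : Finset α} (hA : A ∈ splitSets F t w x) :
    avgY F t w x (fun _ => 1) = 1 := by
  unfold avgY
  rw [Finset.sum_const, nsmul_eq_mul, mul_one]
  have : (splitSets F t w x).card ≠ 0 := Finset.card_ne_zero_of_mem hA
  exact div_self (by exact_mod_cast this)

lemma JK_one {F : Finset α} {t : ℕ} {A : Finset α} (hA : A ∈ powersetCard t F) :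
    JK F t (fun _ => 1) A = (3 / 4) * (2 * (t : ℝ) * ((F.card - t : ℕ) : ℝ)) + 1 := by
  unfold JK
  rw [← count_split hA, Finset.mul_sum]
  congr 1
  apply Finset.sum_congr rfl
  intro w _
  rw [Finset.mul_sum]
  apply Finset.sum_congr rfl
  intro x _
  split_ifs with h
  · rw [avgY_one h]; norm_num
  · simp

lemma avgY_sub (F : Finset α) (t : ℕ) (w x : α) (f g : Finset α → ℝ) :
    avgY F t w x (fun B => f B - g B) = avgY F t w x f - avgY F t w x g := by
  unfold avgY
  rw [Finset.sum_sub_distrib, sub_div]

lemma JK_sub (F : Finset α) (t : ℕ) (f g : Finset α → ℝ) (A : Finset α) :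
    JK F t (fun B => f B - g B) A = JK F t f A - JK F t g A := by
  unfold JK
  rw [add_sub_add_comm, ← Finset.sum_sub_distrib]
  congr 1
  apply Finset.sum_congr rfl
  intro w _
  rw [← Finset.sum_sub_distrib]
  apply Finset.sum_congr rfl
  intro x _
  split_ifs with h
  · rw [avgY_sub]; ring
  · simp

end

end Vale.Agent.P335
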