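import Mathlib

/-!
# P335, Johnson inequality: transpositions acting on finite sets

`sw a b B` is the image of `B` under the transposition `(a b)`; `Spl w x A` says that `A` contains
exactly one of `w`, `x`.
-/

namespace Vale.Agent.P335

open Finset

set_option linter.unusedSectionVars false

variable {α : Type*} [DecidableEq α]

/-- the `t`-subsets of `F` that split `{w,x}` -/
def splitSets (F : Finset α) (t : ℕ) (w x : α) : Finset (Finset α) :=
  (powersetCard t F).filter (fun A => (w ∈ A ∧ x ∉ A) ∨ (x ∈ A ∧ w ∉ A))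

/-- image of `B` under the transposition `(a b)` -/
def sw (a b : α) (B : Finset α) : Finset α := B.map (Equiv.swap a b).toEmbedding

lemma mem_sw {a b y : α} {B : Finset α} : y ∈ sw a b B ↔ Equiv.swap a b y ∈ B := by
  unfold sw
  rw [Finset.mem_map_equiv, Equiv.symm_swap]

lemma sw_sw (a b : α) (B : Finset α) : sw a b (sw a b B) = B := by
  ext y
  rw [mem_sw, mem_sw, Equiv.swap_apply_self]

lemma sw_comm (a b : α) (B : Finset α) : sw a b B = sw b a B := by
  unfold sw
  rw [Equiv.swap_comm]

lemma sw_injective (a b : α) : Function.Injective (sw a b) :=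
  (Function.LeftInverse.injective (g := sw a b) (sw_sw a b))

lemma card_sw (a b : α) (B : Finset α) : (sw a b B).card = B.card := by
  unfold sw
  exact Finset.card_map _

lemma swap_mem {F : Finset α} {a b y : α} (ha : a ∈ F) (hb : b ∈ F) (hy : y ∈ F) :
    Equiv.swap a b y ∈ F := by
  rw [Equiv.swap_apply_def]
  split_ifs <;> assumption

lemma swap_mem_iff {F : Finset α} {a b y : α} (ha : a ∈ F) (hb : b ∈ F) :
    Equiv.swap a b y ∈ F ↔ y ∈ F := by
  constructor
  · intro h
    have := swap_mem ha hb h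
    rwa [Equiv.swap_apply_self] at this
  · exact swap_mem ha hb

lemma sw_mem_powersetCard {F : Finset α} {t : ℕ} {a b : α} (ha : a ∈ F) (hb : b ∈ F)
    {B : Finset α} (hB : B ∈ powersetCard t F) : sw a b B ∈ powersetCard t F := by
  rw [mem_powersetCard] at hB ⊢
  refine ⟨?_, by rw [card_sw]; exact hB.2⟩
  intro y hy
  rw [mem_sw] at hy
  exact (swap_mem_iff ha hb).1 (hB.1 hy)

lemma sw_mem_powersetCard_iff {F : Finset α} {t : ℕ} {a b : α} (ha : a ∈ F) (hb : b ∈ F)
    {B : Finset α} : sw a b B ∈ powersetCard t F ↔ B ∈ powersetCard t F := by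
  constructor
  · intro h
    have := sw_mem_powersetCard ha hb h
    rwa [sw_sw] at this
  · exact sw_mem_powersetCard ha hb

lemma sw_eq_insert_erase {w x : α} {A : Finset α} (hw : w ∈ A) (hx : x ∉ A) :
    sw w x A = insert x (A.erase w) := by
  ext y
  rw [mem_sw, mem_insert, mem_erase, Equiv.swap_apply_def]
  split_ifs with h1 h2
  · subst h1
    constructor
    · intro h; exact absurd h hx
    · rintro (h | h)
      · subst h; exact absurd hw hx
      · exact absurd rfl h.1
  · subst h2
    simp [hw]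
  · constructor
    · intro h; exact Or.inr ⟨h1, h⟩
    · rintro (h | h)
      · exact absurd h h2
      · exact h.2

/-- `A` contains exactly one of `w`, `x` -/
def Spl (w x : α) (A : Finset α) : Prop := (w ∈ A ∧ x ∉ A) ∨ (x ∈ A ∧ w ∉ A)

instance (w x : α) (A : Finset α) : Decidable (Spl w x A) := by
  unfold Spl; infer_instance

lemma spl_comm {w x : α} {A : Finset α} : Spl w x A ↔ Spl x w A := by
  unfold Spl; tauto

lemma Spl.ne {w x : α} {A : Finset α} (h : Spl w x A) : w ≠ x := by
  rintro rfl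
  unfold Spl at h
  tauto

lemma sw_eq_self_iff {a b : α} {B : Finset α} : sw a b B = B ↔ ¬ Spl a b B := by
  constructor
  · intro h hs
    have h1 : a ∈ sw a b B ↔ b ∈ B := by rw [mem_sw, Equiv.swap_apply_left]
    rw [h] at h1
    unfold Spl at hs
    tauto
  · intro hs
    ext y
    rw [mem_sw, Equiv.swap_apply_def]
    unfold Spl at hs
    split_ifs with h1 h2
    · subst h1; tauto
    · subst h2; tauto
    · rfl

lemma spl_sw (a b w x : α) (B : Finset α) :
    Spl (Equiv.swap a b w) (Equiv.swap a b x) (sw a b B) ↔ Spl w x B := by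
  unfold Spl
  simp only [mem_sw, Equiv.swap_apply_self]

lemma spl_sw_self (w x : α) (A : Finset α) : Spl w x (sw w x A) ↔ Spl w x A := by
  unfold Spl
  simp only [mem_sw, Equiv.swap_apply_left, Equiv.swap_apply_right]
  tauto

lemma sw_conj (a b w x : α) (A : Finset α) :
    sw (Equiv.swap a b w) (Equiv.swap a b x) (sw a b A) = sw a b (sw w x A) := by
  ext y
  simp only [mem_sw]
  have := (Equiv.swap a b).injective.swap_apply (Equiv.swap a b w) (Equiv.swap a b x) y
  simp only [Equiv.swap_apply_self] at this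
  rw [this]

/-- if `{w,x}` and `{a,a'}` share exactly one element and `B` splits both, then the image of `B`
under `(w x)` does not split `{a,a'}` -/
lemma keyS {w x a a' : α} (haa : a ≠ a')
    (h1 : w = a ∨ w = a' ∨ x = a ∨ x = a') (h2 : ¬ (w = a ∧ x = a')) (h3 : ¬ (w = a' ∧ x = a))
    {B : Finset α} (hB1 : Spl w x B) (hB2 : Spl a a' B) : ¬ Spl a a' (sw w x B) := by
  unfold Spl at *
  simp only [mem_sw]
  rcases h1 with rfl | rfl | rfl | rfl
  · have hx : x ≠ a' := fun h => h2 ⟨rfl, h⟩
    rw [Equiv.swap_apply_left, Equiv.swap_apply_of_ne_of_ne haa.symm hx.symm]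
    tauto
  · have hx : x ≠ a := fun h => h3 ⟨rfl, h⟩
    rw [Equiv.swap_apply_left, Equiv.swap_apply_of_ne_of_ne haa hx.symm]
    tauto
  · have hw : w ≠ a' := fun h => h3 ⟨h, rfl⟩
    rw [Equiv.swap_apply_right, Equiv.swap_apply_of_ne_of_ne hw.symm haa.symm]
    tauto
  · have hw : w ≠ a := fun h => h2 ⟨h, rfl⟩
    rw [Equiv.swap_apply_right, Equiv.swap_apply_of_ne_of_ne hw.symm haa]
    tauto

lemma mem_splitSets {F : Finset α} {t : ℕ} {w x : α} {A : Finset α} :
    A ∈ splitSets F t w x ↔ A ∈ powersetCard t F ∧ Spl w x A := by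
  unfold splitSets Spl
  rw [mem_filter]

lemma splitSets_subset (F : Finset α) (t : ℕ) (w x : α) :
    splitSets F t w x ⊆ powersetCard t F := Finset.filter_subset _ _

lemma splitSets_comm (F : Finset α) (t : ℕ) (w x : α) :
    splitSets F t w x = splitSets F t x w := by
  ext A
  rw [mem_splitSets, mem_splitSets, spl_comm]

lemma sw_mem_splitSets_iff {F : Finset α} {t : ℕ} {a b : α} (ha : a ∈ F) (hb : b ∈ F) (w x : α)
    (B : Finset α) :
    sw a b B ∈ splitSets F t (Equiv.swap a b w) (Equiv.swap a b x) ↔ B ∈ splitSets F t w x := by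
  rw [mem_splitSets, mem_splitSets, spl_sw, sw_mem_powersetCard_iff ha hb]

lemma sw_self_mem_splitSets_iff {F : Finset α} {t : ℕ} {w x : α} (hw : w ∈ F) (hx : x ∈ F)
    (B : Finset α) :
    sw w x B ∈ splitSets F t w x ↔ B ∈ splitSets F t w x := by
  rw [mem_splitSets, mem_splitSets, spl_sw_self, sw_mem_powersetCard_iff hw hx]

lemma splitSets_swap {F : Finset α} {t : ℕ} {a b : α} (ha : a ∈ F) (hb : b ∈ F) (w x : α) :
    splitSets F t (Equiv.swap a b w) (Equiv.swap a b x) = (splitSets F t w x).image (sw a b) := by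
  ext B
  rw [mem_image]
  constructor
  · intro h
    refine ⟨sw a b B, ?_, sw_sw a b B⟩
    rw [← sw_mem_splitSets_iff ha hb, sw_sw]
    exact h
  · rintro ⟨C, hC, rfl⟩
    exact (sw_mem_splitSets_iff ha hb w x C).2 hC

/-- the number of ordered pairs split by a `t`-subset -/
lemma count_split {F : Finset α} {t : ℕ} {A : Finset α} (hA : A ∈ powersetCard t F) :
    ∑ w ∈ F, ∑ x ∈ F.erase w, (if A ∈ splitSets F t w x then (1 : ℝ) else 0) =
      2 * (t : ℝ) * ((F.card - t : ℕ) : ℝ) := by
  have hA' := mem_powersetCard.1 hA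
  have hsd : (F \ A).card = F.card - t := by
    rw [card_sdiff_of_subset hA'.1, hA'.2]
  have inner : ∀ w ∈ F, ∑ x ∈ F.erase w, (if A ∈ splitSets F t w x then (1 : ℝ) else 0) =
      if w ∈ A then ((F.card - t : ℕ) : ℝ) else (t : ℝ) := by
    intro w hw
    rw [Finset.sum_boole]
    split_ifs with h
    · rw [← hsd]
      congr 2
      ext x
      simp only [mem_filter, mem_erase, mem_sdiff, mem_splitSets, Spl]
      constructor
      · rintro ⟨⟨_, hx⟩, _, h2⟩
        exact ⟨hx, by tauto⟩
      · rintro ⟨hx, hxA⟩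
        exact ⟨⟨by rintro rfl; exact hxA h, hx⟩, hA, Or.inl ⟨h, hxA⟩⟩
    · rw [show (t : ℝ) = ((A.card : ℕ) : ℝ) from by rw [hA'.2]]
      congr 2
      ext x
      simp only [mem_filter, mem_erase, mem_splitSets, Spl]
      constructor
      · rintro ⟨⟨_, hx⟩, _, h2⟩
        tauto
      · intro hxA
        exact ⟨⟨by rintro rfl; exact h hxA, hA'.1 hxA⟩, hA, Or.inr ⟨hxA, h⟩⟩
  rw [Finset.sum_congr rfl inner, Finset.sum_ite, Finset.sum_const, Finset.sum_const,
    Finset.filter_mem_eq_inter, Finset.filter_notMem_eq_sdiff, hsd,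
    Finset.inter_eq_right.2 hA'.1, hA'.2]
  simp only [nsmul_eq_mul]
  ring

end Vale.Agent.P335
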