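import Vale.Agent.P335.AvgIp

/-!
# P335: abstract operator lemmas (finite dimensional, inner product `ip`)
-/

namespace Vale.Agent.P335

open Finset

open scoped Classical

noncomputable section

variable {X : Type*} [Fintype X]

/-- symmetric idempotent linear map -/
structure IsProj (T : (X → ℝ) →ₗ[ℝ] (X → ℝ)) : Prop where
  symm : ∀ f g, ip (T f) g = ip f (T g)
  idem : ∀ f, T (T f) = T f

theorem isProj_avgL {K : Type*} (k : X → K) : IsProj (avgL k) :=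
  ⟨fun f g => ip_avg_left k f g, fun f => avg_idem k f⟩

/-- product of two commuting projections is positive semidefinite -/
theorem ip_proj_comm_nonneg (p q : (X → ℝ) →ₗ[ℝ] (X → ℝ)) (hp : IsProj p) (hq : IsProj q)
    (f : X → ℝ) (hc : p (q f) = q (p f)) : 0 ≤ ip (p f) (q f) := by
  have : ip (p f) (q f) = ip (q (p f)) (q (p f)) := by
    rw [hq.symm (p f), hq.idem, ← hc, ← hp.symm, hp.idem]
  rw [this]
  exact ip_self_nonneg _

/-- OP2: decomposition for two non commuting projections `Qb`, `Qc` sharing the block `eM`.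
With `a = e1 eM`, `c = e2 eM`, `B1 = a - Qb`, `B2 = c - Qc`:
`(1-Qb)(1-Qc) = (1-a)(1-c) + (1-a) B2 + B1 (1-c) + B1 B2`,
`(1-a)(1-c) - (1-eM) = eM (1-e1)(1-e2) >= 0`, and `(1-a) B2`, `B1 (1-c)` are products of commuting
projections. -/
theorem op2 (e1 e2 eM Qb Qc : (X → ℝ) →ₗ[ℝ] (X → ℝ))
    (h1 : IsProj e1) (h2 : IsProj e2) (hM : IsProj eM) (hb : IsProj Qb) (hc : IsProj Qc)
    (c12 : ∀ f, e1 (e2 f) = e2 (e1 f)) (c1M : ∀ f, e1 (eM f) = eM (e1 f))
    (c2M : ∀ f, e2 (eM f) = eM (e2 f))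
    (c1c : ∀ f, e1 (Qc f) = Qc (e1 f)) (c2b : ∀ f, e2 (Qb f) = Qb (e2 f))
    (tb1 : ∀ f, Qb (e1 f) = Qb f) (tb1' : ∀ f, e1 (Qb f) = Qb f)
    (tbM : ∀ f, Qb (eM f) = Qb f) (tbM' : ∀ f, eM (Qb f) = Qb f)
    (tc2 : ∀ f, Qc (e2 f) = Qc f) (tc2' : ∀ f, e2 (Qc f) = Qc f)
    (tcM : ∀ f, Qc (eM f) = Qc f) (tcM' : ∀ f, eM (Qc f) = Qc f)
    (f : X → ℝ) :
    ip f (f - eM f) + ip (e1 (eM f) - Qb f) (e2 (eM f) - Qc f) ≤ ip (f - Qb f) (f - Qc f) := by
  -- the projections a = e1 eM, c = e2 eM and the differences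
  set a : (X → ℝ) →ₗ[ℝ] (X → ℝ) := e1 ∘ₗ eM with ha
  set c : (X → ℝ) →ₗ[ℝ] (X → ℝ) := e2 ∘ₗ eM with hcdef
  have a_ap : ∀ g, a g = e1 (eM g) := fun g => rfl
  have c_ap : ∀ g, c g = e2 (eM g) := fun g => rfl
  have pa : IsProj a := by
    constructor
    · intro g h; rw [a_ap, a_ap, h1.symm, hM.symm, c1M]
    · intro g; rw [a_ap, a_ap, ← c1M (eM g), hM.idem, h1.idem]
  have pc : IsProj c := by
    constructor
    · intro g h; rw [c_ap, c_ap, h2.symm, hM.symm, c2M]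
    · intro g; rw [c_ap, c_ap, ← c2M (eM g), hM.idem, h2.idem]
  have Ma : ∀ g, eM (a g) = a g := fun g => by rw [a_ap, ← c1M, hM.idem]
  have aM : ∀ g, a (eM g) = a g := fun g => by rw [a_ap, a_ap, hM.idem]
  have Mc : ∀ g, eM (c g) = c g := fun g => by rw [c_ap, ← c2M, hM.idem]
  have cM : ∀ g, c (eM g) = c g := fun g => by rw [c_ap, c_ap, hM.idem]
  have ac : ∀ g, a (c g) = c (a g) := fun g => by
    rw [a_ap, c_ap, c_ap, a_ap, ← c2M (eM g), hM.idem, ← c1M (eM g), hM.idem, c12]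
  have aQb : ∀ g, a (Qb g) = Qb g := fun g => by rw [a_ap, tbM', tb1']
  have Qba : ∀ g, Qb (a g) = Qb g := fun g => by rw [a_ap, tb1, tbM]
  have cQc : ∀ g, c (Qc g) = Qc g := fun g => by rw [c_ap, tcM', tc2']
  have Qcc : ∀ g, Qc (c g) = Qc g := fun g => by rw [c_ap, tc2, tcM]
  have aQc : ∀ g, a (Qc g) = Qc (a g) := fun g => by rw [a_ap, a_ap, tcM', c1c, ← c1c (eM g), tcM, c1c]
  have cQb : ∀ g, c (Qb g) = Qb (c g) := fun g => by rw [c_ap, c_ap, tbM', c2b, ← c2b (eM g), tbM, c2b]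
  have sub_proj : ∀ p q : (X → ℝ) →ₗ[ℝ] (X → ℝ), IsProj p → IsProj q → (∀ g, p (q g) = q g) →
      (∀ g, q (p g) = q g) → IsProj (p - q) := by
    intro p q hp hq h1 h2
    constructor
    · intro g h
      simp only [LinearMap.sub_apply, ip_sub_left, ip_sub_right, hp.symm, hq.symm]
    · intro g
      simp only [LinearMap.sub_apply, map_sub, hp.idem, hq.idem, h1, h2]
      abel
  have pid : IsProj (LinearMap.id : (X → ℝ) →ₗ[ℝ] (X → ℝ)) := ⟨fun _ _ => rfl, fun _ => rfl⟩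
  have pB1 : IsProj (a - Qb) := sub_proj a Qb pa hb aQb Qba
  have pB2 : IsProj (c - Qc) := sub_proj c Qc pc hc cQc Qcc
  have pMa : IsProj (eM - a) := sub_proj eM a hM pa Ma aM
  have pMc : IsProj (eM - c) := sub_proj eM c hM pc Mc cM
  have p1a : IsProj (LinearMap.id - a) := sub_proj _ a pid pa (fun _ => rfl) (fun _ => rfl)
  have p1c : IsProj (LinearMap.id - c) := sub_proj _ c pid pc (fun _ => rfl) (fun _ => rfl)
  have t1 := ip_proj_comm_nonneg (eM - a) (eM - c) pMa pMc f (by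
    simp only [LinearMap.sub_apply, map_sub, Ma, aM, Mc, cM, ac]; abel)
  have t2 := ip_proj_comm_nonneg (LinearMap.id - a) (c - Qc) p1a pB2 f (by
    simp only [LinearMap.sub_apply, map_sub, LinearMap.id_apply, ac, aQc]; abel)
  have t3 := ip_proj_comm_nonneg (a - Qb) (LinearMap.id - c) pB1 p1c f (by
    simp only [LinearMap.sub_apply, map_sub, LinearMap.id_apply, ac, cQb]; abel)
  simp only [LinearMap.sub_apply, LinearMap.id_apply] at t1 t2 t3
  -- expand everything in terms of a few inner products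
  have s1 : ip (eM f) (eM f) = ip f (eM f) := by rw [hM.symm, hM.idem]
  have s2 : ip (eM f) (c f) = ip f (c f) := by rw [hM.symm, Mc]
  have s3 : ip (a f) (eM f) = ip (a f) f := by rw [← hM.symm, Ma]
  rw [← a_ap, ← c_ap]
  simp only [ip_sub_left, ip_sub_right] at t1 t2 t3 ⊢
  rw [s1, s2, s3] at t1
  linarith

/-- if `<g, A g> >= |g|^2` then `|A g|^2 >= <g, A g>`:
`|Ag|^2 - <g,Ag> = |Ag - g|^2 + (<g,Ag> - |g|^2)`. -/
theorem sq_ge_of_form_ge (A : (X → ℝ) →ₗ[ℝ] (X → ℝ)) (hsymm : ∀ f g, ip (A f) g = ip f (A g))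
    (g : X → ℝ) (h : ip g g ≤ ip g (A g)) : ip g (A g) ≤ ip (A g) (A g) := by
  have h0 := ip_self_nonneg (A g - g)
  simp only [ip_sub_left, ip_sub_right] at h0
  rw [ip_comm (A g) g] at h0
  linarith

end

end Vale.Agent.P335
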