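import Vale.Agent.P335.DisjVanish

/-!
# P335: the fibre of `Q (touch u v)` is a Johnson scheme

Fix `u != v` and `G0`.  `free u v G0` = vertices `y` outside `{u,v}` adjacent to exactly one of
`u`, `v`; `upSet u v G` = the free vertices adjacent to `u`.  On the fibre
`{G | keyOff (touch u v) G = keyOff (touch u v) G0}` the set `free` and the number `|upSet|` are
constant and `G -> upSet u v G` is a bijection onto the `t`-subsets of `free u v G0`.
-/

namespace Vale.Agent.P335

open Finset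

open scoped Classical

noncomputable section

variable {n : ℕ} {d : Fin n → ℕ}

/-- the free columns of the pair `{u,v}` -/
def free (u v : Fin n) (G : SimpleGraph (Fin n)) : Finset (Fin n) :=
  univ.filter (fun y => y ≠ u ∧ y ≠ v ∧ ¬ (G.Adj u y ↔ G.Adj v y))

/-- the free columns attached to `u` -/
def upSet (u v : Fin n) (G : SimpleGraph (Fin n)) : Finset (Fin n) :=
  (free u v G).filter (fun y => G.Adj u y)

/-- degree as a sum of indicators -/
theorem pf_degree_eq_sum (G : SimpleGraph (Fin n)) (i : Fin n) :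
    G.degree i = ∑ j, if G.Adj i j then 1 else 0 := by
  rw [← SimpleGraph.card_neighborFinset_eq_degree, SimpleGraph.neighborFinset_eq_filter,
    Finset.card_filter]

/-- agreement off the touching slots -/
theorem pf_adj_iff {u v : Fin n} {G G' : Omega d}
    (hk : keyOff (touch u v) G = keyOff (touch u v) G') {a b : Fin n}
    (ha : a ≠ u ∧ a ≠ v) (hb : b ≠ u ∧ b ≠ v) : G.1.Adj a b ↔ G'.1.Adj a b := by
  have hn : s(a, b) ∉ touch u v := by
    simp only [touch, Set.mem_ofPred_eq, Sym2.mem_iff, not_or]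
    exact ⟨⟨fun h => ha.1 h.symm, fun h => hb.1 h.symm⟩, ⟨fun h => ha.2 h.symm, fun h => hb.2 h.symm⟩⟩
  have h1 : s(a, b) ∈ keyOff (touch u v) G ↔ s(a, b) ∈ keyOff (touch u v) G' := by rw [hk]
  simp only [keyOff, Set.mem_sdiff, SimpleGraph.mem_edgeSet, hn, not_false_eq_true, and_true] at h1
  exact h1

/-- sum over all vertices, splitting off `u` and `v` -/
theorem pf_sum_split {u v : Fin n} (huv : u ≠ v) (F : Fin n → ℕ) :
    ∑ j, F j = F u + F v + ∑ j ∈ univ.filter (fun j => j ≠ u ∧ j ≠ v), F j := by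
  have h1 : (univ : Finset (Fin n)) = insert u (insert v (univ.filter (fun j => j ≠ u ∧ j ≠ v))) := by
    ext j
    simp only [mem_univ, mem_insert, mem_filter, true_and, true_iff]
    tauto
  conv_lhs => rw [h1]
  rw [sum_insert, sum_insert, add_assoc]
  · simp
  · simp [huv]

theorem pf_colsum {u v : Fin n} (huv : u ≠ v) {G G' : Omega d}
    (hk : keyOff (touch u v) G = keyOff (touch u v) G') {y : Fin n} (hy : y ≠ u ∧ y ≠ v) :
    (if G.1.Adj u y then 1 else 0) + (if G.1.Adj v y then 1 else 0) =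
    (if G'.1.Adj u y then 1 else 0) + (if G'.1.Adj v y then (1 : ℕ) else 0) := by
  have h1 := G.2 y
  have h2 := G'.2 y
  rw [pf_degree_eq_sum, pf_sum_split huv] at h1 h2
  have h3 : ∑ j ∈ univ.filter (fun j => j ≠ u ∧ j ≠ v), (if G.1.Adj y j then 1 else 0) =
      ∑ j ∈ univ.filter (fun j => j ≠ u ∧ j ≠ v), (if G'.1.Adj y j then 1 else 0) := by
    apply sum_congr rfl
    intro j hj
    rw [mem_filter] at hj
    simp only [pf_adj_iff hk hy hj.2]
  simp only [G.1.adj_comm y, G'.1.adj_comm y] at h1 h2 h3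
  omega

theorem pf_adj_uv {u v : Fin n} (huv : u ≠ v) {G G' : Omega d}
    (hk : keyOff (touch u v) G = keyOff (touch u v) G') : G.1.Adj u v ↔ G'.1.Adj u v := by
  have h1 := G.2 u
  have h2 := G'.2 u
  have h3 := G.2 v
  have h4 := G'.2 v
  rw [pf_degree_eq_sum, pf_sum_split huv] at h1 h2 h3 h4
  have h5 : ∑ j ∈ univ.filter (fun j => j ≠ u ∧ j ≠ v), (if G.1.Adj u j then 1 else 0) +
      ∑ j ∈ univ.filter (fun j => j ≠ u ∧ j ≠ v), (if G.1.Adj v j then 1 else 0) =
      ∑ j ∈ univ.filter (fun j => j ≠ u ∧ j ≠ v), (if G'.1.Adj u j then 1 else 0) +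
      ∑ j ∈ univ.filter (fun j => j ≠ u ∧ j ≠ v), (if G'.1.Adj v j then 1 else 0) := by
    rw [← sum_add_distrib, ← sum_add_distrib]
    apply sum_congr rfl
    intro j hj
    rw [mem_filter] at hj
    exact pf_colsum huv hk hj.2
  simp only [G.1.adj_comm v u, G'.1.adj_comm v u, SimpleGraph.irrefl, if_false] at h1 h2 h3 h4
  by_cases c1 : G.1.Adj u v <;> by_cases c2 : G'.1.Adj u v <;> simp only [c1, c2, if_true, if_false] at h1 h2 h3 h4 ⊢
  · omega
  · omega

theorem pf_bool1 (a b c e : Prop)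
    (h : (if a then 1 else 0) + (if b then 1 else 0) = (if c then 1 else 0) + (if e then (1 : ℕ) else 0)) :
    (a ↔ b) ↔ (c ↔ e) := by
  by_cases c1 : a <;> by_cases c2 : b <;> by_cases c3 : c <;> by_cases c4 : e <;> simp_all

theorem pf_bool2 (a b c e : Prop)
    (h : (if a then 1 else 0) + (if b then 1 else 0) = (if c then 1 else 0) + (if e then (1 : ℕ) else 0))
    (h' : a ↔ b) : (a ↔ c) ∧ (b ↔ e) := by
  by_cases c1 : a <;> by_cases c2 : b <;> by_cases c3 : c <;> by_cases c4 : e <;> simp_all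

theorem pf_mem_free {u v y : Fin n} {G : SimpleGraph (Fin n)} :
    y ∈ free u v G ↔ y ≠ u ∧ y ≠ v ∧ ¬ (G.Adj u y ↔ G.Adj v y) := by
  simp [free]

theorem pf_mem_upSet {u v y : Fin n} {G : SimpleGraph (Fin n)} :
    y ∈ upSet u v G ↔ y ∈ free u v G ∧ G.Adj u y := by
  simp [upSet]

theorem free_inv (u v : Fin n) (huv : u ≠ v) (G G' : Omega d)
    (hk : keyOff (touch u v) G = keyOff (touch u v) G') : free u v G.1 = free u v G'.1 := by
  ext y
  rw [pf_mem_free, pf_mem_free]
  by_cases hy : y ≠ u ∧ y ≠ v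
  · have h := pf_colsum huv hk hy
    simp only [hy.1, hy.2, ne_eq, not_false_eq_true, true_and]
    rw [pf_bool1 _ _ _ _ h]
  · constructor
    · intro h; exact absurd ⟨h.1, h.2.1⟩ hy
    · intro h; exact absurd ⟨h.1, h.2.1⟩ hy

/-- non free columns are frozen -/
theorem adj_inv_of_not_free (u v : Fin n) (huv : u ≠ v) (G G' : Omega d)
    (hk : keyOff (touch u v) G = keyOff (touch u v) G') (y : Fin n) (hy : y ∉ free u v G.1) :
    (G.1.Adj u y ↔ G'.1.Adj u y) ∧ (G.1.Adj v y ↔ G'.1.Adj v y) := by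
  by_cases hyu : y = u
  · subst hyu
    refine ⟨by simp, ?_⟩
    rw [G.1.adj_comm, G'.1.adj_comm]
    exact pf_adj_uv huv hk
  by_cases hyv : y = v
  · subst hyv
    exact ⟨pf_adj_uv huv hk, by simp⟩
  have h := pf_colsum huv hk ⟨hyu, hyv⟩
  rw [pf_mem_free] at hy
  have hy' : G.1.Adj u y ↔ G.1.Adj v y := by
    by_contra hc
    exact hy ⟨hyu, hyv, hc⟩
  exact pf_bool2 _ _ _ _ h hy'

theorem pf_card_upSet (u v : Fin n) (G : SimpleGraph (Fin n)) :
    (upSet u v G).card = ∑ j ∈ free u v G, if G.Adj u j then 1 else 0 := by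
  rw [upSet, card_filter]

theorem pf_filter_free (u v : Fin n) (G : SimpleGraph (Fin n)) :
    (univ.filter (fun j => j ≠ u ∧ j ≠ v)).filter (fun j => j ∈ free u v G) = free u v G := by
  ext j
  simp only [mem_filter, mem_univ, true_and, pf_mem_free]
  tauto

theorem card_upSet_inv (u v : Fin n) (huv : u ≠ v) (G G' : Omega d)
    (hk : keyOff (touch u v) G = keyOff (touch u v) G') :
    (upSet u v G.1).card = (upSet u v G'.1).card := by
  have h1 := G.2 u
  have h2 := G'.2 u
  rw [pf_degree_eq_sum, pf_sum_split huv,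
    ← sum_filter_add_sum_filter_not _ (fun j => j ∈ free u v G.1), pf_filter_free,
    ← pf_card_upSet] at h1
  rw [pf_degree_eq_sum, pf_sum_split huv,
    ← sum_filter_add_sum_filter_not _ (fun j => j ∈ free u v G'.1), pf_filter_free,
    ← pf_card_upSet, ← free_inv u v huv G G' hk] at h2
  have h3 : ∑ j ∈ (univ.filter (fun j => j ≠ u ∧ j ≠ v)).filter (fun j => j ∉ free u v G.1),
      (if G.1.Adj u j then 1 else 0) =
      ∑ j ∈ (univ.filter (fun j => j ≠ u ∧ j ≠ v)).filter (fun j => j ∉ free u v G.1),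
      (if G'.1.Adj u j then 1 else 0) := by
    apply sum_congr rfl
    intro j hj
    rw [mem_filter] at hj
    simp only [(adj_inv_of_not_free u v huv G G' hk j hj.2).1]
  have h4 := pf_adj_uv huv hk
  simp only [h4, SimpleGraph.irrefl, if_false] at h1 h2
  omega

theorem upSet_injOn (u v : Fin n) (huv : u ≠ v) (G G' : Omega d)
    (hk : keyOff (touch u v) G = keyOff (touch u v) G') (hA : upSet u v G.1 = upSet u v G'.1) :
    G = G' := by
  have hfree := free_inv u v huv G G' hk
  -- adjacency from u and v agrees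
  have key : ∀ y, (G.1.Adj u y ↔ G'.1.Adj u y) ∧ (G.1.Adj v y ↔ G'.1.Adj v y) := by
    intro y
    by_cases hy : y ∈ free u v G.1
    · have hy' : y ∈ free u v G'.1 := hfree ▸ hy
      have e1 : G.1.Adj u y ↔ G'.1.Adj u y := by
        have a1 : y ∈ upSet u v G.1 ↔ y ∈ upSet u v G'.1 := by rw [hA]
        rw [pf_mem_upSet, pf_mem_upSet] at a1
        simpa [hy, hy'] using a1
      refine ⟨e1, ?_⟩
      have f1 := (pf_mem_free.1 hy).2.2
      have f2 := (pf_mem_free.1 hy').2.2
      tauto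
    · exact adj_inv_of_not_free u v huv G G' hk y hy
  apply Subtype.ext
  ext a b
  by_cases ha : a = u
  · subst ha; exact (key b).1
  by_cases ha' : a = v
  · subst ha'; exact (key b).2
  by_cases hb : b = u
  · subst hb; rw [G.1.adj_comm, G'.1.adj_comm]; exact (key a).1
  by_cases hb' : b = v
  · subst hb'; rw [G.1.adj_comm, G'.1.adj_comm]; exact (key a).2
  exact pf_adj_iff hk ⟨ha, ha'⟩ ⟨hb, hb'⟩

/-- the graph obtained from `G0` by attaching the free columns in `A` to `u` and the other free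
columns to `v` -/
def pfGraph (u v : Fin n) (G0 : SimpleGraph (Fin n)) (A : Finset (Fin n)) :
    SimpleGraph (Fin n) where
  Adj a b := (a = u ∧ b ∈ A ∧ b ∈ free u v G0) ∨ (b = u ∧ a ∈ A ∧ a ∈ free u v G0) ∨
    (a = v ∧ b ∉ A ∧ b ∈ free u v G0) ∨ (b = v ∧ a ∉ A ∧ a ∈ free u v G0) ∨
    (G0.Adj a b ∧ ¬ ((a = u ∨ a = v) ∧ b ∈ free u v G0) ∧ ¬ ((b = u ∨ b = v) ∧ a ∈ free u v G0))
  symm := ⟨by
    intro a b h
    rcases h with h | h | h | h | h
    · exact Or.inr (Or.inl h)
    · exact Or.inl h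
    · exact Or.inr (Or.inr (Or.inr (Or.inl h)))
    · exact Or.inr (Or.inr (Or.inl h))
    · exact Or.inr (Or.inr (Or.inr (Or.inr ⟨h.1.symm, h.2.2, h.2.1⟩)))⟩
  loopless := ⟨by
    intro a h
    have hu : u ∉ free u v G0 := fun h => (pf_mem_free.1 h).1 rfl
    have hv : v ∉ free u v G0 := fun h => (pf_mem_free.1 h).2.1 rfl
    rcases h with h | h | h | h | h
    · exact hu (h.1 ▸ h.2.2)
    · exact hu (h.1 ▸ h.2.2)
    · exact hv (h.1 ▸ h.2.2)
    · exact hv (h.1 ▸ h.2.2)
    · exact G0.irrefl h.1⟩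

theorem pfGraph_adj (u v : Fin n) (G0 : SimpleGraph (Fin n)) (A : Finset (Fin n)) (a b : Fin n) :
    (pfGraph u v G0 A).Adj a b ↔
    ((a = u ∧ b ∈ A ∧ b ∈ free u v G0) ∨ (b = u ∧ a ∈ A ∧ a ∈ free u v G0) ∨
    (a = v ∧ b ∉ A ∧ b ∈ free u v G0) ∨ (b = v ∧ a ∉ A ∧ a ∈ free u v G0) ∨
    (G0.Adj a b ∧ ¬ ((a = u ∨ a = v) ∧ b ∈ free u v G0) ∧
      ¬ ((b = u ∨ b = v) ∧ a ∈ free u v G0))) := Iff.rfl

theorem pf_not_mem_u (u v : Fin n) (G0 : SimpleGraph (Fin n)) : u ∉ free u v G0 :=
  fun h => (pf_mem_free.1 h).1 rfl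

theorem pf_not_mem_v (u v : Fin n) (G0 : SimpleGraph (Fin n)) : v ∉ free u v G0 :=
  fun h => (pf_mem_free.1 h).2.1 rfl

theorem pfGraph_u_free {u v : Fin n} (huv : u ≠ v) (G0 : SimpleGraph (Fin n)) (A : Finset (Fin n))
    {y : Fin n} (hy : y ∈ free u v G0) : (pfGraph u v G0 A).Adj u y ↔ y ∈ A := by
  have h1 := (pf_mem_free.1 hy).1
  have h2 := (pf_mem_free.1 hy).2.1
  rw [pfGraph_adj]
  constructor
  · rintro (h | h | h | h | h)
    · exact h.2.1
    · exact absurd h.1 h1
    · exact absurd h.1 huv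
    · exact absurd h.1 h2
    · exact absurd ⟨Or.inl rfl, hy⟩ h.2.1
  · intro h
    exact Or.inl ⟨rfl, h, hy⟩

theorem pfGraph_v_free {u v : Fin n} (huv : u ≠ v) (G0 : SimpleGraph (Fin n)) (A : Finset (Fin n))
    {y : Fin n} (hy : y ∈ free u v G0) : (pfGraph u v G0 A).Adj v y ↔ y ∉ A := by
  have h1 := (pf_mem_free.1 hy).1
  have h2 := (pf_mem_free.1 hy).2.1
  rw [pfGraph_adj]
  constructor
  · rintro (h | h | h | h | h)
    · exact absurd h.1.symm huv
    · exact absurd h.1 h1
    · exact h.2.1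
    · exact absurd h.1 h2
    · exact absurd ⟨Or.inr rfl, hy⟩ h.2.1
  · intro h
    exact Or.inr (Or.inr (Or.inl ⟨rfl, h, hy⟩))

theorem pfGraph_not_free {u v : Fin n} (G0 : SimpleGraph (Fin n)) (A : Finset (Fin n))
    {a y : Fin n} (ha : a ∉ free u v G0) (hy : y ∉ free u v G0) :
    (pfGraph u v G0 A).Adj a y ↔ G0.Adj a y := by
  rw [pfGraph_adj]
  constructor
  · rintro (h | h | h | h | h)
    · exact absurd h.2.2 hy
    · exact absurd h.2.2 ha
    · exact absurd h.2.2 hy
    · exact absurd h.2.2 ha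
    · exact h.1
  · intro h
    exact Or.inr (Or.inr (Or.inr (Or.inr ⟨h, fun h' => hy h'.2, fun h' => ha h'.2⟩)))

theorem pfGraph_off {u v : Fin n} (G0 : SimpleGraph (Fin n)) (A : Finset (Fin n))
    {a b : Fin n} (ha : a ≠ u ∧ a ≠ v) (hb : b ≠ u ∧ b ≠ v) :
    (pfGraph u v G0 A).Adj a b ↔ G0.Adj a b := by
  rw [pfGraph_adj]
  constructor
  · rintro (h | h | h | h | h)
    · exact absurd h.1 ha.1
    · exact absurd h.1 hb.1
    · exact absurd h.1 ha.2
    · exact absurd h.1 hb.2
    · exact h.1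
  · intro h
    refine Or.inr (Or.inr (Or.inr (Or.inr ⟨h, fun h' => ?_, fun h' => ?_⟩)))
    · rcases h'.1 with h'' | h''
      · exact ha.1 h''
      · exact ha.2 h''
    · rcases h'.1 with h'' | h''
      · exact hb.1 h''
      · exact hb.2 h''

theorem pf_sum_free_split (F : Finset (Fin n)) (g : Fin n → ℕ) :
    ∑ j, g j = ∑ j ∈ F, g j + ∑ j ∈ univ.filter (fun j => j ∉ F), g j := by
  rw [← sum_filter_add_sum_filter_not univ (fun j => j ∈ F)]
  congr 2
  ext j
  simp

theorem pfGraph_degree {u v : Fin n} (huv : u ≠ v) (G0 : SimpleGraph (Fin n)) (A : Finset (Fin n))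
    (hA : A ⊆ free u v G0) (hc : A.card = (upSet u v G0).card) (i : Fin n) :
    (pfGraph u v G0 A).degree i = G0.degree i := by
  rw [pf_degree_eq_sum, pf_degree_eq_sum]
  have hAc : ∑ j ∈ free u v G0, (if j ∈ A then 1 else 0) = A.card := by
    rw [← card_filter]
    congr 1
    ext j
    simp only [mem_filter]
    exact ⟨fun h => h.2, fun h => ⟨hA h, h⟩⟩
  by_cases hiu : i = u
  · subst hiu
    rw [pf_sum_free_split (free i v G0), pf_sum_free_split (free i v G0) (fun j => if G0.Adj i j then 1 else 0)]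
    congr 1
    · rw [← pf_card_upSet, ← hc, ← hAc]
      apply sum_congr rfl
      intro j hj
      simp only [pfGraph_u_free huv G0 A hj]
    · apply sum_congr rfl
      intro j hj
      rw [mem_filter] at hj
      simp only [pfGraph_not_free G0 A (pf_not_mem_u i v G0) hj.2]
  by_cases hiv : i = v
  · subst hiv
    rw [pf_sum_free_split (free u i G0), pf_sum_free_split (free u i G0) (fun j => if G0.Adj i j then 1 else 0)]
    congr 1
    · have e1 : ∑ j ∈ free u i G0, (if (pfGraph u i G0 A).Adj i j then 1 else 0) + A.card =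
          (free u i G0).card := by
        rw [← hAc, ← sum_add_distrib, card_eq_sum_ones]
        apply sum_congr rfl
        intro j hj
        simp only [pfGraph_v_free huv G0 A hj]
        by_cases c : j ∈ A <;> simp [c]
      have e2 : ∑ j ∈ free u i G0, (if G0.Adj i j then 1 else 0) + (upSet u i G0).card =
          (free u i G0).card := by
        rw [pf_card_upSet, ← sum_add_distrib, card_eq_sum_ones]
        apply sum_congr rfl
        intro j hj
        have := (pf_mem_free.1 hj).2.2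
        by_cases c1 : G0.Adj u j <;> by_cases c2 : G0.Adj i j <;> simp_all
      omega
    · apply sum_congr rfl
      intro j hj
      rw [mem_filter] at hj
      simp only [pfGraph_not_free G0 A (pf_not_mem_v u i G0) hj.2]
  rw [pf_sum_split huv, pf_sum_split huv (fun j => if G0.Adj i j then 1 else 0)]
  congr 1
  · by_cases hi : i ∈ free u v G0
    · rw [(pfGraph u v G0 A).adj_comm i u, (pfGraph u v G0 A).adj_comm i v, G0.adj_comm i u,
        G0.adj_comm i v]
      simp only [pfGraph_u_free huv G0 A hi, pfGraph_v_free huv G0 A hi]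
      have := (pf_mem_free.1 hi).2.2
      by_cases c : i ∈ A <;> by_cases c1 : G0.Adj u i <;> by_cases c2 : G0.Adj v i <;> simp_all
    · simp only [pfGraph_not_free G0 A hi (pf_not_mem_u u v G0),
        pfGraph_not_free G0 A hi (pf_not_mem_v u v G0)]
  · apply sum_congr rfl
    intro j hj
    rw [mem_filter] at hj
    simp only [pfGraph_off G0 A ⟨hiu, hiv⟩ hj.2]

theorem upSet_surj (u v : Fin n) (huv : u ≠ v) (G0 : Omega d) (A : Finset (Fin n))
    (hA : A ∈ powersetCard (upSet u v G0.1).card (free u v G0.1)) :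
    ∃ G : Omega d, keyOff (touch u v) G = keyOff (touch u v) G0 ∧ upSet u v G.1 = A := by
  rw [mem_powersetCard] at hA
  let G : Omega d := ⟨pfGraph u v G0.1 A, fun i => by
    rw [pfGraph_degree huv G0.1 A hA.1 hA.2 i]; exact G0.2 i⟩
  have hk : keyOff (touch u v) G = keyOff (touch u v) G0 := by
    ext e
    induction e using Sym2.inductionOn with
    | hf a b =>
      simp only [keyOff, Set.mem_sdiff, SimpleGraph.mem_edgeSet, touch, Set.mem_ofPred_eq,
        Sym2.mem_iff, not_or]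
      constructor
      · rintro ⟨h1, ⟨h2, h3⟩, h4, h5⟩
        exact ⟨(pfGraph_off G0.1 A ⟨fun h => h2 h.symm, fun h => h4 h.symm⟩
          ⟨fun h => h3 h.symm, fun h => h5 h.symm⟩).1 h1, ⟨h2, h3⟩, h4, h5⟩
      · rintro ⟨h1, ⟨h2, h3⟩, h4, h5⟩
        exact ⟨(pfGraph_off G0.1 A ⟨fun h => h2 h.symm, fun h => h4 h.symm⟩
          ⟨fun h => h3 h.symm, fun h => h5 h.symm⟩).2 h1, ⟨h2, h3⟩, h4, h5⟩
  refine ⟨G, hk, ?_⟩
  have hfree := free_inv u v huv G G0 hk
  ext y
  rw [pf_mem_upSet, hfree]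
  constructor
  · rintro ⟨h1, h2⟩
    exact (pfGraph_u_free huv G0.1 A h1).1 h2
  · intro h
    exact ⟨hA.1 h, (pfGraph_u_free huv G0.1 A (hA.1 h)).2 h⟩

/-- sums over a fibre are sums over `t`-subsets of the free set -/
theorem sum_fibre_eq (u v : Fin n) (huv : u ≠ v) (G0 : Omega d) (F : Finset (Fin n) → ℝ) :
    ∑ G ∈ univ.filter (fun G : Omega d => keyOff (touch u v) G = keyOff (touch u v) G0),
        F (upSet u v G.1) =
      ∑ A ∈ powersetCard (upSet u v G0.1).card (free u v G0.1), F A := by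
  apply sum_bij (fun (G : Omega d) _ => upSet u v G.1)
  · intro G hG
    rw [mem_filter] at hG
    rw [mem_powersetCard]
    refine ⟨?_, card_upSet_inv u v huv G G0 hG.2⟩
    rw [← free_inv u v huv G G0 hG.2]
    exact filter_subset _ _
  · intro G hG G' hG' h
    rw [mem_filter] at hG hG'
    exact upSet_injOn u v huv G G' (hG.2.trans hG'.2.symm) h
  · intro A hA
    obtain ⟨G, hk, hG⟩ := upSet_surj u v huv G0 A hA
    exact ⟨G, by simp [hk], hG⟩
  · intro G _
    rfl

end

end Vale.Agent.P335
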