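import Vale.Agent.P335.PairFibre

/-!
# P335: Y-states inside the fibre of `Q (touch u v)`
-/

namespace Vale.Agent.P335

open Finset

open scoped Classical

noncomputable section

variable {n : ℕ} {d : Fin n → ℕ}

theorem mem_free_iff (u v y : Fin n) (G : SimpleGraph (Fin n)) :
    y ∈ free u v G ↔ y ≠ u ∧ y ≠ v ∧ ¬ (G.Adj u y ↔ G.Adj v y) := by
  simp [free]

theorem mem_upSet_iff (u v y : Fin n) (G : SimpleGraph (Fin n)) :
    y ∈ upSet u v G ↔ y ≠ u ∧ y ≠ v ∧ G.Adj u y ∧ ¬ G.Adj v y := by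
  simp only [upSet, mem_filter, mem_free_iff]
  by_cases h1 : G.Adj u y <;> by_cases h2 : G.Adj v y <;> simp [h1, h2]

/-- Y-states in terms of `upSet` -/
theorem Ystate_iff_split (u v w x : Fin n) (h : Dist4 u v w x) (G : SimpleGraph (Fin n)) :
    Ystate u v w x G ↔ w ∈ free u v G ∧ x ∈ free u v G ∧
      ((w ∈ upSet u v G ∧ x ∉ upSet u v G) ∨ (x ∈ upSet u v G ∧ w ∉ upSet u v G)) := by
  obtain ⟨huv, huw, hux, hvw, hvx, hwx⟩ := h
  simp only [Ystate, mem_free_iff, mem_upSet_iff]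
  have a1 : w ≠ u := huw.symm
  have a2 : w ≠ v := hvw.symm
  have a3 : x ≠ u := hux.symm
  have a4 : x ≠ v := hvx.symm
  by_cases h1 : G.Adj u w <;> by_cases h2 : G.Adj v w <;> by_cases h3 : G.Adj u x <;>
    by_cases h4 : G.Adj v x <;> simp [h1, h2, h3, h4, a1, a2, a3, a4]

/-- the switched graph -/
theorem partner_core (u v w x : Fin n) (h : Dist4 u v w x) (G : Omega d)
    (h1 : G.1.Adj u w) (h2 : G.1.Adj v x) (h3 : ¬ G.1.Adj u x) (h4 : ¬ G.1.Adj v w) :
    ∃ G' : Omega d, G'.1.edgeSet = (G.1.edgeSet \ {s(u, w), s(v, x)}) ∪ {s(u, x), s(v, w)} := by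
  obtain ⟨huv, huw, hux, hvw, hvx, hwx⟩ := h
  have hF : IsPM {u, w, x, v} {s(u, w), s(x, v)} :=
    isPM_pair huw hux huv hwx hvw.symm hvx.symm
  have hF' : IsPM {u, w, x, v} {s(u, x), s(w, v)} :=
    (isPM_four_iff huw hux huv hwx hvw.symm hvx.symm _).2 (Or.inr (Or.inl rfl))
  obtain ⟨H, hE⟩ : ∃ H : SimpleGraph (Fin n), H.edgeSet =
      (G.1.edgeSet \ (({s(u, w), s(x, v)} : Finset (Sym2 (Fin n))) : Set (Sym2 (Fin n)))) ∪
      (({s(u, x), s(w, v)} : Finset (Sym2 (Fin n))) : Set (Sym2 (Fin n))) :=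
    ⟨_, edgeSet_fromEdgeSet_switch G.1 (F := {s(u, w), s(x, v)}) hF'⟩
  have hdeg : ∀ i, H.degree i = d i := by
    intro i
    rw [← G.2 i]
    refine degree_of_edgeSet_eq hF hF' ?_ ?_ hE i
    · intro e he
      simp only [mem_insert, mem_singleton] at he
      rcases he with rfl | rfl
      · exact h1
      · exact h2.symm
    · intro e he
      simp only [mem_insert, mem_singleton] at he
      rcases he with rfl | rfl
      · exact h3
      · exact fun hh => h4 (SimpleGraph.Adj.symm hh)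
  refine ⟨⟨H, hdeg⟩, ?_⟩
  show H.edgeSet = _
  rw [hE]
  simp [Sym2.eq_swap (a := x) (b := v), Sym2.eq_swap (a := w) (b := v)]


theorem eq_of_keyOff_Ms_of_adj (u v w x : Fin n) (G H : Omega d)
    (hk : keyOff (Ms u v w x) H = keyOff (Ms u v w x) G)
    (h1 : H.1.Adj u w ↔ G.1.Adj u w) (h2 : H.1.Adj u x ↔ G.1.Adj u x)
    (h3 : H.1.Adj v w ↔ G.1.Adj v w) (h4 : H.1.Adj v x ↔ G.1.Adj v x) : H = G := by
  apply Subtype.ext
  rw [← SimpleGraph.edgeSet_inj]
  ext e
  by_cases he : e ∈ Ms u v w x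
  · simp only [Ms, Set.mem_insert_iff, Set.mem_singleton_iff] at he
    rcases he with rfl | rfl | rfl | rfl
    · exact h1
    · exact h2
    · exact h3
    · exact h4
  · exact (keyOff_eq_iff _ H G).1 hk e he

theorem Ms_swap_right (u v w x : Fin n) : Ms u v x w = Ms u v w x := by
  ext e
  simp only [Ms, Set.mem_insert_iff, Set.mem_singleton_iff]
  tauto

theorem Dist4.swap_right {u v w x : Fin n} (h : Dist4 u v w x) : Dist4 u v x w := by
  obtain ⟨huv, huw, hux, hvw, hvx, hwx⟩ := h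
  exact ⟨huv, hux, huw, hvx, hvw, hwx.symm⟩

/-- row and column sums of the block are invariant under resampling the block -/
theorem block_sums (u v w x : Fin n) (h : Dist4 u v w x) (G H : Omega d)
    (hk : keyOff (Ms u v w x) H = keyOff (Ms u v w x) G) :
    ((if H.1.Adj u w then 1 else 0) + (if H.1.Adj v w then 1 else 0) =
      (if G.1.Adj u w then 1 else 0) + (if G.1.Adj v w then (1 : ℕ) else 0)) ∧
    ((if H.1.Adj u x then 1 else 0) + (if H.1.Adj v x then 1 else 0) =
      (if G.1.Adj u x then 1 else 0) + (if G.1.Adj v x then (1 : ℕ) else 0)) ∧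
    ((if H.1.Adj u w then 1 else 0) + (if H.1.Adj u x then 1 else 0) =
      (if G.1.Adj u w then 1 else 0) + (if G.1.Adj u x then (1 : ℕ) else 0)) ∧
    ((if H.1.Adj v w then 1 else 0) + (if H.1.Adj v x then 1 else 0) =
      (if G.1.Adj v w then 1 else 0) + (if G.1.Adj v x then (1 : ℕ) else 0)) := by
  obtain ⟨huv, huw, hux, hvw, hvx, hwx⟩ := h
  have k1 : keyOff (touch u v) H = keyOff (touch u v) G :=
    keyOff_mono (Ms_subset_touch u v w x) hk
  have k2 : keyOff (touch w x) H = keyOff (touch w x) G := by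
    refine keyOff_mono (Ms_subset_touch w x u v) ?_
    rw [Ms_swap]; exact hk
  refine ⟨colsum_inv u v w huw hvw huv H G k1, colsum_inv u v x hux hvx huv H G k1, ?_, ?_⟩
  · have := colsum_inv w x u huw.symm hux.symm hwx H G k2
    simpa only [SimpleGraph.adj_comm] using this
  · have := colsum_inv w x v hvw.symm hvx.symm hwx H G k2
    simpa only [SimpleGraph.adj_comm] using this

/-- the partner of a Y-state of the first type -/
theorem partner_type1 (u v w x : Fin n) (h : Dist4 u v w x) (G : Omega d)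
    (h1 : G.1.Adj u w) (h2 : G.1.Adj v x) (h3 : ¬ G.1.Adj u x) (h4 : ¬ G.1.Adj v w) :
    ∃ G' : Omega d, keyOff (Ms u v w x) G' = keyOff (Ms u v w x) G ∧ G' ≠ G ∧
      (∀ H : Omega d, keyOff (Ms u v w x) H = keyOff (Ms u v w x) G → H = G ∨ H = G') ∧
      ¬ G'.1.Adj u w ∧ ¬ G'.1.Adj v x ∧ G'.1.Adj u x ∧ G'.1.Adj v w := by
  obtain ⟨G', hE⟩ := partner_core u v w x h G h1 h2 h3 h4
  have hadj : ∀ a b : Fin n, G'.1.Adj a b ↔
      (G.1.Adj a b ∧ ¬ (s(a, b) = s(u, w) ∨ s(a, b) = s(v, x))) ∨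
        (s(a, b) = s(u, x) ∨ s(a, b) = s(v, w)) := by
    intro a b
    rw [← SimpleGraph.mem_edgeSet, hE]
    simp only [Set.mem_union, Set.mem_sdiff, Set.mem_insert_iff, Set.mem_singleton_iff,
      SimpleGraph.mem_edgeSet]
  have hk : keyOff (Ms u v w x) G' = keyOff (Ms u v w x) G := by
    rw [keyOff_eq_iff]
    intro e he
    simp only [Ms, Set.mem_insert_iff, Set.mem_singleton_iff, not_or] at he
    rw [hE]
    simp only [Set.mem_union, Set.mem_sdiff, Set.mem_insert_iff, Set.mem_singleton_iff]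
    tauto
  obtain ⟨huv, huw, hux, hvw, hvx, hwx⟩ := id h
  have a1 : ¬ G'.1.Adj u w := by
    rw [hadj]
    simp only [Sym2.eq_iff]
    tauto
  have a2 : ¬ G'.1.Adj v x := by
    rw [hadj]
    simp only [Sym2.eq_iff]
    tauto
  have a3 : G'.1.Adj u x := by
    rw [hadj]; right; left; rfl
  have a4 : G'.1.Adj v w := by
    rw [hadj]; right; right; rfl
  refine ⟨G', hk, ?_, ?_, a1, a2, a3, a4⟩
  · rintro rfl
    exact a1 h1
  · intro H hH
    obtain ⟨s1, s2, s3, s4⟩ := block_sums u v w x h G H hH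
    simp only [h1, h2, h3, h4, if_true, if_false] at s1 s2 s3 s4
    by_cases b1 : H.1.Adj u w
    · left
      by_cases b2 : H.1.Adj u x <;> by_cases b3 : H.1.Adj v w <;> by_cases b4 : H.1.Adj v x <;>
        simp only [b1, b2, b3, b4, if_true, if_false] at s1 s2 s3 s4 <;> try omega
      exact eq_of_keyOff_Ms_of_adj u v w x G H hH (by simp [b1, h1]) (by simp [b2, h3])
        (by simp [b3, h4]) (by simp [b4, h2])
    · right
      by_cases b2 : H.1.Adj u x <;> by_cases b3 : H.1.Adj v w <;> by_cases b4 : H.1.Adj v x <;>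
        simp only [b1, b2, b3, b4, if_true, if_false] at s1 s2 s3 s4 <;> try omega
      exact eq_of_keyOff_Ms_of_adj u v w x G' H (hH.trans hk.symm) (by simp [b1, a1])
        (by simp [b2, a3]) (by simp [b3, a4]) (by simp [b4, a2])

/-- the partner of an arbitrary Y-state -/
theorem partner_Ystate (u v w x : Fin n) (h : Dist4 u v w x) (G : Omega d)
    (hY : Ystate u v w x G.1) :
    ∃ G' : Omega d, keyOff (Ms u v w x) G' = keyOff (Ms u v w x) G ∧ G' ≠ G ∧
      (∀ H : Omega d, keyOff (Ms u v w x) H = keyOff (Ms u v w x) G → H = G ∨ H = G') ∧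
      Ystate u v w x G'.1 ∧ (G'.1.Adj u w ↔ ¬ G.1.Adj u w) := by
  rcases hY with ⟨h1, h2, h3, h4⟩ | ⟨h1, h2, h3, h4⟩
  · obtain ⟨G', hk, hne, hcl, a1, a2, a3, a4⟩ := partner_type1 u v w x h G h1 h2 h3 h4
    exact ⟨G', hk, hne, hcl, Or.inr ⟨a3, a4, a1, a2⟩, by simp [a1, h1]⟩
  · obtain ⟨G', hk, hne, hcl, a1, a2, a3, a4⟩ := partner_type1 u v x w h.swap_right G h1 h2 h3 h4
    rw [Ms_swap_right] at hk hcl
    exact ⟨G', hk, hne, hcl, Or.inl ⟨a3, a4, a1, a2⟩, by simp [a3, h3]⟩

/-- the switch partner of a Y-state: same fibre of `touch u v`, `upSet` changed by exchanging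
`w` and `x`; and the fibre of `Q Ms` through `G` is `{G, G'}`. -/
theorem exists_partner (u v w x : Fin n) (h : Dist4 u v w x) (G : Omega d)
    (hw : w ∈ upSet u v G.1) (hx : x ∈ free u v G.1) (hx' : x ∉ upSet u v G.1) :
    ∃ G' : Omega d, keyOff (Ms u v w x) G' = keyOff (Ms u v w x) G ∧ G' ≠ G ∧
      upSet u v G'.1 = insert x ((upSet u v G.1).erase w) ∧
      ∀ H : Omega d, keyOff (Ms u v w x) H = keyOff (Ms u v w x) G → H = G ∨ H = G' := by
  rw [mem_upSet_iff] at hw hx'
  rw [mem_free_iff] at hx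
  obtain ⟨-, -, h1, h4⟩ := hw
  obtain ⟨x1, x2, hx3⟩ := hx
  have h3 : ¬ G.1.Adj u x := by
    intro hh
    apply hx'
    refine ⟨x1, x2, hh, ?_⟩
    intro hh2
    exact hx3 ⟨fun _ => hh2, fun _ => hh⟩
  have h2 : G.1.Adj v x := by
    by_contra hh
    exact hx3 ⟨fun a => absurd a h3, fun a => absurd a hh⟩
  obtain ⟨G', hk, hne, hcl, a1, a2, a3, a4⟩ := partner_type1 u v w x h G h1 h2 h3 h4
  refine ⟨G', hk, hne, ?_, hcl⟩
  obtain ⟨huv, huw, hux, hvw, hvx, hwx⟩ := h
  ext y
  simp only [mem_insert, mem_erase, mem_upSet_iff]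
  by_cases hyw : y = w
  · subst hyw
    simp [a1, hwx]
  by_cases hyx : y = x
  · subst hyx
    simp [a2, a3, x1, x2]
  have e1 : G'.1.Adj u y ↔ G.1.Adj u y := by
    refine adj_iff_of_keyOff_eq hk ?_
    simp only [Ms, Set.mem_insert_iff, Set.mem_singleton_iff, Sym2.eq_iff, not_or]
    tauto
  have e2 : G'.1.Adj v y ↔ G.1.Adj v y := by
    refine adj_iff_of_keyOff_eq hk ?_
    simp only [Ms, Set.mem_insert_iff, Set.mem_singleton_iff, Sym2.eq_iff, not_or]
    tauto
  simp [e1, e2, hyw, hyx]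


theorem card_cls_Ms_of_Ystate (u v w x : Fin n) (h : Dist4 u v w x) (G : Omega d)
    (hY : Ystate u v w x G.1) : (cls (keyOff (d := d) (Ms u v w x)) G).card = 2 := by
  obtain ⟨G', hk, hne, hcl, -, -⟩ := partner_Ystate u v w x h G hY
  have : cls (keyOff (d := d) (Ms u v w x)) G = {G, G'} := by
    ext H
    simp only [mem_cls, mem_insert, mem_singleton]
    constructor
    · exact hcl H
    · rintro (rfl | rfl)
      · rfl
      · exact hk
  rw [this, card_pair hne.symm]

theorem Ystate_of_keyOff_Ms (u v w x : Fin n) (h : Dist4 u v w x) (G H : Omega d)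
    (hY : Ystate u v w x G.1) (hk : keyOff (Ms u v w x) H = keyOff (Ms u v w x) G) :
    Ystate u v w x H.1 := by
  obtain ⟨G', -, -, hcl, hY', -⟩ := partner_Ystate u v w x h G hY
  rcases hcl H hk with rfl | rfl
  · exact hY
  · exact hY'

theorem not_mem_diff_Ms {u v w x : Fin n} {e : Sym2 (Fin n)} (he : e ∈ Ms u v w x) :
    e ∉ touch u v \ Ms u v w x := fun hh => hh.2 he

/-- On a Y-state, `Q (touch u v minus Ms) (Q Ms f)` is the average of `f` over the Y-states of the
`touch u v`-fibre. -/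
theorem QQ_of_Ystate (u v w x : Fin n) (h : Dist4 u v w x) (f : Omega d → ℝ) (G : Omega d)
    (hY : Ystate u v w x G.1) :
    Q (touch u v \ Ms u v w x) (Q (Ms u v w x) f) G =
      (∑ G' ∈ univ.filter (fun G' : Omega d =>
          keyOff (touch u v) G' = keyOff (touch u v) G ∧ Ystate u v w x G'.1), f G') /
        ((univ.filter (fun G' : Omega d =>
          keyOff (touch u v) G' = keyOff (touch u v) G ∧ Ystate u v w x G'.1)).card : ℝ) := by
  set La : Set (Sym2 (Fin n)) := touch u v \ Ms u v w x with hLa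
  set M : Set (Sym2 (Fin n)) := Ms u v w x with hM
  set C1 : Finset (Omega d) := cls (keyOff La) G with hC1
  set YS : Finset (Omega d) := univ.filter (fun G' : Omega d =>
          keyOff (touch u v) G' = keyOff (touch u v) G ∧ Ystate u v w x G'.1) with hYS
  have m1 : s(u, w) ∈ M := by simp [hM, Ms]
  have m2 : s(u, x) ∈ M := by simp [hM, Ms]
  have m3 : s(v, w) ∈ M := by simp [hM, Ms]
  have m4 : s(v, x) ∈ M := by simp [hM, Ms]
  have hsub : La ⊆ touch u v := Set.sdiff_subset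
  have hdisj : Disjoint La M := Set.disjoint_sdiff_left
  -- members of C1
  have hA : ∀ y ∈ C1, keyOff (touch u v) y = keyOff (touch u v) G ∧ Ystate u v w x y.1 ∧
      (y.1.Adj u w ↔ G.1.Adj u w) := by
    intro y hy
    have hy' : keyOff La y = keyOff La G := mem_cls.1 hy
    have e1 := adj_iff_of_keyOff_eq hy' (not_mem_diff_Ms m1)
    have e2 := adj_iff_of_keyOff_eq hy' (not_mem_diff_Ms m2)
    have e3 := adj_iff_of_keyOff_eq hy' (not_mem_diff_Ms m3)
    have e4 := adj_iff_of_keyOff_eq hy' (not_mem_diff_Ms m4)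
    refine ⟨keyOff_mono hsub hy', ?_, e1⟩
    unfold Ystate
    rw [e1, e2, e3, e4]
    exact hY
  -- a Y-state of the fibre with the same type is in C1
  have hB : ∀ y : Omega d, keyOff (touch u v) y = keyOff (touch u v) G → Ystate u v w x y.1 →
      (y.1.Adj u w ↔ G.1.Adj u w) → y ∈ C1 := by
    intro y hk hYy hty
    rw [hC1, mem_cls, keyOff_eq_iff]
    intro e he
    by_cases heM : e ∈ M
    · have key : (y.1.Adj u w ↔ G.1.Adj u w) ∧ (y.1.Adj u x ↔ G.1.Adj u x) ∧
          (y.1.Adj v w ↔ G.1.Adj v w) ∧ (y.1.Adj v x ↔ G.1.Adj v x) := by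
        unfold Ystate at hY hYy
        tauto
      simp only [hM, Ms, Set.mem_insert_iff, Set.mem_singleton_iff] at heM
      rcases heM with rfl | rfl | rfl | rfl
      · exact key.1
      · exact key.2.1
      · exact key.2.2.1
      · exact key.2.2.2
    · have : e ∉ touch u v := fun hh => he ⟨hh, heM⟩
      exact (keyOff_eq_iff _ y G).1 hk e this
  have hC : YS = C1.biUnion (fun y => cls (keyOff M) y) := by
    ext z
    simp only [hYS, mem_filter, mem_univ, true_and, mem_biUnion, mem_cls]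
    constructor
    · rintro ⟨hk, hYz⟩
      by_cases hty : z.1.Adj u w ↔ G.1.Adj u w
      · exact ⟨z, hB z hk hYz hty, rfl⟩
      · obtain ⟨z', hk', -, -, hYz', hty'⟩ := partner_Ystate u v w x h z hYz
        refine ⟨z', hB z' ?_ hYz' ?_, hk'.symm⟩
        · exact (keyOff_mono (Ms_subset_touch u v w x) hk').trans hk
        · rw [hty']; tauto
    · rintro ⟨y, hy, hzy⟩
      obtain ⟨a1, a2, -⟩ := hA y hy
      exact ⟨(keyOff_mono (Ms_subset_touch u v w x) hzy).trans a1,
        Ystate_of_keyOff_Ms u v w x h y z a2 hzy⟩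
  have hD : ∀ y ∈ C1, ∀ y' ∈ C1, y ≠ y' →
      Disjoint (cls (keyOff (d := d) M) y) (cls (keyOff (d := d) M) y') := by
    intro y hy y' hy' hne
    rw [disjoint_left]
    intro z hz hz'
    apply hne
    refine eq_of_keyOff_eq La M hdisj y y' ?_ ?_
    · exact (mem_cls.1 hy).trans (mem_cls.1 hy').symm
    · exact (mem_cls.1 hz).symm.trans (mem_cls.1 hz')
  have hcard2 : ∀ y ∈ C1, (cls (keyOff (d := d) M) y).card = 2 := fun y hy =>
    card_cls_Ms_of_Ystate u v w x h y (hA y hy).2.1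
  have hsum : ∑ z ∈ YS, f z = ∑ y ∈ C1, ∑ z ∈ cls (keyOff M) y, f z := by
    rw [hC, sum_biUnion hD]
  have hcard : (YS.card : ℝ) = 2 * (C1.card : ℝ) := by
    rw [hC, card_biUnion hD, sum_congr rfl hcard2, sum_const, smul_eq_mul]
    push_cast
    ring
  rw [hsum, hcard]
  show (∑ y ∈ C1, (∑ z ∈ cls (keyOff M) y, f z) / ((cls (keyOff (d := d) M) y).card : ℝ)) /
    (C1.card : ℝ) = _
  rw [sum_congr rfl (fun y hy => by rw [hcard2 y hy]), ← sum_div, div_div]
  norm_num

end

end Vale.Agent.P335
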