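import Vale.Agent.P335.Slots

/-!
# P335: counting slots at a vertex, replacing the part of a graph inside a slot set
-/

namespace Vale.Agent.P335

open Finset

open scoped Classical

noncomputable section

variable {n : ℕ} {d : Fin n → ℕ}

/-- number of slots of `S` at the vertex `i` -/
def cnt (S : Set (Sym2 (Fin n))) (i : Fin n) : ℕ := (univ.filter (fun j => s(i, j) ∈ S)).card

theorem cnt_union {S T : Set (Sym2 (Fin n))} (h : Disjoint S T) (i : Fin n) :
    cnt (S ∪ T) i = cnt S i + cnt T i := by
  unfold cnt
  rw [← card_union_of_disjoint]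
  · congr 1
    ext j
    simp only [mem_filter, mem_univ, true_and, mem_union, Set.mem_union]
  · rw [disjoint_left]
    intro j hj hj'
    simp only [mem_filter, mem_univ, true_and] at hj hj'
    exact Set.disjoint_left.mp h hj hj'

theorem cnt_edgeSet (G : Omega d) (i : Fin n) : cnt G.1.edgeSet i = d i := by
  rw [← G.2 i, ← SimpleGraph.card_neighborFinset_eq_degree]
  unfold cnt
  congr 1
  ext j
  simp only [mem_filter, mem_univ, true_and, SimpleGraph.mem_edgeSet,
    SimpleGraph.mem_neighborFinset]

theorem cnt_inter_eq_of_keyOff_eq {La : Set (Sym2 (Fin n))} {G G' : Omega d}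
    (h : keyOff La G = keyOff La G') (i : Fin n) :
    cnt (G.1.edgeSet ∩ La) i = cnt (G'.1.edgeSet ∩ La) i := by
  have e1 : cnt G.1.edgeSet i = cnt (G.1.edgeSet ∩ La) i + cnt (G.1.edgeSet \ La) i := by
    rw [← cnt_union (Set.disjoint_sdiff_right.mono_left Set.inter_subset_right),
      Set.inter_union_sdiff]
  have e2 : cnt G'.1.edgeSet i = cnt (G'.1.edgeSet ∩ La) i + cnt (G'.1.edgeSet \ La) i := by
    rw [← cnt_union (Set.disjoint_sdiff_right.mono_left Set.inter_subset_right),
      Set.inter_union_sdiff]
  rw [cnt_edgeSet] at e1 e2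
  unfold keyOff at h
  rw [h] at e1
  omega

/-- REPLACEMENT: swapping the `La`-part of `G` for a set `m ⊆ La` of slots with the same number of
slots at every vertex gives an element of `Omega d`. -/
theorem exists_replace (La : Set (Sym2 (Fin n))) (G : Omega d) (m : Set (Sym2 (Fin n)))
    (hm : m ⊆ La) (hdiag : ∀ e ∈ m, ¬ e.IsDiag)
    (hcnt : ∀ i, cnt m i = cnt (G.1.edgeSet ∩ La) i) :
    ∃ H : Omega d, H.1.edgeSet = (G.1.edgeSet \ La) ∪ m := by
  apply exists_omega_of_edgeSet
  · rintro e (he | he)
    · exact G.1.not_isDiag_of_mem_edgeSet he.1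
    · exact hdiag e he
  · intro i
    have hd : Disjoint (G.1.edgeSet \ La) m := Set.disjoint_sdiff_left.mono_right hm
    have := cnt_union hd i
    unfold cnt at this
    rw [this]
    have e1 : cnt G.1.edgeSet i = cnt (G.1.edgeSet ∩ La) i + cnt (G.1.edgeSet \ La) i := by
      rw [← cnt_union (Set.disjoint_sdiff_right.mono_left Set.inter_subset_right),
        Set.inter_union_sdiff]
    rw [cnt_edgeSet] at e1
    have h2 := hcnt i
    unfold cnt at e1 h2
    omega

end

end Vale.Agent.P335
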