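import Mathlib

/-!
# P335: the subset coupling lemma (task G1)
-/

namespace Vale.Agent.P335

open Finset

theorem sum_psc_insert {α : Type*} [DecidableEq α] (s : Finset α) (x : α) (hx : x ∉ s) (n : ℕ)
    (g : Finset α → ℝ) :
    ∑ T ∈ powersetCard (n + 1) (insert x s), g T =
      ∑ T ∈ powersetCard (n + 1) s, g T + ∑ S ∈ powersetCard n s, g (insert x S) := by
  rw [powersetCard_succ_insert hx, sum_union, sum_image]
  · intro A hA B hB hAB
    have hA' : x ∉ A := fun h => hx ((mem_powersetCard.1 hA).1 h)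
    have hB' : x ∉ B := fun h => hx ((mem_powersetCard.1 hB).1 h)
    have := congrArg (fun Z => Z.erase x) hAB
    simpa [erase_insert hA', erase_insert hB'] using this
  · rw [disjoint_left]
    intro A hA hA2
    obtain ⟨B, _, rfl⟩ := mem_image.1 hA2
    exact hx ((mem_powersetCard.1 hA).1 (mem_insert_self x B))

theorem pairs_bij {α : Type*} [DecidableEq α] (F0 : Finset α) (s : ℕ) (G : Finset α → α → ℝ) :
    ∑ T ∈ powersetCard (s + 1) F0, ∑ l ∈ T, G (T.erase l) l =
      ∑ R ∈ powersetCard s F0, ∑ l ∈ F0 \ R, G R l := by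
  rw [sum_sigma', sum_sigma']
  refine sum_bij' (fun p _ => ⟨p.1.erase p.2, p.2⟩) (fun p _ => ⟨insert p.2 p.1, p.2⟩) ?_ ?_ ?_ ?_ ?_
  · rintro ⟨T, l⟩ h
    simp only [mem_sigma, mem_powersetCard, mem_sdiff] at h ⊢
    obtain ⟨⟨hT, hc⟩, hl⟩ := h
    refine ⟨⟨(erase_subset _ _).trans hT, ?_⟩, hT hl, notMem_erase _ _⟩
    rw [card_erase_of_mem hl, hc]
    rfl
  · rintro ⟨R, l⟩ h
    simp only [mem_sigma, mem_powersetCard, mem_sdiff] at h ⊢
    obtain ⟨⟨hR, hc⟩, hl, hl2⟩ := h
    refine ⟨⟨insert_subset hl hR, ?_⟩, mem_insert_self _ _⟩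
    rw [card_insert_of_notMem hl2, hc]
  · rintro ⟨T, l⟩ h
    simp only [mem_sigma, mem_powersetCard] at h
    simp [insert_erase h.2]
  · rintro ⟨R, l⟩ h
    simp only [mem_sigma, mem_powersetCard, mem_sdiff] at h
    simp [erase_insert h.2.2]
  · rintro ⟨T, l⟩ _
    rfl

theorem sum_up {α : Type*} [DecidableEq α] (F0 : Finset α) (s : ℕ) (g : Finset α → ℝ) :
    ∑ R ∈ powersetCard s F0, ∑ l ∈ F0 \ R, g (insert l R) =
      ((s : ℝ) + 1) * ∑ T ∈ powersetCard (s + 1) F0, g T := by
  rw [← pairs_bij F0 s (fun R l => g (insert l R)), mul_sum]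
  refine sum_congr rfl fun T hT => ?_
  have hc := (mem_powersetCard.1 hT).2
  rw [sum_congr rfl (fun l hl => by rw [insert_erase hl]), sum_const, hc, nsmul_eq_mul]
  push_cast
  ring

theorem sum_down {α : Type*} [DecidableEq α] (F0 : Finset α) (s : ℕ) (h : Finset α → ℝ) :
    ∑ T ∈ powersetCard (s + 1) F0, ∑ l ∈ T, h (T.erase l) =
      ((F0.card : ℝ) - s) * ∑ R ∈ powersetCard s F0, h R := by
  rw [pairs_bij F0 s (fun R _ => h R), mul_sum]
  refine sum_congr rfl fun R hR => ?_
  obtain ⟨hR1, hc⟩ := mem_powersetCard.1 hR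
  rw [sum_const, card_sdiff_of_subset hR1, hc, nsmul_eq_mul,
    Nat.cast_sub (hc ▸ card_le_card hR1)]

/-- the decomposition of the sum over `(t+1)`-subsets of `F0 + j + j'` -/
theorem sum_key {α : Type*} [DecidableEq α] (F0 : Finset α) (j j' : α) (hj : j ∉ F0)
    (hj' : j' ∉ F0) (hjj : j ≠ j') (t : ℕ) (ht : t ≤ F0.card) (phi : Finset α → ℝ) :
    ∑ T ∈ powersetCard (t + 1) (insert j (insert j' F0)), phi T =
      ∑ S ∈ powersetCard t F0, (phi (insert j S) + phi (insert j' S)
        + (1 / ((F0.card : ℝ) - t + 1)) * ∑ l ∈ S, phi (insert j (insert j' (S.erase l)))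
        + (1 / ((t : ℝ) + 1)) * ∑ l ∈ F0 \ S, phi (insert l S)) := by
  have hjn : j ∉ insert j' F0 := by
    simp [hjj, hj]
  rw [sum_psc_insert _ j hjn, sum_psc_insert _ j' hj']
  simp only [sum_add_distrib, ← mul_sum]
  rw [sum_up F0 t phi]
  have ht1 : ((t : ℝ) + 1) ≠ 0 := by positivity
  have e3 : ∑ S ∈ powersetCard t (insert j' F0), phi (insert j S) =
      ∑ S ∈ powersetCard t F0, phi (insert j S) + (1 / ((F0.card : ℝ) - t + 1)) *
        ∑ S ∈ powersetCard t F0, ∑ l ∈ S, phi (insert j (insert j' (S.erase l))) := by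
    cases t with
    | zero => simp
    | succ s =>
      rw [sum_psc_insert _ j' hj' s (fun S => phi (insert j S)),
        sum_down F0 s (fun R => phi (insert j (insert j' R)))]
      have hs : (s : ℝ) + 1 ≤ F0.card := by exact_mod_cast ht
      have : ((F0.card : ℝ) - s) ≠ 0 := by
        have : (0 : ℝ) < (F0.card : ℝ) - s := by linarith
        exact this.ne'
      have e : (F0.card : ℝ) - ((s + 1 : ℕ) : ℝ) + 1 = (F0.card : ℝ) - s := by
        push_cast
        ring
      rw [e, ← mul_assoc, one_div, inv_mul_cancel₀ this, one_mul]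
  rw [e3]
  field_simp
  ring

/-- SUBSET COUPLING.  `phi` on `(t+1)`-subsets of `F0 + j + j'`, `psi` on `t`-subsets of `F0`.
If `phi` and `psi` are `c`-close on all coupled pairs then their means are `c`-close.
(`C(f+2,t+1) = 2 C(f,t) + C(f,t-1) + C(f,t+1)` and the inclusion graph between `t`- and
`(t+1)`-subsets is biregular.) -/
theorem subset_coupling {α : Type*} [DecidableEq α] (F0 : Finset α) (j j' : α) (hj : j ∉ F0)
    (hj' : j' ∉ F0) (hjj : j ≠ j') (t : ℕ) (ht : t ≤ F0.card) (phi psi : Finset α → ℝ) (c : ℝ)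
    (h1 : ∀ S ∈ powersetCard t F0, |phi (insert j S) - psi S| ≤ c)
    (h2 : ∀ S ∈ powersetCard t F0, |phi (insert j' S) - psi S| ≤ c)
    (h3 : ∀ S ∈ powersetCard t F0, ∀ l ∈ S, |phi (insert j (insert j' (S.erase l))) - psi S| ≤ c)
    (h4 : ∀ S ∈ powersetCard t F0, ∀ l ∈ F0 \ S, |phi (insert l S) - psi S| ≤ c) :
    |(∑ S ∈ powersetCard (t + 1) (insert j (insert j' F0)), phi S) /
          ((powersetCard (t + 1) (insert j (insert j' F0))).card : ℝ) -
        (∑ S ∈ powersetCard t F0, psi S) / ((powersetCard t F0).card : ℝ)| ≤ c := by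
  set U := powersetCard (t + 1) (insert j (insert j' F0)) with hU
  set A := powersetCard t F0 with hA
  set w3 : ℝ := 1 / ((F0.card : ℝ) - t + 1) with hw3
  set w4 : ℝ := 1 / ((t : ℝ) + 1) with hw4
  have htR : (t : ℝ) ≤ F0.card := by exact_mod_cast ht
  have hw3p : 0 ≤ w3 := by
    rw [hw3]
    apply div_nonneg zero_le_one
    linarith
  have hw4p : 0 ≤ w4 := by
    rw [hw4]
    positivity
  set W : ℝ := 2 + w3 * t + w4 * ((F0.card : ℝ) - t) with hW
  have hWpos : 0 < W := by
    have : 0 ≤ w3 * t := mul_nonneg hw3p (Nat.cast_nonneg _)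
    have : 0 ≤ w4 * ((F0.card : ℝ) - t) := mul_nonneg hw4p (by linarith)
    rw [hW]
    linarith
  have hcardS : ∀ S ∈ A, (S.card : ℝ) = t := fun S hS => by
    rw [(mem_powersetCard.1 hS).2]
  have hcardS' : ∀ S ∈ A, ((F0 \ S).card : ℝ) = (F0.card : ℝ) - t := fun S hS => by
    obtain ⟨hS1, hc⟩ := mem_powersetCard.1 hS
    rw [card_sdiff_of_subset hS1, hc, Nat.cast_sub ht]
  have hApos : 0 < (A.card : ℝ) := by
    rw [hA, card_powersetCard]
    exact_mod_cast Nat.choose_pos ht
  have hUcard : (U.card : ℝ) = A.card * W := by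
    have h := sum_key F0 j j' hj hj' hjj t ht (fun _ => 1)
    simp only [sum_const, nsmul_eq_mul, mul_one] at h
    rw [h, ← nsmul_eq_mul, ← sum_const]
    refine sum_congr rfl fun S hS => ?_
    rw [hcardS S hS, hcardS' S hS, hW]
    ring
  have hUpos : 0 < (U.card : ℝ) := by
    rw [hUcard]
    positivity
  have hdiff : (∑ S ∈ U, phi S) / (U.card : ℝ) - (∑ S ∈ A, psi S) / (A.card : ℝ) =
      (∑ S ∈ A, ((phi (insert j S) - psi S) + (phi (insert j' S) - psi S)
        + w3 * ∑ l ∈ S, (phi (insert j (insert j' (S.erase l))) - psi S)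
        + w4 * ∑ l ∈ F0 \ S, (phi (insert l S) - psi S))) / (U.card : ℝ) := by
    have e1 : ∑ S ∈ A, ((phi (insert j S) - psi S) + (phi (insert j' S) - psi S)
        + w3 * ∑ l ∈ S, (phi (insert j (insert j' (S.erase l))) - psi S)
        + w4 * ∑ l ∈ F0 \ S, (phi (insert l S) - psi S)) =
        ∑ S ∈ U, phi S - W * ∑ S ∈ A, psi S := by
      rw [hU, sum_key F0 j j' hj hj' hjj t ht phi, mul_sum, ← sum_sub_distrib]
      refine sum_congr rfl fun S hS => ?_
      rw [sum_sub_distrib, sum_sub_distrib, sum_const, sum_const, nsmul_eq_mul, nsmul_eq_mul,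
        hcardS S hS, hcardS' S hS, hW]
      ring
    rw [e1, hUcard]
    field_simp
  rw [hdiff, abs_div, abs_of_pos hUpos, div_le_iff₀ hUpos]
  calc |∑ S ∈ A, ((phi (insert j S) - psi S) + (phi (insert j' S) - psi S)
        + w3 * ∑ l ∈ S, (phi (insert j (insert j' (S.erase l))) - psi S)
        + w4 * ∑ l ∈ F0 \ S, (phi (insert l S) - psi S))|
      ≤ ∑ S ∈ A, |((phi (insert j S) - psi S) + (phi (insert j' S) - psi S)
        + w3 * ∑ l ∈ S, (phi (insert j (insert j' (S.erase l))) - psi S)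
        + w4 * ∑ l ∈ F0 \ S, (phi (insert l S) - psi S))| := abs_sum_le_sum_abs _ _
    _ ≤ ∑ S ∈ A, (W * c) := by
        refine sum_le_sum fun S hS => ?_
        have b3 : |∑ l ∈ S, (phi (insert j (insert j' (S.erase l))) - psi S)| ≤ t * c := by
          calc _ ≤ ∑ l ∈ S, |phi (insert j (insert j' (S.erase l))) - psi S| :=
                abs_sum_le_sum_abs _ _
            _ ≤ ∑ l ∈ S, c := sum_le_sum fun l hl => h3 S hS l hl
            _ = t * c := by rw [sum_const, nsmul_eq_mul, hcardS S hS]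
        have b4 : |∑ l ∈ F0 \ S, (phi (insert l S) - psi S)| ≤ ((F0.card : ℝ) - t) * c := by
          calc _ ≤ ∑ l ∈ F0 \ S, |phi (insert l S) - psi S| := abs_sum_le_sum_abs _ _
            _ ≤ ∑ l ∈ F0 \ S, c := sum_le_sum fun l hl => h4 S hS l hl
            _ = ((F0.card : ℝ) - t) * c := by rw [sum_const, nsmul_eq_mul, hcardS' S hS]
        have b3' : |w3 * ∑ l ∈ S, (phi (insert j (insert j' (S.erase l))) - psi S)|
            ≤ w3 * (t * c) := by
          rw [abs_mul, abs_of_nonneg hw3p]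
          exact mul_le_mul_of_nonneg_left b3 hw3p
        have b4' : |w4 * ∑ l ∈ F0 \ S, (phi (insert l S) - psi S)|
            ≤ w4 * (((F0.card : ℝ) - t) * c) := by
          rw [abs_mul, abs_of_nonneg hw4p]
          exact mul_le_mul_of_nonneg_left b4 hw4p
        calc _ ≤ |phi (insert j S) - psi S| + |phi (insert j' S) - psi S|
              + |w3 * ∑ l ∈ S, (phi (insert j (insert j' (S.erase l))) - psi S)|
              + |w4 * ∑ l ∈ F0 \ S, (phi (insert l S) - psi S)| := by
              refine (abs_add_le _ _).trans ?_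
              gcongr
              refine (abs_add_le _ _).trans ?_
              gcongr
              exact abs_add_le _ _
          _ ≤ c + c + w3 * (t * c) + w4 * (((F0.card : ℝ) - t) * c) := by
              gcongr
              · exact h1 S hS
              · exact h2 S hS
          _ = W * c := by
              rw [hW]
              ring
    _ = c * (U.card : ℝ) := by
        rw [sum_const, nsmul_eq_mul, hUcard]
        ring

end Vale.Agent.P335
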