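import Mathlib
import Vale.Agent.P335.ThreeRowBasic

/-!
# P335, 3-row lemma: the move graph is connected (task G2)

If two valid colourings differ, there is a move from the first one which decreases the number of
disagreements with the second one.
-/

open Finset

set_option linter.unusedSectionVars false

namespace Vale.Agent.P335.ThreeRow

variable {C : Type*} [Fintype C] [DecidableEq C]

/-- number of disagreements -/
def dis (σ τ : C → Fin 3) : ℕ := (univ.filter (fun l => σ l ≠ τ l)).card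

theorem dis_eq_zero {σ τ : C → Fin 3} (h : dis σ τ = 0) : σ = τ := by
  unfold dis at h
  rw [Finset.card_eq_zero, Finset.filter_eq_empty_iff] at h
  funext l
  have := h (Finset.mem_univ l)
  simpa using this

/-- changing two disagreeing columns and repairing one of them decreases `dis`. -/
theorem dis_lt {σ σ' τ : C → Fin 3} (a b : C) (ha : σ a ≠ τ a) (hb : σ b ≠ τ b) (ha' : σ' a = τ a)
    (hoth : ∀ l, l ≠ a → l ≠ b → σ' l = σ l) : dis σ' τ < dis σ τ := by
  unfold dis
  apply Finset.card_lt_card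
  rw [Finset.ssubset_iff_of_subset]
  · exact ⟨a, by simp [ha], by simp [ha']⟩
  · intro l hl
    simp only [Finset.mem_filter, Finset.mem_univ, true_and] at hl ⊢
    by_cases h1 : l = a
    · subst h1; exact absurd ha' hl
    · by_cases h2 : l = b
      · subst h2; exact hb
      · rw [← hoth l h1 h2]; exact hl

/-- charge balance at the colour `k`. -/
theorem balance {s : C → ℤ} {ρ : Fin 3 → ℤ} {σ τ : C → Fin 3} (hs : ∀ j, s j = 1 ∨ s j = -1 ∨ s j = 0)
    (hσ : Valid s ρ σ) (hτ : Valid s ρ τ) (k : Fin 3) (j0 : C)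
    (h0 : (if σ j0 = k then s j0 else 0) - (if τ j0 = k then s j0 else 0) < 0) :
    ∃ j1, (s j1 = 1 ∧ σ j1 = k ∧ τ j1 ≠ k) ∨ (s j1 = -1 ∧ τ j1 = k ∧ σ j1 ≠ k) := by
  have hsum : ∑ l, ((if σ l = k then s l else 0) - (if τ l = k then s l else 0)) = 0 := by
    rw [Finset.sum_sub_distrib]
    have h1 := hσ.2 k
    have h2 := hτ.2 k
    unfold cnt at h1 h2
    rw [h1, h2, sub_self]
  obtain ⟨j1, _, hj1⟩ := Finset.exists_pos_of_sum_zero_of_exists_nonzero _ hsum
    ⟨j0, Finset.mem_univ _, h0.ne⟩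
  refine ⟨j1, ?_⟩
  rcases hs j1 with h | h | h
  · left
    rw [h] at hj1
    refine ⟨h, ?_, ?_⟩
    · by_contra hc
      rw [if_neg hc] at hj1
      split_ifs at hj1 <;> omega
    · intro hc
      rw [if_pos hc] at hj1
      split_ifs at hj1 <;> omega
  · right
    rw [h] at hj1
    refine ⟨h, ?_, ?_⟩
    · by_contra hc
      rw [if_neg hc] at hj1
      split_ifs at hj1 <;> omega
    · intro hc
      rw [if_pos hc] at hj1
      split_ifs at hj1 <;> omega
  · rw [h] at hj1
    simp at hj1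

/-- the same sign switch as a move. -/
theorem adjS_swap {s : C → ℤ} (σ : C → Fin 3) (j j' : C) (hj : s j = s j') (hne : σ j ≠ σ j') :
    AdjS s σ (σ ∘ Equiv.swap j j') :=
  ⟨j, j', hj, hne, by simp, by simp, fun l h1 h2 => by
    simp [Equiv.swap_apply_of_ne_of_ne h1 h2]⟩

/-- the mixed switch as a move. -/
theorem adjM_update {s : C → ℤ} (σ : C → Fin 3) (j j' : C) (hj : s j = 1) (hj' : s j' = -1)
    (hσ : σ j = σ j') (b : Fin 3) (hb : b ≠ σ j) :
    AdjM s σ (Function.update (Function.update σ j b) j' b) := by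
  have hne : j ≠ j' := by intro e; rw [e] at hj; omega
  refine ⟨j, j', hj, hj', hσ, ?_, ?_, ?_⟩
  · rw [Function.update_of_ne hne, Function.update_self, Function.update_self]
  · rw [Function.update_of_ne hne, Function.update_self]; exact hb
  · intro l h1 h2
    rw [Function.update_of_ne h2, Function.update_of_ne h1]

/-- a disagreement in a column of charge `-1` can be improved. -/
theorem improve_neg {s : C → ℤ} {ρ : Fin 3 → ℤ} {σ τ : C → Fin 3}
    (hs : ∀ j, s j = 1 ∨ s j = -1 ∨ s j = 0) (hσ : Valid s ρ σ) (hτ : Valid s ρ τ) (j' : C)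
    (hj' : s j' = -1) (hd : σ j' ≠ τ j') :
    ∃ σ', Valid s ρ σ' ∧ (AdjS s σ σ' ∨ AdjM s σ σ') ∧ dis σ' τ < dis σ τ := by
  obtain ⟨j1, h | h⟩ := balance hs hσ hτ (σ j') j' (by
    rw [if_pos rfl, if_neg (fun e => hd e.symm), hj']; norm_num)
  · obtain ⟨h1, h2, h3⟩ := h
    have hne : j1 ≠ j' := by intro e; rw [e] at h1; omega
    refine ⟨Function.update (Function.update σ j1 (τ j')) j' (τ j'),
      valid_mix hσ j1 j' h1 hj' h2 _, Or.inr (adjM_update σ j1 j' h1 hj' h2 _ ?_), ?_⟩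
    · rw [h2]; exact fun e => hd e.symm
    · refine dis_lt j' j1 hd (by rw [h2]; exact fun e => h3 e.symm) (by simp) ?_
      intro l a b
      rw [Function.update_of_ne a, Function.update_of_ne b]
  · obtain ⟨h1, h2, h3⟩ := h
    refine ⟨σ ∘ Equiv.swap j' j1, valid_comp_swap hσ j' j1 (by rw [hj', h1]),
      Or.inl (adjS_swap σ j' j1 (by rw [hj', h1]) (fun e => h3 e.symm)), ?_⟩
    refine dis_lt j1 j' (by rw [h2]; exact h3) hd (by simp [h2]) ?_
    intro l a b
    simp [Equiv.swap_apply_of_ne_of_ne b a]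

/-- every pair of distinct valid colourings can be improved. -/
theorem improve {s : C → ℤ} {ρ : Fin 3 → ℤ} {σ τ : C → Fin 3}
    (hs : ∀ j, s j = 1 ∨ s j = -1 ∨ s j = 0) (hσ : Valid s ρ σ) (hτ : Valid s ρ τ) (hne : σ ≠ τ) :
    ∃ σ', Valid s ρ σ' ∧ (AdjS s σ σ' ∨ AdjM s σ σ') ∧ dis σ' τ < dis σ τ := by
  obtain ⟨j, hd⟩ : ∃ j, σ j ≠ τ j := by
    by_contra hc
    apply hne
    funext l
    by_contra hl
    exact hc ⟨l, hl⟩
  rcases hs j with hj | hj | hj
  · obtain ⟨j1, h | h⟩ := balance hs hσ hτ (τ j) j (by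
      rw [if_neg hd, if_pos rfl, hj]; norm_num)
    · obtain ⟨h1, h2, h3⟩ := h
      refine ⟨σ ∘ Equiv.swap j j1, valid_comp_swap hσ j j1 (by rw [hj, h1]),
        Or.inl (adjS_swap σ j j1 (by rw [hj, h1]) (by rw [h2]; exact hd)), ?_⟩
      refine dis_lt j j1 hd (by rw [h2]; exact fun e => h3 e.symm) (by simp [h2]) ?_
      intro l a b
      simp [Equiv.swap_apply_of_ne_of_ne a b]
    · obtain ⟨h1, h2, h3⟩ := h
      exact improve_neg hs hσ hτ j1 h1 (by rw [h2]; exact h3)
  · exact improve_neg hs hσ hτ j hj hd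
  · exact absurd ((hσ.1 j hj).trans (hτ.1 j hj).symm) hd

/-- connectivity, raw form. -/
theorem conn_raw {s : C → ℤ} {ρ : Fin 3 → ℤ} (hs : ∀ j, s j = 1 ∨ s j = -1 ∨ s j = 0)
    (τ : C → Fin 3) (hτ : Valid s ρ τ) : ∀ (N : ℕ) (σ : C → Fin 3), Valid s ρ σ → dis σ τ = N →
      Relation.ReflTransGen
        (fun a b : C → Fin 3 => Valid s ρ a ∧ Valid s ρ b ∧ (AdjS s a b ∨ AdjM s a b)) σ τ := by
  intro N
  induction N using Nat.strong_induction_on with
  | _ N ih =>
    intro σ hσ hN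
    by_cases hne : σ = τ
    · subst hne; exact Relation.ReflTransGen.refl
    · obtain ⟨σ', hv, hadj, hlt⟩ := improve hs hσ hτ hne
      exact Relation.ReflTransGen.head ⟨hσ, hv, hadj⟩ (ih _ (hN ▸ hlt) σ' hv rfl)

/-- connectivity of the move graph on the valid colourings. -/
theorem conn_sub {s : C → ℤ} {ρ : Fin 3 → ℤ} (hs : ∀ j, s j = 1 ∨ s j = -1 ∨ s j = 0)
    (x y : {σ : C → Fin 3 // Valid s ρ σ}) :
    Relation.ReflTransGen
      (fun a b : {σ : C → Fin 3 // Valid s ρ σ} => AdjS s a.1 b.1 ∨ AdjM s a.1 b.1) x y := by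
  suffices H : ∀ (N : ℕ) (x : {σ : C → Fin 3 // Valid s ρ σ}), dis x.1 y.1 = N →
      Relation.ReflTransGen
        (fun a b : {σ : C → Fin 3 // Valid s ρ σ} => AdjS s a.1 b.1 ∨ AdjM s a.1 b.1) x y from
    H _ x rfl
  intro N
  induction N using Nat.strong_induction_on with
  | _ N ih =>
    intro x hN
    by_cases hne : x.1 = y.1
    · rw [Subtype.ext hne]
    · obtain ⟨σ', hv, hadj, hlt⟩ := improve hs x.2 y.2 hne
      exact Relation.ReflTransGen.head (b := ⟨σ', hv⟩) hadj (ih _ (hN ▸ hlt) ⟨σ', hv⟩ rfl)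

end Vale.Agent.P335.ThreeRow
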