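import Vale.Agent.P335.Core

/-!
# P335: three vertices, the cells of the 3-row system

`u : Fin 3 -> Fin n` injective, `T` its range.  Columns are `Option (Fin n)`.
`cell u G (some y) i` : `y` is outside `T` and adjacent to `u i`;
`cell u G none i`     : the slot opposite to `u i` inside `T` is NOT an edge (virtual column).
Degree identities `deg_row`, `deg_col` and the colour calculus on `Fin 3 -> Prop`.
-/

namespace Vale.Agent.P335.Triple

open Finset

open scoped Classical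

noncomputable section

/-- integer indicator -/
def ind (p : Prop) : ℤ := if p then 1 else 0

theorem ind_pos {p : Prop} (h : p) : ind p = 1 := if_pos h

theorem ind_neg {p : Prop} (h : ¬ p) : ind p = 0 := if_neg h

theorem ind_not (p : Prop) : ind (¬ p) = 1 - ind p := by
  by_cases h : p <;> simp [ind, h]

theorem ind_congr {p q : Prop} (h : p ↔ q) : ind p = ind q := by rw [propext h]

theorem ind_eq_iff {p q : Prop} : ind p = ind q ↔ (p ↔ q) := by
  by_cases hp : p <;> by_cases hq : q <;> simp [ind, hp, hq]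

/-- charge of a column of sum `s` -/
def epsOf (s : ℤ) : ℤ := if s = 1 then 1 else if s = 2 then -1 else 0

/-- constant part of a column of sum `s` -/
def baseOf (s : ℤ) : ℤ := if s = 2 ∨ s = 3 then 1 else 0

/-- the colour of a column -/
def colOf (p : Fin 3 → Prop) : Fin 3 :=
  if (p 0 ∧ ¬ p 1 ∧ ¬ p 2) ∨ (¬ p 0 ∧ p 1 ∧ p 2) then 0
  else if (¬ p 0 ∧ p 1 ∧ ¬ p 2) ∨ (p 0 ∧ ¬ p 1 ∧ p 2) then 1
  else if (¬ p 0 ∧ ¬ p 1 ∧ p 2) ∨ (p 0 ∧ p 1 ∧ ¬ p 2) then 2 else 0

/-- the sum of a column -/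
def cnt (p : Fin 3 → Prop) : ℤ := ind (p 0) + ind (p 1) + ind (p 2)

theorem cnt_eq_sum (p : Fin 3 → Prop) : cnt p = ∑ i, ind (p i) := by
  rw [Fin.sum_univ_three]; rfl

theorem epsOf_cases (s : ℤ) : epsOf s = 1 ∨ epsOf s = -1 ∨ epsOf s = 0 := by
  unfold epsOf
  split_ifs <;> simp

theorem ind_eq_base (p : Fin 3 → Prop) (i : Fin 3) :
    ind (p i) = baseOf (cnt p) + epsOf (cnt p) * ind (colOf p = i) := by
  by_cases h0 : p 0 <;> by_cases h1 : p 1 <;> by_cases h2 : p 2 <;> fin_cases i <;>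
    simp [cnt, ind, colOf, epsOf, baseOf, h0, h1, h2]

theorem cnt_range (p : Fin 3 → Prop) : cnt p = 0 ∨ cnt p = 1 ∨ cnt p = 2 ∨ cnt p = 3 := by
  by_cases h0 : p 0 <;> by_cases h1 : p 1 <;> by_cases h2 : p 2 <;>
    simp [cnt, ind, h0, h1, h2]

theorem colOf_of_eps_zero (p : Fin 3 → Prop) (h : epsOf (cnt p) = 0) : colOf p = 0 := by
  revert h
  by_cases h0 : p 0 <;> by_cases h1 : p 1 <;> by_cases h2 : p 2 <;>
    simp [cnt, ind, colOf, epsOf, h0, h1, h2]

/-- decoding: the column of sum `s` and colour `c` -/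
def dec (s : ℤ) (c : Fin 3) (i : Fin 3) : Prop := s = 3 ∨ (s = 1 ∧ i = c) ∨ (s = 2 ∧ i ≠ c)

theorem cnt_dec (s : ℤ) (hs : s = 0 ∨ s = 1 ∨ s = 2 ∨ s = 3) (c : Fin 3) : cnt (dec s c) = s := by
  rcases hs with rfl | rfl | rfl | rfl <;> fin_cases c <;>
    simp [cnt, ind, dec]

theorem colOf_dec (s : ℤ) (c : Fin 3) (h : epsOf s ≠ 0) : colOf (dec s c) = c := by
  have hs : s = 1 ∨ s = 2 := by
    unfold epsOf at h
    by_cases h1 : s = 1
    · exact Or.inl h1
    · by_cases h2 : s = 2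
      · exact Or.inr h2
      · simp [h1, h2] at h
  rcases hs with rfl | rfl <;> fin_cases c <;> simp [colOf, dec]

variable {n : ℕ}

/-- the cells of the 3-row system attached to `u` -/
def cell (u : Fin 3 → Fin n) (G : SimpleGraph (Fin n)) (c : Option (Fin n)) (i : Fin 3) : Prop :=
  match c with
  | some y => (∀ k, y ≠ u k) ∧ G.Adj (u i) y
  | none => ¬ G.Adj (u (i + 1)) (u (i + 2))

theorem cell_some (u : Fin 3 → Fin n) (G : SimpleGraph (Fin n)) (y : Fin n) (i : Fin 3) :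
    cell u G (some y) i ↔ (∀ k, y ≠ u k) ∧ G.Adj (u i) y := Iff.rfl

theorem cell_none (u : Fin 3 → Fin n) (G : SimpleGraph (Fin n)) (i : Fin 3) :
    cell u G none i ↔ ¬ G.Adj (u (i + 1)) (u (i + 2)) := Iff.rfl

/-- column sums -/
def cs (u : Fin 3 → Fin n) (G : SimpleGraph (Fin n)) (c : Option (Fin n)) : ℤ := cnt (cell u G c)

/-- the colouring of a graph -/
def chiOf (u : Fin 3 → Fin n) (G : SimpleGraph (Fin n)) (c : Option (Fin n)) : Fin 3 :=
  colOf (cell u G c)

theorem sum_ind_split (u : Fin 3 → Fin n) (hu : Function.Injective u) (p : Fin n → Prop) :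
    ∑ b, ind (p b) = ∑ b, ind ((∀ k, b ≠ u k) ∧ p b) + ∑ k, ind (p (u k)) := by
  have h1 : ∑ k, ind (p (u k)) = ∑ b ∈ univ.image u, ind (p b) :=
    (sum_image (f := fun b => ind (p b)) (g := u) (s := univ) (fun _ _ _ _ h => hu h)).symm
  have h2 : ∑ b ∈ univ.image u, ind (p b) = ∑ b, if b ∈ univ.image u then ind (p b) else 0 := by
    rw [← sum_filter]
    congr 1
    ext b
    simp
  rw [h1, h2, ← sum_add_distrib]
  refine sum_congr rfl (fun b _ => ?_)
  by_cases hb : b ∈ univ.image u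
  · rw [if_pos hb]
    obtain ⟨k, -, hk⟩ := mem_image.1 hb
    have h0 : ind ((∀ k, b ≠ u k) ∧ p b) = 0 := ind_neg (fun h => h.1 k hk.symm)
    rw [h0, zero_add]
  · rw [if_neg hb, add_zero]
    refine ind_congr ⟨fun h => ⟨fun k hk => hb (mem_image.2 ⟨k, mem_univ _, hk.symm⟩), h⟩,
      fun h => h.2⟩

theorem degree_eq_sum_ind (G : SimpleGraph (Fin n)) (a : Fin n) :
    (G.degree a : ℤ) = ∑ b, ind (G.Adj a b) := by
  rw [← SimpleGraph.card_neighborFinset_eq_degree, SimpleGraph.neighborFinset_eq_filter,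
    card_filter]
  push_cast
  rfl

/-- degree of an outer vertex -/
theorem deg_col (u : Fin 3 → Fin n) (hu : Function.Injective u) (G : SimpleGraph (Fin n))
    (y : Fin n) (hy : ∀ k, y ≠ u k) :
    (G.degree y : ℤ) = ∑ b, ind ((∀ k, b ≠ u k) ∧ G.Adj y b) + cs u G (some y) := by
  rw [degree_eq_sum_ind, sum_ind_split u hu, cs, cnt_eq_sum]
  congr 1
  refine sum_congr rfl (fun k _ => ind_congr ?_)
  rw [cell_some]
  exact ⟨fun h => ⟨hy, h.symm⟩, fun h => h.2.symm⟩

theorem cs_some_of_mem (u : Fin 3 → Fin n) (G : SimpleGraph (Fin n)) (y : Fin n)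
    (hy : ¬ ∀ k, y ≠ u k) : cs u G (some y) = 0 := by
  rw [cs, cnt_eq_sum]
  refine sum_eq_zero (fun i _ => ind_neg ?_)
  rw [cell_some]
  exact fun h => hy h.1

/-- degree of `u i` -/
theorem deg_row (u : Fin 3 → Fin n) (hu : Function.Injective u) (G : SimpleGraph (Fin n))
    (i : Fin 3) :
    (G.degree (u i) : ℤ) = ∑ c, ind (cell u G c i) + 2 - cs u G none := by
  rw [degree_eq_sum_ind, sum_ind_split u hu, Fintype.sum_option]
  have h1 : ∑ b, ind ((∀ k, b ≠ u k) ∧ G.Adj (u i) b) = ∑ b, ind (cell u G (some b) i) := rfl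
  rw [h1]
  have h2 : ∑ k, ind (G.Adj (u i) (u k)) = ind (cell u G none i) + 2 - cs u G none := by
    unfold cs cnt
    rw [Fin.sum_univ_three]
    simp only [cell_none, ind_not]
    have e01 : ind (G.Adj (u 1) (u 0)) = ind (G.Adj (u 0) (u 1)) := ind_congr (G.adj_comm _ _)
    have e02 : ind (G.Adj (u 2) (u 0)) = ind (G.Adj (u 0) (u 2)) := ind_congr (G.adj_comm _ _)
    have e12 : ind (G.Adj (u 2) (u 1)) = ind (G.Adj (u 1) (u 2)) := ind_congr (G.adj_comm _ _)
    have d0 : ind False = 0 := ind_neg id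
    fin_cases i <;> simp [d0, e01, e02, e12] <;> ring
  rw [h2]
  ring

end

end Vale.Agent.P335.Triple
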