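import Vale.Agent.P335.TripleCell

/-!
# P335: three vertices, building a graph from its cells

`mkG u G0 m` is the graph that agrees with `G0` on the slots not touching the range of `u` and whose
cells are prescribed by `m`.
-/

namespace Vale.Agent.P335.Triple

open Finset

open scoped Classical

noncomputable section

variable {n : ℕ}

theorem fin3_cases (i j : Fin 3) : j = i ∨ j = i + 1 ∨ j = i + 2 := by
  revert i j; decide

theorem fin3_ne1 (i : Fin 3) : i + 1 ≠ i := by revert i; decide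

theorem fin3_ne2 (i : Fin 3) : i + 2 ≠ i := by revert i; decide

theorem fin3_ne12 (i : Fin 3) : i + 1 ≠ i + 2 := by revert i; decide

theorem fin3_21 (i : Fin 3) : i + 2 + 1 = i := by revert i; decide

theorem fin3_22 (i : Fin 3) : i + 2 + 2 = i + 1 := by revert i; decide

theorem fin3_11 (i : Fin 3) : i + 1 + 1 = i + 2 := by revert i; decide

theorem fin3_12 (i : Fin 3) : i + 1 + 2 = i := by revert i; decide

theorem fin3_cross (i i' : Fin 3) (h1 : i + 1 = i' + 2) (h2 : i + 2 = i' + 1) : i = i' := by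
  revert i i'; decide

theorem exists_fin3 (p : Fin 3 → Prop) : (∃ k, p k) ↔ p 0 ∨ p 1 ∨ p 2 := by
  constructor
  · rintro ⟨k, hk⟩
    fin_cases k
    · exact Or.inl hk
    · exact Or.inr (Or.inl hk)
    · exact Or.inr (Or.inr hk)
  · rintro (h | h | h)
    exacts [⟨0, h⟩, ⟨1, h⟩, ⟨2, h⟩]

theorem mk_mem_touch3 (u : Fin 3 → Fin n) (a b : Fin n) :
    s(a, b) ∈ touch3 (u 0) (u 1) (u 2) ↔ (∃ k, a = u k) ∨ (∃ k, b = u k) := by
  rw [exists_fin3, exists_fin3]
  simp only [touch3, Set.mem_ofPred_eq, Sym2.mem_iff]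
  constructor
  · rintro ((h | h) | (h | h) | (h | h)) <;> simp [h]
  · rintro ((h | h | h) | (h | h | h)) <;> simp [h]

theorem mk_mem_touch (x y a b : Fin n) :
    s(a, b) ∈ touch x y ↔ (x = a ∨ x = b) ∨ (y = a ∨ y = b) := by
  simp only [touch, Set.mem_ofPred_eq, Sym2.mem_iff]

/-- the edge set with prescribed cells -/
def mkE (u : Fin 3 → Fin n) (G0 : SimpleGraph (Fin n)) (m : Option (Fin n) → Fin 3 → Prop) :
    Set (Sym2 (Fin n)) :=
  (G0.edgeSet \ touch3 (u 0) (u 1) (u 2)) ∪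
    {e | ∃ i y, (∀ k, y ≠ u k) ∧ m (some y) i ∧ e = s(u i, y)} ∪
    {e | ∃ i, ¬ m none i ∧ e = s(u (i + 1), u (i + 2))}

/-- the graph with prescribed cells -/
def mkG (u : Fin 3 → Fin n) (G0 : SimpleGraph (Fin n)) (m : Option (Fin n) → Fin 3 → Prop) :
    SimpleGraph (Fin n) := SimpleGraph.fromEdgeSet (mkE u G0 m)

theorem mkG_adj_out (u : Fin 3 → Fin n) (G0 : SimpleGraph (Fin n))
    (m : Option (Fin n) → Fin 3 → Prop) (a b : Fin n) (ha : ∀ k, a ≠ u k) (hb : ∀ k, b ≠ u k) :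
    (mkG u G0 m).Adj a b ↔ G0.Adj a b := by
  rw [mkG, SimpleGraph.fromEdgeSet_adj]
  constructor
  · rintro ⟨(⟨h, -⟩ | ⟨i, y, -, -, h⟩) | ⟨i, -, h⟩, -⟩
    · exact h
    · rcases Sym2.eq_iff.1 h with ⟨h1, -⟩ | ⟨-, h1⟩
      · exact absurd h1 (ha i)
      · exact absurd h1 (hb i)
    · rcases Sym2.eq_iff.1 h with ⟨h1, -⟩ | ⟨h1, -⟩
      · exact absurd h1 (ha _)
      · exact absurd h1 (ha _)
  · intro h
    refine ⟨Or.inl (Or.inl ⟨h, ?_⟩), h.ne⟩
    rw [mk_mem_touch3]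
    rintro (⟨k, hk⟩ | ⟨k, hk⟩)
    · exact ha k hk
    · exact hb k hk

theorem mkG_adj_row (u : Fin 3 → Fin n) (hu : Function.Injective u) (G0 : SimpleGraph (Fin n))
    (m : Option (Fin n) → Fin 3 → Prop) (i : Fin 3) (y : Fin n) (hy : ∀ k, y ≠ u k) :
    (mkG u G0 m).Adj (u i) y ↔ m (some y) i := by
  rw [mkG, SimpleGraph.fromEdgeSet_adj]
  constructor
  · rintro ⟨(⟨-, h⟩ | ⟨i', y', -, hm, h⟩) | ⟨i', -, h⟩, -⟩
    · exact absurd ((mk_mem_touch3 u _ _).2 (Or.inl ⟨i, rfl⟩)) h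
    · rcases Sym2.eq_iff.1 h with ⟨h1, h2⟩ | ⟨-, h1⟩
      · rw [hu h1, h2]; exact hm
      · exact absurd h1 (hy _)
    · rcases Sym2.eq_iff.1 h with ⟨-, h1⟩ | ⟨-, h1⟩
      · exact absurd h1 (hy _)
      · exact absurd h1 (hy _)
  · intro h
    exact ⟨Or.inl (Or.inr ⟨i, y, hy, h, rfl⟩), (hy i).symm⟩

theorem mkG_adj_in (u : Fin 3 → Fin n) (hu : Function.Injective u) (G0 : SimpleGraph (Fin n))
    (m : Option (Fin n) → Fin 3 → Prop) (i : Fin 3) :
    (mkG u G0 m).Adj (u (i + 1)) (u (i + 2)) ↔ ¬ m none i := by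
  rw [mkG, SimpleGraph.fromEdgeSet_adj]
  constructor
  · rintro ⟨(⟨-, h⟩ | ⟨i', y', hy', -, h⟩) | ⟨i', hm, h⟩, -⟩
    · exact absurd ((mk_mem_touch3 u _ _).2 (Or.inl ⟨_, rfl⟩)) h
    · rcases Sym2.eq_iff.1 h with ⟨-, h1⟩ | ⟨h1, -⟩
      · exact absurd h1.symm (hy' _)
      · exact absurd h1.symm (hy' _)
    · have hii : i = i' := by
        rcases Sym2.eq_iff.1 h with ⟨h1, -⟩ | ⟨h1, h2⟩
        · exact add_right_cancel (hu h1)
        · exact fin3_cross i i' (hu h1) (hu h2)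
      rw [hii]; exact hm
  · intro h
    exact ⟨Or.inr ⟨i, h, rfl⟩, fun h' => fin3_ne12 i (hu h')⟩

/-- the cells of `mkG` -/
theorem cell_mkG (u : Fin 3 → Fin n) (hu : Function.Injective u) (G0 : SimpleGraph (Fin n))
    (m : Option (Fin n) → Fin 3 → Prop) (hm : ∀ y i, m (some y) i → ∀ k, y ≠ u k)
    (c : Option (Fin n)) (i : Fin 3) : cell u (mkG u G0 m) c i ↔ m c i := by
  cases c with
  | none => rw [cell_none, mkG_adj_in u hu, not_not]
  | some y =>
    rw [cell_some]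
    constructor
    · rintro ⟨hy, h⟩
      exact (mkG_adj_row u hu G0 m i y hy).1 h
    · intro h
      exact ⟨hm y i h, (mkG_adj_row u hu G0 m i y (hm y i h)).2 h⟩

/-- two graphs with the same outer part and the same cells are equal -/
theorem eq_of_cells (u : Fin 3 → Fin n) (G G' : SimpleGraph (Fin n))
    (hout : ∀ a b, (∀ k, a ≠ u k) → (∀ k, b ≠ u k) → (G.Adj a b ↔ G'.Adj a b))
    (hcell : ∀ c i, cell u G c i ↔ cell u G' c i) : G = G' := by
  have hrow : ∀ i y, (∀ k, y ≠ u k) → (G.Adj (u i) y ↔ G'.Adj (u i) y) := by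
    intro i y hy
    have := hcell (some y) i
    rw [cell_some, cell_some] at this
    exact ⟨fun h => (this.1 ⟨hy, h⟩).2, fun h => (this.2 ⟨hy, h⟩).2⟩
  have hin : ∀ i, G.Adj (u (i + 1)) (u (i + 2)) ↔ G'.Adj (u (i + 1)) (u (i + 2)) := by
    intro i
    have := hcell none i
    rw [cell_none, cell_none] at this
    exact not_iff_not.1 this
  have hin2 : ∀ i j, G.Adj (u i) (u j) ↔ G'.Adj (u i) (u j) := by
    intro i j
    rcases fin3_cases i j with rfl | rfl | rfl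
    · simp
    · have := hin (i + 2)
      rwa [fin3_21, fin3_22] at this
    · have := hin (i + 1)
      rw [fin3_11, fin3_12] at this
      rw [G.adj_comm, G'.adj_comm]
      exact this
  ext a b
  by_cases ha : ∀ k, a ≠ u k
  · by_cases hb : ∀ k, b ≠ u k
    · exact hout a b ha hb
    · push Not at hb
      obtain ⟨k, rfl⟩ := hb
      rw [G.adj_comm, G'.adj_comm]
      exact hrow k a ha
  · push Not at ha
    obtain ⟨k, rfl⟩ := ha
    by_cases hb : ∀ k, b ≠ u k
    · exact hrow k b hb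
    · push Not at hb
      obtain ⟨k', rfl⟩ := hb
      exact hin2 k k'

end

end Vale.Agent.P335.Triple
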